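import Crest.Agent.R186.Cx0

/-!
The two induction lemmas for cochains and their consequences.
-/

set_option linter.unusedSectionVars false
set_option linter.unusedVariables false

namespace Crest.Agent.R186

open RCF

variable {k T S : Type} [Field k] [CharP k 2] [Ring S] [Algebra k S] [DecidableEq T]

theorem al_seq_up {α : Type} (Inv : ℤ → α → Prop) (Rel : ℤ → α → α → Prop) (N : ℤ) (z₀ : α)
    (h0 : ∀ a, a ≤ N → Inv a z₀) (h0' : ∀ a, a < N → Rel a z₀ z₀)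
    (step : ∀ a z, Inv a z → ∃ z', Inv (a + 1) z' ∧ Rel a z z') :
    ∃ ψ : ℤ → α, (∀ a, Inv a (ψ a)) ∧ (∀ a, Rel a (ψ a) (ψ (a + 1))) ∧ ∀ a, a ≤ N → ψ a = z₀ := by
  have : Nonempty α := ⟨z₀⟩
  choose! f hf hf' using step
  let s : ℕ → α := fun m => Nat.rec z₀ (fun m z => f (N + m) z) m
  have hs : ∀ m : ℕ, Inv (N + m) (s m) := by
    intro m
    induction m with
    | zero => exact h0 _ (by simp)
    | succ m ih =>
      have := hf _ _ ih
      rwa [show N + m + 1 = N + (m + 1 : ℕ) by push_cast; ring] at this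
  have hz : ∀ a, a ≤ N → s (a - N).toNat = z₀ := fun a ha => by
    rw [show (a - N).toNat = 0 by omega]; rfl
  refine ⟨fun a => s (a - N).toNat, fun a => ?_, fun a => ?_, hz⟩
  · rcases le_or_gt a N with h | h
    · simp only [hz a h]; exact h0 a h
    · have := hs (a - N).toNat
      rwa [show N + ((a - N).toNat : ℤ) = a by omega] at this
  · rcases lt_or_ge a N with h | h
    · simp only [hz a h.le, hz (a + 1) (by omega)]; exact h0' a h
    · have := hf' _ _ (hs (a - N).toNat)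
      have e : N + ((a - N).toNat : ℤ) = a := by omega
      simp only [show (a + 1 - N).toNat = (a - N).toNat + 1 by omega]
      change Rel a _ (f (N + ((a - N).toNat : ℤ)) (s (a - N).toNat))
      rw [e] at this ⊢
      exact this

theorem al_seq_down {α : Type} (Inv : ℤ → α → Prop) (Rel : ℤ → α → α → Prop) (N : ℤ) (z₀ : α)
    (h0 : ∀ a, N < a → Inv a z₀) (h0' : ∀ a, N < a → Rel a z₀ z₀)
    (step : ∀ a z, Inv (a + 1) z → ∃ z', Inv a z' ∧ Rel a z' z) :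
    ∃ ψ : ℤ → α, (∀ a, Inv a (ψ a)) ∧ (∀ a, Rel a (ψ a) (ψ (a + 1))) ∧ ∀ a, N < a → ψ a = z₀ := by
  obtain ⟨ψ, h1, h2, h3⟩ := al_seq_up (fun a => Inv (-a)) (fun a z z' => Rel (-(a + 1)) z' z)
    (-(N + 1)) z₀ (fun a ha => h0 _ (by omega)) (fun a ha => h0' _ (by omega))
    (fun a z hz => step _ _ (by rwa [show -(a + 1) + 1 = -a by ring]))
  refine ⟨fun a => ψ (-a), fun a => by simpa using h1 (-a), fun a => ?_,
    fun a ha => h3 _ (by omega)⟩
  have := h2 (-(a + 1))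
  rwa [show -(a + 1) + 1 = -a by ring, neg_neg] at this

theorem al_homog_proj (dg dg' : T → ℤ) {a b n : ℤ} (h : a + n = b) (y : RCF k T S) :
    Homog dg dg' n (proj dg a * y * proj dg' b) := by
  intro i j hij
  rw [ent_mul_projS, ent_projS_mul] at hij
  by_cases h1 : dg' j ∈ ({b} : Set ℤ)
  · by_cases h2 : dg i ∈ ({a} : Set ℤ)
    · simp only [Set.mem_singleton_iff] at h1 h2
      omega
    · simp [h2] at hij
  · simp [h1] at hij

theorem al_proj_ne (dg : T → ℤ) {a b : ℤ} (h : a ≠ b) :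
    (proj dg a * proj dg b : RCF k T S) = 0 := by
  rw [projS_mul_projS, Set.singleton_inter_of_notMem (by simpa using h), projS_empty]

theorem al_assemble {dg dg' : T → ℤ} (hdg : ∀ a, {t | dg t = a}.Finite) {d d' : RCF k T S}
    (hd : Homog dg dg 1 d) (G : Submodule k (RCF k T S))
    (loc : ∀ x, (∀ a, proj dg a * x ∈ G) → x ∈ G) {n : ℤ} {φ : RCF k T S} (ψ : ℤ → RCF k T S)
    (h1 : ∀ a, ψ a ∈ G) (h2 : ∀ a, Homog dg dg' n (ψ a)) (h3 : ∀ a, proj dg a * ψ a = ψ a)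
    (h4 : ∀ a, d * ψ (a + 1) + ψ a * d' = proj dg a * φ) :
    ∃ Ψ ∈ G, Homog dg dg' n Ψ ∧ d * Ψ + Ψ * d' = φ ∧ ∀ a, proj dg a * Ψ = ψ a := by
  obtain ⟨Ψ, hΨ, hΨ'⟩ := exists_assemble hdg ψ h2
  simp only [h3] at hΨ'
  refine ⟨Ψ, loc _ fun a => hΨ' a ▸ h1 a, hΨ, ext_proj dg fun a => ?_, hΨ'⟩
  rw [mul_add, ← mul_assoc, ← mul_assoc, hd.proj_mul rfl, mul_assoc, hΨ', hΨ', h4]

/-- Downward induction.  `d` is the differential of the source (degrees `dg`), `d'` the one of the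
target (degrees `dg'`), `G` the allowed maps.
Proof: build `ψ a` for `a = N, N-1, ...` (and `ψ a = 0` for `a > N`) with
`proj a * ψ a = ψ a`, `ψ a * proj' (a+n-1) = ψ a`, `ψ a ∈ G` and
`proj a * d * ψ (a+1) + ψ a * d' = proj a * φ`: the element `x = proj a * φ + proj a * d * ψ (a+1)`
satisfies `x * d' = 0`, so `x = y * d'`; put `ψ a = proj a * y * proj' (a+n-1)`
(`Homog.proj_mul`).  Then `exists_assemble`, `ext_proj`. -/
theorem al_neg {dg dg' : T → ℤ} (hdg : ∀ a, {t | dg t = a}.Finite) {d d' : RCF k T S}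
    (hd : Homog dg dg 1 d) (hd' : Homog dg' dg' 1 d') (dd : d * d = 0) (dd' : d' * d' = 0)
    (G : Submodule k (RCF k T S)) (Gl : ∀ a, ∀ x ∈ G, proj dg a * x ∈ G)
    (Gr : ∀ b, ∀ x ∈ G, x * proj dg' b ∈ G) (Gd : ∀ x ∈ G, d * x ∈ G)
    (loc : ∀ x, (∀ a, proj dg a * x ∈ G) → x ∈ G)
    (rowex : ∀ a b, ∀ x ∈ G, proj dg a * x = x → x * proj dg' b = x → x * d' = 0 →
      ∃ y ∈ G, x = y * d')
    {n N : ℤ} {φ : RCF k T S} (hφ : φ ∈ G) (hn : Homog dg dg' n φ) (hc : d * φ + φ * d' = 0)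
    (supp : ∀ a, N < a → proj dg a * φ = 0) :
    ∃ ψ ∈ G, Homog dg dg' (n - 1) ψ ∧ d * ψ + ψ * d' = φ ∧ ∀ a, N < a → proj dg a * ψ = 0 := by
  obtain ⟨ψ, h1, h2, h3⟩ := al_seq_down
    (fun a z => z ∈ G ∧ Homog dg dg' (n - 1) z ∧ proj dg a * z = z ∧
      d * z * d' = d * (proj dg a * φ))
    (fun a z z' => d * z' + z * d' = proj dg a * φ) N 0
    (fun a ha => ⟨G.zero_mem, homog_zero _ _ _, mul_zero _, by simp [supp a ha]⟩)
    (fun a ha => by simp [supp a ha])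
    (by
      rintro a z ⟨hz, hzh, hzp, hzd⟩
      have pd : proj dg a * d = d * proj dg (a + 1) := hd.proj_mul rfl
      have pp := proj_mul_proj (k := k) (S := S) dg a
      have hxl : proj dg a * (proj dg a * φ + d * z) = proj dg a * φ + d * z := by
        rw [mul_add, ← mul_assoc, ← mul_assoc, pp, pd, mul_assoc, hzp]
      have hxh : Homog dg dg' n (proj dg a * φ + d * z) :=
        ((homog_projS _ _).mul' hn (zero_add _)).add (hd.mul' hzh (by ring))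
      have hxr : (proj dg a * φ + d * z) * proj dg' (a + n) = proj dg a * φ + d * z := by
        rw [← hxh.proj_mul rfl, hxl]
      obtain ⟨y, hy, hxy⟩ := rowex a (a + n) _ (G.add_mem (Gl _ _ hφ) (Gd _ hz)) hxl hxr
        (by linear_combination (norm := c2 k) hzd + proj dg a * hc + pd * φ)
      have e : proj dg a * y * proj dg' (a + n - 1) * d' = proj dg a * φ + d * z := by
        rw [mul_assoc, hd'.proj_mul (b := a + n) (by ring), ← mul_assoc, mul_assoc _ y, ← hxy,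
          hxl, hxr]
      refine ⟨proj dg a * y * proj dg' (a + n - 1), ⟨Gr _ _ (Gl _ _ hy),
        al_homog_proj _ _ (by ring) _, by rw [← mul_assoc, ← mul_assoc, pp], ?_⟩, ?_⟩
      · rw [mul_assoc, e]
        linear_combination (norm := c2 k) dd * z
      · rw [e]; c2 k)
  obtain ⟨Ψ, hΨ, hh, hD, hP⟩ := al_assemble hdg hd G loc ψ (fun a => (h1 a).1)
    (fun a => (h1 a).2.1) (fun a => (h1 a).2.2.1) h2
  exact ⟨Ψ, hΨ, hh, hD, fun a ha => by rw [hP, h3 a ha]⟩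

/-- Upward induction (mirror image of `al_neg`): `ψ a = 0` for `a ≤ N`, and `ψ (a+1)` is obtained
from `x = proj a * φ + ψ a * d'`, which satisfies `d * x = 0`. -/
theorem al_pos {dg dg' : T → ℤ} (hdg : ∀ a, {t | dg t = a}.Finite) {d d' : RCF k T S}
    (hd : Homog dg dg 1 d) (hd' : Homog dg' dg' 1 d') (dd : d * d = 0) (dd' : d' * d' = 0)
    (G : Submodule k (RCF k T S)) (Gl : ∀ a, ∀ x ∈ G, proj dg a * x ∈ G)
    (Gr : ∀ b, ∀ x ∈ G, x * proj dg' b ∈ G) (Gd : ∀ x ∈ G, x * d' ∈ G)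
    (loc : ∀ x, (∀ a, proj dg a * x ∈ G) → x ∈ G)
    (colex : ∀ a b, ∀ x ∈ G, proj dg a * x = x → x * proj dg' b = x → d * x = 0 →
      ∃ y ∈ G, x = d * y)
    {n N : ℤ} {φ : RCF k T S} (hφ : φ ∈ G) (hn : Homog dg dg' n φ) (hc : d * φ + φ * d' = 0)
    (supp : ∀ a, a < N → proj dg a * φ = 0) :
    ∃ ψ ∈ G, Homog dg dg' (n - 1) ψ ∧ d * ψ + ψ * d' = φ ∧ ∀ a, a ≤ N → proj dg a * ψ = 0 := by
  obtain ⟨ψ, h1, h2, h3⟩ := al_seq_up
    (fun a z => z ∈ G ∧ Homog dg dg' (n - 1) z ∧ proj dg a * z = z ∧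
      d * z * d' = d * (proj dg a * φ))
    (fun a z z' => d * z' + z * d' = proj dg a * φ) N 0
    (fun a ha => ⟨G.zero_mem, homog_zero _ _ _, mul_zero _, by
      have pd : proj dg (a - 1) * d = d * proj dg a := hd.proj_mul (by ring)
      have := supp (a - 1) (by omega)
      linear_combination (norm := c2 k) pd * φ + proj dg (a - 1) * hc + this * d'⟩)
    (fun a ha => by simp [supp a ha])
    (by
      rintro a z ⟨hz, hzh, hzp, hzd⟩
      have pd : proj dg a * d = d * proj dg (a + 1) := hd.proj_mul rfl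
      have pp := proj_mul_proj (k := k) (S := S) dg
      have hxl : proj dg a * (proj dg a * φ + z * d') = proj dg a * φ + z * d' := by
        rw [mul_add, ← mul_assoc, ← mul_assoc, pp, hzp]
      have hxh : Homog dg dg' n (proj dg a * φ + z * d') :=
        ((homog_projS _ _).mul' hn (zero_add _)).add (hzh.mul' hd' (by ring))
      have hxr : (proj dg a * φ + z * d') * proj dg' (a + n) = proj dg a * φ + z * d' := by
        rw [← hxh.proj_mul rfl, hxl]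
      obtain ⟨y, hy, hxy⟩ := colex a (a + n) _ (G.add_mem (Gl _ _ hφ) (Gd _ hz)) hxl hxr
        (by linear_combination (norm := c2 k) hzd)
      have e : d * (proj dg (a + 1) * y * proj dg' (a + n)) = proj dg a * φ + z * d' := by
        rw [← mul_assoc, ← mul_assoc, ← pd, mul_assoc _ d, ← hxy, hxl, hxr]
      refine ⟨proj dg (a + 1) * y * proj dg' (a + n), ⟨Gr _ _ (Gl _ _ hy),
        al_homog_proj _ _ (by ring) _, by rw [← mul_assoc, ← mul_assoc, pp], ?_⟩, ?_⟩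
      · rw [e]
        linear_combination (norm := c2 k) z * dd' + proj dg a * hc + pd * φ
      · rw [e]; c2 k)
  obtain ⟨Ψ, hΨ, hh, hD, hP⟩ := al_assemble hdg hd G loc ψ (fun a => (h1 a).1)
    (fun a => (h1 a).2.1) (fun a => (h1 a).2.2.1) h2
  exact ⟨Ψ, hΨ, hh, hD, fun a ha => by rw [hP, h3 a ha]⟩

namespace Cx

variable {Q : Cx k T S} {N : Submodule k S}

variable (Q N) in
/-- The ungraded cochains. -/
def alG : Submodule k (RCF k T S) where
  carrier := {x | Ent N x ∧ Q.E * x = x ∧ x * Q.E = x}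
  add_mem' h h' := ⟨h.1.add h'.1, by rw [mul_add, h.2.1, h'.2.1], by rw [add_mul, h.2.2, h'.2.2]⟩
  zero_mem' := ⟨ent_zero' N, mul_zero _, zero_mul _⟩
  smul_mem' c x h := ⟨h.1.smul c, by rw [mul_smul_comm, h.2.1], by rw [smul_mul_assoc, h.2.2]⟩

theorem alG_l (a : ℤ) (x : RCF k T S) (h : x ∈ Q.alG N) : proj Q.dg a * x ∈ Q.alG N :=
  ⟨h.1.projS_mul _ _, by rw [← mul_assoc, ← Q.hE.proj_mul (add_zero a), mul_assoc, h.2.1],
    by rw [mul_assoc, h.2.2]⟩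

theorem alG_r (a : ℤ) (x : RCF k T S) (h : x ∈ Q.alG N) : x * proj Q.dg a ∈ Q.alG N :=
  ⟨h.1.mul_projS _ _, by rw [← mul_assoc, h.2.1],
    by rw [mul_assoc, Q.hE.proj_mul (add_zero a), ← mul_assoc, h.2.2]⟩

theorem alG_loc (x : RCF k T S) (h : ∀ a, proj Q.dg a * x ∈ Q.alG N) : x ∈ Q.alG N := by
  refine ⟨fun i j => ?_, ext_proj Q.dg fun a => ?_, ext_proj Q.dg fun a => ?_⟩
  · simpa [ent_projS_mul] using (h (Q.dg i)).1 i j
  · rw [← mul_assoc, Q.hE.proj_mul (add_zero a), mul_assoc, (h a).2.1]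
  · rw [← mul_assoc, (h a).2.2]

theorem Co.al_mul_d (hN : Q.Stab N) {n : ℤ} {y : RCF k T S} (hy : Q.Co N n y) :
    Q.Co N (n + 1) (y * Q.d) :=
  ⟨hN.dr _ hy.ent, hy.hom.mul Q.hd, by rw [← mul_assoc, hy.l], by rw [mul_assoc, Q.dE]⟩

theorem Co.al_d_mul (hN : Q.Stab N) {n : ℤ} {y : RCF k T S} (hy : Q.Co N n y) :
    Q.Co N (n + 1) (Q.d * y) :=
  ⟨hN.dl _ hy.ent, Q.hd.mul' hy.hom (add_comm _ _), by rw [← mul_assoc, Q.Ed],
    by rw [mul_assoc, hy.r]⟩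

theorem al_proj_D (a : ℤ) (ψ : RCF k T S) : proj Q.dg a * Q.D ψ =
    Q.d * (proj Q.dg (a + 1) * ψ) + proj Q.dg a * ψ * Q.d := by
  rw [D, mul_add, ← mul_assoc, ← mul_assoc, Q.hd.proj_mul rfl, mul_assoc]

/-- `al_neg` for `G = {x | Ent N x ∧ E * x = x ∧ x * E = x}`. -/
theorem exists_D_of_bddAbove (hN : Q.Stab N) (hr : Q.RowEx N) {n M : ℤ} {φ : RCF k T S}
    (hφ : Q.Co N n φ) (hc : Q.D φ = 0) (supp : ∀ a, M < a → proj Q.dg a * φ = 0) :
    ∃ ψ, Q.Co N (n - 1) ψ ∧ Q.D ψ = φ ∧ ∀ a, M < a → proj Q.dg a * ψ = 0 := by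
  obtain ⟨ψ, h1, h2, h3, h4⟩ := al_neg Q.fin Q.hd Q.hd Q.dd Q.dd (Q.alG N) alG_l alG_r
    (fun x h => ⟨hN.dl _ h.1, by rw [← mul_assoc, Q.Ed], by rw [mul_assoc, h.2.2]⟩) alG_loc
    (fun a b x hx hl _ hxd => by
      obtain ⟨y, -, hy, hy', e⟩ := hr x (hl ▸ (Q.isFin_proj a).mul_right x) hx.1 hx.2.2 hxd
      exact ⟨Q.E * y, ⟨hN.El _ hy, by rw [← mul_assoc, Q.EE], by rw [mul_assoc, hy']⟩,
        by rw [mul_assoc, ← e, hx.2.1]⟩)
    (φ := φ) ⟨hφ.ent, hφ.l, hφ.r⟩ hφ.hom hc supp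
  exact ⟨ψ, ⟨h1.1, h2, h1.2.1, h1.2.2⟩, h3, h4⟩

/-- `al_pos` for `G = {x | Ent N x ∧ E * x = x ∧ x * E = x}`. -/
theorem exists_D_of_bddBelow (hN : Q.Stab N) (hr : Q.ColEx N) {n M : ℤ} {φ : RCF k T S}
    (hφ : Q.Co N n φ) (hc : Q.D φ = 0) (supp : ∀ a, a < M → proj Q.dg a * φ = 0) :
    ∃ ψ, Q.Co N (n - 1) ψ ∧ Q.D ψ = φ ∧ ∀ a, a ≤ M → proj Q.dg a * ψ = 0 := by
  obtain ⟨ψ, h1, h2, h3, h4⟩ := al_pos Q.fin Q.hd Q.hd Q.dd Q.dd (Q.alG N) alG_l alG_r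
    (fun x h => ⟨hN.dr _ h.1, by rw [← mul_assoc, h.2.1], by rw [mul_assoc, Q.dE]⟩) alG_loc
    (fun a b x hx hl _ hxd => by
      obtain ⟨y, -, hy, hy', e⟩ := hr x (hl ▸ (Q.isFin_proj a).mul_right x) hx.1 hx.2.1 hxd
      exact ⟨y * Q.E, ⟨hN.Er _ hy, by rw [← mul_assoc, hy'], by rw [mul_assoc, Q.EE]⟩,
        by rw [← mul_assoc, ← e, hx.2.2]⟩)
    (φ := φ) ⟨hφ.ent, hφ.l, hφ.r⟩ hφ.hom hc supp
  exact ⟨ψ, ⟨h1.1, h2, h1.2.1, h1.2.2⟩, h3, h4⟩

/-- A one-component cochain `y` with `d y d = 0` extends to a cocycle: `y d` is a cocycle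
concentrated in source degree `b`, `d y` one concentrated in source degree `b - 1`; apply
`exists_D_of_bddBelow` to the first and `exists_D_of_bddAbove` to the second and add up. -/
theorem exists_cocycle_ext (hN : Q.Stab N) (hr : Q.RowEx N) (hc : Q.ColEx N) {n b : ℤ}
    {y : RCF k T S} (hy : Q.Co N n y) (hb : proj Q.dg b * y = y) (h : Q.d * y * Q.d = 0) :
    ∃ φ, Q.Co N n φ ∧ Q.D φ = 0 ∧ proj Q.dg b * φ = y := by
  have dd := Q.dd
  obtain ⟨u, hu, hu', hu''⟩ := exists_D_of_bddBelow hN hc (M := b) (hy.al_mul_d hN)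
    (by rw [D]; linear_combination (norm := c2 k) h + y * dd)
    (fun a ha => by rw [← hb, ← mul_assoc, ← mul_assoc, al_proj_ne _ ha.ne, zero_mul, zero_mul])
  obtain ⟨v, hv, hv', hv''⟩ := exists_D_of_bddAbove hN hr (M := b - 1) (hy.al_d_mul hN)
    (by rw [D]; linear_combination (norm := c2 k) h + dd * y)
    (fun a ha => by
      rw [← hb, ← mul_assoc, Q.hd.proj_mul rfl, mul_assoc, ← mul_assoc (proj Q.dg (a + 1)),
        al_proj_ne _ (by omega), zero_mul, mul_zero])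
  refine ⟨y + u + v, (hy.add (hu.cast (by ring))).add (hv.cast (by ring)), ?_, ?_⟩
  · rw [D_add, D_add, hu', hv', D]; c2 k
  · rw [mul_add, mul_add, hb, hu'' b le_rfl, hv'' b (by omega), add_zero, add_zero]

theorem kp_of_Hz (hN : Q.Stab N) (hr : Q.RowEx N) (hc : Q.ColEx N) {n : ℤ} (hz : Q.Hz N n)
    {b : ℤ} {y : RCF k T S} (hy : Q.Co N n y) (hb : proj Q.dg b * y = y)
    (h : Q.d * y * Q.d = 0) :
    ∃ y' y'' : RCF k T S, IsFin y' ∧ IsFin y'' ∧ Ent N y' ∧ Ent N y'' ∧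
      y = Q.d * y' + y'' * Q.d := by
  obtain ⟨φ, hφ, hD, e⟩ := exists_cocycle_ext hN hr hc hy hb h
  obtain ⟨ψ, hψ, e'⟩ := hz φ hφ hD
  exact ⟨proj Q.dg (b + 1) * ψ, proj Q.dg b * ψ, (Q.isFin_proj _).mul_right _,
    (Q.isFin_proj _).mul_right _, hψ.ent.projS_mul _ _, hψ.ent.projS_mul _ _,
    by rw [← e, ← e', al_proj_D]⟩

theorem kp_of_Hone (hN : Q.Stab N) (hr : Q.RowEx N) (hc : Q.ColEx N) (hz : Q.Hone N)
    {b : ℤ} {y : RCF k T S} (hy : Q.Co N 0 y) (hb : proj Q.dg b * y = y)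
    (h : Q.d * y * Q.d = 0) :
    ∃ (c : k) (y' y'' : RCF k T S), IsFin y' ∧ IsFin y'' ∧ Ent N y' ∧ Ent N y'' ∧
      y = c • (proj Q.dg b * Q.E) + Q.d * y' + y'' * Q.d := by
  obtain ⟨φ, hφ, hD, e⟩ := exists_cocycle_ext hN hr hc hy hb h
  obtain ⟨c, ψ, hψ, e'⟩ := hz φ hφ hD
  exact ⟨c, proj Q.dg (b + 1) * ψ, proj Q.dg b * ψ, (Q.isFin_proj _).mul_right _,
    (Q.isFin_proj _).mul_right _, hψ.ent.projS_mul _ _, hψ.ent.projS_mul _ _,
    by rw [← e, e', mul_add, al_proj_D, mul_smul_comm, add_assoc]⟩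

/-- Given `ζ` concentrated in source degree `a` with `d ζ = 0 = ζ d`: `ζ = D φ₋ = D φ₊` with `φ₋`
supported in degrees `≤ a` and `φ₊` in degrees `> a`; `φ₋ + φ₊ = D ψ`, and
`ζ = proj a * φ₋ * d = d * (proj (a+1) * ψ) * d`. -/
theorem kv_of_Hz (hN : Q.Stab N) (hr : Q.RowEx N) (hc : Q.ColEx N) {n : ℤ} (hz : Q.Hz N n) :
    Q.KV N n := by
  intro a ζ hζ ha h1 h2
  have hD : Q.D ζ = 0 := by rw [D, h1, h2, add_zero]
  have hs : ∀ c, c ≠ a → proj Q.dg c * ζ = 0 := fun c hca => by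
    rw [← ha, ← mul_assoc, al_proj_ne _ hca, zero_mul]
  obtain ⟨u, hu, hu', hu''⟩ := exists_D_of_bddAbove hN hr (M := a) hζ hD fun c h => hs c h.ne'
  obtain ⟨v, hv, hv', hv''⟩ := exists_D_of_bddBelow hN hc (M := a) hζ hD fun c h => hs c h.ne
  obtain ⟨ψ, hψ, e⟩ := hz (u + v) ((hu.add hv).cast (by ring))
    (by rw [D_add, hu', hv', add_self])
  refine ⟨proj Q.dg (a + 1) * ψ, (Q.isFin_proj _).mul_right _, hψ.ent.projS_mul _ _, ?_⟩
  have e1 := al_proj_D (Q := Q) a u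
  rw [hu', ha, hu'' _ (by omega), mul_zero, zero_add] at e1
  have e2 := al_proj_D (Q := Q) a ψ
  rw [e, mul_add, hv'' a le_rfl, add_zero] at e2
  rw [e1, e2, add_mul, mul_assoc _ Q.d Q.d, Q.dd, mul_zero, add_zero]

end Cx

end Crest.Agent.R186
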