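import Crest.Agent.R186.Cx0

/-!
The data entering the main computation.
-/

set_option linter.unusedSectionVars false

namespace Crest.Agent.R186

open RCF

/-- The elements `x` with `x * u ∈ R`. -/
def twist {k S : Type} [Field k] [Ring S] [Algebra k S] (R : Subalgebra k S) (u : S) :
    Submodule k S := R.toSubmodule.comap (LinearMap.mulRight k u)

theorem mem_twist {k S : Type} [Field k] [Ring S] [Algebra k S] {R : Subalgebra k S} {u x : S} :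
    x ∈ twist R u ↔ x * u ∈ R := Iff.rfl

/-- The coefficient data: subalgebras `R ≤ B` of a symmetric algebra `S`, the trace vanishes on `B`,
and a unit `σ₀ ∈ B` normalising `R`. -/
structure Coef (k S : Type) [Field k] [Ring S] [Algebra k S] where
  t : TrF k S
  R : Subalgebra k S
  B : Subalgebra k S
  RB : R ≤ B
  trB : ∀ b ∈ B, t.tr b = 0
  σ₀ : S
  σ₀' : S
  σB : σ₀ ∈ B
  σB' : σ₀' ∈ B
  σσ : σ₀ * σ₀' = 1
  σσ' : σ₀' * σ₀ = 1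
  norm : ∀ r ∈ R, σ₀ * r * σ₀' ∈ R
  norm' : ∀ r ∈ R, σ₀' * r * σ₀ ∈ R

namespace Coef

variable {k S : Type} [Field k] [Ring S] [Algebra k S] (c : Coef k S)

/-- `R σ₀`. -/
def N : Submodule k S := twist c.R c.σ₀'
/-- `R σ₀⁻¹`. -/
def N' : Submodule k S := twist c.R c.σ₀
/-- `B^⊥`. -/
def P : Submodule k S := c.t.perp c.B

theorem RR : ∀ a ∈ c.R.toSubmodule, ∀ b ∈ c.R.toSubmodule, a * b ∈ c.R.toSubmodule :=
  fun _ h _ h' => c.R.mul_mem h h'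

theorem BB : ∀ a ∈ c.B.toSubmodule, ∀ b ∈ c.B.toSubmodule, a * b ∈ c.B.toSubmodule :=
  fun _ h _ h' => c.B.mul_mem h h'

theorem RN : ∀ a ∈ c.R.toSubmodule, ∀ b ∈ c.N, a * b ∈ c.N := fun a h b h' => by
  change a * b * c.σ₀' ∈ c.R
  rw [mul_assoc]; exact c.R.mul_mem h h'

theorem RN' : ∀ a ∈ c.R.toSubmodule, ∀ b ∈ c.N', a * b ∈ c.N' := fun a h b h' => by
  change a * b * c.σ₀ ∈ c.R
  rw [mul_assoc]; exact c.R.mul_mem h h'

theorem NR : ∀ a ∈ c.N, ∀ b ∈ c.R.toSubmodule, a * b ∈ c.N := fun a h b h' => by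
  change a * b * c.σ₀' ∈ c.R
  have : a * b * c.σ₀' = a * c.σ₀' * (c.σ₀ * b * c.σ₀') := by
    simp only [mul_assoc]; rw [← mul_assoc c.σ₀', c.σσ', one_mul]
  rw [this]; exact c.R.mul_mem h (c.norm b h')

theorem N'R : ∀ a ∈ c.N', ∀ b ∈ c.R.toSubmodule, a * b ∈ c.N' := fun a h b h' => by
  change a * b * c.σ₀ ∈ c.R
  have : a * b * c.σ₀ = a * c.σ₀ * (c.σ₀' * b * c.σ₀) := by
    simp only [mul_assoc]; rw [← mul_assoc c.σ₀, c.σσ, one_mul]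
  rw [this]; exact c.R.mul_mem h (c.norm' b h')

theorem NN' : ∀ a ∈ c.N, ∀ b ∈ c.N', a * b ∈ c.R.toSubmodule := fun a h b h' => by
  have : a * b = a * c.σ₀' * (c.σ₀ * (b * c.σ₀) * c.σ₀') := by
    simp only [mul_assoc]; rw [c.σσ, mul_one, ← mul_assoc c.σ₀', c.σσ', one_mul]
  rw [this]; exact c.R.mul_mem h (c.norm _ h')

theorem N'N : ∀ a ∈ c.N', ∀ b ∈ c.N, a * b ∈ c.R.toSubmodule := fun a h b h' => by
  have : a * b = a * c.σ₀ * (c.σ₀' * (b * c.σ₀') * c.σ₀) := by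
    simp only [mul_assoc]; rw [c.σσ', mul_one, ← mul_assoc c.σ₀, c.σσ, one_mul]
  rw [this]; exact c.R.mul_mem h (c.norm' _ h')

theorem R_le_B : c.R.toSubmodule ≤ c.B.toSubmodule := fun _ h => c.RB h

theorem N_le_B : c.N ≤ c.B.toSubmodule := fun a h => by
  have : a = a * c.σ₀' * c.σ₀ := by rw [mul_assoc, c.σσ', mul_one]
  rw [this]; exact c.B.mul_mem (c.RB h) c.σB

theorem N'_le_B : c.N' ≤ c.B.toSubmodule := fun a h => by
  have : a = a * c.σ₀ * c.σ₀' := by rw [mul_assoc, c.σσ, mul_one]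
  rw [this]; exact c.B.mul_mem (c.RB h) c.σB'

theorem B_le_P : c.B.toSubmodule ≤ c.P := c.t.le_perp c.trB

theorem BP : ∀ a ∈ c.B.toSubmodule, ∀ b ∈ c.P, a * b ∈ c.P :=
  fun _ h _ h' => c.t.mul_mem_perp h h'

theorem PB : ∀ a ∈ c.P, ∀ b ∈ c.B.toSubmodule, a * b ∈ c.P :=
  fun _ h _ h' => c.t.mem_perp_mul h h'

/-- The admissible quadruples `(α, β, θ₁, θ₂)`. -/
def Pat (x : S × S × S × S) : Prop := x.1 ∈ c.R ∧ x.2.1 ∈ c.R ∧ x.2.2.1 + x.2.2.2 ∈ c.P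

end Coef

/-- The product of quadruples: `(α, β, θ₁, θ₂)` stands for the triangular matrices
`!![α, θᵢ; 0, β]`. -/
def mul4 {S : Type} [Ring S] (x y : S × S × S × S) : S × S × S × S :=
  (x.1 * y.1, x.2.1 * y.2.1, x.1 * y.2.2.1 + x.2.2.1 * y.2.1, x.1 * y.2.2.2 + x.2.2.2 * y.2.1)

/-- The triangular algebra `Λ`: admissible quadruples modulo `0 × 0 × R × R σ₀`. -/
structure LamData {k S : Type} [Field k] [Ring S] [Algebra k S] (c : Coef k S) (Λ : Type) [Ring Λ]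
    [Algebra k Λ] where
  φ : (S × S × S × S) →ₗ[k] Λ
  sec : Λ →ₗ[k] S × S × S × S
  pat_sec : ∀ l, c.Pat (sec l)
  φ_sec : ∀ l, φ (sec l) = l
  mul : ∀ x y, c.Pat x → c.Pat y → φ x * φ y = φ (mul4 x y)
  ker : ∀ x, c.Pat x → (φ x = 0 ↔ x.1 = 0 ∧ x.2.1 = 0 ∧ x.2.2.1 ∈ c.R ∧ x.2.2.2 ∈ c.N)
  one : φ (1, 1, 0, 0) = 1

/-- The trivial extension `Γ` of `Λ`. -/
structure TrivData (k Λ Γ : Type) [Field k] [Ring Λ] [Algebra k Λ] [Ring Γ] [Algebra k Γ] where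
  t : TrF k Γ
  i : Λ →ₐ[k] Γ
  p : Γ →ₐ[k] Λ
  pi : ∀ l, p (i l) = l
  sq : ∀ x y, p x = 0 → p y = 0 → x * y = 0
  lagr : t.perp i.range ≤ i.range.toSubmodule

/-- The complex `Q` together with everything that is known about it. -/
structure Setup (k T S : Type) [Field k] [Ring S] [Algebra k S] [DecidableEq T]
    extends Coef k S where
  Q : Cx k T S
  entE : Ent R.toSubmodule Q.E
  entd : Ent R.toSubmodule Q.d
  σ : RCF k T S
  σ' : RCF k T S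
  s : RCF k T S
  κ : RCF k T S
  coσ : Q.Co toCoef.N 0 σ
  coσ' : Q.Co toCoef.N' 0 σ'
  σ_σ' : σ * σ' = Q.E
  σ'_σ : σ' * σ = Q.E
  Dσ : Q.D σ = 0
  Dσ' : Q.D σ' = 0
  cos : Q.Co ⊤ (-1) s
  Ds : Q.D s = Q.E
  coκ : Q.Co B.toSubmodule (-1) κ
  Dκ : Q.D κ = Q.E + σ
  rowR : Q.RowEx R.toSubmodule
  colR : Q.ColEx R.toSubmodule
  rowB : Q.RowEx B.toSubmodule
  colB : Q.ColEx B.toSubmodule
  hzB : ∀ n, n ≠ 0 → n ≠ 3 → Q.Hz B.toSubmodule n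
  honeB : Q.Hone B.toSubmodule
  inj : ∀ n, n ≠ 0 → ∀ β ρ, Q.Co R.toSubmodule n β → Q.D β = 0 → Q.Co R.toSubmodule (n - 1) ρ →
    β + σ * β * σ' = Q.D ρ → ∃ β', Q.Co R.toSubmodule (n - 1) β' ∧ Q.D β' = β
  surj : ∀ n ξ, Q.Co R.toSubmodule n ξ → Q.D ξ = 0 → ∃ (c : k) (β ρ : RCF k T S),
    Q.Co R.toSubmodule n β ∧ Q.D β = 0 ∧ Q.Co R.toSubmodule (n - 1) ρ ∧
      ξ = c • Q.E + β + σ * β * σ' + Q.D ρ ∧ (n ≠ 0 → c = 0)
  odd : ∀ a (g : RCF k T S), Q.dAt a * g * Q.dAt a = Q.dAt a → t.Tr (Q.dAt a * g) = 1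

end Crest.Agent.R186
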