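import Crest.Agent.R186.Tens
import Crest.Agent.R186.Setup

/-!
The ambient ring `E ⊗ M₂`, its subalgebras `R ≤ B` and the idempotent `u`.
-/

set_option linter.unusedSectionVars false

namespace Crest.Agent.R186

open RCF
open scoped TensorProduct

namespace Asm

variable {k T A E M M₂ : Type} [Field k] [CharP k 2] [Ring A] [Algebra k A] [Ring E] [Algebra k E]
  [Ring M] [Algebra k M] [Ring M₂] [Algebra k M₂] [DecidableEq T] {H : k}
  (b : Base k T A E 4) (e : EpsData k M M₂ H)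

/-- The image of `ε` in `M₂`. -/
abbrev ε : M₂ := e.ρ e.ε

theorem εε : ε e * ε e = 0 := by rw [← map_mul, e.εε, map_zero]

/-- The embedding of the small ring. -/
noncomputable def jR : A ⊗[k] M →ₐ[k] E ⊗[k] M₂ := Algebra.TensorProduct.map b.ρ e.ρ

variable (M₂) in
/-- The embedding of the middle ring. -/
noncomputable def jB : A ⊗[k] M₂ →ₐ[k] E ⊗[k] M₂ :=
  Algebra.TensorProduct.map b.ρ (AlgHom.id k M₂)

@[simp] theorem jR_tmul (a : A) (m : M) : jR b e (a ⊗ₜ m) = b.ρ a ⊗ₜ e.ρ m := rfl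

@[simp] theorem jB_tmul (a : A) (m : M₂) : jB M₂ b (a ⊗ₜ m) = b.ρ a ⊗ₜ m := rfl

/-- The retraction onto the small ring. -/
noncomputable def evR : E ⊗[k] M₂ →ₗ[k] A ⊗[k] M := TensorProduct.map b.ev e.ev

variable (M₂) in
/-- The retraction onto the middle ring. -/
noncomputable def evB : E ⊗[k] M₂ →ₗ[k] A ⊗[k] M₂ := TensorProduct.map b.ev LinearMap.id

theorem evR_one : evR b e 1 = 1 := by
  simp [evR, Algebra.TensorProduct.one_def, b.ev_one, e.ev_one]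

theorem evB_one : evB M₂ b 1 = 1 := by
  simp [evB, Algebra.TensorProduct.one_def, b.ev_one]

theorem evR_mul (θ : E ⊗[k] M₂) (y : A ⊗[k] M) : evR b e (θ * jR b e y) = evR b e θ * y := by
  induction θ using TensorProduct.induction_on with
  | zero => simp
  | add x x' h h' => simp only [add_mul, map_add, h, h']
  | tmul x m =>
    induction y using TensorProduct.induction_on with
    | zero => simp
    | add y y' h h' => simp only [mul_add, map_add, h, h']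
    | tmul a m' => simp [evR, b.ev_mul, e.ev_mul]

theorem evB_mul (θ : E ⊗[k] M₂) (y : A ⊗[k] M₂) : evB M₂ b (θ * jB M₂ b y) = evB M₂ b θ * y := by
  induction θ using TensorProduct.induction_on with
  | zero => simp
  | add x x' h h' => simp only [add_mul, map_add, h, h']
  | tmul x m =>
    induction y using TensorProduct.induction_on with
    | zero => simp
    | add y y' h h' => simp only [mul_add, map_add, h, h']
    | tmul a m' => simp [evB, b.ev_mul]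

theorem jR_injective : Function.Injective (jR b e) := fun x y h => by
  have h1 := evR_mul b e 1 x
  have h2 := evR_mul b e 1 y
  rw [evR_one, one_mul, one_mul] at h1 h2
  rw [← h1, h, h2]

theorem jB_injective : Function.Injective (jB M₂ b) := fun x y h => by
  have h1 := evB_mul b 1 x
  have h2 := evB_mul b 1 y
  rw [evB_one, one_mul, one_mul] at h1 h2
  rw [← h1, h, h2]

/-- The small subalgebra. -/
noncomputable abbrev R : Subalgebra k (E ⊗[k] M₂) := (jR b e).range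

variable (M₂) in
/-- The middle subalgebra. -/
noncomputable abbrev B : Subalgebra k (E ⊗[k] M₂) := (jB M₂ b).range

theorem exists_πR : ∃ π : E ⊗[k] M₂ →ₗ[k] E ⊗[k] M₂, (∀ x, π x ∈ R b e) ∧
    (∀ θ, ∀ y ∈ R b e, π (θ * y) = π θ * y) ∧ π 1 = 1 := by
  refine ⟨(jR b e).toLinearMap ∘ₗ evR b e, fun x => ⟨_, rfl⟩, ?_, by simp [evR_one]⟩
  rintro θ _ ⟨y, rfl⟩
  simp [evR_mul]

theorem exists_πB : ∃ π : E ⊗[k] M₂ →ₗ[k] E ⊗[k] M₂, (∀ x, π x ∈ B M₂ b) ∧
    (∀ θ, ∀ y ∈ B M₂ b, π (θ * y) = π θ * y) ∧ π 1 = 1 := by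
  refine ⟨(jB M₂ b).toLinearMap ∘ₗ evB M₂ b, fun x => ⟨_, rfl⟩, ?_, by simp [evB_one]⟩
  rintro θ _ ⟨y, rfl⟩
  simp [evB_mul]

theorem tmul_mem_R (a : A) (m : M) : b.ρ a ⊗ₜ[k] e.ρ m ∈ R b e := ⟨a ⊗ₜ m, rfl⟩

theorem tmul_mem_B (a : A) (m : M₂) : b.ρ a ⊗ₜ[k] m ∈ B M₂ b := ⟨a ⊗ₜ m, rfl⟩

theorem B_ind {N : Submodule k (E ⊗[k] M₂)} (h : ∀ a m, b.ρ a ⊗ₜ[k] m ∈ N) {x : E ⊗[k] M₂}
    (hx : x ∈ B M₂ b) : x ∈ N := by
  obtain ⟨y, rfl⟩ := hx
  induction y using TensorProduct.induction_on with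
  | zero => simp
  | add y y' h h' => rw [map_add]; exact N.add_mem h h'
  | tmul a m => exact h a m

theorem R_ind {N : Submodule k (E ⊗[k] M₂)} (h : ∀ a, b.ρ a ⊗ₜ[k] (1 : M₂) ∈ N)
    (h' : ∀ a, b.ρ a ⊗ₜ[k] ε e ∈ N) {x : E ⊗[k] M₂} (hx : x ∈ R b e) : x ∈ N := by
  obtain ⟨y, rfl⟩ := hx
  induction y using TensorProduct.induction_on with
  | zero => simp
  | add y y' h h' => rw [map_add]; exact N.add_mem h h'
  | tmul a m =>
    obtain ⟨c, c', rfl⟩ := e.span m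
    change b.ρ a ⊗ₜ[k] e.ρ _ ∈ N
    rw [map_add, map_smul, map_smul, map_one, TensorProduct.tmul_add, TensorProduct.tmul_smul,
      TensorProduct.tmul_smul]
    exact N.add_mem (N.smul_mem _ (h a)) (N.smul_mem _ (h' a))

theorem R_le_B : R b e ≤ B M₂ b := fun _ hx =>
  R_ind b e (N := (B M₂ b).toSubmodule) (fun _ => tmul_mem_B b _ _) (fun _ => tmul_mem_B b _ _) hx

theorem σ'ε : e.σ' * ε e = ε e := by
  conv_lhs => rw [ε, ← e.σε, ← mul_assoc, e.σσ', one_mul]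

theorem εσ' (hH : H ≠ 0) : ε e * e.σ' = H⁻¹ • ε e := by
  have : H • (ε e * e.σ') = ε e := by rw [← smul_mul_assoc, ← e.εσ, mul_assoc, e.σσ, mul_one]
  conv_rhs => rw [← this, smul_smul, inv_mul_cancel₀ hH, one_smul]

/-- The coefficient data. -/
noncomputable def coef (hH : H ≠ 0) (t : TrF k (E ⊗[k] M₂))
    (ht : ∀ x y, t.tr (x ⊗ₜ y) = b.t.tr x * e.t.tr y) : Coef k (E ⊗[k] M₂) where
  t := t
  R := R b e
  B := B M₂ b
  RB := R_le_B b e
  trB x hx := B_ind b (N := LinearMap.ker t.tr) (fun a m => by simp [ht, b.trρ]) hx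
  σ₀ := 1 ⊗ₜ e.σ
  σ₀' := 1 ⊗ₜ e.σ'
  σB := by simpa using tmul_mem_B b 1 e.σ
  σB' := by simpa using tmul_mem_B b 1 e.σ'
  σσ := by simp [e.σσ, Algebra.TensorProduct.one_def]
  σσ' := by simp [e.σσ', Algebra.TensorProduct.one_def]
  norm r hr := by
    refine R_ind b e (N := (R b e).toSubmodule.comap
      (LinearMap.mulRight k (1 ⊗ₜ e.σ') ∘ₗ LinearMap.mulLeft k (1 ⊗ₜ e.σ)))
      (fun a => ?_) (fun a => ?_) hr
    · simpa [e.σσ] using tmul_mem_R b e a 1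
    · simpa [e.σε, εσ' e hH] using (R b e).smul_mem (tmul_mem_R b e a e.ε) H⁻¹
  norm' r hr := by
    refine R_ind b e (N := (R b e).toSubmodule.comap
      (LinearMap.mulRight k (1 ⊗ₜ e.σ) ∘ₗ LinearMap.mulLeft k (1 ⊗ₜ e.σ')))
      (fun a => ?_) (fun a => ?_) hr
    · simpa [e.σσ'] using tmul_mem_R b e a 1
    · simpa [σ'ε e, e.εσ] using (R b e).smul_mem (tmul_mem_R b e a e.ε) H

/-- The idempotent. -/
noncomputable def u : E ⊗[k] M₂ := b.u ⊗ₜ (ε e * e.δ)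

variable (M₂) in
/-- The elements on which `A` acts through `χ`. -/
def W : Submodule k (E ⊗[k] M₂) where
  carrier := {w | ∀ a, (b.ρ a ⊗ₜ[k] (1 : M₂)) * w = b.χ a • w}
  add_mem' h h' a := by rw [mul_add, h a, h' a, smul_add]
  zero_mem' a := by simp
  smul_mem' c w h a := by rw [mul_smul_comm, h a, smul_comm]

/-- The left annihilator of `u`. -/
noncomputable def Z : Submodule k (E ⊗[k] M₂) := LinearMap.ker (LinearMap.mulRight k (u b e))

theorem mem_Z {x : E ⊗[k] M₂} : x ∈ Z b e ↔ x * u b e = 0 := Iff.rfl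

theorem mul_u_mem_W {x : E ⊗[k] M₂} (hx : x ∈ B M₂ b) : x * u b e ∈ W M₂ b := by
  refine B_ind b (N := (W M₂ b).comap (LinearMap.mulRight k (u b e))) (fun a m a' => ?_) hx
  simp only [u, LinearMap.mulRight_apply, Algebra.TensorProduct.tmul_mul_tmul, one_mul, b.ρu,
    mul_smul_comm, TensorProduct.smul_tmul', smul_smul, mul_comm]

theorem u_mem_W : u b e ∈ W M₂ b := by simpa using mul_u_mem_W b e (B M₂ b).one_mem

theorem tmul_mul_W {w : E ⊗[k] M₂} (hw : w ∈ W M₂ b) (a : A) (m : M₂) :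
    (b.ρ a ⊗ₜ[k] m) * w = b.χ a • ((1 ⊗ₜ[k] m) * w) := by
  rw [← mul_smul_comm, ← hw a, ← mul_assoc]
  simp

theorem exists_mul_u {x : E ⊗[k] M₂} (hx : x ∈ R b e) : ∃ c : k, x * u b e = c • u b e := by
  have : x ∈ (Submodule.span k {u b e}).comap (LinearMap.mulRight k (u b e)) := by
    refine R_ind b e (fun a => ?_) (fun a => ?_) hx
    · refine Submodule.mem_span_singleton.2 ⟨b.χ a, ?_⟩
      simp [u, b.ρu, TensorProduct.smul_tmul']
    · simp [u, ← mul_assoc, εε]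
  obtain ⟨c, hc⟩ := Submodule.mem_span_singleton.1 this
  exact ⟨c, hc.symm⟩

theorem exists_εδ_mul_u {x : E ⊗[k] M₂} (hx : x ∈ B M₂ b) :
    ∃ c : k, (1 ⊗ₜ[k] (ε e * e.δ)) * (x * u b e) = c • u b e := by
  have : x ∈ (Submodule.span k {u b e}).comap
      (LinearMap.mulLeft k (1 ⊗ₜ[k] (ε e * e.δ)) ∘ₗ LinearMap.mulRight k (u b e)) := by
    refine B_ind b (fun a m => ?_) hx
    obtain ⟨c, hc⟩ := e.rk (e.δ * m)
    refine Submodule.mem_span_singleton.2 ⟨b.χ a * c, ?_⟩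
    have h1 : ε e * e.δ * (m * (ε e * e.δ)) = c • (ε e * e.δ) := by
      rw [← smul_mul_assoc, ← hc]; simp only [mul_assoc]
    simp [u, b.ρu, h1, TensorProduct.smul_tmul', smul_smul, mul_comm]
  obtain ⟨c, hc⟩ := Submodule.mem_span_singleton.1 this
  exact ⟨c, hc.symm⟩

theorem ZR : ∀ x ∈ Z b e, ∀ y ∈ (R b e).toSubmodule, x * y ∈ Z b e := fun x hx y hy => by
  obtain ⟨c, hc⟩ := exists_mul_u b e hy
  rw [mem_Z, mul_assoc, hc, mul_smul_comm, (mem_Z b e).1 hx, smul_zero]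

theorem σ_mul_u : (1 ⊗ₜ[k] e.σ) * u b e = u b e := by simp [u, ← mul_assoc, e.σε]

theorem σ'_mul_u : (1 ⊗ₜ[k] e.σ') * u b e = u b e := by simp [u, ← mul_assoc, σ'ε]

theorem tmul_ε_mem_Z (x : E) : x ⊗ₜ[k] ε e ∈ Z b e := by simp [mem_Z, u, ← mul_assoc, εε]

theorem tmul_mem_Z {a : A} (h : b.χ a = 0) (m : M₂) : b.ρ a ⊗ₜ[k] m ∈ Z b e := by
  simp [mem_Z, u, b.ρu, h]

end Asm

end Crest.Agent.R186
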