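import Crest.Agent.R186.Base
import Crest.Agent.R186.AL

/-!
Properties of the mapping cone.
-/

set_option linter.unusedSectionVars false

namespace Crest.Agent.R186

open RCF

variable {k T S : Type} [Field k] [CharP k 2] [Ring S] [Algebra k S] [DecidableEq T]

theorem cone_projS_eq_zero {dg : T → ℤ} {A : Set ℤ} (h : ∀ t, dg t ∉ A) :
    (projS dg A : RCF k T S) = 0 := by
  ext i j
  simp [projS, h]

theorem cone_projS_eq_one {dg : T → ℤ} {A : Set ℤ} (h : ∀ t, dg t ∈ A) :
    (projS dg A : RCF k T S) = 1 := by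
  simp [projS, one_eq_diag, h]

theorem cone_projS_congr {dg dg' : T → ℤ} {A A' : Set ℤ} (h : ∀ t, dg t ∈ A ↔ dg' t ∈ A') :
    (projS dg A : RCF k T S) = projS dg' A' := by
  unfold projS
  congr 1
  funext t
  by_cases h1 : dg t ∈ A
  · rw [if_pos h1, if_pos ((h t).1 h1)]
  · rw [if_neg h1, if_neg fun h2 => h1 ((h t).2 h2)]

theorem cone_mapL_mul_ent {N : Submodule k S} {π : S →ₗ[k] S}
    (π_mul : ∀ θ, ∀ y ∈ N, π (θ * y) = π θ * y) (x : RCF k T S) {y : RCF k T S} (hy : Ent N y) :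
    mapL π (x * y) = mapL π x * y := by
  have := mapL_mul π LinearMap.id π LinearMap.id LinearMap.id x y
    (fun i j l => (π_mul _ _ (hy j l)).symm)
  simpa using this.symm

theorem cone_mapL_of_ent {N : Submodule k S} {π : S →ₗ[k] S}
    (π_mul : ∀ θ, ∀ y ∈ N, π (θ * y) = π θ * y) (π_one : π 1 = 1) {y : RCF k T S} (hy : Ent N y) :
    mapL π y = y := by
  ext i j
  have := π_mul 1 _ (hy i j)
  rwa [one_mul, π_one, one_mul] at this

theorem cone_ent_mul {N : Subalgebra k S} {x y : RCF k T S} (hx : Ent N.toSubmodule x)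
    (hy : Ent N.toSubmodule y) : Ent N.toSubmodule (x * y) :=
  hx.mul hy fun _ h _ h' => N.mul_mem h h'

/-- With `s₀ = blk true true κp + blk false true r + blk false false κl` one has `D s₀ = E + η`,
`η = blk true false (ι κl + κp ι)`, `η * η = 0`, `D η = 0` (from `D_D`, `D_E`); take `s = s₀ (E + η)`
(`D_mul`). -/
theorem Dat.cone_contr (D : Dat k T S) {m : ℤ} (hb : D.Bdd m) (H : D.HE) :
    ∃ s, (D.cone hb).Co ⊤ (-1) s ∧ (D.cone hb).D s = (D.cone hb).E := by
  set Q := D.cone hb with hQ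
  set s₀ : RCF k (Bool × T) S := blk true true H.κp + blk false true H.r + blk false false H.κl
    with hs₀
  set η : RCF k (Bool × T) S := blk true false (D.ι * H.κl + H.κp * D.ι) with hη
  have hco : Q.Co ⊤ (-1) s₀ := by
    refine ⟨ent_top _, ?_, ?_, ?_⟩
    · refine ((Homog.blk fun i j h => H.hκp i j h).add (Homog.blk fun i j h => ?_)).add
        (Homog.blk fun i j h => ?_)
      · have := H.hr i j h
        simp only [hQ, Dat.cone_dg, Dat.cdg_false, Dat.cdg_true]; omega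
      · have := H.hκl i j h
        simp only [hQ, Dat.cone_dg, Dat.cdg_false]; omega
    · simp only [hQ, hs₀, Dat.cone_E, mul_add, add_mul, blk_mul_blk_self, blk_true_mul_false,
        blk_false_mul_true, H.Epκ, H.Elr, H.Elκ, add_zero, zero_add]
    · simp only [hQ, hs₀, Dat.cone_E, mul_add, add_mul, blk_mul_blk_self, blk_true_mul_false,
        blk_false_mul_true, H.κEp, H.rEp, H.κEl, add_zero, zero_add]
  have hD : Q.D s₀ = Q.E + η := by
    have h1 := congrArg (blk true true) H.hp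
    have h2 := congrArg (blk false false) H.hl
    have h3 := congrArg (blk false true) H.δr
    simp only [map_add] at h1 h2
    simp only [Cx.D, hQ, hs₀, hη, Dat.cone_E, Dat.cone_d, mul_add, add_mul, blk_mul_blk_self,
      blk_true_mul_false, blk_false_mul_true, add_zero, zero_add, map_add]
    linear_combination (norm := c2 k) h1 + h2 + h3
  have hηη : η * η = 0 := by simp only [hη, blk_false_mul_true]
  have hEη : Q.E * η = η := by
    simp only [hQ, hη, Dat.cone_E, add_mul, blk_mul_blk_self, blk_false_mul_true, add_zero,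
      mul_add, ← mul_assoc, D.Epι, H.Epκ]
  have hηE : η * Q.E = η := by
    simp only [hQ, hη, Dat.cone_E, mul_add, blk_mul_blk_self, blk_false_mul_true, zero_add,
      add_mul, mul_assoc, D.ιEl, H.κEl]
  refine ⟨s₀ * Q.D s₀, hco.mul (hco.D Q.stab_top) (fun _ _ _ _ => trivial) (by norm_num), ?_⟩
  rw [Q.D_mul, Q.D_D, mul_zero, add_zero, hD]
  have hEE := Q.EE
  linear_combination (norm := c2 k) hEE + hηη + hEη + hηE

/-- `x = x E = (x s) d`; apply `mapL π` (`mapL_mul`; `π y = y` for `y ∈ N`). -/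
theorem Cx.rowEx_of_retr (Q : Cx k T S) {s : RCF k T S} (hDs : Q.D s = Q.E) (N : Subalgebra k S)
    (hE : Ent N.toSubmodule Q.E) (hd : Ent N.toSubmodule Q.d) (π : S →ₗ[k] S) (πN : ∀ x, π x ∈ N)
    (π_mul : ∀ θ, ∀ y ∈ N, π (θ * y) = π θ * y) (π_one : π 1 = 1) : Q.RowEx N.toSubmodule := by
  intro x hx hxN hxE hxd
  have h1 : x = x * s * Q.d := by
    rw [Cx.D] at hDs
    linear_combination (norm := c2 k) hxE + x * hDs + hxd * s
  have h2 : x = mapL π (x * s) * Q.d := by
    rw [← cone_mapL_mul_ent (N := N.toSubmodule) π_mul _ hd, ← h1,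
      cone_mapL_of_ent (N := N.toSubmodule) π_mul π_one hxN]
  refine ⟨mapL π (x * s) * Q.E, ((hx.mul_right s).mapL π).mul_right _,
    cone_ent_mul (fun i j => πN _) hE, by rw [mul_assoc, Q.EE], ?_⟩
  rw [mul_assoc, Q.Ed, ← h2]

/-- Let `s` contract `(D.map lam).cone = (D.cone).map lam` (`cone_contr`, `cone_map`); then
`lam x = lam d * (s * lam x)`; apply `mapL ev` (`mapL_map_mul`). -/
theorem Dat.ColHE.colEx {D : Dat k T S} (h : D.ColHE) {m : ℤ} (hb : D.Bdd m) :
    (D.cone hb).ColEx ⊤ := by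
  obtain ⟨S', _, _, lam, ev, ev1, hev, ⟨H⟩⟩ := h
  obtain ⟨s, -, hs⟩ := (D.map lam).cone_contr (hb.map lam) H
  rw [← D.cone_map hb lam, Cx.D, Cx.map_d, Cx.map_E] at hs
  set Q := D.cone hb
  intro x hx _ hxE hxd
  have e1 : RCF.map lam Q.E * RCF.map lam x = RCF.map lam x := by rw [← map_mul, hxE]
  have e2 : RCF.map lam Q.d * RCF.map lam x = 0 := by rw [← map_mul, hxd, map_zero]
  have h1 : RCF.map lam x = RCF.map lam Q.d * (s * RCF.map lam x) := by
    linear_combination (norm := c2 k) e1 + hs * RCF.map lam x + s * e2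
  have h2 : mapL ev (RCF.map lam x) = x := by
    ext i j
    have := hev 1 (x.ent i j)
    rwa [mul_one, ev1, mul_one] at this
  have h3 : x = Q.d * mapL ev (s * RCF.map lam x) := by
    rw [← mapL_map_mul ev lam hev, ← h1, h2]
  refine ⟨Q.E * mapL ev (s * RCF.map lam x), (((hx.map lam).mul_left s).mapL ev).mul_left _,
    ent_top _, by rw [← mul_assoc, Q.EE], ?_⟩
  rw [← mul_assoc, Q.dE, ← h3]

/-- The key lemma: a cocycle killed by `U = single (true, t0) (true, t0) u = blk true true (ι r)` is a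
coboundary.  Let `Pp = blk true true Ep`, `Pl = blk false false El`, `δ' = blk true true δp`,
`δ'' = blk false false δl`.
Step 1: `al_neg` with `d' = δ'`, `G = {x | Ent N x, E x = x, x Pp = x, x U = 0}` applied to `φ Pp`
(supported in source degrees `≤ -n` by `dp_le`).  Row exactness: if `x ∈ G`, `x * proj b = x`,
`x δ' = 0` then `x = x * blk true true κp * δ'` by `H.hp`, so `x = y δ'` with
`y = E * mapL π (x * blk true true κp) * Pp * proj (b - 1)`; `y U = 0` if `b ≠ 1`, and `x = 0` if `b = 1`.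
Step 2: `φ' = φ + D ψ₁` satisfies `φ' Pl = φ'`; apply `al_pos` with `d' = δ''`,
`G = {x | Ent N x, E x = x, x Pl = x}` (supported in source degrees `≥ 1 - m - n` by `dl_ge`). -/
theorem Dat.cone_key (D : Dat k T S) {m : ℤ} (hb : D.Bdd m) (H : D.HE) {t0 : T} {u : S}
    (h0 : D.dp t0 = 0) (hιr : D.ι * H.r = single t0 t0 u) (N : Subalgebra k S)
    (hE : Ent N.toSubmodule (D.cone hb).E) (hd : Ent N.toSubmodule (D.cone hb).d)
    (π : S →ₗ[k] S) (πN : ∀ x, π x ∈ N) (π_mul : ∀ θ, ∀ y ∈ N, π (θ * y) = π θ * y)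
    (π_one : π 1 = 1) (hc : (D.cone hb).ColEx N.toSubmodule) {n : ℤ} {φ : RCF k (Bool × T) S}
    (hφ : (D.cone hb).Co N.toSubmodule n φ) (hD : (D.cone hb).D φ = 0)
    (hU : φ * single (true, t0) (true, t0) u = 0) :
    ∃ ψ, (D.cone hb).Co N.toSubmodule (n - 1) ψ ∧ (D.cone hb).D ψ = φ := by
  set Q := D.cone hb with hQ
  set U : RCF k (Bool × T) S := single (true, t0) (true, t0) u with hUdef
  set Pp : RCF k (Bool × T) S := blk true true D.Ep with hPp
  set Pl : RCF k (Bool × T) S := blk false false D.El with hPl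
  set δ' : RCF k (Bool × T) S := blk true true D.δp with hδ'
  set δ'' : RCF k (Bool × T) S := blk false false D.δl with hδ''
  set ι' : RCF k (Bool × T) S := blk true false D.ι with hι'
  set κ' : RCF k (Bool × T) S := blk true true H.κp with hκ'
  have hQE : Q.E = Pp + Pl := rfl
  have hQd : Q.d = δ' + ι' + δ'' := rfl
  have hUb : U = blk true true (D.ι * H.r) := by rw [hιr, blk_single]
  have hN := Q.stab_subalgebra N hE hd
  have entPp : Ent N.toSubmodule Pp := by
    have := (hE.sub true true).blk true true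
    simpa [hQE, hPp, hPl, sub_blk] using this
  have entPl : Ent N.toSubmodule Pl := by
    have := (hE.sub false false).blk false false
    simpa [hQE, hPp, hPl, sub_blk] using this
  have entδ' : Ent N.toSubmodule δ' := by
    have := (hd.sub true true).blk true true
    simpa [hQd, hδ', hδ'', hι', sub_blk] using this
  have entδ'' : Ent N.toSubmodule δ'' := by
    have := (hd.sub false false).blk false false
    simpa [hQd, hδ', hδ'', hι', sub_blk] using this
  have homPp : Homog Q.dg Q.dg 0 Pp := Homog.blk fun i j h => D.hEp i j h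
  have homPl : Homog Q.dg Q.dg 0 Pl := Homog.blk fun i j h => by
    have := D.hEl i j h
    simp only [hQ, Dat.cone_dg, Dat.cdg_false]; omega
  have homδ' : Homog Q.dg Q.dg 1 δ' := Homog.blk fun i j h => D.hδp i j h
  have homδ'' : Homog Q.dg Q.dg 1 δ'' := Homog.blk fun i j h => by
    have := D.hδl i j h
    simp only [hQ, Dat.cone_dg, Dat.cdg_false]; omega
  have homU : Homog Q.dg Q.dg 0 U := homog_single (add_zero _).symm u
  have PpPp : Pp * Pp = Pp := by rw [hPp, blk_mul_blk_self, D.EpEp]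
  have PlPl : Pl * Pl = Pl := by rw [hPl, blk_mul_blk_self, D.ElEl]
  have Ppδ : Pp * δ' = δ' := by rw [hPp, hδ', blk_mul_blk_self, D.Epδ]
  have δPl : δ'' * Pl = δ'' := by rw [hPl, hδ'', blk_mul_blk_self, D.δEl]
  have ιPl : ι' * Pl = ι' := by rw [hPl, hι', blk_mul_blk_self, D.ιEl]
  have PpU : Pp * U = U := by rw [hUb, hPp, blk_mul_blk_self, ← mul_assoc, D.Epι]
  have PpE : Pp * Q.E = Pp := by
    rw [hQE, mul_add, PpPp, hPp, hPl, blk_true_mul_false, add_zero]
  have PlE : Pl * Q.E = Pl := by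
    rw [hQE, mul_add, PlPl, hPp, hPl, blk_false_mul_true, zero_add]
  have dPp : Q.d * Pp = δ' := by
    simp only [hQd, hδ', hι', hδ'', hPp, add_mul, blk_mul_blk_self, blk_false_mul_true, D.δEp,
      add_zero]
  have Ppd : Pp * Q.d = δ' + ι' := by
    simp only [hQd, hδ', hι', hδ'', hPp, mul_add, blk_mul_blk_self, blk_true_mul_false, D.Epδ,
      D.Epι, add_zero]
  have Pld : Pl * Q.d = δ'' := by
    simp only [hQd, hδ', hι', hδ'', hPl, mul_add, blk_mul_blk_self, blk_false_mul_true, D.Elδ,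
      zero_add]
  have hhp : δ' * κ' + κ' * δ' = Pp + U := by
    rw [hUb, hδ', hκ', hPp, blk_mul_blk_self, blk_mul_blk_self, ← map_add, ← map_add, H.hp]
  have PpProj : ∀ c : ℤ, 0 < c → Pp * proj Q.dg c = 0 := by
    intro c hc0
    show Pp * projS Q.dg {c} = 0
    rw [projS_eq_blk, cone_projS_eq_zero (dg := fun t => Q.dg (true, t)) (A := {c}), hPp]
    · simp
    · intro t ht
      have h1 := hb.dp_le t
      have h2 : D.dp t = c := ht
      omega
  have PlProj : ∀ c : ℤ, c < 1 - m → Pl * proj Q.dg c = 0 := by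
    intro c hc0
    show Pl * projS Q.dg {c} = 0
    rw [projS_eq_blk, cone_projS_eq_zero (dg := fun t => Q.dg (false, t)) (A := {c}), hPl]
    · simp
    · intro t ht
      have h1 := hb.dl_ge t
      have h2 : D.dl t + 1 = c := ht
      omega
  have projU : ∀ c : ℤ, c ≠ 0 → proj Q.dg c * U = 0 := by
    intro c hc0
    ext i j
    rw [ent_projS_mul, hUdef, ent_single]
    split_ifs with h1 h2
    · exfalso
      rw [h2.1] at h1
      have h3 : D.dp t0 = c := h1
      omega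
    · rfl
    · rfl
  have projE : ∀ (a : ℤ) (x : RCF k (Bool × T) S),
      Q.E * (proj Q.dg a * x) = proj Q.dg a * (Q.E * x) := by
    intro a x
    rw [← mul_assoc, ← Q.hE.proj_mul (add_zero a), mul_assoc]
  have entLoc : ∀ x : RCF k (Bool × T) S, (∀ a, Ent N.toSubmodule (proj Q.dg a * x)) →
      Ent N.toSubmodule x := by
    intro x h i j
    simpa [ent_projS_mul] using h (Q.dg i) i j
  -- Step 1
  let G₁ : Submodule k (RCF k (Bool × T) S) :=
    { carrier := {x | Ent N.toSubmodule x ∧ Q.E * x = x ∧ x * Pp = x ∧ x * U = 0}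
      add_mem' := fun h h' => ⟨h.1.add h'.1, by rw [mul_add, h.2.1, h'.2.1],
        by rw [add_mul, h.2.2.1, h'.2.2.1], by rw [add_mul, h.2.2.2, h'.2.2.2, add_zero]⟩
      zero_mem' := ⟨ent_zero' _, mul_zero _, zero_mul _, zero_mul _⟩
      smul_mem' := fun c x h => ⟨h.1.smul c, by rw [mul_smul_comm, h.2.1],
        by rw [smul_mul_assoc, h.2.2.1], by rw [smul_mul_assoc, h.2.2.2, smul_zero]⟩ }
  obtain ⟨ψ₁, ⟨a1, a2, a3, -⟩, a5, a6, -⟩ := al_neg Q.fin Q.hd homδ' Q.dd
    (by rw [hδ', blk_mul_blk_self, D.δpδp, map_zero]) G₁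
    (fun a x h => ⟨h.1.projS_mul _ _, by rw [projE, h.2.1], by rw [mul_assoc, h.2.2.1],
      by rw [mul_assoc, h.2.2.2, mul_zero]⟩)
    (fun b x h => ⟨h.1.mul_projS _ _, by rw [← mul_assoc, h.2.1],
      by rw [mul_assoc, homPp.proj_mul (add_zero b), ← mul_assoc, h.2.2.1],
      by rw [mul_assoc, homU.proj_mul (add_zero b), ← mul_assoc, h.2.2.2, zero_mul]⟩)
    (fun x h => ⟨hN.dl _ h.1, by rw [← mul_assoc, Q.Ed], by rw [mul_assoc, h.2.2.1],
      by rw [mul_assoc, h.2.2.2, mul_zero]⟩)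
    (fun x h => ⟨entLoc x fun a => (h a).1,
      ext_proj Q.dg fun a => by rw [← projE, (h a).2.1],
      ext_proj Q.dg fun a => by rw [← mul_assoc, (h a).2.2.1],
      ext_proj Q.dg fun a => by rw [← mul_assoc, (h a).2.2.2, mul_zero]⟩)
    (fun a b x hx _ hxb hxδ => by
      obtain ⟨x1, x2, x3, x4⟩ := hx
      by_cases hb1 : b = 1
      · refine ⟨0, G₁.zero_mem, ?_⟩
        rw [zero_mul, ← hxb, ← x3, mul_assoc, PpProj b (by omega), mul_zero]
      · have h1 : x = x * κ' * δ' := by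
          linear_combination (norm := c2 k) x3 + x * hhp + hxδ * κ' + x4
        have h2 : x = mapL π (x * κ') * δ' := by
          rw [← cone_mapL_mul_ent (N := N.toSubmodule) π_mul _ entδ', ← h1,
            cone_mapL_of_ent (N := N.toSubmodule) π_mul π_one x1]
        refine ⟨Q.E * mapL π (x * κ') * Pp * proj Q.dg (b - 1),
          ⟨(cone_ent_mul (cone_ent_mul hE fun i j => πN _) entPp).mul_projS _ _, ?_, ?_, ?_⟩, ?_⟩
        · simp only [← mul_assoc, Q.EE]
        · rw [mul_assoc, homPp.proj_mul (add_zero _), ← mul_assoc, mul_assoc _ Pp Pp, PpPp]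
        · rw [mul_assoc, projU _ (by omega), mul_zero]
        · rw [mul_assoc, homδ'.proj_mul (a := b - 1) (b := b) (by ring), ← mul_assoc,
            mul_assoc _ Pp δ', Ppδ, mul_assoc Q.E, ← h2, x2, hxb])
    (n := n) (N := -n) (φ := φ * Pp)
    ⟨cone_ent_mul hφ.ent entPp, by rw [← mul_assoc, hφ.l], by rw [mul_assoc, PpPp],
      by rw [mul_assoc, PpU, hU]⟩
    (hφ.hom.mul' homPp (add_zero _))
    (by
      rw [Cx.D] at hD
      linear_combination (norm := c2 k) hD * Pp + φ * dPp + φ * Ppδ)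
    (fun a ha => by
      rw [← mul_assoc, hφ.hom.proj_mul rfl, mul_assoc, homPp.proj_mul (add_zero _),
        PpProj _ (by omega), mul_zero])
  have co₁ : Q.Co N.toSubmodule (n - 1) ψ₁ :=
    ⟨a1, a5, a2, by rw [← a3, mul_assoc, PpE]⟩
  -- Step 2
  have co' : Q.Co N.toSubmodule n (φ + Q.D ψ₁) := hφ.add ((co₁.D hN).cast (by ring))
  have hD' : Q.D (φ + Q.D ψ₁) = 0 := by rw [Q.D_add, hD, Q.D_D, add_zero]
  have hφ' : φ + Q.D ψ₁ = φ * Pl + ψ₁ * ι' := by
    have h1 : φ * (Pp + Pl) = φ := hφ.r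
    have h2 : ψ₁ * Q.d = ψ₁ * (δ' + ι') := by rw [← Ppd, ← mul_assoc, a3]
    rw [Cx.D]
    linear_combination (norm := c2 k) h1 + h2 + a6
  have hφPl : (φ + Q.D ψ₁) * Pl = φ + Q.D ψ₁ := by
    rw [hφ', add_mul, mul_assoc, mul_assoc, PlPl, ιPl]
  generalize hφ'' : φ + Q.D ψ₁ = φ' at co' hD' hφPl
  let G₂ : Submodule k (RCF k (Bool × T) S) :=
    { carrier := {x | Ent N.toSubmodule x ∧ Q.E * x = x ∧ x * Pl = x}
      add_mem' := fun h h' => ⟨h.1.add h'.1, by rw [mul_add, h.2.1, h'.2.1],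
        by rw [add_mul, h.2.2, h'.2.2]⟩
      zero_mem' := ⟨ent_zero' _, mul_zero _, zero_mul _⟩
      smul_mem' := fun c x h => ⟨h.1.smul c, by rw [mul_smul_comm, h.2.1],
        by rw [smul_mul_assoc, h.2.2]⟩ }
  obtain ⟨ψ₂, ⟨b1, b2, b3⟩, b5, b6, -⟩ := al_pos Q.fin Q.hd homδ'' Q.dd
    (by rw [hδ'', blk_mul_blk_self, D.δlδl, map_zero]) G₂
    (fun a x h => ⟨h.1.projS_mul _ _, by rw [projE, h.2.1], by rw [mul_assoc, h.2.2]⟩)
    (fun b x h => ⟨h.1.mul_projS _ _, by rw [← mul_assoc, h.2.1],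
      by rw [mul_assoc, homPl.proj_mul (add_zero b), ← mul_assoc, h.2.2]⟩)
    (fun x h => ⟨cone_ent_mul h.1 entδ'', by rw [← mul_assoc, h.2.1], by rw [mul_assoc, δPl]⟩)
    (fun x h => ⟨entLoc x fun a => (h a).1,
      ext_proj Q.dg fun a => by rw [← projE, (h a).2.1],
      ext_proj Q.dg fun a => by rw [← mul_assoc, (h a).2.2]⟩)
    (fun a b x hx hl _ hxd => by
      obtain ⟨y, -, hy, hy', e⟩ := hc x (hl ▸ (Q.isFin_proj a).mul_right x) hx.1 hx.2.1 hxd
      exact ⟨y * Pl, ⟨cone_ent_mul hy entPl, by rw [← mul_assoc, hy'], by rw [mul_assoc, PlPl]⟩,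
        by rw [← mul_assoc, ← e, hx.2.2]⟩)
    (n := n) (N := 1 - m - n) (φ := φ') ⟨co'.ent, co'.l, hφPl⟩ co'.hom
    (by rw [← Pld, ← mul_assoc, hφPl]; exact hD')
    (fun a ha => by
      rw [co'.hom.proj_mul rfl, ← hφPl, mul_assoc, PlProj _ (by omega), mul_zero])
  have co₂ : Q.Co N.toSubmodule (n - 1) ψ₂ :=
    ⟨b1, b5, b2, by rw [← b3, mul_assoc, PlE]⟩
  refine ⟨ψ₁ + ψ₂, co₁.add co₂, ?_⟩
  have h3 : Q.D ψ₂ = φ' := by rw [← b6, Cx.D, ← Pld, ← mul_assoc, b3]
  rw [Q.D_add, h3, ← hφ'']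
  generalize Q.D ψ₁ = z
  c2 k

/-- Let `s` be a contraction (`cone_contr`), `τ a = Tr (dAt a * s)`.  As `dAt a * s * dAt a = dAt a`,
`Tr_ginv` reduces to `τ a = 1`.  `τ a + τ (a - 1) = Tr (proj a * (d s + s d)) = Tr (proj a * E) = 0`, so
`τ` is constant.  For `a = 1`: `dAt 1 = blk false false (proj dl 0 * δl)` (no index has `dp = 1`),
`blk false false κl` is a generalised inverse (`proj dl 0 * δl * r = proj dl 0 * r * δp = 0` since
`dp ≤ 0`), so `τ 1 = Tr (proj dl 0 * δl * κl)` (`Tr_blk`).  With the finite projections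
`P = projS dl (Iic 0)`, `P' = projS dl (Iic (-1))` (they equal `projS dl (Icc (-m) _)`):
`Tr (P (δl κl + κl δl)) = Tr (P δl κl) + Tr (P' δl κl) = Tr (proj dl 0 * δl κl)` and
`Tr (P (El + r ι)) = Tr (ι P r) = Tr (ι r) = tr u`. -/
theorem Dat.cone_odd (D : Dat k T S) {m : ℤ} (hb : D.Bdd m) (H : D.HE) {t0 : T} {u : S}
    (hιr : D.ι * H.r = single t0 t0 u) (t : TrF k S) (hu : t.tr u = 1) (N : Submodule k S)
    (hN : ∀ x ∈ N, t.tr x = 0) (hE : Ent N (D.cone hb).E) (a : ℤ) (g : RCF k (Bool × T) S)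
    (hg : (D.cone hb).dAt a * g * (D.cone hb).dAt a = (D.cone hb).dAt a) :
    t.Tr ((D.cone hb).dAt a * g) = 1 := by
  obtain ⟨s, hs, hDs⟩ := D.cone_contr hb H
  set Q := D.cone hb with hQ
  rw [Cx.D] at hDs
  have hsd : Q.d * s * Q.d = Q.d := by
    have h1 := Q.Ed
    have h2 := Q.dd
    linear_combination (norm := c2 k) hDs * Q.d + h1 + s * h2
  have hginv : ∀ a, Q.dAt a * s * Q.dAt a = Q.dAt a := by
    intro a
    have h1 : proj Q.dg (a + 1) * s = s * proj Q.dg a := hs.hom.proj_mul (by ring)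
    have h2 : proj Q.dg a * Q.d = Q.d * proj Q.dg (a + 1) := Q.hd.proj_mul rfl
    calc Q.dAt a * s * Q.dAt a = proj Q.dg a * (Q.d * (s * proj Q.dg a)) * Q.d := by
          simp only [Cx.dAt, mul_assoc]
      _ = proj Q.dg a * proj Q.dg a * (Q.d * s * Q.d) := by
          rw [← h1, ← mul_assoc Q.d, ← h2]; simp only [mul_assoc]
      _ = Q.dAt a := by rw [proj_mul_proj, hsd]; rfl
  have hstep : ∀ a : ℤ, t.Tr (Q.dAt (a + 1) * s) = t.Tr (Q.dAt a * s) := by
    intro a
    have h2 : proj Q.dg a * Q.d = Q.d * proj Q.dg (a + 1) := Q.hd.proj_mul rfl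
    have hf : IsFin (proj Q.dg (a + 1) * s) := (Q.isFin_proj _).mul_right s
    have h3 : t.Tr (Q.dAt a * s) = t.Tr (proj Q.dg (a + 1) * s * Q.d) := by
      rw [t.Tr_comm hf, Cx.dAt, h2, mul_assoc]
    have h4 : Q.dAt (a + 1) * s + proj Q.dg (a + 1) * s * Q.d = proj Q.dg (a + 1) * Q.E := by
      rw [← hDs, Cx.dAt, mul_add, mul_assoc, mul_assoc]
    have h5 := t.Tr_add ((Q.isFin_dAt (a + 1)).mul_right s) (hf.mul_right Q.d)
    rw [h4, t.Tr_eq_zero_of_ent hN (hE.projS_mul _ _), ← h3] at h5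
    exact CharTwo.add_eq_zero.1 h5.symm
  have hconst : ∀ a : ℤ, t.Tr (Q.dAt a * s) = t.Tr (Q.dAt 1 * s) := by
    intro a
    induction a using Int.inductionOn' (b := 1) with
    | zero => rfl
    | succ j _ ih => rw [hstep, ih]
    | pred j _ ih => rw [← ih, ← hstep (j - 1), sub_add_cancel]
  rw [t.Tr_ginv (Q.isFin_dAt a) hg (hginv a), hconst]
  -- the component in degree one
  have hp1 : (proj D.dp 1 : RCF k T S) = 0 := cone_projS_eq_zero fun t ht => by
    have h1 := hb.dp_le t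
    have h2 : D.dp t = 1 := ht
    omega
  have hd1 : Q.dAt 1 = blk false false (proj D.dl 0 * D.δl) := by
    have e1 : (projS (fun t => Q.dg (true, t)) {1} : RCF k T S) = 0 := hp1
    have e2 : (projS (fun t => Q.dg (false, t)) {1} : RCF k T S) = proj D.dl 0 :=
      cone_projS_congr fun t => by
        simp only [hQ, Dat.cone_dg, Dat.cdg_false, Set.mem_singleton_iff]; omega
    have e3 : Q.dAt 1 = projS Q.dg {1} * Q.d := rfl
    rw [e3, projS_eq_blk, e1, e2, hQ, Dat.cone_d]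
    simp [mul_add]
  have hδr : proj D.dl 0 * D.δl * H.r = 0 := by
    rw [mul_assoc, H.δr, ← mul_assoc, H.hr.proj_mul (add_zero 0), mul_assoc,
      D.hδp.proj_mul (zero_add 1), hp1, mul_zero, mul_zero]
  have hg0 : proj D.dl 0 * D.δl * H.κl * (proj D.dl 0 * D.δl) = proj D.dl 0 * D.δl := by
    have h1 : proj D.dl 1 * H.κl = H.κl * proj D.dl 0 := H.hκl.proj_mul (by ring)
    have h2 : proj D.dl 0 * D.δl = D.δl * proj D.dl 1 := D.hδl.proj_mul (by ring)
    have h3 : proj D.dl 0 * D.δl * H.κl * (proj D.dl 0 * D.δl)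
        = proj D.dl 0 * proj D.dl 0 * (D.δl * H.κl * D.δl) := by
      calc _ = proj D.dl 0 * (D.δl * (H.κl * proj D.dl 0)) * D.δl := by simp only [mul_assoc]
        _ = _ := by rw [← h1, ← mul_assoc D.δl, ← h2]; simp only [mul_assoc]
    rw [h3, proj_mul_proj]
    have h4 := H.hl
    have h5 := D.δlδl
    have h6 := D.δEl
    generalize (proj D.dl 0 : RCF k T S) = P at *
    linear_combination (norm := c2 k) P * D.δl * h4 + P * h5 * H.κl + P * h6 + hδr * D.ι
  have hfin0 : IsFin (proj D.dl 0 : RCF k T S) := isFin_projS hb.finl (Set.finite_singleton _)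
  have h1 : t.Tr (Q.dAt 1 * s) = t.Tr (proj D.dl 0 * D.δl * H.κl) := by
    rw [t.Tr_ginv (Q.isFin_dAt 1) (hginv 1) (g' := blk false false H.κl)
      (by rw [hd1, blk_mul_blk_self, blk_mul_blk_self, hg0]), hd1, blk_mul_blk_self,
      t.Tr_blk ((hfin0.mul_right _).mul_right _)]
  rw [h1]
  have hfin : ∀ c : ℤ, IsFin (projS D.dl (Set.Iic c) : RCF k T S) := by
    intro c
    rw [cone_projS_congr (dg := D.dl) (A := Set.Iic c) (dg' := D.dl) (A' := Set.Icc (-m) c)
      fun t => ⟨fun h => ⟨hb.dl_ge t, h⟩, fun h => h.2⟩]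
    exact isFin_projS hb.finl (Set.finite_Icc _ _)
  set P : RCF k T S := projS D.dl (Set.Iic 0) with hP
  set P' : RCF k T S := projS D.dl (Set.Iic (-1)) with hP'
  have hPP : P = P' + proj D.dl 0 := by
    rw [hP, hP', ← projS_union]
    · exact cone_projS_congr fun t => by
        simp only [Set.mem_Iic, Set.mem_union, Set.mem_singleton_iff]; omega
    · simp
  have hP'δ : P' * D.δl = D.δl * P := D.hδl.projS_mul fun a => by
    simp only [Set.mem_Iic]; omega
  have hιP : D.ι * P = D.ι := by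
    rw [hP, ← D.hι.projS_mul (A := Set.Iic 0) (A' := Set.Iic 0) (fun a => by simp),
      cone_projS_eq_one (dg := D.dp) (A := Set.Iic 0) fun t => hb.dp_le t, one_mul]
  have hEl : Ent N D.El := by
    have := hE.sub false false
    simpa [hQ, Dat.cone_E, sub_blk] using this
  have e1 : t.Tr (P * H.κl * D.δl) = t.Tr (P' * D.δl * H.κl) := by
    rw [t.Tr_comm ((hfin 0).mul_right _), hP'δ, mul_assoc]
  have e2 : t.Tr (P * D.δl * H.κl)
      = t.Tr (P' * D.δl * H.κl) + t.Tr (proj D.dl 0 * D.δl * H.κl) := by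
    rw [← t.Tr_add (((hfin _).mul_right _).mul_right _) ((hfin0.mul_right _).mul_right _),
      ← add_mul, ← add_mul, ← hPP]
  have e3 : t.Tr (P * H.r * D.ι) = 1 := by
    rw [t.Tr_comm ((hfin 0).mul_right _), ← mul_assoc, hιP, hιr, t.Tr_single, hu]
  have e4 : t.Tr (P * D.El) = 0 := t.Tr_eq_zero_of_ent hN (hEl.projS_mul _ _)
  have e5 : P * D.δl * H.κl + P * H.κl * D.δl = P * D.El + P * H.r * D.ι := by
    rw [mul_assoc, mul_assoc, mul_assoc, ← mul_add, ← mul_add, H.hl]
  have e6 := congrArg t.Tr e5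
  rw [t.Tr_add (((hfin _).mul_right _).mul_right _) (((hfin _).mul_right _).mul_right _),
    t.Tr_add ((hfin _).mul_right _) (((hfin _).mul_right _).mul_right _), e1, e2, e3, e4,
    zero_add, add_right_comm, CharTwo.add_self_eq_zero, zero_add] at e6
  exact e6

end Crest.Agent.R186
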