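import Crest.Agent.R186.Asm1
import Crest.Agent.R186.Cone

/-!
The complex over the ambient ring and its basic properties.
-/

set_option linter.unusedSectionVars false

namespace Crest.Agent.R186

open RCF
open scoped TensorProduct

namespace Asm

variable {k T A E M M₂ : Type} [Field k] [CharP k 2] [Ring A] [Algebra k A] [Ring E] [Algebra k E]
  [Ring M] [Algebra k M] [Ring M₂] [Algebra k M₂] [DecidableEq T] {H : k}
  (b : Base k T A E 4) (e : EpsData k M M₂ H)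

/-- The Kronecker product of a matrix over `A` and a matrix over `M₂`. -/
noncomputable def kr (x : RCF k T A) (y : RCF k ℕ M₂) : RCF k (T × ℕ) (E ⊗[k] M₂) :=
  (tcomm k E M₂).kron (RCF.map b.ρ x) y

theorem ent_kr (x : RCF k T A) (y : RCF k ℕ M₂) (i j : T × ℕ) :
    (kr b x y).ent i j = b.ρ (x.ent i.1 j.1) ⊗ₜ y.ent i.2 j.2 := by
  simp [kr, Comm.ent_kron, tcomm]

theorem kr_mul (x x' : RCF k T A) (y y' : RCF k ℕ M₂) :
    kr b x y * kr b x' y' = kr b (x * x') (y * y') := by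
  simp only [kr, Comm.kron_mul, map_mul]

theorem kr_add (x : RCF k T A) (y y' : RCF k ℕ M₂) : kr b x (y + y') = kr b x y + kr b x y' :=
  Comm.kron_add _ _ _ _

@[simp] theorem kr_zero (x : RCF k T A) : kr b x (0 : RCF k ℕ M₂) = 0 := Comm.kron_zero _ _

theorem ent_kr_B (x : RCF k T A) (y : RCF k ℕ M₂) : Ent (B M₂ b).toSubmodule (kr b x y) :=
  fun i j => by rw [ent_kr]; exact tmul_mem_B b _ _

theorem ent_kr_R (x : RCF k T A) (y : RCF k ℕ M) :
    Ent (R b e).toSubmodule (kr b x (RCF.map e.ρ y)) :=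
  fun i j => by rw [ent_kr]; exact tmul_mem_R b e _ _

theorem homog_kr {d₁ d₁' : T → ℤ} {d₂ d₂' : ℕ → ℤ} {m n r : ℤ} {x : RCF k T A} {y : RCF k ℕ M₂}
    (hx : Homog d₁ d₁' m x) (hy : Homog d₂ d₂' n y) (h : m + n = r) :
    Homog (fun t : T × ℕ => d₁ t.1 + d₂ t.2) (fun t => d₁' t.1 + d₂' t.2) r (kr b x y) :=
  Comm.homog_kron _ (hx.map _) hy h

/-- The datum over the ambient ring. -/
noncomputable def DS : Dat k (T × ℕ) (E ⊗[k] M₂) :=
  Dat.tensor (tcomm k E M₂) (b.D.map b.ρ) (epsDat k (ε e) (εε e))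

theorem DS_bdd : (DS b e).Bdd (4 + 0) := (b.bdd.map b.ρ).tensor _ (epsDat_bdd _ _)

/-- The homotopy inverse over the ambient ring. -/
noncomputable def HS : (DS b e).HE := Dat.HE.tensor _ b.H (epsHE (εε e) e.εδ)

theorem ιr : (DS b e).ι * (HS b e).r = single (b.t0, 0) (b.t0, 0) (u b e) := by
  change Comm.kron _ (RCF.map b.ρ b.D.ι) (single 0 0 (ε e)) * Comm.kron _ b.H.r (single 0 0 e.δ) = _
  rw [Comm.kron_mul, b.ιr, single_mul_single, Comm.kron_single]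
  simp [tcomm, u]

theorem DS_eq_R : DS b e =
    (Dat.tensor (tcomm k A M) b.D (epsDat k e.ε e.εε)).map (jR b e) := by
  rw [Dat.tensor_map (tcomm k A M) (tcomm k E M₂) (jR b e) b.ρ e.ρ (by simp [tcomm])
    (by simp [tcomm]), epsDat_map]
  rfl

theorem DS_eq_B : DS b e =
    (Dat.tensor (tcomm k A M₂) b.D (epsDat k (ε e) (εε e))).map (jB M₂ b) := by
  rw [Dat.tensor_map (tcomm k A M₂) (tcomm k E M₂) (jB M₂ b) b.ρ (AlgHom.id k M₂) (by simp [tcomm])
    (by simp [tcomm]), epsDat_map]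
  rfl

/-- The complex. -/
noncomputable def Q : Cx k (Bool × (T × ℕ)) (E ⊗[k] M₂) := (DS b e).cone (DS_bdd b e)

theorem Q_E : (Q b e).E = blk true true (kr b b.D.Ep 1) + blk false false (kr b b.D.El 1) := rfl

theorem Q_d : (Q b e).d = blk true true (kr b b.D.δp 1 + kr b b.D.Ep (down fun _ => ε e)) +
    blk true false (kr b b.D.ι (single 0 0 (ε e))) +
    blk false false (kr b b.D.δl 1 + kr b b.D.El (up fun _ => ε e)) := rfl

@[simp] theorem Q_dg_true (t : T) (l : ℕ) : (Q b e).dg (true, (t, l)) = b.D.dp t + -(l : ℤ) := rfl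

@[simp] theorem Q_dg_false (t : T) (l : ℕ) : (Q b e).dg (false, (t, l)) = b.D.dl t + l + 1 := rfl

theorem cone_congr {S : Type} [Ring S] [Algebra k S] {D D' : Dat k T S} (h : D = D') {m : ℤ}
    (hb : D.Bdd m) (hb' : D'.Bdd m) : D.cone hb = D'.cone hb' := by subst h; rfl

theorem exists_Q_R : ∃ Q₀ : Cx k (Bool × (T × ℕ)) (A ⊗[k] M), Q₀.ColEx ⊤ ∧
    Q b e = Q₀.map (jR b e) := by
  have hb := b.bdd.tensor (tcomm k A M) (epsDat_bdd e.ε e.εε)
  refine ⟨_, (b.col.tensor e.col).colEx hb, ?_⟩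
  rw [Dat.cone_map]
  exact cone_congr (DS_eq_R b e) _ _

theorem exists_Q_B : ∃ Q₀ : Cx k (Bool × (T × ℕ)) (A ⊗[k] M₂), Q₀.ColEx ⊤ ∧
    Q b e = Q₀.map (jB M₂ b) := by
  have hb := b.bdd.tensor (tcomm k A M₂) (epsDat_bdd (ε e) (εε e))
  refine ⟨_, (b.col.tensor (epsDat_colHE (εε e) e.εδ)).colEx hb, ?_⟩
  rw [Dat.cone_map]
  exact cone_congr (DS_eq_B b e) _ _

theorem entE : Ent (R b e).toSubmodule (Q b e).E := by
  obtain ⟨Q₀, -, h⟩ := exists_Q_R b e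
  rw [h]; exact fun _ _ => ⟨_, rfl⟩

theorem entd : Ent (R b e).toSubmodule (Q b e).d := by
  obtain ⟨Q₀, -, h⟩ := exists_Q_R b e
  rw [h]; exact fun _ _ => ⟨_, rfl⟩

theorem entE_B : Ent (B M₂ b).toSubmodule (Q b e).E := (entE b e).mono fun _ h => R_le_B b e h

theorem entd_B : Ent (B M₂ b).toSubmodule (Q b e).d := (entd b e).mono fun _ h => R_le_B b e h

theorem colR : (Q b e).ColEx (R b e).toSubmodule := by
  obtain ⟨Q₀, h0, h⟩ := exists_Q_R b e
  rw [h]; exact h0.map (jR_injective b e)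

theorem colB : (Q b e).ColEx (B M₂ b).toSubmodule := by
  obtain ⟨Q₀, h0, h⟩ := exists_Q_B b e
  rw [h]; exact h0.map (jB_injective b)

theorem rowR : (Q b e).RowEx (R b e).toSubmodule := by
  obtain ⟨s, -, hs⟩ := (DS b e).cone_contr (DS_bdd b e) (HS b e)
  obtain ⟨π, h1, h2, h3⟩ := exists_πR b e
  exact Cx.rowEx_of_retr _ hs _ (entE b e) (entd b e) π h1 h2 h3

theorem rowB : (Q b e).RowEx (B M₂ b).toSubmodule := by
  obtain ⟨s, -, hs⟩ := (DS b e).cone_contr (DS_bdd b e) (HS b e)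
  obtain ⟨π, h1, h2, h3⟩ := exists_πB (M₂ := M₂) b
  exact Cx.rowEx_of_retr _ hs _ (entE_B b e) (entd_B b e) π h1 h2 h3

/-- The distinguished index in degree zero. -/
abbrev i₀ : Bool × (T × ℕ) := (true, (b.t0, 0))

/-- The detecting matrix. -/
noncomputable def U : RCF k (Bool × (T × ℕ)) (E ⊗[k] M₂) := single (i₀ b) (i₀ b) (u b e)

theorem ent_mul_U (x : RCF k (Bool × (T × ℕ)) (E ⊗[k] M₂)) (i j : Bool × (T × ℕ)) :
    (x * U b e).ent i j = if j = i₀ b then x.ent i (i₀ b) * u b e else 0 :=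
  ent_mul_single' _ _ _ _ _ _

theorem keyR {n : ℤ} {φ : RCF k (Bool × (T × ℕ)) (E ⊗[k] M₂)}
    (hφ : (Q b e).Co (R b e).toSubmodule n φ) (hD : (Q b e).D φ = 0) (hU : φ * U b e = 0) :
    ∃ ψ, (Q b e).Co (R b e).toSubmodule (n - 1) ψ ∧ (Q b e).D ψ = φ := by
  obtain ⟨π, h1, h2, h3⟩ := exists_πR b e
  exact (DS b e).cone_key (DS_bdd b e) (HS b e) (t0 := (b.t0, 0))
    (show b.D.dp b.t0 + -((0 : ℕ) : ℤ) = 0 by simp [b.dp0]) (ιr b e) _ (entE b e) (entd b e)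
    π h1 h2 h3 (colR b e) hφ hD hU

theorem keyB {n : ℤ} {φ : RCF k (Bool × (T × ℕ)) (E ⊗[k] M₂)}
    (hφ : (Q b e).Co (B M₂ b).toSubmodule n φ) (hD : (Q b e).D φ = 0) (hU : φ * U b e = 0) :
    ∃ ψ, (Q b e).Co (B M₂ b).toSubmodule (n - 1) ψ ∧ (Q b e).D ψ = φ := by
  obtain ⟨π, h1, h2, h3⟩ := exists_πB (M₂ := M₂) b
  exact (DS b e).cone_key (DS_bdd b e) (HS b e) (t0 := (b.t0, 0))
    (show b.D.dp b.t0 + -((0 : ℕ) : ℤ) = 0 by simp [b.dp0]) (ιr b e) _ (entE_B b e) (entd_B b e)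
    π h1 h2 h3 (colB b e) hφ hD hU

theorem mul_U_of_Z {x : RCF k (Bool × (T × ℕ)) (E ⊗[k] M₂)} (hx : Ent (Z b e) x) :
    x * U b e = 0 := by
  ext i j
  rw [ent_mul_U]
  split_ifs
  · exact hx _ _
  · rfl

theorem ent_mul_U_W {x : RCF k (Bool × (T × ℕ)) (E ⊗[k] M₂)} (hx : Ent (B M₂ b).toSubmodule x) :
    Ent (W M₂ b) (x * U b e) := fun i j => by
  rw [ent_mul_U]
  split_ifs
  · exact mul_u_mem_W b e (hx _ _)
  · exact Submodule.zero_mem _

theorem ent_U_W : Ent (W M₂ b) (U b e) := ent_single_of _ _ (u_mem_W b e)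

theorem ent_kr_Z {x : RCF k T A} (hx : RCF.map b.χ x = 0) (y : RCF k ℕ M₂) :
    Ent (Z b e) (kr b x y) := fun i j => by
  rw [ent_kr]
  exact tmul_mem_Z b e (congrArg (fun z => ent z i.1 j.1) hx) _

theorem ent_kr_Z' (x : RCF k T A) {y : RCF k ℕ M₂} (hy : ∀ i j, y.ent i j = 0 ∨ y.ent i j = ε e) :
    Ent (Z b e) (kr b x y) := fun i j => by
  rw [ent_kr]
  rcases hy i.2 j.2 with h | h <;> rw [h]
  · simp
  · exact tmul_ε_mem_Z b e _

theorem entd_Z : Ent (Z b e) (Q b e).d := by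
  rw [Q_d]
  refine Ent.add (Ent.add (Ent.blk (Ent.add (ent_kr_Z b e b.χδp _) (ent_kr_Z' b e _ ?_)) _ _)
    (Ent.blk (ent_kr_Z' b e _ ?_) _ _))
    (Ent.blk (Ent.add (ent_kr_Z b e b.χδl _) (ent_kr_Z' b e _ ?_)) _ _)
  · intro i j; rw [ent_down]; split_ifs <;> simp
  · intro i j; rw [ent_single]; split_ifs <;> simp
  · intro i j; rw [ent_up]; split_ifs <;> simp

theorem d_mul_U : (Q b e).d * U b e = 0 := mul_U_of_Z b e (entd_Z b e)

theorem D_mul_U {ρ : RCF k (Bool × (T × ℕ)) (E ⊗[k] M₂)} (h : Ent (R b e).toSubmodule ρ) :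
    (Q b e).D ρ * U b e = 0 := by
  rw [Cx.D, add_mul, mul_assoc ρ, d_mul_U, mul_zero, add_zero]
  exact mul_U_of_Z b e ((entd_Z b e).mul h (ZR b e))

/-- Block diagonal matrices built from `Ep`, `El` and diagonal matrices. -/
noncomputable def bd (gp gl : ℕ → M₂) : RCF k (Bool × (T × ℕ)) (E ⊗[k] M₂) :=
  blk true true (kr b b.D.Ep (diag gp)) + blk false false (kr b b.D.El (diag gl))

theorem Q_E' : (Q b e).E = bd b (fun _ => 1) fun _ => 1 := rfl

theorem bd_mul (gp gl gp' gl' : ℕ → M₂) :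
    bd b gp gl * bd b gp' gl' = bd b (fun l => gp l * gp' l) fun l => gl l * gl' l := by
  simp [bd, mul_add, add_mul, kr_mul, b.D.EpEp, b.D.ElEl, diag_mul_diag]

theorem co_bd {N : Submodule k (E ⊗[k] M₂)} {gp gl : ℕ → M₂} (h : Ent N (bd b gp gl)) :
    (Q b e).Co N 0 (bd b gp gl) := by
  refine ⟨h, Homog.add (Homog.blk ?_) (Homog.blk ?_), by simp [Q_E', bd_mul],
    by simp [Q_E', bd_mul]⟩
  · exact homog_kr b b.D.hEp (homog_diag (fun l : ℕ => -(l : ℤ)) gp) (add_zero _)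
  · rintro ⟨t, l⟩ ⟨t', l'⟩ h
    have := homog_kr b b.D.hEl (homog_diag (fun l : ℕ => (l : ℤ)) gl) (add_zero _) _ _ h
    simp only [Q_dg_false] at this ⊢
    omega

theorem ent_bd_B (gp gl : ℕ → M₂) : Ent (B M₂ b).toSubmodule (bd b gp gl) :=
  ((ent_kr_B b _ _).blk _ _).add ((ent_kr_B b _ _).blk _ _)

theorem ent_bd_mul {w : RCF k (Bool × (T × ℕ)) (E ⊗[k] M₂)} (hw : Ent (W M₂ b) w) (gp gl : ℕ → M₂)
    (c : Bool) (t : T) (l : ℕ) (j : Bool × (T × ℕ)) :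
    (bd b gp gl * w).ent (c, (t, l)) j =
      if t = b.t0 then (1 ⊗ₜ[k] (cond c gp gl l)) * w.ent (c, (t, l)) j else 0 := by
  have h1 : ∀ i j, b.χ (b.D.Ep.ent i j) = if i = b.t0 ∧ j = b.t0 then 1 else 0 := fun i j =>
    congrArg (fun z => ent z i j) b.χEp
  have h2 : ∀ i j, b.χ (b.D.El.ent i j) = if i = b.t0 ∧ j = b.t0 then 1 else 0 := fun i j =>
    congrArg (fun z => ent z i j) b.χEl
  have key : ∀ i', (bd b gp gl).ent (c, (t, l)) i' * w.ent i' j =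
      if i' = (c, (t, l)) ∧ t = b.t0 then (1 ⊗ₜ[k] (cond c gp gl l)) * w.ent (c, (t, l)) j
      else 0 := by
    rintro ⟨c', t', l'⟩
    cases c <;> cases c' <;>
      simp only [bd, ent_add, ent_blk, ent_kr, ent_diag, Bool.false_eq_true, Bool.true_eq_false,
        and_self, and_false, false_and, if_true, if_false, zero_add, add_zero, zero_mul,
        Prod.mk.injEq, true_and, cond_true, cond_false, tmul_mul_W b (hw _ _), h1, h2] <;>
      by_cases ht : t = b.t0 <;> by_cases ht' : t' = b.t0 <;> by_cases hl : l = l' <;>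
      simp_all [eq_comm]
  rw [ent_mul, finsum_congr key, finsum_eq_single _ (c, (t, l)) fun i' h => if_neg fun h' => h h'.1]
  simp

end Asm

end Crest.Agent.R186
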