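import Crest.Agent.R186.Asm2

/-!
The cohomology of the cochains over `B` and over `R`; the setup.
-/

set_option linter.unusedSectionVars false

namespace Crest.Agent.R186

open RCF
open scoped TensorProduct

namespace Asm

variable {k T A E M M₂ : Type} [Field k] [CharP k 2] [Ring A] [Algebra k A] [Ring E] [Algebra k E]
  [Ring M] [Algebra k M] [Ring M₂] [Algebra k M₂] [DecidableEq T] {H : k}
  (b : Base k T A E 4) (e : EpsData k M M₂ H)

theorem D_bd {gp gl : ℕ → M₂} (h1 : ∀ l, ε e * gp l = gp (l + 1) * ε e)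
    (h2 : ε e * gl 0 = gp 0 * ε e) (h3 : ∀ l, ε e * gl (l + 1) = gl l * ε e) :
    (Q b e).D (bd b gp gl) = 0 := by
  have : (Q b e).d * bd b gp gl = bd b gp gl * (Q b e).d := by
    simp only [Q_d, bd, mul_add, add_mul, blk_mul_blk_self, blk_true_mul_false, blk_false_mul_true,
      kr_mul, map_add, add_zero, zero_add, b.D.EpEp, b.D.ElEl, b.D.Epδ, b.D.δEp, b.D.Elδ, b.D.δEl,
      b.D.Epι, b.D.ιEl, one_mul, mul_one, down_mul_diag, diag_mul_down, up_mul_diag, diag_mul_up,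
      single_mul_diag, diag_mul_single, h1, h2, h3]
    abel
  rw [Cx.D, this, add_self]

variable (H) in
/-- The weights. -/
def wt (c : Bool) (l : ℕ) : k := cond c (H ^ l) (H⁻¹ ^ (l + 1))

/-- The twisting cocycle. -/
noncomputable def σM : RCF k (Bool × (T × ℕ)) (E ⊗[k] M₂) :=
  bd b (fun l => wt H true l • e.σ) fun l => wt H false l • e.σ

/-- Its inverse. -/
noncomputable def σM' : RCF k (Bool × (T × ℕ)) (E ⊗[k] M₂) :=
  bd b (fun l => (wt H true l)⁻¹ • e.σ') fun l => (wt H false l)⁻¹ • e.σ'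

theorem wt_ne_zero (hH : H ≠ 0) (c : Bool) (l : ℕ) : wt H c l ≠ 0 := by
  cases c <;> simp [wt, hH]

theorem σM_σM' (hH : H ≠ 0) : σM b e * σM' b e = (Q b e).E := by
  simp [σM, σM', bd_mul, Q_E', smul_smul, e.σσ, wt_ne_zero hH]

theorem σM'_σM (hH : H ≠ 0) : σM' b e * σM b e = (Q b e).E := by
  simp [σM, σM', bd_mul, Q_E', smul_smul, e.σσ', wt_ne_zero hH]

theorem D_σM (hH : H ≠ 0) : (Q b e).D (σM b e) = 0 := by
  refine D_bd b e (fun l => ?_) ?_ fun l => ?_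
  · simp [wt, e.εσ, e.σε, smul_smul, pow_succ]
  · simp [wt, e.εσ, e.σε, smul_smul, hH]
  · simp only [wt, cond_false, mul_smul_comm, smul_mul_assoc, e.εσ, e.σε, smul_smul]
    congr 1
    rw [pow_succ _ (l + 1), mul_assoc, inv_mul_cancel₀ hH, mul_one]

theorem D_σM' (hH : H ≠ 0) : (Q b e).D (σM' b e) = 0 := by
  refine D_bd b e (fun l => ?_) ?_ fun l => ?_
  · simp [wt, εσ' e hH, σ'ε, smul_smul, pow_succ, mul_comm]
  · simp [wt, εσ' e hH, σ'ε, smul_smul, hH]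
  · simp only [wt, cond_false, mul_smul_comm, smul_mul_assoc, εσ' e hH, σ'ε, smul_smul, inv_pow,
      inv_inv]
    congr 1
    rw [pow_succ _ (l + 1), mul_assoc, mul_inv_cancel₀ hH, mul_one]

theorem ent_bd_twist {x y : M₂} (h : x * y = 1) (cp cl : ℕ → k) :
    Ent (twist (R b e) (1 ⊗ₜ y)) (bd b (fun l => cp l • x) fun l => cl l • x) := by
  have : ∀ (z : RCF k T A) (c : ℕ → k),
      Ent (twist (R b e) (1 ⊗ₜ y)) (kr b z (diag fun l => c l • x)) := fun z c i j => by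
    rw [ent_kr, ent_diag]
    split_ifs
    · rw [TensorProduct.tmul_smul]
      refine Submodule.smul_mem _ _ ?_
      simpa [mem_twist, h] using tmul_mem_R b e (z.ent i.1 j.1) 1
    · simp
  exact ((this _ _).blk _ _).add ((this _ _).blk _ _)

theorem bd_mul_U {gp gl : ℕ → M₂} (h : (1 ⊗ₜ[k] gp 0) * u b e = u b e) :
    bd b gp gl * U b e = U b e := by
  ext ⟨c, t, l⟩ j
  rw [ent_bd_mul b (ent_U_W b e), U, ent_single]
  by_cases h1 : (c, t, l) = i₀ b ∧ j = i₀ b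
  · obtain ⟨h2, h3⟩ := h1
    obtain ⟨rfl, rfl, rfl⟩ : c = true ∧ t = b.t0 ∧ l = 0 := by simpa using h2
    simp [h3, h]
  · rw [if_neg h1]; simp

theorem E_mul_U : (Q b e).E * U b e = U b e :=
  bd_mul_U b e (by rw [← Algebra.TensorProduct.one_def, one_mul])

theorem σM_mul_U : σM b e * U b e = U b e := bd_mul_U b e (by simp [wt, σ_mul_u])

theorem σM'_mul_U : σM' b e * U b e = U b e := bd_mul_U b e (by simp [wt, σ'_mul_u])

/-! ### Cohomology over `B` -/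

/-- The contraction in the direction of `ε`. -/
noncomputable def K : RCF k (Bool × (T × ℕ)) (E ⊗[k] M₂) :=
  blk true true (kr b b.D.Ep (up fun _ => e.δ)) + blk false false (kr b b.D.El (down fun _ => e.δ))

/-- The remaining projection. -/
noncomputable def Pi : RCF k (Bool × (T × ℕ)) (E ⊗[k] M₂) :=
  bd b (fun l => if l = 0 then ε e * e.δ else 0) fun l => if l = 0 then e.δ * ε e else 0

theorem single_eq_diag (s : M₂) :
    (single 0 0 s : RCF k ℕ M₂) = diag fun l => if l = 0 then s else 0 := by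
  ext i j
  rw [ent_single, ent_diag]
  by_cases h1 : i = 0 <;> by_cases h2 : j = 0 <;> simp [h1, h2, eq_comm]

theorem co_K : (Q b e).Co (B M₂ b).toSubmodule (-1) (K b e) := by
  refine ⟨((ent_kr_B b _ _).blk _ _).add ((ent_kr_B b _ _).blk _ _),
    Homog.add (Homog.blk ?_) (Homog.blk ?_), ?_, ?_⟩
  · exact homog_kr b b.D.hEp (epsHE (k := k) (εε e) e.εδ).hκp (zero_add _)
  · rintro ⟨t, l⟩ ⟨t', l'⟩ h
    have := homog_kr b b.D.hEl (epsHE (k := k) (εε e) e.εδ).hκl (zero_add _) _ _ h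
    simp only [Q_dg_false, epsDat] at this ⊢
    omega
  · simp [Q_E, K, mul_add, add_mul, kr_mul, b.D.EpEp, b.D.ElEl]
  · simp [Q_E, K, mul_add, add_mul, kr_mul, b.D.EpEp, b.D.ElEl]

theorem D_K : (Q b e).D (K b e) = (Q b e).E + Pi b e := by
  have h1 : (down fun _ => ε e) * (up fun _ => e.δ) + (up fun _ => e.δ) * (down fun _ => ε e) =
      1 + single 0 0 (ε e) * single 0 0 e.δ := (epsHE (k := k) (εε e) e.εδ).hp
  have h2 : (up fun _ => ε e) * (down fun _ => e.δ) + (down fun _ => e.δ) * (up fun _ => ε e) =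
      1 + single 0 0 e.δ * single 0 0 (ε e) := (epsHE (k := k) (εε e) e.εδ).hl
  rw [single_mul_single, single_eq_diag] at h1 h2
  have h3 := congrArg (fun z => blk true true (kr b b.D.Ep z)) h1
  have h4 := congrArg (fun z => blk false false (kr b b.D.El z)) h2
  simp only [kr_add, map_add] at h3 h4
  simp only [Cx.D, Q_d, Q_E, K, Pi, bd, mul_add, add_mul, blk_mul_blk_self, blk_true_mul_false,
    blk_false_mul_true, kr_mul, map_add, add_zero, zero_add, b.D.EpEp, b.D.ElEl, b.D.Epδ, b.D.δEp,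
    b.D.Elδ, b.D.δEl, one_mul, mul_one, single_zero_mul_down, up_mul_single_zero,
    kr_zero, map_zero]
  generalize blk true true (kr b b.D.Ep (down (fun _ => ε e) * up fun _ => e.δ)) = a1 at *
  generalize blk true true (kr b b.D.Ep (up (fun _ => e.δ) * down fun _ => ε e)) = a2 at *
  generalize blk false false (kr b b.D.El (up (fun _ => ε e) * down fun _ => e.δ)) = a3 at *
  generalize blk false false (kr b b.D.El (down (fun _ => e.δ) * up fun _ => ε e)) = a4 at *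
  linear_combination (norm := c2 k) h3 + h4

theorem co_Pi : (Q b e).Co (B M₂ b).toSubmodule 0 (Pi b e) := co_bd b e (ent_bd_B b _ _)

theorem BB : ∀ x ∈ (B M₂ b).toSubmodule, ∀ y ∈ (B M₂ b).toSubmodule,
    x * y ∈ (B M₂ b).toSubmodule := fun _ h _ h' => (B M₂ b).mul_mem h h'

theorem Pi_mul_eq {n : ℤ} {N : Submodule k (E ⊗[k] M₂)} {φ : RCF k (Bool × (T × ℕ)) (E ⊗[k] M₂)}
    (hφ : (Q b e).Co N n φ) (hD : (Q b e).D φ = 0) :
    Pi b e * φ = φ + (Q b e).D (K b e * φ) := by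
  rw [Cx.D_mul, hD, D_K, add_mul, hφ.l]; c2 k

theorem D_Pi_mul {n : ℤ} {N : Submodule k (E ⊗[k] M₂)} {φ : RCF k (Bool × (T × ℕ)) (E ⊗[k] M₂)}
    (hφ : (Q b e).Co N n φ) (hD : (Q b e).D φ = 0) : (Q b e).D (Pi b e * φ) = 0 := by
  rw [Pi_mul_eq b e hφ hD, Cx.D_add, hD, Cx.D_D, add_zero]

theorem ent_Pi_mul_U {n : ℤ} {φ : RCF k (Bool × (T × ℕ)) (E ⊗[k] M₂)}
    (hφ : (Q b e).Co (B M₂ b).toSubmodule n φ) (hn : n ≠ 3) (i j : Bool × (T × ℕ)) :
    (Pi b e * φ * U b e).ent i j = if i = i₀ b ∧ j = i₀ b then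
      (1 ⊗ₜ[k] (ε e * e.δ)) * (φ.ent (i₀ b) (i₀ b) * u b e) else 0 := by
  obtain ⟨c, t, l⟩ := i
  rw [mul_assoc, Pi, ent_bd_mul b (ent_mul_U_W b e hφ.ent), ent_mul_U]
  by_cases ht : t = b.t0
  · subst ht
    by_cases hl : l = 0
    · subst hl
      cases c
      · have : φ.ent (false, b.t0, 0) (i₀ b) = 0 := by
          by_contra h
          have := hφ.hom _ _ h
          simp only [Q_dg_true, Q_dg_false, b.dp0, b.dl0] at this
          omega
        simp [this]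
      · by_cases hj : j = i₀ b <;> simp [hj]
    · cases c <;> simp [hl]
  · simp [ht]

theorem hzB {n : ℤ} (h0 : n ≠ 0) (h3 : n ≠ 3) : (Q b e).Hz (B M₂ b).toSubmodule n := by
  intro φ hφ hD
  have hz : φ.ent (i₀ b) (i₀ b) = 0 := by
    by_contra h
    have := hφ.hom _ _ h
    omega
  obtain ⟨ψ, hψ, h⟩ := keyB b e ((co_Pi b e).mul hφ (BB b) (zero_add n)) (D_Pi_mul b e hφ hD) (by
    ext i j
    rw [ent_Pi_mul_U b e hφ h3, hz]
    simp)
  refine ⟨ψ + K b e * φ, hψ.add ((co_K b e).mul hφ (BB b) (by ring)), ?_⟩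
  rw [Cx.D_add, h, Pi_mul_eq b e hφ hD]; c2 k

theorem honeB : (Q b e).Hone (B M₂ b).toSubmodule := by
  intro φ hφ hD
  obtain ⟨c, hc⟩ := exists_εδ_mul_u b e (hφ.ent (i₀ b) (i₀ b))
  obtain ⟨ψ, hψ, h⟩ := keyB b e (φ := Pi b e * φ + c • (Q b e).E)
    (((co_Pi b e).mul hφ (BB b) (zero_add 0)).add ((Cx.co_E (entE_B b e)).smul c))
    (by rw [Cx.D_add, D_Pi_mul b e hφ hD, Cx.D_smul, Cx.D_E, smul_zero, add_zero]) (by
      have : Pi b e * φ * U b e = c • U b e := by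
        ext i j
        rw [ent_Pi_mul_U b e hφ (by norm_num), hc, ent_smul, U, ent_single]
        split_ifs <;> simp
      rw [add_mul, this, smul_mul_assoc, E_mul_U, add_self])
  refine ⟨c, ψ + K b e * φ, (hψ.cast (by ring)).add ((co_K b e).mul hφ (BB b) (by ring)), ?_⟩
  rw [Cx.D_add, h, Pi_mul_eq b e hφ hD]; c2 k

theorem exists_κ (hH : H ≠ 0) : ∃ κ, (Q b e).Co (B M₂ b).toSubmodule (-1) κ ∧
    (Q b e).D κ = (Q b e).E + σM b e := by
  obtain ⟨κ, h1, h2⟩ := keyB b e ((Cx.co_E (entE_B b e)).add (co_bd b e (ent_bd_B b _ _)))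
    (show (Q b e).D ((Q b e).E + σM b e) = 0 by rw [Cx.D_add, Cx.D_E, D_σM b e hH, add_zero])
    (show ((Q b e).E + σM b e) * U b e = 0 by rw [add_mul, E_mul_U, σM_mul_U, add_self])
  exact ⟨κ, h1.cast (by ring), h2⟩

/-! ### Cohomology over `R` -/

theorem ent_σ_conj_U {β : RCF k (Bool × (T × ℕ)) (E ⊗[k] M₂)} {n : ℤ}
    (hβ : (Q b e).Co (R b e).toSubmodule n β) (i j : Bool × (T × ℕ)) :
    (σM b e * β * σM' b e * U b e).ent i j = wt H i.1 i.2.2 • (β * U b e).ent i j := by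
  obtain ⟨c, t, l⟩ := i
  have hW := ent_mul_U_W b e (hβ.ent.mono fun _ h => R_le_B b e h)
  have h1 := ent_bd_mul b hW (fun _ => 1) (fun _ => 1) c t l j
  rw [← Q_E' b e, ← mul_assoc, hβ.l] at h1
  rw [mul_assoc, σM'_mul_U, mul_assoc, σM, ent_bd_mul b hW]
  split_ifs with ht
  · obtain ⟨c', hc'⟩ := exists_mul_u b e (hβ.ent (c, t, l) (i₀ b))
    rw [ent_mul_U, hc']
    split_ifs
    · cases c <;> simp [TensorProduct.tmul_smul, σ_mul_u, smul_smul, mul_comm]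
    · simp
  · rw [h1, if_neg ht, smul_zero]

theorem of_ent_U_ne_zero {β : RCF k (Bool × (T × ℕ)) (E ⊗[k] M₂)} {n : ℤ}
    (hβ : (Q b e).Co (R b e).toSubmodule n β) {i j : Bool × (T × ℕ)}
    (h : (β * U b e).ent i j ≠ 0) :
    j = i₀ b ∧ (i = (true, b.t0, n.toNat) ∧ 0 ≤ n ∨ i = (false, b.t0, (3 - n).toNat)) := by
  obtain ⟨c, t, l⟩ := i
  have hW := ent_mul_U_W b e (hβ.ent.mono fun _ h => R_le_B b e h)
  have h1 := ent_bd_mul b hW (fun _ => 1) (fun _ => 1) c t l j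
  rw [← Q_E' b e, ← mul_assoc, hβ.l] at h1
  have ht : t = b.t0 := by
    by_contra ht
    exact h (by rw [h1, if_neg ht])
  subst ht
  rw [ent_mul_U] at h
  have hj : j = i₀ b := by
    by_contra hj
    exact h (if_neg hj)
  rw [if_pos hj] at h
  have h2 := hβ.hom _ _ (left_ne_zero_of_mul h)
  refine ⟨hj, ?_⟩
  cases c
  · simp only [Q_dg_true, Q_dg_false, b.dp0, b.dl0] at h2
    exact Or.inr (by rw [show (3 - n).toNat = l by omega])
  · simp only [Q_dg_true, b.dp0] at h2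
    exact Or.inl ⟨by rw [show n.toNat = l by omega], by omega⟩

theorem one_add_ne_zero {x : k} (h : x ≠ 1) : 1 + x ≠ 0 := fun h' => h (by grind)

theorem wt_false_ne_one (hq : ∀ n : ℕ, 0 < n → H ^ n ≠ 1) (l : ℕ) : wt H false l ≠ 1 := by
  simpa [wt] using hq (l + 1) (Nat.succ_pos l)

theorem injR (hq : ∀ n : ℕ, 0 < n → H ^ n ≠ 1) {n : ℤ} (hn : n ≠ 0)
    {β ρ : RCF k (Bool × (T × ℕ)) (E ⊗[k] M₂)} (hβ : (Q b e).Co (R b e).toSubmodule n β)
    (hD : (Q b e).D β = 0) (hρ : (Q b e).Co (R b e).toSubmodule (n - 1) ρ)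
    (h : β + σM b e * β * σM' b e = (Q b e).D ρ) :
    ∃ β', (Q b e).Co (R b e).toSubmodule (n - 1) β' ∧ (Q b e).D β' = β := by
  refine keyR b e hβ hD ?_
  ext i j
  by_contra hne
  have h1 := congrArg (fun z => ent z i j) (D_mul_U b e hρ.ent)
  simp only [← h, add_mul, ent_add, ent_σ_conj_U b e hβ, ent_zero] at h1
  have h2 : wt H i.1 i.2.2 ≠ 1 := by
    rcases (of_ent_U_ne_zero b e hβ hne).2 with ⟨rfl, h0⟩ | rfl
    · exact hq _ (by simp only; omega)
    · exact wt_false_ne_one hq _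
  refine hne ((smul_eq_zero_iff_right (one_add_ne_zero h2)).1 ?_)
  rw [add_smul, one_smul, h1]

theorem surjR (hq : ∀ n : ℕ, 0 < n → H ^ n ≠ 1)
    (hco : ∀ n β, (Q b e).Co (R b e).toSubmodule n β →
      (Q b e).Co (R b e).toSubmodule n (σM b e * β * σM' b e))
    (hH : H ≠ 0) {n : ℤ} {ξ : RCF k (Bool × (T × ℕ)) (E ⊗[k] M₂)}
    (hξ : (Q b e).Co (R b e).toSubmodule n ξ) (hD : (Q b e).D ξ = 0) :
    ∃ (c : k) (β ρ : RCF k (Bool × (T × ℕ)) (E ⊗[k] M₂)), (Q b e).Co (R b e).toSubmodule n β ∧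
      (Q b e).D β = 0 ∧ (Q b e).Co (R b e).toSubmodule (n - 1) ρ ∧
      ξ = c • (Q b e).E + β + σM b e * β * σM' b e + (Q b e).D ρ ∧ (n ≠ 0 → c = 0) := by
  obtain ⟨c, ξ', hξ', hD', h0, hc, he⟩ : ∃ (c : k) (ξ' : RCF k (Bool × (T × ℕ)) (E ⊗[k] M₂)),
      (Q b e).Co (R b e).toSubmodule n ξ' ∧ (Q b e).D ξ' = 0 ∧
      (n = 0 → (ξ' * U b e).ent (i₀ b) (i₀ b) = 0) ∧ (n ≠ 0 → c = 0) ∧
      ξ' = ξ + c • (Q b e).E := by
    by_cases hn : n = 0
    · subst hn
      obtain ⟨c, hc⟩ := exists_mul_u b e (hξ.ent (i₀ b) (i₀ b))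
      refine ⟨c, _, hξ.add ((Cx.co_E (entE b e)).smul c),
        by rw [Cx.D_add, hD, Cx.D_smul, Cx.D_E, smul_zero, add_zero], fun _ => ?_,
        fun h => absurd rfl h, rfl⟩
      rw [add_mul, smul_mul_assoc, E_mul_U, ent_add, ent_mul_U, if_pos rfl, hc, ent_smul, U,
        ent_single, if_pos ⟨rfl, rfl⟩]
      c2 k
    · exact ⟨0, ξ, hξ, hD, fun h => absurd h hn, fun _ => rfl, by simp⟩
  have hDc : ∀ β, (Q b e).D β = 0 → (Q b e).D (σM b e * β * σM' b e) = 0 := fun β h => by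
    rw [Cx.D_mul, Cx.D_mul, h, D_σM b e hH, D_σM' b e hH]; simp
  obtain ⟨a₁, ha₁, ha₁'⟩ : ∃ a₁ : k, a₁ ≠ 0 ∧ (0 < n → a₁ = 1 + wt H true n.toNat) := by
    by_cases hn : 0 < n
    · exact ⟨_, one_add_ne_zero (hq n.toNat (by omega)), fun _ => rfl⟩
    · exact ⟨1, one_ne_zero, fun h => absurd h hn⟩
  obtain ⟨a₂, ha₂, ha₂'⟩ : ∃ a₂ : k, a₂ ≠ 0 ∧ a₂ = 1 + wt H false (3 - n).toNat :=
    ⟨_, one_add_ne_zero (wt_false_ne_one hq _), rfl⟩
  obtain ⟨v, hv⟩ : ∃ v : k, v * (a₁ * a₂) = 1 := ⟨_, inv_mul_cancel₀ (mul_ne_zero ha₁ ha₂)⟩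
  set β := v • (σM b e * ξ' * σM' b e + (1 + a₁ + a₂) • ξ') with hβ
  have cβ : (Q b e).Co (R b e).toSubmodule n β := ((hco _ _ hξ').add (hξ'.smul _)).smul _
  have dβ : (Q b e).D β = 0 := by
    rw [hβ, Cx.D_smul, Cx.D_add, Cx.D_smul, hD', hDc _ hD']; simp
  obtain ⟨ρ, hρ, h⟩ := keyR b e ((hξ'.add cβ).add (hco _ _ cβ))
    (by rw [Cx.D_add, Cx.D_add, hD', dβ, hDc _ dβ]; simp) (by
      ext i j
      have e1 : (β * U b e).ent i j =
          (v * (wt H i.1 i.2.2 + (1 + a₁ + a₂))) • (ξ' * U b e).ent i j := by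
        rw [hβ, smul_mul_assoc, add_mul, smul_mul_assoc, ent_smul, ent_add, ent_smul,
          ent_σ_conj_U b e hξ', ← add_smul, smul_smul]
      rw [add_mul, add_mul, ent_add, ent_add, ent_σ_conj_U b e cβ, e1, ent_zero]
      by_cases hz : (ξ' * U b e).ent i j = 0
      · simp [hz]
      · have : 1 + wt H i.1 i.2.2 = a₁ ∨ 1 + wt H i.1 i.2.2 = a₂ := by
          obtain ⟨rfl, ⟨rfl, h1⟩ | rfl⟩ := of_ent_U_ne_zero b e hξ' hz
          · by_cases hn : n = 0
            · subst hn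
              exact absurd (h0 rfl) hz
            · exact Or.inl (ha₁' (by omega)).symm
          · exact Or.inr ha₂'.symm
        generalize wt H i.1 i.2.2 = w at *
        generalize (ξ' * U b e).ent i j = y
        clear_value β
        rcases this with rfl | rfl
        · match_scalars; grind
        · match_scalars; grind)
  refine ⟨c, β, ρ, cβ, dβ, hρ, ?_, hc⟩
  rw [h, he]; c2 k

end Asm

open Asm in
theorem exists_setup {k T A E M M₂ : Type} [Field k] [CharP k 2] [Ring A] [Algebra k A] [Ring E]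
    [Algebra k E] [Ring M] [Algebra k M] [Ring M₂] [Algebra k M₂] [DecidableEq T]
    [FiniteDimensional k E] [FiniteDimensional k M₂] {H : k} {m : ℤ} (hm : m = 4)
    (b : Base k T A E m) (e : EpsData k M M₂ H) (hH : H ≠ 0) (hq : ∀ n : ℕ, 0 < n → H ^ n ≠ 1) :
    ∃ X : Setup k (Bool × (T × ℕ)) (E ⊗[k] M₂), Nonempty ((A ⊗[k] M) ≃ₐ[k] X.R) := by
  subst hm
  obtain ⟨t, ht⟩ := b.t.exists_tensor e.t
  obtain ⟨s, hs, hDs⟩ := (DS b e).cone_contr (DS_bdd b e) (HS b e)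
  obtain ⟨κ, hκ, hDκ⟩ := exists_κ b e hH
  have coσ : (Q b e).Co (coef b e hH t ht).N 0 (σM b e) := co_bd b e (ent_bd_twist b e e.σσ _ _)
  have coσ' : (Q b e).Co (coef b e hH t ht).N' 0 (σM' b e) :=
    co_bd b e (ent_bd_twist b e e.σσ' _ _)
  refine ⟨{ coef b e hH t ht with
    Q := Q b e
    entE := entE b e
    entd := entd b e
    σ := σM b e
    σ' := σM' b e
    s := s
    κ := κ
    coσ := coσ
    coσ' := coσ'
    σ_σ' := σM_σM' b e hH
    σ'_σ := σM'_σM b e hH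
    Dσ := D_σM b e hH
    Dσ' := D_σM' b e hH
    cos := hs
    Ds := hDs
    coκ := hκ
    Dκ := hDκ
    rowR := rowR b e
    colR := colR b e
    rowB := rowB b e
    colB := colB b e
    hzB := fun n h0 h3 => hzB b e h0 h3
    honeB := honeB b e
    inj := fun n hn β ρ h1 h2 h3 h4 => injR b e hq hn h1 h2 h3 h4
    surj := fun n ξ h1 h2 => surjR b e hq (fun n β hβ =>
      (coσ.mul hβ (coef b e hH t ht).NR (zero_add n)).mul coσ' (coef b e hH t ht).NN'
        (add_zero n)) hH h1 h2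
    odd := fun a g hg => (DS b e).cone_odd (DS_bdd b e) (HS b e) (ιr b e) t
      (by simp [u, ht, b.tru, e.trεδ]) (B M₂ b).toSubmodule (coef b e hH t ht).trB (entE_B b e)
      a g hg }, ⟨AlgEquiv.ofInjective (jR b e) (jR_injective b e)⟩⟩

end Crest.Agent.R186
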