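import Crest.Agent.R186.Cx0

/-!
Two-by-two block matrices (index set `Bool × T`) and shift matrices (index set `ℕ`).
-/

set_option linter.unusedSectionVars false

namespace Crest.Agent.R186

namespace RCF

open Function

variable {k T S S' : Type} [Field k] [Ring S] [Algebra k S] [Ring S'] [Algebra k S']
  [DecidableEq T]

/-- The matrix whose block `(b, b')` is `x`, all other blocks being zero. -/
def blk (b b' : Bool) : RCF k T S →ₗ[k] RCF k (Bool × T) S where
  toFun x := mk (fun i j => if i.1 = b ∧ j.1 = b' then x.ent i.2 j.2 else 0)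
    (fun i => ((Set.finite_singleton b').prod (x.rowFin i.2)).subset fun j hj => by
      by_cases h : i.1 = b ∧ j.1 = b'
      · exact ⟨h.2, by simpa [h] using hj⟩
      · exact absurd (if_neg h) hj)
    (fun j => ((Set.finite_singleton b).prod (x.colFin j.2)).subset fun i hi => by
      by_cases h : i.1 = b ∧ j.1 = b'
      · exact ⟨h.1, by simpa [h] using hi⟩
      · exact absurd (if_neg h) hi)
  map_add' x y := by ext i j; simp only [ent_mk, ent_add]; split_ifs <;> simp
  map_smul' c x := by ext i j; simp only [ent_mk, ent_smul]; split_ifs <;> simp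

theorem ent_blk (b b' : Bool) (x : RCF k T S) (i j : Bool × T) :
    (blk b b' x).ent i j = if i.1 = b ∧ j.1 = b' then x.ent i.2 j.2 else 0 := rfl

/-- The block `(b, b')` of a matrix. -/
def sub (b b' : Bool) : RCF k (Bool × T) S →ₗ[k] RCF k T S where
  toFun x := mk (fun i j => x.ent (b, i) (b', j))
    (fun i => (x.rowFin (b, i)).preimage (f := fun j => (b', j))
      fun _ _ _ _ h => (Prod.ext_iff.1 h).2)
    (fun j => (x.colFin (b', j)).preimage (f := fun i => (b, i))
      fun _ _ _ _ h => (Prod.ext_iff.1 h).2)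
  map_add' x y := by ext i j; rfl
  map_smul' c x := by ext i j; rfl

@[simp] theorem ent_sub_blk (b b' : Bool) (x : RCF k (Bool × T) S) (i j : T) :
    (sub b b' x).ent i j = x.ent (b, i) (b', j) := rfl

theorem sub_blk (b b' c c' : Bool) (x : RCF k T S) :
    sub b b' (blk c c' x) = if b = c ∧ b' = c' then x else 0 := by
  ext i j
  rw [ent_sub_blk, ent_blk]
  split_ifs <;> rfl

theorem ext_sub {x y : RCF k (Bool × T) S} (h : ∀ b b', sub b b' x = sub b b' y) : x = y := by
  ext ⟨b, i⟩ ⟨b', j⟩
  exact congrArg (fun z => ent z i j) (h b b')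

theorem eq_blk (x : RCF k (Bool × T) S) :
    x = blk true true (sub true true x) + blk true false (sub true false x) +
      blk false true (sub false true x) + blk false false (sub false false x) := by
  refine ext_sub fun b b' => ?_
  cases b <;> cases b' <;> simp [sub_blk]

theorem sub_mul (b b' : Bool) (x y : RCF k (Bool × T) S) :
    sub b b' (x * y) = sub b true x * sub true b' y + sub b false x * sub false b' y := by
  ext i l
  obtain ⟨F, hF⟩ : ∃ F : Finset T, ∀ c j, x.ent (b, i) (c, j) ≠ 0 → j ∈ F :=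
    ⟨(x.rowFin (b, i)).toFinset.image Prod.snd, fun c j h =>
      Finset.mem_image.2 ⟨(c, j), by simpa using h, rfl⟩⟩
  rw [ent_add, ent_sub_blk, ent_mul_of_subset _ _ _ _ (Finset.univ ×ˢ F),
    ent_mul_of_subset _ _ _ _ F fun j h _ => hF _ j h,
    ent_mul_of_subset _ _ _ _ F fun j h _ => hF _ j h, Finset.sum_product]
  · simp
  · rintro ⟨c, j⟩ h _
    simpa using hF c j h

theorem blk_mul_blk (b c c' e : Bool) (x y : RCF k T S) :
    blk b c x * blk c' e y = if c = c' then blk b e (x * y) else 0 := by
  refine ext_sub fun b' e' => ?_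
  cases b <;> cases c <;> cases c' <;> cases e <;> cases b' <;> cases e' <;>
    simp [sub_mul, sub_blk]

@[simp] theorem blk_mul_blk_self (b c e : Bool) (x y : RCF k T S) :
    blk b c x * blk c e y = blk b e (x * y) := by rw [blk_mul_blk, if_pos rfl]

@[simp] theorem blk_true_mul_false (b e : Bool) (x y : RCF k T S) :
    blk b true x * blk false e y = 0 := by simp [blk_mul_blk]

@[simp] theorem blk_false_mul_true (b e : Bool) (x y : RCF k T S) :
    blk b false x * blk true e y = 0 := by simp [blk_mul_blk]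

theorem sub_mul_blk (b c e : Bool) (x : RCF k (Bool × T) S) (y : RCF k T S) :
    sub b e (x * blk c e y) = sub b c x * y := by
  cases c <;> simp [sub_mul, sub_blk]

theorem sub_blk_mul (b c e : Bool) (x : RCF k T S) (y : RCF k (Bool × T) S) :
    sub b e (blk b c x * y) = x * sub c e y := by
  cases c <;> simp [sub_mul, sub_blk]

theorem blk_injective (b b' : Bool) : Injective (blk b b' : RCF k T S → RCF k (Bool × T) S) :=
  fun x y h => by simpa [sub_blk] using congrArg (sub b b') h

theorem blk_add_blk_one : blk true true (1 : RCF k T S) + blk false false 1 = 1 := by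
  ext ⟨b, i⟩ ⟨b', j⟩
  cases b <;> cases b' <;> simp [ent_blk, ent_one]

theorem blk_single (b b' : Bool) (i j : T) (s : S) :
    blk b b' (single i j s : RCF k T S) = single (b, i) (b', j) s := by
  ext ⟨c, i'⟩ ⟨c', j'⟩
  simp only [ent_blk, ent_single, Prod.mk.injEq]
  by_cases h1 : c = b ∧ c' = b' <;> by_cases h2 : i' = i ∧ j' = j <;> (simp [h1, h2]; try tauto)

theorem diag_eq_blk (f : Bool × T → S) :
    (diag f : RCF k (Bool × T) S) =
      blk true true (diag fun t => f (true, t)) + blk false false (diag fun t => f (false, t)) := by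
  ext ⟨b, i⟩ ⟨b', j⟩
  cases b <;> cases b' <;> simp [ent_blk, ent_diag]

theorem projS_eq_blk (dg : Bool × T → ℤ) (A : Set ℤ) :
    (projS dg A : RCF k (Bool × T) S) = blk true true (projS (fun t => dg (true, t)) A) +
      blk false false (projS (fun t => dg (false, t)) A) := diag_eq_blk _

theorem mapL_blk (g : S →ₗ[k] S') (b b' : Bool) (x : RCF k T S) :
    mapL g (blk b b' x) = blk b b' (mapL g x) := by
  ext i j; simp only [ent_mapL, ent_blk]; split_ifs <;> simp

theorem map_blk (g : S →ₐ[k] S') (b b' : Bool) (x : RCF k T S) :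
    map g (blk b b' x) = blk b b' (map g x) := mapL_blk _ _ _ _

theorem mapL_sub (g : S →ₗ[k] S') (b b' : Bool) (x : RCF k (Bool × T) S) :
    mapL g (sub b b' x) = sub b b' (mapL g x) := rfl

theorem map_sub_blk (g : S →ₐ[k] S') (b b' : Bool) (x : RCF k (Bool × T) S) :
    map g (sub b b' x) = sub b b' (map g x) := rfl

theorem IsFin.blk {x : RCF k T S} (hx : IsFin x) (b b' : Bool) : IsFin (blk b b' x) := by
  refine (hx.image fun p => ((b, p.1), (b', p.2))).subset ?_
  rintro ⟨⟨c, i⟩, ⟨c', j⟩⟩ h
  simp only [Set.mem_ofPred_eq, ent_blk] at h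
  by_cases h1 : c = b ∧ c' = b'
  · rw [if_pos h1] at h
    exact ⟨(i, j), h, by simp [h1.1, h1.2]⟩
  · exact absurd (if_neg h1) h

theorem IsFin.sub {x : RCF k (Bool × T) S} (hx : IsFin x) (b b' : Bool) : IsFin (sub b b' x) :=
  hx.preimage (f := fun p : T × T => ((b, p.1), (b', p.2))) fun _ _ _ _ h => by
    simp only [Prod.mk.injEq, true_and] at h
    exact Prod.ext h.1 h.2

theorem Ent.blk {N : Submodule k S} {x : RCF k T S} (hx : Ent N x) (b b' : Bool) :
    Ent N (blk b b' x) := fun i j => by
  rw [ent_blk]; split_ifs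
  · exact hx _ _
  · exact N.zero_mem

theorem Ent.sub {N : Submodule k S} {x : RCF k (Bool × T) S} (hx : Ent N x) (b b' : Bool) :
    Ent N (sub b b' x) := fun _ _ => hx _ _

theorem Homog.blk {dg dg' : Bool × T → ℤ} {n : ℤ} {b b' : Bool} {x : RCF k T S}
    (hx : ∀ i j, x.ent i j ≠ 0 → dg' (b', j) = dg (b, i) + n) : Homog dg dg' n (blk b b' x) := by
  rintro ⟨c, i⟩ ⟨c', j⟩ h
  rw [ent_blk] at h
  by_cases h1 : c = b ∧ c' = b'
  · rw [if_pos h1] at h
    rw [h1.1, h1.2]; exact hx i j h
  · exact absurd (if_neg h1) h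

theorem Homog.sub {dg dg' : Bool × T → ℤ} {n : ℤ} {x : RCF k (Bool × T) S} (hx : Homog dg dg' n x)
    (b b' : Bool) : Homog (fun t => dg (b, t)) (fun t => dg' (b', t)) n (sub b b' x) :=
  fun _ _ h => hx _ _ h

/-! ### Shift matrices -/

/-- Entries `f i` at the places `(i, i + 1)`. -/
def up (f : ℕ → S) : RCF k ℕ S :=
  mk (fun i j => if j = i + 1 then f i else 0)
    (fun i => (Set.finite_singleton (i + 1)).subset fun j hj => by
      by_contra h
      exact hj (if_neg h))
    (fun j => (Set.finite_singleton (j - 1)).subset fun i hi => by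
      by_contra h
      exact hi (if_neg fun h' => h (by simp [h'])))

/-- Entries `f i` at the places `(i + 1, i)`. -/
def down (f : ℕ → S) : RCF k ℕ S :=
  mk (fun i j => if i = j + 1 then f j else 0)
    (fun i => (Set.finite_singleton (i - 1)).subset fun j hj => by
      by_contra h
      exact hj (if_neg fun h' => h (by simp [h'])))
    (fun j => (Set.finite_singleton (j + 1)).subset fun i hi => by
      by_contra h
      exact hi (if_neg h))

theorem ent_up (f : ℕ → S) (i j : ℕ) :
    (up f : RCF k ℕ S).ent i j = if j = i + 1 then f i else 0 := rfl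

theorem ent_down (f : ℕ → S) (i j : ℕ) :
    (down f : RCF k ℕ S).ent i j = if i = j + 1 then f j else 0 := rfl

theorem ent_up_mul (f : ℕ → S) (x : RCF k ℕ S) (i j : ℕ) :
    (up f * x).ent i j = f i * x.ent (i + 1) j := by
  rw [ent_mul_single _ _ _ _ (i + 1)]
  · simp [ent_up]
  · intro l h _
    by_contra h'
    exact h (if_neg h')

theorem ent_mul_down (f : ℕ → S) (x : RCF k ℕ S) (i j : ℕ) :
    (x * down f).ent i j = x.ent i (j + 1) * f j := by
  rw [ent_mul_single _ _ _ _ (j + 1)]
  · simp [ent_down]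
  · intro l _ h
    by_contra h'
    exact h (if_neg h')

theorem ent_down_mul_zero (f : ℕ → S) (x : RCF k ℕ S) (j : ℕ) : (down f * x).ent 0 j = 0 := by
  rw [ent_mul_single _ _ _ _ 0] <;> simp [ent_down]

theorem ent_down_mul_succ (f : ℕ → S) (x : RCF k ℕ S) (i j : ℕ) :
    (down f * x).ent (i + 1) j = f i * x.ent i j := by
  rw [ent_mul_single _ _ _ _ i]
  · simp [ent_down]
  · intro l h _
    by_contra h'
    exact h (if_neg (by omega))

theorem ent_mul_up_zero (f : ℕ → S) (x : RCF k ℕ S) (i : ℕ) : (x * up f).ent i 0 = 0 := by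
  rw [ent_mul_single _ _ _ _ 0] <;> simp [ent_up]

theorem ent_mul_up_succ (f : ℕ → S) (x : RCF k ℕ S) (i j : ℕ) :
    (x * up f).ent i (j + 1) = x.ent i j * f j := by
  rw [ent_mul_single _ _ _ _ j]
  · simp [ent_up]
  · intro l _ h
    by_contra h'
    exact h (if_neg (by omega))

theorem up_mul_down (f g : ℕ → S) : (up f * down g : RCF k ℕ S) = diag fun i => f i * g i := by
  ext i j
  rw [ent_up_mul, ent_down, ent_diag]
  by_cases h : i = j <;> simp [h]

theorem down_mul_up (f g : ℕ → S) :
    (down f * up g : RCF k ℕ S) = diag fun i => if i = 0 then 0 else f (i - 1) * g (i - 1) := by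
  ext i j
  rcases i with _ | i
  · simp [ent_down_mul_zero, ent_diag]
  · rw [ent_down_mul_succ, ent_up, ent_diag]
    by_cases h : j = i + 1
    · simp [h]
    · simp [h, Ne.symm h]

theorem up_mul_up {f g : ℕ → S} (h : ∀ i, f i * g (i + 1) = 0) : (up f * up g : RCF k ℕ S) = 0 := by
  ext i j
  rw [ent_up_mul, ent_up]
  split_ifs <;> simp [h]

theorem down_mul_down {f g : ℕ → S} (h : ∀ i, f (i + 1) * g i = 0) :
    (down f * down g : RCF k ℕ S) = 0 := by
  ext i j
  rw [ent_mul_down, ent_down]
  split_ifs <;> simp [h]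

theorem diag_mul_up (e f : ℕ → S) : (diag e * up f : RCF k ℕ S) = up fun i => e i * f i := by
  ext i j; rw [ent_diag_mul, ent_up, ent_up]; split_ifs <;> simp

theorem up_mul_diag (f e : ℕ → S) : (up f * diag e : RCF k ℕ S) = up fun i => f i * e (i + 1) := by
  ext i j; rw [ent_mul_diag, ent_up, ent_up]; split_ifs with h <;> simp [h]

theorem diag_mul_down (e f : ℕ → S) :
    (diag e * down f : RCF k ℕ S) = down fun i => e (i + 1) * f i := by
  ext i j; rw [ent_diag_mul, ent_down, ent_down]; split_ifs with h <;> simp [h]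

theorem down_mul_diag (f e : ℕ → S) : (down f * diag e : RCF k ℕ S) = down fun i => f i * e i := by
  ext i j; rw [ent_mul_diag, ent_down, ent_down]; split_ifs <;> simp

theorem diag_mul_single (e : T → S) (a b : T) (s : S) :
    (diag e * single a b s : RCF k T S) = single a b (e a * s) := by
  ext i j; rw [ent_diag_mul, ent_single, ent_single]; split_ifs with h <;> simp [h]

theorem single_mul_diag (e : T → S) (a b : T) (s : S) :
    (single a b s * diag e : RCF k T S) = single a b (s * e b) := by
  ext i j; rw [ent_mul_diag, ent_single, ent_single]; split_ifs with h <;> simp [h]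

theorem up_mul_single_zero (f : ℕ → S) (b : ℕ) (s : S) : (up f * single 0 b s : RCF k ℕ S) = 0 := by
  ext i j; simp [ent_up_mul, ent_single]

theorem up_mul_single_succ (f : ℕ → S) (a b : ℕ) (s : S) :
    (up f * single (a + 1) b s : RCF k ℕ S) = single a b (f a * s) := by
  ext i j; simp only [ent_up_mul, ent_single, Nat.add_right_cancel_iff]; split_ifs with h <;> simp [h]

theorem down_mul_single (f : ℕ → S) (a b : ℕ) (s : S) :
    (down f * single a b s : RCF k ℕ S) = single (a + 1) b (f a * s) := by
  ext i j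
  simp only [ent_mul_single', ent_single, ent_down]
  by_cases h1 : i = a + 1 <;> by_cases h2 : j = b <;> simp [h1, h2]

theorem single_zero_mul_down (f : ℕ → S) (a : ℕ) (s : S) :
    (single a 0 s * down f : RCF k ℕ S) = 0 := by
  ext i j; simp [ent_mul_down, ent_single]

theorem single_succ_mul_down (f : ℕ → S) (a b : ℕ) (s : S) :
    (single a (b + 1) s * down f : RCF k ℕ S) = single a b (s * f b) := by
  ext i j; simp only [ent_mul_down, ent_single, Nat.add_right_cancel_iff]; split_ifs with h <;> simp [h]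

theorem single_mul_up (f : ℕ → S) (a b : ℕ) (s : S) :
    (single a b s * up f : RCF k ℕ S) = single a (b + 1) (s * f b) := by
  ext i j
  simp only [ent_single_mul, ent_single, ent_up]
  by_cases h1 : i = a <;> by_cases h2 : j = b + 1 <;> simp [h1, h2]

theorem map_up (g : S →ₐ[k] S') (f : ℕ → S) : map g (up f : RCF k ℕ S) = up fun i => g (f i) := by
  ext i j; simp only [ent_map, ent_up]; split_ifs <;> simp

theorem map_down (g : S →ₐ[k] S') (f : ℕ → S) :
    map g (down f : RCF k ℕ S) = down fun i => g (f i) := by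
  ext i j; simp only [ent_map, ent_down]; split_ifs <;> simp

@[simp] theorem up_zero : (up fun _ => 0 : RCF k ℕ S) = 0 := by ext i j; simp [ent_up]

@[simp] theorem down_zero : (down fun _ => 0 : RCF k ℕ S) = 0 := by ext i j; simp [ent_down]

theorem homog_up {dg dg' : ℕ → ℤ} {n : ℤ} (h : ∀ i, dg' (i + 1) = dg i + n) (f : ℕ → S) :
    Homog dg dg' n (up f : RCF k ℕ S) := fun i j h' => by
  by_cases h1 : j = i + 1
  · rw [h1, h]
  · exact absurd (if_neg h1) h'

theorem homog_down {dg dg' : ℕ → ℤ} {n : ℤ} (h : ∀ i, dg' i = dg (i + 1) + n) (f : ℕ → S) :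
    Homog dg dg' n (down f : RCF k ℕ S) := fun i j h' => by
  by_cases h1 : i = j + 1
  · rw [h1, h]
  · exact absurd (if_neg h1) h'

end RCF

open RCF

theorem TrF.Tr_blk {k T S : Type} [Field k] [Ring S] [Algebra k S] [DecidableEq T] (t : TrF k S)
    {x : RCF k T S} (hx : IsFin x) (b : Bool) : t.Tr (blk b b x) = t.Tr x := by
  obtain ⟨F, hF⟩ := hx.exists_finset
  rw [t.Tr_eq (x := x) (F := F) fun i h => (hF i i h).1,
    t.Tr_eq (x := blk b b x) (F := F.map ⟨fun i => (b, i), fun _ _ h => (Prod.ext_iff.1 h).2⟩),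
    Finset.sum_map]
  · simp [ent_blk]
  · rintro ⟨c, i⟩ h
    rw [ent_blk] at h
    by_cases h1 : c = b
    · subst h1
      simpa using (hF i i (by simpa using h)).1
    · exact absurd (if_neg fun h2 => h1 h2.1) h

end Crest.Agent.R186
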