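import Crest.Agent.R186.Dat
import Crest.Agent.R186.Blk

/-!
The mapping cone, the base data and the datum of the dual numbers.  Definitions.
-/

set_option linter.unusedSectionVars false

namespace Crest.Agent.R186

open RCF
open scoped TensorProduct

theorem Cx.ext' {k T S : Type} [Field k] [Ring S] [Algebra k S] [DecidableEq T] {Q Q' : Cx k T S}
    (h1 : Q.dg = Q'.dg) (h2 : Q.E = Q'.E) (h3 : Q.d = Q'.d) : Q = Q' := by
  cases Q; cases Q'; simp_all

namespace Dat

variable {k T S S' : Type} [Field k] [Ring S] [Algebra k S] [Ring S'] [Algebra k S']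
  [DecidableEq T]

/-- Finiteness and boundedness of the two gradings. -/
structure Bdd (D : Dat k T S) (m : ℤ) : Prop where
  finp : ∀ a, {t | D.dp t = a}.Finite
  finl : ∀ a, {t | D.dl t = a}.Finite
  dp_le : ∀ t, D.dp t ≤ 0
  dl_ge : ∀ t, -m ≤ D.dl t

theorem Bdd.map {D : Dat k T S} {m : ℤ} (h : D.Bdd m) (g : S →ₐ[k] S') : (D.map g).Bdd m :=
  ⟨h.finp, h.finl, h.dp_le, h.dl_ge⟩

/-- The grading of the cone. -/
def cdg (D : Dat k T S) : Bool × T → ℤ
  | (true, t) => D.dp t
  | (false, t) => D.dl t + 1

@[simp] theorem cdg_true (D : Dat k T S) (t : T) : D.cdg (true, t) = D.dp t := rfl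
@[simp] theorem cdg_false (D : Dat k T S) (t : T) : D.cdg (false, t) = D.dl t + 1 := rfl

theorem cdg_map (D : Dat k T S) (g : S →ₐ[k] S') : (D.map g).cdg = D.cdg := by
  funext ⟨b, t⟩; cases b <;> rfl

variable [CharP k 2]

/-- The mapping cone of `ι`. -/
noncomputable def cone (D : Dat k T S) {m : ℤ} (hb : D.Bdd m) : Cx k (Bool × T) S where
  dg := D.cdg
  fin a := (((hb.finp a).image fun t => (true, t)).union
      ((hb.finl (a - 1)).image fun t => (false, t))).subset (by
    rintro ⟨b, t⟩ h
    cases b
    · refine Or.inr ⟨t, ?_, rfl⟩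
      simp only [Set.mem_ofPred_eq, cdg_false] at h ⊢
      omega
    · exact Or.inl ⟨t, h, rfl⟩)
  E := blk true true D.Ep + blk false false D.El
  d := blk true true D.δp + blk true false D.ι + blk false false D.δl
  EE := by simp [mul_add, add_mul, D.EpEp, D.ElEl]
  Ed := by simp [mul_add, add_mul, D.Epδ, D.Epι, D.Elδ]
  dE := by
    simp only [mul_add, add_mul, blk_mul_blk_self, blk_true_mul_false, blk_false_mul_true, D.δEp,
      D.ιEl, D.δEl, add_zero, zero_add, add_assoc]
  dd := by simp [mul_add, add_mul, D.δpδp, D.δlδl, D.δι, add_self]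
  hE := (Homog.blk fun i j h => D.hEp i j h).add (Homog.blk fun i j h => by
    have := D.hEl i j h; simp only [cdg_false]; omega)
  hd := ((Homog.blk fun i j h => D.hδp i j h).add (Homog.blk fun i j h => by
    have := D.hι i j h; simp only [cdg_false, cdg_true]; omega)).add (Homog.blk fun i j h => by
    have := D.hδl i j h; simp only [cdg_false]; omega)

theorem cone_dg (D : Dat k T S) {m : ℤ} (hb : D.Bdd m) : (D.cone hb).dg = D.cdg := rfl

theorem cone_E (D : Dat k T S) {m : ℤ} (hb : D.Bdd m) :
    (D.cone hb).E = blk true true D.Ep + blk false false D.El := rfl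

theorem cone_d (D : Dat k T S) {m : ℤ} (hb : D.Bdd m) :
    (D.cone hb).d = blk true true D.δp + blk true false D.ι + blk false false D.δl := rfl

theorem cone_map (D : Dat k T S) {m : ℤ} (hb : D.Bdd m) (g : S →ₐ[k] S') :
    (D.cone hb).map g = (D.map g).cone (hb.map g) :=
  Cx.ext' (D.cdg_map g).symm (by simp only [Cx.map_E, cone_E, map_add, map_blk]; rfl)
    (by simp only [Cx.map_d, cone_d, map_add, map_blk]; rfl)

/-- `ι` becomes a homotopy equivalence over a ring that retracts onto `S` as a left module. -/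
def ColHE (D : Dat k T S) : Prop :=
  ∃ (S' : Type) (_ : Ring S') (_ : Algebra k S') (lam : S →ₐ[k] S') (ev : S' →ₗ[k] S),
    ev 1 = 1 ∧ (∀ θ y, ev (lam y * θ) = y * ev θ) ∧ Nonempty (D.map lam).HE

end Dat

/-- The two inclusions into the tensor product. -/
noncomputable def tcomm (k S₁ S₂ : Type) [Field k] [Ring S₁] [Algebra k S₁] [Ring S₂]
    [Algebra k S₂] : Comm k S₁ S₂ (S₁ ⊗[k] S₂) where
  f₁ := Algebra.TensorProduct.includeLeft
  f₂ := Algebra.TensorProduct.includeRight
  comm a b := by
    simp [Commute, SemiconjBy, Algebra.TensorProduct.tmul_mul_tmul]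

/-- A datum over `A` resolving a one-dimensional module `χ`, together with a homotopy inverse over a
symmetric algebra `E` that retracts onto `A` as a right module. -/
structure Base (k T A E : Type) [Field k] [CharP k 2] [Ring A] [Algebra k A] [Ring E] [Algebra k E]
    [DecidableEq T] (m : ℤ) where
  D : Dat k T A
  bdd : D.Bdd m
  col : D.ColHE
  t0 : T
  dp0 : D.dp t0 = 0
  dl0 : D.dl t0 = -m
  χ : A →ₐ[k] k
  χEp : RCF.map χ D.Ep = single t0 t0 1
  χEl : RCF.map χ D.El = single t0 t0 1
  χδp : RCF.map χ D.δp = 0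
  χδl : RCF.map χ D.δl = 0
  ρ : A →ₐ[k] E
  ev : E →ₗ[k] A
  ev_one : ev 1 = 1
  ev_mul : ∀ θ y, ev (θ * ρ y) = ev θ * y
  H : (D.map ρ).HE
  u : E
  ιr : RCF.map ρ D.ι * H.r = single t0 t0 u
  ρu : ∀ a, ρ a * u = χ a • u
  t : TrF k E
  tru : t.tr u = 1
  trρ : ∀ a, t.tr (ρ a) = 0

section Eps

variable {k S S' : Type} [Field k] [CharP k 2] [Ring S] [Algebra k S] [Ring S'] [Algebra k S']

variable (k) in
/-- The periodic resolution and coresolution given by an element of square zero. -/
noncomputable def epsDat (ε : S) (h : ε * ε = 0) : Dat k ℕ S where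
  dp i := -(i : ℤ)
  dl i := i
  Ep := 1
  El := 1
  δp := down fun _ => ε
  δl := up fun _ => ε
  ι := single 0 0 ε
  EpEp := one_mul _
  Epδ := one_mul _
  δEp := mul_one _
  δpδp := down_mul_down fun _ => h
  ElEl := one_mul _
  Elδ := one_mul _
  δEl := mul_one _
  δlδl := up_mul_up fun _ => h
  Epι := one_mul _
  ιEl := mul_one _
  δι := by rw [down_mul_single, single_mul_up, h, single_zero, single_zero]
  hEp := homog_diag _ _
  hEl := homog_diag _ _
  hδp := homog_down (fun i => by push_cast; ring) _
  hδl := homog_up (fun i => by push_cast; ring) _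
  hι := homog_single (by simp) _

theorem epsDat_bdd (ε : S) (h : ε * ε = 0) : (epsDat k ε h).Bdd 0 where
  finp a := (Set.finite_singleton (-a).toNat).subset fun t ht => by
    simp only [epsDat, Set.mem_ofPred_eq, Set.mem_singleton_iff] at ht ⊢; omega
  finl a := (Set.finite_singleton a.toNat).subset fun t ht => by
    simp only [epsDat, Set.mem_ofPred_eq, Set.mem_singleton_iff] at ht ⊢; omega
  dp_le t := by simp [epsDat]
  dl_ge t := by simp [epsDat]

theorem epsDat_map (ε : S) (h : ε * ε = 0) (g : S →ₐ[k] S') :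
    (epsDat k ε h).map g = epsDat k (g ε) (by rw [← map_mul, h, map_zero]) :=
  Dat.ext' rfl rfl (map_one (RCF.map g)) (map_one (RCF.map g)) (map_down _ _) (map_up _ _)
    (map_single _ _ _ _)

/-- The homotopy inverse when `ε δ + δ ε = 1`. -/
noncomputable def epsHE {ε δ : S} (h : ε * ε = 0) (h' : ε * δ + δ * ε = 1) : (epsDat k ε h).HE where
  r := single 0 0 δ
  κp := up fun _ => δ
  κl := down fun _ => δ
  Elr := one_mul _
  rEp := mul_one _
  δr := by simp only [epsDat, up_mul_single_zero, single_zero_mul_down]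
  Epκ := one_mul _
  κEp := mul_one _
  Elκ := one_mul _
  κEl := mul_one _
  hp := by
    simp only [epsDat, down_mul_up, up_mul_down, single_mul_single]
    ext i j
    simp only [ent_add, ent_diag, ent_one, ent_single]
    by_cases h1 : i = j
    · subst h1
      by_cases h2 : i = 0
      · simp only [h2, if_true, and_self]
        linear_combination (norm := c2 k) h'
      · simp [h2, h']
    · rw [if_neg h1, if_neg h1, if_neg h1, if_neg fun h2 => h1 (h2.1.trans h2.2.symm)]
  hl := by
    simp only [epsDat, down_mul_up, up_mul_down, single_mul_single]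
    ext i j
    simp only [ent_add, ent_diag, ent_one, ent_single]
    by_cases h1 : i = j
    · subst h1
      by_cases h2 : i = 0
      · simp only [h2, if_true, and_self]
        linear_combination (norm := c2 k) h'
      · simp [h2, h']
    · rw [if_neg h1, if_neg h1, if_neg h1, if_neg fun h2 => h1 (h2.1.trans h2.2.symm)]
  hr := homog_single (by simp [epsDat]) _
  hκp := homog_up (fun i => by simp only [epsDat]; push_cast; ring) _
  hκl := homog_down (fun i => by simp only [epsDat]; push_cast; ring) _

end Eps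

end Crest.Agent.R186
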