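import Crest.Agent.R186.CDat

/-!
The homotopy inverse for columns.
-/

set_option linter.unusedSectionVars false

namespace Crest.Agent.R186

open RCF

namespace CA

variable {k : Type} [Field k] {q : k}

/-- Left multiplication. -/
def lam : CA k q →ₐ[k] Module.End k (CA k q) := Algebra.lmul k (CA k q)

@[simp] theorem lam_apply (c u : CA k q) : lam c u = c * u := rfl

/-- `[x ↦ e, z ↦ q⁻¹ y, A ↦ c a]`. -/
def ch (c : k) : Module.End k (CA k q) where
  toFun u := ⟨u.x, 0, q⁻¹ * u.z, 0, c * u.A, 0, 0, 0, 0, 0⟩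
  map_add' _ _ := by ext <;> simp [mul_add]
  map_smul' _ _ := by ext <;> simp [mul_left_comm]

@[simp] theorem ch_apply (c : k) (u : CA k q) :
    ch c u = ⟨u.x, 0, q⁻¹ * u.z, 0, c * u.A, 0, 0, 0, 0, 0⟩ := rfl

/-- `[x ↦ q⁻¹ J, z ↦ j, a ↦ f, A ↦ n]`. -/
def cp0 : Module.End k (CA k q) where
  toFun u := ⟨0, 0, 0, 0, 0, 0, q⁻¹ * u.x, u.z, u.a, u.A⟩
  map_add' _ _ := by ext <;> simp [mul_add]
  map_smul' _ _ := by ext <;> simp [mul_left_comm]

@[simp] theorem cp0_apply (u : CA k q) :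
    cp0 u = ⟨0, 0, 0, 0, 0, 0, q⁻¹ * u.x, u.z, u.a, u.A⟩ := rfl

/-- `[J ↦ e, j ↦ q⁻² y, n ↦ (q + 1)⁻¹ a]`. -/
def cl0 : Module.End k (CA k q) where
  toFun u := ⟨u.J, 0, q⁻¹ ^ 2 * u.j, 0, (q + 1)⁻¹ * u.n, 0, 0, 0, 0, 0⟩
  map_add' _ _ := by ext <;> simp [mul_add]
  map_smul' _ _ := by ext <;> simp [mul_left_comm]

@[simp] theorem cl0_apply (u : CA k q) :
    cl0 u = ⟨u.J, 0, q⁻¹ ^ 2 * u.j, 0, (q + 1)⁻¹ * u.n, 0, 0, 0, 0, 0⟩ := rfl

/-- `[A ↦ f]`. -/
def cr0 : Module.End k (CA k q) where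
  toFun u := ⟨0, 0, 0, 0, 0, 0, 0, 0, u.A, 0⟩
  map_add' _ _ := by ext <;> simp
  map_smul' _ _ := by ext <;> simp

@[simp] theorem cr0_apply (u : CA k q) : cr0 u = ⟨0, 0, 0, 0, 0, 0, 0, 0, u.A, 0⟩ := rfl

/-- The homotopy on the resolution. -/
def ckp : ℕ → Module.End k (CA k q)
  | 0 => cp0
  | i + 1 => ch (1 + q ^ i)⁻¹

/-- The homotopy on the coresolution. -/
def ckl : ℕ → Module.End k (CA k q)
  | 0 => cl0
  | i + 1 => ch (1 + q⁻¹ ^ (i + 2))⁻¹

variable [CharP k 2]

theorem col_step (hq0 : q ≠ 0) {l c c' : k} (h : (1 + l) * c = 1) (h' : (1 + q * l) * c' = 1) :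
    (lam (U l) * ch c + ch c' * lam (U (q * l)) : Module.End k (CA k q)) = lam be + 0 :=
  LinearMap.ext fun u => by ext <;> simp <;> grind

theorem col_hp0 (hq0 : q ≠ 0) : (cp0 * lam ba : Module.End k (CA k q)) = lam bf :=
  LinearMap.ext fun u => by
    ext <;> simp
    grind

theorem col_hp1 (hq0 : q ≠ 0) :
    (lam ba * cp0 + ch 0 * lam (U 1) : Module.End k (CA k q)) = lam be :=
  LinearMap.ext fun u => by ext <;> simp <;> grind

theorem col_hp2 (hq0 : q ≠ 0) {c : k} (h : (1 + q) * c = 1) :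
    (lam (U 1) * ch 0 + ch c * lam (U q) : Module.End k (CA k q)) = lam be + lam bA * cr0 :=
  LinearMap.ext fun u => by ext <;> simp <;> grind

theorem col_hp (hq0 : q ≠ 0) (hq : ∀ n : ℕ, 0 < n → q ^ n ≠ 1) (i : ℕ) :
    (if i = 0 then 0 else lam (sP (i - 1)) * ckp (i - 1)) + ckp i * lam (sP i) =
      lam (eps i) + if i = 2 then (lam bA * cr0 : Module.End k (CA k q)) else 0 := by
  have h0 : (1 + 1 : k)⁻¹ = 0 := by rw [CharTwo.add_self_eq_zero, inv_zero]
  rcases i with _ | _ | _ | i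
  · rw [if_pos rfl, if_neg (by omega), add_zero, zero_add]
    exact col_hp0 hq0
  · rw [if_neg (by omega), if_neg (by omega), add_zero]
    simp only [Nat.add_sub_cancel, eps, ckp, sP, pow_zero, h0]
    exact col_hp1 hq0
  · rw [if_neg (by omega), if_pos rfl]
    simp only [Nat.add_sub_cancel, eps, ckp, sP, pow_zero, h0, zero_add, pow_one]
    exact col_hp2 hq0 (mul_inv_cancel₀ (by simpa using one_add_ne hq 0))
  · rw [if_neg (by omega), if_neg (by omega)]
    simp only [Nat.add_sub_cancel, eps, ckp, sP]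
    rw [pow_succ' q (i + 1)]
    refine col_step hq0 (mul_inv_cancel₀ (one_add_ne hq i)) (mul_inv_cancel₀ ?_)
    rw [← pow_succ' q (i + 1)]
    exact one_add_ne hq (i + 1)

theorem col_hl0 (hq0 : q ≠ 0) (h1 : q + 1 ≠ 0) :
    (lam bJ * cl0 : Module.End k (CA k q)) = lam bf + cr0 * lam bA :=
  LinearMap.ext fun u => by ext <;> simp <;> grind

theorem col_hl1 (hq0 : q ≠ 0) (h1 : q + 1 ≠ 0) {c : k} (h : (1 + q⁻¹ ^ 2) * c = 1) :
    (lam (U (q⁻¹ ^ 2)) * ch c + cl0 * lam bJ : Module.End k (CA k q)) = lam be :=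
  LinearMap.ext fun u => by ext <;> simp <;> grind

theorem col_hl (hq0 : q ≠ 0) (hq : ∀ n : ℕ, 0 < n → q ^ n ≠ 1) (i : ℕ) :
    lam (sL i) * ckl i + (if i = 0 then 0 else ckl (i - 1) * lam (sL (i - 1))) =
      lam (eps i) + if i = 0 then (cr0 * lam bA : Module.End k (CA k q)) else 0 := by
  have h1 : q + 1 ≠ 0 := by simpa [add_comm] using one_add_ne hq 0
  have e : ∀ i, q⁻¹ ^ (i + 2) = q * q⁻¹ ^ (i + 1 + 2) := fun i => by
    rw [show i + 1 + 2 = (i + 2) + 1 by ring, pow_succ' _ (i + 2), mul_inv_cancel_left₀ hq0]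
  rcases i with _ | _ | i
  · rw [if_pos rfl, if_pos rfl, add_zero]
    exact col_hl0 hq0 h1
  · rw [if_neg (by omega), if_neg (by omega), add_zero]
    simp only [eps, ckl, sL, zero_add]
    exact col_hl1 hq0 h1 (mul_inv_cancel₀ (one_add_inv_ne hq 1))
  · rw [if_neg (by omega), if_neg (by omega)]
    simp only [Nat.add_sub_cancel, eps, ckl, sL]
    rw [e i]
    refine col_step hq0 (mul_inv_cancel₀ (one_add_inv_ne hq (i + 2))) (mul_inv_cancel₀ ?_)
    rw [← e i]
    exact one_add_inv_ne hq (i + 1)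

/-- The homotopy inverse for columns. -/
noncomputable def colHE (hq0 : q ≠ 0) (hq : ∀ n : ℕ, 0 < n → q ^ n ≠ 1) :
    ((dat hq0).map lam).HE where
  r := single 0 2 cr0
  κp := up ckp
  κl := down ckl
  Elr := by
    rw [map_El, diag_mul_single]; congr 1
    exact LinearMap.ext fun u => by ext <;> simp [eps]
  rEp := by
    rw [map_Ep, single_mul_diag]; congr 1
    exact LinearMap.ext fun u => by ext <;> simp [eps]
  δr := by
    rw [map_δl, map_δp, up_mul_single_zero, single_succ_mul_down]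
    have : (cr0 * lam (sP 1) : Module.End k (CA k q)) = 0 :=
      LinearMap.ext fun u => by
        ext <;> simp [sP]
        grind
    rw [this, single_zero]
  Epκ := by
    rw [map_Ep, diag_mul_up]; congr 1; funext i
    rcases i with _ | i <;> exact LinearMap.ext fun u => by ext <;> simp [eps, ckp]
  κEp := by
    rw [map_Ep, up_mul_diag]; congr 1; funext i
    rcases i with _ | i <;> exact LinearMap.ext fun u => by ext <;> simp [eps, ckp]
  Elκ := by
    rw [map_El, diag_mul_down]; congr 1; funext i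
    rcases i with _ | i <;> exact LinearMap.ext fun u => by ext <;> simp [eps, ckl]
  κEl := by
    rw [map_El, down_mul_diag]; congr 1; funext i
    rcases i with _ | i <;> exact LinearMap.ext fun u => by ext <;> simp [eps, ckl]
  hp := by
    rw [map_δp, map_Ep, map_ι, down_mul_up, up_mul_down, add_mul, add_mul,
      single_mul_single_of_ne (by decide), single_mul_single_of_ne (by decide), single_mul_single,
      add_zero, zero_add]
    exact diag_eq_of (col_hp hq0 hq)
  hl := by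
    rw [map_δl, map_El, map_ι, down_mul_up, up_mul_down, mul_add, mul_add,
      single_mul_single_of_ne (by decide), single_mul_single_of_ne (by decide), single_mul_single,
      add_zero, zero_add]
    exact diag_eq_of (col_hl hq0 hq)
  hr := homog_single (by simp [dat, Dat.map]) _
  hκp := homog_up (fun i => by simp only [dat, Dat.map]; push_cast; ring) _
  hκl := homog_down (fun i => by simp only [dat, Dat.map]; push_cast; ring) _

theorem dat_colHE (hq0 : q ≠ 0) (hq : ∀ n : ℕ, 0 < n → q ^ n ≠ 1) : (dat hq0).ColHE :=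
  ⟨Module.End k (CA k q), inferInstance, inferInstance, lam, LinearMap.applyₗ (1 : CA k q), rfl,
    fun _ _ => rfl, ⟨colHE hq0 hq⟩⟩

end CA

end Crest.Agent.R186
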