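import Crest.Agent.R186.CRow
import Crest.Agent.R186.CCol

/-!
The ten-dimensional algebra `C` and its base datum.
-/

namespace Crest.Agent.R186

open RCF

/-- All identities below were checked by computer (characteristic two).

The algebra `C` has the basis `e, x, y, z, a, A, J, j, f, n` (define it as a structure with ten fields),
`1 = e + f`, `e, f` orthogonal idempotents, `x, y, z ∈ e C e`, `a, A ∈ e C f`, `J, j ∈ f C e`, `n ∈ f C f`,
and the only non-zero products of two of `x, y, z, a, A, J, j, n` are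
`x y = q z`, `y x = z`, `x a = y a = A`, `a n = A`, `a J = q x + y`, `a j = z`, `A J = q z`, `J x = j`,
`J y = q² j`, `J a = (q + 1) n`, `n J = q j`.
`χ` is the coefficient of `f`; `IsSplit` uses the coefficients of `e` and `f` (the eighth power of the
kernel is zero; one may also use `IsSplit.of_sqZero` or a filtration by subspaces).
Put `U λ = x + λ y`.  The datum on `ℕ`: `dp i = -i`, `dl i = i - 2`, `Ep = El = diag (f, e, e, ...)`,
`δp = down (a, U 1, U q, U q², ...)` (entry `i ≥ 1` is `U (q ^ (i - 1))`),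
`δl = up (J, U q⁻², U q⁻³, ...)` (entry `i ≥ 1` is `U (q⁻¹ ^ (i + 1))`),
`ι = single 0 2 j + single 1 1 y + single 2 0 A`, `t0 = 0`.  (See the shift matrix lemmas in `Blk.lean`.)

Notation: `[x ↦ e, z ↦ y]` is the linear map `C → C` killing all other basis vectors.
Rows: `E = (Module.End k C)ᵐᵒᵖ`, `ρ c = op (mulRight c)`, `ev θ = θ.unop 1`, `t` from `exists_trF_end`,
`r = single 2 0 [j ↦ f]`, `u = [f ↦ f]`, `κp = up (kp i)`, `κl = down (kl i)` with
`g λ = [x ↦ e, z ↦ y, j ↦ (1 + λ q²)⁻¹ J]`, `kp 0 = [a ↦ e, A ↦ y, n ↦ (q + 1)⁻¹ J]`,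
`kp i = g (q ^ (i - 1))`, `kl 0 = [x ↦ q⁻¹ a, z ↦ q⁻¹ A, J ↦ f, j ↦ q⁻¹ n]`, `kl i = g (q⁻¹ ^ (i + 1))`
(for `i = 1` the coefficient is `0⁻¹ = 0`).  The general step is
`ρ (U λ) * g λ + g (q λ) * ρ (U (q λ)) = ρ e` if `1 + λ q² ≠ 0` and `1 + λ q³ ≠ 0`.  The trace of a right
multiplication is `6 c_e + 4 c_f = 0`.
Columns (`ColHE`): `S' = Module.End k C`, `lam c = mulLeft c` (`Algebra.lmul`), `ev θ = θ 1`,
`r = single 0 2 [A ↦ f]`, `h λ = [x ↦ e, z ↦ q⁻¹ y, A ↦ (1 + λ)⁻¹ a]`,
`kp 0 = [x ↦ q⁻¹ J, z ↦ j, a ↦ f, A ↦ n]`, `kp i = h (q ^ (i - 1))` (for `i = 1` again `0⁻¹ = 0`),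
`kl 0 = [J ↦ e, j ↦ q⁻² y, n ↦ (q + 1)⁻¹ a]`, `kl i = h (q⁻¹ ^ (i + 1))`; general step
`lam (U λ) * h λ + h (q λ) * lam (U (q λ)) = lam e` if `1 + λ ≠ 0` and `1 + q λ ≠ 0`. -/
theorem exists_baseC (k : Type) [Field k] [CharP k 2] (q : k) (hq0 : q ≠ 0)
    (hq : ∀ n : ℕ, 0 < n → q ^ n ≠ 1) :
    ∃ (C : Type) (_ : Ring C) (_ : Algebra k C) (E : Type) (_ : Ring E) (_ : Algebra k E),
      FiniteDimensional k E ∧ Nonempty (Base k ℕ C E 2) ∧ IsSplit k C (Fin 2) ∧
        ∃ x y : C, x * x = 0 ∧ y * y = 0 ∧ x * y ≠ 0 := by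
  obtain ⟨t, ht⟩ := exists_trF_end (k := k) (CA k q)
  have hχ : (RCF.map CA.chi (diag CA.eps : RCF k ℕ (CA k q))) = single 0 0 1 := by
    ext i j
    rw [map_diag, ent_diag, ent_single]
    rcases i with _ | i
    · by_cases h : 0 = j
      · simp [← h, CA.eps]
      · simp [h, Ne.symm h]
    · simp [CA.eps]
  refine ⟨CA k q, inferInstance, inferInstance, (Module.End k (CA k q))ᵐᵒᵖ, inferInstance,
    inferInstance, inferInstance, ⟨?_⟩, CA.isSplit, CA.bx, CA.by', by ext <;> simp,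
    by ext <;> simp, fun h => hq0 (by simpa using congrArg CA.z h)⟩
  exact
    { D := CA.dat hq0
      bdd := CA.dat_bdd hq0
      col := CA.dat_colHE hq0 hq
      t0 := 0
      dp0 := rfl
      dl0 := rfl
      χ := CA.chi
      χEp := hχ
      χEl := hχ
      χδp := by
        change RCF.map CA.chi (down CA.sP) = 0
        rw [map_down, ← down_zero]
        congr 1; funext i
        rcases i with _ | i <;> rfl
      χδl := by
        change RCF.map CA.chi (up CA.sL) = 0
        rw [map_up, ← up_zero]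
        congr 1; funext i
        rcases i with _ | i <;> rfl
      ρ := CA.rho
      ev := LinearMap.applyₗ (1 : CA k q) ∘ₗ (MulOpposite.opLinearEquiv k).symm.toLinearMap
      ev_one := rfl
      ev_mul := fun _ _ => rfl
      H := CA.rowHE hq0 hq
      u := CA.ru
      ιr := by
        change ((CA.dat hq0).map CA.rho).ι * single 2 0 CA.rr0 = _
        rw [CA.map_ι, add_mul, add_mul, single_mul_single, single_mul_single_of_ne (by decide),
          single_mul_single_of_ne (by decide), add_zero, add_zero, CA.rho_j_rr0]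
      ρu := fun a => CA.rext fun u => by ext <;> simp [mul_comm]
      t := t
      tru := by rw [ht, CA.trace_eq]; simp
      trρ := fun a => by
        rw [ht, CA.trace_eq]
        simp
        grind }

end Crest.Agent.R186
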