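import Crest.Agent.R186.ExtRes

/-!
Base change of the example along a field extension.
-/

namespace Crest.Agent.R186

open CategoryTheory Crest.AlgebraR
open scoped TensorProduct

universe u v

section Contr

variable {k : Type} [Field k] {E : Type u} [Field E] [Algebra k E]

/-- Contraction of the left tensor factor with a linear form. -/
noncomputable def bcContr (μ : E →ₗ[k] k) (X : Type) [AddCommGroup X] [Module k X] :
    E ⊗[k] X →ₗ[k] X :=
  (TensorProduct.lid k X).toLinearMap ∘ₗ μ.rTensor X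

@[simp] theorem bcContr_tmul (μ : E →ₗ[k] k) {X : Type} [AddCommGroup X] [Module k X]
    (a : E) (x : X) : bcContr μ X (a ⊗ₜ[k] x) = μ a • x := by
  simp [bcContr]

theorem bc_expand {I : Type u} (b : Module.Basis I k E) {X : Type} [AddCommGroup X] [Module k X]
    (z : E ⊗[k] X) (S : Finset I) (hS : ∀ i, i ∉ S → bcContr (b.coord i) X z = 0) :
    z = ∑ i ∈ S, b i ⊗ₜ[k] bcContr (b.coord i) X z := by
  classical
  have hc : ∀ i, TensorProduct.equivFinsuppOfBasisLeft b z i = bcContr (b.coord i) X z := by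
    intro i
    rw [TensorProduct.equivFinsuppOfBasisLeft_apply]
    rfl
  conv_lhs => rw [← (TensorProduct.equivFinsuppOfBasisLeft b).symm_apply_apply z,
    TensorProduct.equivFinsuppOfBasisLeft_symm_apply]
  rw [Finsupp.sum_of_support_subset _ (s := S)]
  · simp only [hc]
  · intro i hi
    by_contra hiS
    exact (Finsupp.mem_support_iff.1 hi) (by rw [hc, hS i hiS])
  · intro i _
    simp

theorem bc_finite {I : Type u} (b : Module.Basis I k E) {X : Type} [AddCommGroup X] [Module k X]
    (z : E ⊗[k] X) : {i | bcContr (b.coord i) X z ≠ 0}.Finite := by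
  classical
  refine (TensorProduct.equivFinsuppOfBasisLeft b z).support.finite_toSet.subset ?_
  intro i hi
  rw [Finset.mem_coe, Finsupp.mem_support_iff, TensorProduct.equivFinsuppOfBasisLeft_apply]
  exact hi

theorem bc_expand' {I : Type u} (b : Module.Basis I k E) {X : Type} [AddCommGroup X] [Module k X]
    (z : E ⊗[k] X) : ∃ S : Finset I, z = ∑ i ∈ S, b i ⊗ₜ[k] bcContr (b.coord i) X z := by
  refine ⟨(bc_finite b z).toFinset, bc_expand b z _ fun i hi => ?_⟩
  by_contra h
  exact hi ((bc_finite b z).mem_toFinset.2 h)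

theorem bc_eq_zero {X : Type} [AddCommGroup X] [Module k X] (z : E ⊗[k] X)
    (h : ∀ μ : E →ₗ[k] k, bcContr μ X z = 0) : z = 0 := by
  obtain ⟨S, hS⟩ := bc_expand' (Module.Basis.ofVectorSpace k E) z
  rw [hS]
  simp [h]

end Contr

section Mod

variable {k : Type} [Field k] (E : Type u) [Field E] [Algebra k E] (A : Type) [Ring A]
  [Algebra k A]

/-- The action of `E ⊗ A` on `E ⊗ X`. -/
noncomputable def bcHom (X : Type) [AddCommGroup X] [Module A X] [Module k X]
    [IsScalarTower k A X] : (E ⊗[k] A) →ₐ[k] Module.End k (E ⊗[k] X) :=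
  (Module.endTensorEndAlgHom (R := k) (S := k) (A := k) (M := E) (N := X)).comp
    (Algebra.TensorProduct.map (Algebra.lsmul k k E) (Algebra.lsmul k k X))

/-- `E ⊗ X` as a module over `E ⊗ A`. -/
@[reducible] noncomputable def bcModule (X : Type) [AddCommGroup X] [Module A X] [Module k X]
    [IsScalarTower k A X] : Module (E ⊗[k] A) (E ⊗[k] X) :=
  Module.compHom (E ⊗[k] X) (bcHom E A X).toRingHom

attribute [local instance 10] bcModule

variable {E A}
variable {X : Type} [AddCommGroup X] [Module A X] [Module k X] [IsScalarTower k A X]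
variable {Y : Type} [AddCommGroup Y] [Module A Y] [Module k Y] [IsScalarTower k A Y]

theorem bc_smul_tmul (a b : E) (r : A) (x : X) :
    (a ⊗ₜ[k] r) • (b ⊗ₜ[k] x) = (a * b) ⊗ₜ[k] (r • x) := rfl

theorem bc_smul_comm (c : E ⊗[k] A) (e : E) (z : E ⊗[k] X) : c • e • z = e • c • z := by
  induction c with
  | zero => simp
  | add c c' h h' => simp only [add_smul, smul_add, h, h']
  | tmul a r =>
    induction z with
    | zero => simp
    | add z z' h h' => simp only [smul_add, h, h']
    | tmul b x =>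
      simp only [TensorProduct.smul_tmul', bc_smul_tmul, smul_eq_mul]
      rw [mul_left_comm]

theorem bc_smulCommClass : SMulCommClass (E ⊗[k] A) E (E ⊗[k] X) := ⟨bc_smul_comm⟩

attribute [local instance] bc_smulCommClass

/-- Build an `E ⊗ A`-linear map out of `E ⊗ X`. -/
noncomputable def bcMk {W : Type u} [AddCommGroup W] [Module (E ⊗[k] A) W]
    (F : E ⊗[k] X →+ W)
    (h : ∀ (a b : E) (r : A) (x : X),
      F ((a * b) ⊗ₜ[k] (r • x)) = (a ⊗ₜ[k] r) • F (b ⊗ₜ[k] x)) :
    E ⊗[k] X →ₗ[E ⊗[k] A] W where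
  toFun := F
  map_add' := F.map_add
  map_smul' c z := by
    simp only [RingHom.id_apply]
    induction c with
    | zero => simp
    | add c c' h h' => simp only [add_smul, map_add, h, h']
    | tmul a r =>
      induction z with
      | zero => simp
      | add z z' h h' => simp only [smul_add, map_add, h, h']
      | tmul b x => rw [bc_smul_tmul, h]

theorem bc_ext {W : Type u} [AddCommGroup W] [Module (E ⊗[k] A) W]
    {f g : E ⊗[k] X →ₗ[E ⊗[k] A] W} (h : ∀ x : X, f (1 ⊗ₜ[k] x) = g (1 ⊗ₜ[k] x)) : f = g := by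
  refine LinearMap.ext fun z => ?_
  induction z with
  | zero => simp
  | add z z' h h' => simp only [map_add, h, h']
  | tmul b x =>
    have : b ⊗ₜ[k] x = (b ⊗ₜ[k] (1 : A)) • ((1 : E) ⊗ₜ[k] x) := by
      rw [bc_smul_tmul, mul_one, one_smul]
    rw [this, map_smul, map_smul, h]

variable (E) in
/-- Base change of an `A`-linear map. -/
noncomputable def bcMap (f : X →ₗ[A] Y) : E ⊗[k] X →ₗ[E ⊗[k] A] E ⊗[k] Y :=
  bcMk ((f.restrictScalars k).lTensor E).toAddMonoidHom (by
    intro a b r x
    simp [bc_smul_tmul])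

@[simp] theorem bcMap_tmul (f : X →ₗ[A] Y) (a : E) (x : X) :
    bcMap (k := k) E f (a ⊗ₜ[k] x) = a ⊗ₜ[k] f x := rfl

theorem bcMap_coe (f : X →ₗ[A] Y) :
    (bcMap (k := k) E f : E ⊗[k] X → E ⊗[k] Y) = (f.restrictScalars k).lTensor E := rfl

theorem bcMap_surjective (f : X →ₗ[A] Y) (hf : Function.Surjective f) :
    Function.Surjective (bcMap (k := k) E f) := by
  rw [bcMap_coe]
  exact LinearMap.lTensor_surjective E hf

theorem bcMap_exact {Z : Type} [AddCommGroup Z] [Module A Z] [Module k Z] [IsScalarTower k A Z]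
    (f : X →ₗ[A] Y) (g : Y →ₗ[A] Z) (h : Function.Exact f g) :
    Function.Exact (bcMap (k := k) E f) (bcMap (k := k) E g) := by
  rw [bcMap_coe, bcMap_coe]
  exact Module.Flat.lTensor_exact E h

theorem bcContr_smul (μ : E →ₗ[k] k) (r : A) (w : E ⊗[k] Y) :
    bcContr μ Y (((1 : E) ⊗ₜ[k] r) • w) = r • bcContr μ Y w := by
  induction w with
  | zero => simp
  | add z z' h h' => simp only [smul_add, map_add, h, h']
  | tmul b y => rw [bc_smul_tmul, one_mul, bcContr_tmul, bcContr_tmul, smul_comm]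

theorem bcContr_bcMap (μ : E →ₗ[k] k) (f : X →ₗ[A] Y) (w : E ⊗[k] X) :
    bcContr μ Y (bcMap E f w) = f (bcContr μ X w) := by
  induction w with
  | zero => simp
  | add z z' h h' => simp only [map_add, h, h']
  | tmul b y => rw [bcMap_tmul, bcContr_tmul, bcContr_tmul, LinearMap.map_smul_of_tower]

/-- Restriction of an `E ⊗ A`-linear map to an `A`-linear map, along a linear form on `E`. -/
noncomputable def bcRestr (μ : E →ₗ[k] k) (g : E ⊗[k] X →ₗ[E ⊗[k] A] E ⊗[k] Y) :
    X →ₗ[A] Y where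
  toFun x := bcContr μ Y (g (1 ⊗ₜ[k] x))
  map_add' x y := by rw [TensorProduct.tmul_add, map_add, map_add]
  map_smul' r x := by
    have : (1 : E) ⊗ₜ[k] (r • x) = ((1 : E) ⊗ₜ[k] r) • ((1 : E) ⊗ₜ[k] x) := by
      rw [bc_smul_tmul, mul_one]
    rw [this, map_smul, bcContr_smul, RingHom.id_apply]

theorem bcRestr_apply (μ : E →ₗ[k] k) (g : E ⊗[k] X →ₗ[E ⊗[k] A] E ⊗[k] Y) (x : X) :
    bcRestr μ g x = bcContr μ Y (g (1 ⊗ₜ[k] x)) := rfl

theorem bcRestr_finite [Module.Finite A X] {I : Type u} (b : Module.Basis I k E)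
    (g : E ⊗[k] X →ₗ[E ⊗[k] A] E ⊗[k] Y) : {i | bcRestr (b.coord i) g ≠ 0}.Finite := by
  obtain ⟨s, hs⟩ := Module.Finite.fg_top (R := A) (M := X)
  refine (s.finite_toSet.biUnion fun x _ => bc_finite b (g (1 ⊗ₜ[k] x))).subset ?_
  intro i hi
  by_contra hn
  apply hi
  refine LinearMap.ext_on hs fun x hx => ?_
  by_contra hx0
  exact hn (Set.mem_biUnion hx hx0)

variable (k E A) in
/-- The base change of a free module is free. -/
noncomputable def bcFree (r : ℕ) :
    E ⊗[k] (Fin r → A) ≃ₗ[E ⊗[k] A] (Fin r → E ⊗[k] A) :=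
  LinearEquiv.ofBijective
    (bcMk (TensorProduct.piRight k k E (fun _ : Fin r => A)).toLinearMap.toAddMonoidHom (by
      intro a b c x
      funext j
      simp [Algebra.TensorProduct.tmul_mul_tmul]))
    (TensorProduct.piRight k k E (fun _ : Fin r => A)).bijective

theorem bc_projective (r : ℕ) : Module.Projective (E ⊗[k] A) (E ⊗[k] (Fin r → A)) :=
  Module.Projective.of_equiv (bcFree k E A r).symm

theorem bc_finite_free (r : ℕ) : Module.Finite (E ⊗[k] A) (E ⊗[k] (Fin r → A)) :=
  Module.Finite.equiv (bcFree k E A r).symm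

theorem bc_lift {Z : Type} [AddCommGroup Z] [Module A Z] [Module k Z] [IsScalarTower k A Z]
    {M : Type} [AddCommGroup M] [Module A M] [Module k M] [IsScalarTower k A M]
    [Module.Finite A Y] (d₁ : X →ₗ[A] Y) (d₀ : Y →ₗ[A] Z)
    (h : ∀ g : Y →ₗ[A] M, g ∘ₗ d₁ = 0 → ∃ f : Z →ₗ[A] M, g = f ∘ₗ d₀)
    (g : E ⊗[k] Y →ₗ[E ⊗[k] A] E ⊗[k] M) (hg : g ∘ₗ bcMap E d₁ = 0) :
    ∃ f : E ⊗[k] Z →ₗ[E ⊗[k] A] E ⊗[k] M, g = f ∘ₗ bcMap E d₀ := by
  let b := Module.Basis.ofVectorSpace k E
  have h1 : ∀ i, ∃ f : Z →ₗ[A] M, bcRestr (b.coord i) g = f ∘ₗ d₀ := by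
    intro i
    apply h
    refine LinearMap.ext fun x => ?_
    have := LinearMap.congr_fun hg (1 ⊗ₜ[k] x)
    rw [LinearMap.comp_apply, bcMap_tmul, LinearMap.zero_apply] at this
    rw [LinearMap.comp_apply, bcRestr_apply, this, map_zero, LinearMap.zero_apply]
  choose f hf using h1
  have hfin := bcRestr_finite b g
  refine ⟨∑ i ∈ hfin.toFinset, b i • bcMap E (f i), bc_ext fun y => ?_⟩
  rw [LinearMap.comp_apply, bcMap_tmul, LinearMap.sum_apply,
    bc_expand b (g (1 ⊗ₜ[k] y)) hfin.toFinset]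
  · refine Finset.sum_congr rfl fun i _ => ?_
    rw [LinearMap.smul_apply, bcMap_tmul, TensorProduct.smul_tmul', smul_eq_mul, mul_one,
      ← bcRestr_apply, hf i, LinearMap.comp_apply]
  · intro i hi
    have : bcRestr (b.coord i) g = 0 := by
      by_contra hne
      exact hi (hfin.mem_toFinset.2 hne)
    rw [← bcRestr_apply, this, LinearMap.zero_apply]

theorem bc_projective_descend [Module.Projective A X] (ε : X →ₗ[A] Y)
    (hε : Function.Surjective ε) [Module.Projective (E ⊗[k] A) (E ⊗[k] Y)] :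
    Module.Projective A Y := by
  obtain ⟨s, hs⟩ := Module.projective_lifting_property (bcMap (k := k) E ε) LinearMap.id
    (bcMap_surjective ε hε)
  obtain ⟨μ, hμ⟩ := Module.Projective.exists_dual_eq_one k (one_ne_zero : (1 : E) ≠ 0)
  refine Module.Projective.of_split (bcRestr μ s) ε (LinearMap.ext fun y => ?_)
  have := LinearMap.congr_fun hs (1 ⊗ₜ[k] y)
  rw [LinearMap.comp_apply, LinearMap.id_apply] at this
  rw [LinearMap.comp_apply, bcRestr_apply, ← bcContr_bcMap, this, bcContr_tmul, hμ, one_smul,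
    LinearMap.id_apply]

theorem bc_symEx {M : Type} [AddCommGroup M] [Module A M] [Module k M] [IsScalarTower k A M]
    (h : SymEx k A M) (hs : IsSymmetricAlgebra E (E ⊗[k] A)) :
    SymEx E (E ⊗[k] A) (E ⊗[k] M) := by
  have := h.fd
  have := h.fin
  obtain ⟨r, d, ε, hε, h0, hd⟩ := exists_free_resolution k (A := A) M
  refine ⟨inferInstance, hs, ?_, ?_, ?_⟩
  · have := bc_finite_free (k := k) (E := E) (A := A) (r 0)
    exact Module.Finite.of_surjective (bcMap (k := k) E ε) (bcMap_surjective ε hε)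
  · intro hp
    exact h.nproj (bc_projective_descend (k := k) (E := E) ε hε)
  · intro i hi
    obtain ⟨n, rfl⟩ : ∃ n, i = n + 1 := ⟨i - 1, by omega⟩
    have := fun n => bc_projective (k := k) (E := E) (A := A) (r n)
    refine (ext_subsingleton_iff (fun n => E ⊗[k] (Fin (r n) → A)) (fun n => bcMap E (d n))
      (bcMap E ε) (bcMap_surjective ε hε) (bcMap_exact _ _ h0)
      (fun n => bcMap_exact _ _ (hd n)) (E ⊗[k] M) n).2 ?_
    exact bc_lift (d (n + 1)) (d n)
      ((ext_subsingleton_iff (fun n => Fin (r n) → A) d ε hε h0 hd M n).1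
        (h.ext (n + 1) (Nat.succ_pos n)))

end Mod

theorem bc_isSymmetricAlgebra {k A : Type} [Field k] [Ring A] [Algebra k A]
    [FiniteDimensional k A] (h : IsSymmetricAlgebra k A) (E : Type u) [Field E] [Algebra k E] :
    IsSymmetricAlgebra E (E ⊗[k] A) := by
  obtain ⟨φ, hφ⟩ := h
  have h1 : ∀ x y : A, φ x y = φ 1 (x * y) := fun x y => by simpa using hφ 1 1 x y
  have h2 : ∀ x y : A, φ 1 (x * y) = φ 1 (y * x) := fun x y => by
    rw [← h1]
    simpa using hφ x 1 1 y
  let lam : E ⊗[k] A →ₗ[E] E :=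
    (TensorProduct.AlgebraTensorModule.rid k E E).toLinearMap ∘ₗ LinearMap.baseChange E (φ 1)
  have hlam : ∀ (a : E) (x : A), lam (a ⊗ₜ[k] x) = φ 1 x • a := fun a x => by simp [lam]
  have htr : ∀ u w : E ⊗[k] A, lam (u * w) = lam (w * u) := by
    intro u w
    induction u with
    | zero => simp
    | add u u' h h' => simp only [add_mul, mul_add, map_add, h, h']
    | tmul a x =>
      induction w with
      | zero => simp
      | add w w' h h' => simp only [add_mul, mul_add, map_add, h, h']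
      | tmul b y =>
        rw [Algebra.TensorProduct.tmul_mul_tmul, Algebra.TensorProduct.tmul_mul_tmul, hlam, hlam,
          h2, mul_comm a b]
  have hc : ∀ (μ : E →ₗ[k] k) (u : E ⊗[k] A) (y : A),
      μ (lam (u * (1 ⊗ₜ[k] y))) = φ (bcContr μ A u) y := by
    intro μ u y
    induction u with
    | zero => simp
    | add u u' h h' => simp only [add_mul, map_add, h, h', LinearMap.add_apply]
    | tmul a x =>
      rw [Algebra.TensorProduct.tmul_mul_tmul, hlam, bcContr_tmul, map_smul, map_smul, mul_one,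
        LinearMap.smul_apply, h1 x y, smul_eq_mul, smul_eq_mul, mul_comm]
  let β : E ⊗[k] A →ₗ[E] Module.Dual E (E ⊗[k] A) := (LinearMap.mul E (E ⊗[k] A)).compr₂ lam
  have hβ : ∀ u w, β u w = lam (u * w) := fun _ _ => rfl
  have hinj : Function.Injective β := by
    rw [injective_iff_map_eq_zero]
    intro u hu
    refine bc_eq_zero u fun μ => ?_
    apply φ.injective
    refine LinearMap.ext fun y => ?_
    rw [← hc, ← hβ, hu]
    simp
  refine ⟨LinearMap.linearEquivOfInjective β hinj Subspace.dual_finrank_eq.symm, ?_⟩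
  intro a x b y
  rw [LinearMap.linearEquivOfInjective_apply, LinearMap.linearEquivOfInjective_apply, hβ, hβ,
    mul_assoc a x b, mul_assoc a, htr a]
  simp only [mul_assoc]

/-- Base change of a symmetric algebra with a self-orthogonal non-projective module.
Proof idea.  Module structure: the algebra map `E ⊗ A → End_k (E ⊗ M)` given by
`Algebra.TensorProduct.lift` (or `TensorProduct.Algebra.module`).
Symmetric: with `λ = φ 1`, the form `λ_E (a ⊗ x) = a • λ x` is a trace form, nondegenerate (expand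
in a `k`-basis of `E`, or use a `k`-basis of `A` and its `λ`-dual basis).
Ext: take a free resolution `(r, d, ε)` of `M` (`exists_free_resolution`); the maps `d n` are given
by matrices over `A`; the same matrices over `E ⊗ A` resolve `E ⊗ M` (expand along a `k`-basis
`b` of `E`: every element of `E ⊗ X` is uniquely `∑ b i ⊗ x i`, `TensorProduct` + `Basis`, or
flatness `Module.Flat.lTensor_exact`), and `Hom(free, E ⊗ M)` is a power of `E ⊗ M`, so the
criterion `ext_subsingleton_iff` passes to `E ⊗ M`.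
Not projective: if `E ⊗ M` is projective, `ε_E` has an `E ⊗ A`-linear section `s`; choose a
`k`-linear `μ : E → k` with `μ 1 = 1`; then `z ↦ (μ ⊗ id) (s (1 ⊗ z))` is an `A`-linear section
of `ε`, so `M` is projective. -/
theorem symEx_baseChange {k A M : Type} [Field k] [Ring A] [Algebra k A] [AddCommGroup M]
    [Module A M] [Module k M] [IsScalarTower k A M] (h : SymEx k A M)
    (E : Type u) [Field E] [Algebra k E] :
    ∃ (_ : Module (E ⊗[k] A) (E ⊗[k] M)),
      (∀ (a b : E) (r : A) (z : M), (a ⊗ₜ[k] r) • (b ⊗ₜ[k] z) = (a * b) ⊗ₜ[k] (r • z)) ∧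
      SymEx E (E ⊗[k] A) (E ⊗[k] M) := by
  have := h.fd
  exact ⟨bcModule E A M, bc_smul_tmul, bc_symEx h (bc_isSymmetricAlgebra h.symm E)⟩

theorem bc_baseChange_mul {k A : Type} [Field k] [Ring A] [Algebra k A] (E : Type u) [Field E]
    [Algebra k E] (N N' : Submodule k A) :
    N.baseChange E * N'.baseChange E ≤ (N * N').baseChange E := by
  rw [Submodule.baseChange_eq_span, Submodule.baseChange_eq_span, Submodule.span_mul_span,
    Submodule.span_le]
  rintro _ ⟨_, ⟨x, hx, rfl⟩, _, ⟨y, hy, rfl⟩, rfl⟩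
  simp only [TensorProduct.mk_apply, Algebra.TensorProduct.tmul_mul_tmul]
  exact Submodule.tmul_mem_baseChange_of_mem _ (Submodule.mul_mem_mul hx hy)

theorem bc_baseChange_pow {k A : Type} [Field k] [Ring A] [Algebra k A] (E : Type u) [Field E]
    [Algebra k E] (N : Submodule k A) (n : ℕ) :
    N.baseChange E ^ (n + 1) ≤ (N ^ (n + 1)).baseChange E := by
  induction n with
  | zero => simp
  | succ n ih =>
    rw [pow_succ _ (n + 1), pow_succ _ (n + 1)]
    exact (mul_le_mul_left ih _).trans (bc_baseChange_mul E _ _)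

/-- Base change of split basic algebras.
Proof idea: `ψ_E (a ⊗ x) i = a * algebraMap (ψ x i)`; its kernel is the `E`-span of the `1 ⊗ x`,
`x ∈ ker ψ` (expand in a `k`-basis of `E`), so its `n`-th power lies in the span of the
`1 ⊗ y`, `y ∈ (ker ψ)^n = ⊥`; `x ↦ 1 ⊗ x` is injective. -/
theorem isSplit4_baseChange {k A : Type} [Field k] [Ring A] [Algebra k A] {ι : Type} [Finite ι]
    (h : IsSplit4 k A ι) (E : Type u) [Field E] [Algebra k E] : IsSplit4 E (E ⊗[k] A) ι := by
  classical
  obtain ⟨ψ, hψ, ⟨n, hn⟩, x₁, x₂, x₃, x₄, h₁, h₂, h₃, h₄, hx⟩ := h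
  have := Fintype.ofFinite ι
  let ψE : E ⊗[k] A →ₐ[E] (ι → E) :=
    Algebra.TensorProduct.lift (Algebra.ofId E (ι → E))
      (((Algebra.ofId k E).compLeft ι).comp ψ) (fun _ _ => Commute.all _ _)
  have hψE : ∀ (a : E) (x : A) (i : ι), ψE (a ⊗ₜ[k] x) i = ψ x i • a := by
    intro a x i
    simp [ψE, Algebra.smul_def, mul_comm, Algebra.ofId_apply]
  have hc : ∀ (μ : E →ₗ[k] k) (u : E ⊗[k] A) (i : ι), ψ (bcContr μ A u) i = μ (ψE u i) := by
    intro μ u i
    induction u with
    | zero => simp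
    | add u u' h h' => simp only [map_add, Pi.add_apply, h, h']
    | tmul a x =>
      rw [bcContr_tmul, hψE, map_smul, map_smul, Pi.smul_apply, smul_eq_mul, smul_eq_mul, mul_comm]
  have hker : LinearMap.ker ψE.toLinearMap ≤ (LinearMap.ker ψ.toLinearMap).baseChange E := by
    intro u hu
    obtain ⟨S, hS⟩ := bc_expand' (Module.Basis.ofVectorSpace k E) u
    rw [hS]
    refine Submodule.sum_mem _ fun i _ => Submodule.tmul_mem_baseChange_of_mem _ ?_
    have hu' : ψE u = 0 := hu
    change ψ _ = 0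
    funext j
    rw [hc, hu']
    simp
  have h0 : ∀ x : A, ψ x = 0 → ψE (1 ⊗ₜ[k] x) = 0 := by
    intro x hx
    funext j
    rw [hψE, hx]
    simp
  refine ⟨ψE, ?_, ⟨n + 1, ?_⟩, 1 ⊗ₜ[k] x₁, 1 ⊗ₜ[k] x₂, 1 ⊗ₜ[k] x₃, 1 ⊗ₜ[k] x₄, h0 _ h₁, h0 _ h₂,
    h0 _ h₃, h0 _ h₄, ?_⟩
  · intro w
    choose e he using fun i : ι => hψ (Pi.single i 1)
    refine ⟨∑ i, w i ⊗ₜ[k] e i, funext fun j => ?_⟩
    rw [map_sum, Finset.sum_apply]
    simp only [hψE, he, Pi.single_apply]
    simp
  · rw [Submodule.zero_eq_bot, eq_bot_iff]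
    refine (pow_le_pow_left' hker _).trans ((bc_baseChange_pow E _ n).trans ?_)
    rw [pow_succ, hn, zero_mul, Submodule.zero_eq_bot, Submodule.baseChange_bot]
  · intro h
    apply hx
    apply Algebra.TensorProduct.includeRight_injective (R := k) (A := E) (B := A)
      (algebraMap k E).injective
    simpa using h

end Crest.Agent.R186
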