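import Mathlib
import Crest.Prelude.Def_SymmetricAlgebra

/-!
Shared definitions for result 186 (counterexamples to the Tachikawa, Auslander–Reiten,
Nakayama, finitistic dimension and Wakamatsu conjectures).
-/

namespace Crest.Agent.R186

open CategoryTheory Crest.AlgebraR

universe u v

/-- `A` is split basic with simple modules indexed by `ι`: a surjective algebra map onto `ι → k`
whose kernel (as a `k`-submodule) is nilpotent. -/
def IsSplit (k : Type v) (A : Type u) [Field k] [Ring A] [Algebra k A] (ι : Type) : Prop :=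
  ∃ ψ : A →ₐ[k] (ι → k), Function.Surjective ψ ∧ IsNilpotent (LinearMap.ker ψ.toLinearMap)

/-- `IsSplit` together with: the fourth power of the radical is not zero. -/
def IsSplit4 (k : Type v) (A : Type u) [Field k] [Ring A] [Algebra k A] (ι : Type) : Prop :=
  ∃ ψ : A →ₐ[k] (ι → k), Function.Surjective ψ ∧ IsNilpotent (LinearMap.ker ψ.toLinearMap) ∧
    ∃ x₁ x₂ x₃ x₄ : A, ψ x₁ = 0 ∧ ψ x₂ = 0 ∧ ψ x₃ = 0 ∧ ψ x₄ = 0 ∧ x₁ * x₂ * x₃ * x₄ ≠ 0

/-- A symmetric algebra with a non-projective finitely generated module without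
self-extensions. -/
structure SymEx (k : Type v) (A M : Type u) [Field k] [Ring A] [Algebra k A] [AddCommGroup M]
    [Module A M] : Prop where
  fd : FiniteDimensional k A
  symm : IsSymmetricAlgebra k A
  fin : Module.Finite A M
  nproj : ¬ Module.Projective A M
  ext : ∀ i : ℕ, 0 < i → Subsingleton (Abelian.Ext (ModuleCat.of A M) (ModuleCat.of A M) i)

/-- The conclusion of the core construction over a field `k`. -/
def CoreEx (k : Type) [Field k] : Prop :=
  ∃ (A : Type) (_ : Ring A) (_ : Algebra k A) (M : Type) (_ : AddCommGroup M) (_ : Module A M),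
    SymEx k A M ∧ IsSplit4 k A (Fin 8)

/-- What is needed about `Γ = End_A (A × M)`: a finite-dimensional algebra, not self-injective,
with a finitely generated projective-injective module `W`, a coresolution of `Γ` by finite powers
of `W` and a simple module without non-zero maps to `W`. -/
def GammaEx (K : Type u) [Field K] : Prop :=
  ∃ (Γ : Type u) (_ : Ring Γ) (_ : Algebra K Γ), FiniteDimensional K Γ ∧
    ∃ (W : Type u) (_ : AddCommGroup W) (_ : Module Γ W), Module.Finite Γ W ∧
      Module.Projective Γ W ∧ Module.Injective Γ W ∧ ¬ Module.Injective Γ Γ ∧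
      (∃ (r : ℕ → ℕ) (ε : Γ →ₗ[Γ] (Fin (r 0) → W))
        (d : ∀ j : ℕ, (Fin (r j) → W) →ₗ[Γ] (Fin (r (j + 1)) → W)),
        Function.Injective ε ∧ Function.Exact ε (d 0) ∧
          ∀ j, Function.Exact (d j) (d (j + 1))) ∧
      ∃ (S : Type u) (_ : AddCommGroup S) (_ : Module Γ S), IsSimpleModule Γ S ∧
        ∀ f : S →ₗ[Γ] W, f = 0

end Crest.Agent.R186
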