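import Crest.Agent.R186.Setup
import Crest.Agent.R186.Defs

/-!
Auxiliary lemmas for `Lam.lean`: algebras from structure constants, nilpotent submodules.
-/

namespace Crest.Agent.R186.LamAux

open scoped TensorProduct

variable {k : Type} [Field k]

/-- The quotient of an associative unital multiplication by a two-sided ideal, realised as the
image of the left regular representation on the quotient space. -/
theorem exists_alg_quot (V : Type) [AddCommGroup V] [Module k V] [FiniteDimensional k V]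
    (m : V →ₗ[k] V →ₗ[k] V) (e : V) (K : Submodule k V)
    (assoc : ∀ x y z, m (m x y) z = m x (m y z)) (one_mul : ∀ x, m e x = x)
    (mul_one : ∀ x, m x e = x) (hl : ∀ x, ∀ y ∈ K, m x y ∈ K) (hr : ∀ x ∈ K, ∀ y, m x y ∈ K) :
    ∃ (A : Type) (_ : Ring A) (_ : Algebra k A), FiniteDimensional k A ∧
      ∃ ψ : V →ₗ[k] A, Function.Surjective ψ ∧ (∀ x, ψ x = 0 ↔ x ∈ K) ∧
        (∀ x y, ψ x * ψ y = ψ (m x y)) ∧ ψ e = 1 := by
  let ρ : V →ₗ[k] Module.End k (V ⧸ K) :=
    { toFun := fun x => K.mapQ K (m x) (hl x)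
      map_add' := fun x y => by
        ext z
        simp
      map_smul' := fun c x => by
        ext z
        simp }
  have hρ : ∀ x y, ρ x (K.mkQ y) = K.mkQ (m x y) := fun x y => rfl
  have hmul : ∀ x y, ρ x * ρ y = ρ (m x y) := by
    intro x y
    refine LinearMap.ext fun z => ?_
    obtain ⟨z, rfl⟩ := K.mkQ_surjective z
    rw [Module.End.mul_apply, hρ, hρ, hρ, assoc]
  have hone : ρ e = 1 := by
    refine LinearMap.ext fun z => ?_
    obtain ⟨z, rfl⟩ := K.mkQ_surjective z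
    rw [hρ, one_mul, Module.End.one_apply]
  let A : Subalgebra k (Module.End k (V ⧸ K)) :=
    (LinearMap.range ρ).toSubalgebra ⟨e, hone⟩ (by
      rintro _ _ ⟨x, rfl⟩ ⟨y, rfl⟩
      exact ⟨m x y, (hmul x y).symm⟩)
  let ψ : V →ₗ[k] A := ρ.codRestrict A.toSubmodule fun x => ⟨x, rfl⟩
  refine ⟨A, inferInstance, inferInstance, inferInstance, ψ, ?_, ?_, ?_, ?_⟩
  · rintro ⟨_, x, rfl⟩
    exact ⟨x, rfl⟩
  · intro x
    rw [Subtype.ext_iff]
    change ρ x = 0 ↔ _
    constructor
    · intro h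
      have := hρ x e
      rw [h, mul_one, LinearMap.zero_apply] at this
      exact (Submodule.Quotient.mk_eq_zero K).1 this.symm
    · intro h
      refine LinearMap.ext fun z => ?_
      obtain ⟨z, rfl⟩ := K.mkQ_surjective z
      rw [hρ, LinearMap.zero_apply]
      exact (Submodule.Quotient.mk_eq_zero K).2 (hr x h z)
  · intro x y
    exact Subtype.ext (hmul x y)
  · exact Subtype.ext hone

/-- An algebra from structure constants. -/
theorem exists_alg (V : Type) [AddCommGroup V] [Module k V] [FiniteDimensional k V]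
    (m : V →ₗ[k] V →ₗ[k] V) (e : V)
    (assoc : ∀ x y z, m (m x y) z = m x (m y z)) (one_mul : ∀ x, m e x = x)
    (mul_one : ∀ x, m x e = x) :
    ∃ (A : Type) (_ : Ring A) (_ : Algebra k A), FiniteDimensional k A ∧
      ∃ ψ : V ≃ₗ[k] A, (∀ x y, ψ x * ψ y = ψ (m x y)) ∧ ψ e = 1 := by
  obtain ⟨A, _, _, hA, ψ, h1, h2, h3, h4⟩ := exists_alg_quot V m e ⊥ assoc one_mul mul_one
    (fun x y hy => by rw [(Submodule.mem_bot k).1 hy, map_zero]; exact zero_mem _)
    (fun x hx y => by rw [(Submodule.mem_bot k).1 hx, map_zero]; exact zero_mem _)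
  have hi : Function.Injective ψ :=
    (injective_iff_map_eq_zero ψ).2 fun x hx => (Submodule.mem_bot k).1 ((h2 x).1 hx)
  exact ⟨A, inferInstance, inferInstance, hA, LinearEquiv.ofBijective ψ ⟨hi, h1⟩, h3, h4⟩

section mul4
variable {S : Type} [Ring S] [Algebra k S]

theorem mul4_assoc (x y z : S × S × S × S) : mul4 (mul4 x y) z = mul4 x (mul4 y z) := by
  simp only [mul4, Prod.mk.injEq]
  refine ⟨mul_assoc _ _ _, mul_assoc _ _ _, ?_, ?_⟩ <;> noncomm_ring

theorem one_mul4 (x : S × S × S × S) : mul4 (1, 1, 0, 0) x = x := by simp [mul4]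

theorem mul4_one (x : S × S × S × S) : mul4 x (1, 1, 0, 0) = x := by simp [mul4]

variable (c : Coef k S)

theorem pat_mul4 {x y : S × S × S × S} (hx : c.Pat x) (hy : c.Pat y) : c.Pat (mul4 x y) := by
  refine ⟨c.R.mul_mem hx.1 hy.1, c.R.mul_mem hx.2.1 hy.2.1, ?_⟩
  have : (mul4 x y).2.2.1 + (mul4 x y).2.2.2 =
      x.1 * (y.2.2.1 + y.2.2.2) + (x.2.2.1 + x.2.2.2) * y.2.1 := by
    simp only [mul4]; noncomm_ring
  rw [this]
  exact add_mem (c.BP _ (c.RB hx.1) _ hy.2.2) (c.PB _ hx.2.2 _ (c.RB hy.2.1))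

theorem pat_diag {a b : S} (ha : a ∈ c.R) (hb : b ∈ c.R) : c.Pat (a, b, 0, 0) :=
  ⟨ha, hb, by simp⟩

/-- the admissible quadruples -/
def patSub : Submodule k (S × S × S × S) where
  carrier := {x | c.Pat x}
  add_mem' {x y} hx hy := ⟨add_mem hx.1 hy.1, add_mem hx.2.1 hy.2.1, by
    have : (x + y).2.2.1 + (x + y).2.2.2 = (x.2.2.1 + x.2.2.2) + (y.2.2.1 + y.2.2.2) := by
      simp only [Prod.fst_add, Prod.snd_add]; abel
    rw [this]; exact add_mem hx.2.2 hy.2.2⟩
  zero_mem' := ⟨zero_mem _, zero_mem _, by simp⟩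
  smul_mem' a x hx := ⟨c.R.smul_mem hx.1 a, c.R.smul_mem hx.2.1 a, by
    have : (a • x).2.2.1 + (a • x).2.2.2 = a • (x.2.2.1 + x.2.2.2) := by simp
    rw [this]; exact c.P.smul_mem a hx.2.2⟩

theorem pat_sub {x y : S × S × S × S} (hx : c.Pat x) (hy : c.Pat y) : c.Pat (x - y) :=
  (patSub c).sub_mem hx hy

/-- the multiplication of admissible quadruples -/
def patMul : patSub c →ₗ[k] patSub c →ₗ[k] patSub c :=
  LinearMap.mk₂ k (fun x y => ⟨mul4 x.1 y.1, pat_mul4 c x.2 y.2⟩)
    (fun x x' y => Subtype.ext (by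
      simp only [mul4, Submodule.coe_add, Prod.fst_add, Prod.snd_add, Prod.mk_add_mk,
        Prod.mk.injEq]
      refine ⟨?_, ?_, ?_, ?_⟩ <;> noncomm_ring))
    (fun a x y => Subtype.ext (by simp [mul4]))
    (fun x y y' => Subtype.ext (by
      simp only [mul4, Submodule.coe_add, Prod.fst_add, Prod.snd_add, Prod.mk_add_mk,
        Prod.mk.injEq]
      refine ⟨?_, ?_, ?_, ?_⟩ <;> noncomm_ring))
    (fun a x y => Subtype.ext (by simp [mul4]))

theorem coe_patMul (x y : patSub c) : (patMul c x y : S × S × S × S) = mul4 x.1 y.1 := rfl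

/-- the ideal `0 × 0 × R × N` -/
def patKer : Submodule k (patSub c) where
  carrier := {x | x.1.1 = 0 ∧ x.1.2.1 = 0 ∧ x.1.2.2.1 ∈ c.R ∧ x.1.2.2.2 ∈ c.N}
  add_mem' {x y} hx hy := ⟨by simp [hx.1, hy.1], by simp [hx.2.1, hy.2.1],
    add_mem hx.2.2.1 hy.2.2.1, add_mem hx.2.2.2 hy.2.2.2⟩
  zero_mem' := ⟨rfl, rfl, zero_mem _, zero_mem _⟩
  smul_mem' a x hx := ⟨by simp [hx.1], by simp [hx.2.1], c.R.smul_mem hx.2.2.1 a,
    c.N.smul_mem a hx.2.2.2⟩

theorem patKer_left (x y : patSub c) (hy : y ∈ patKer c) : patMul c x y ∈ patKer c := by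
  obtain ⟨h1, h2, h3, h4⟩ := hy
  refine ⟨?_, ?_, ?_, ?_⟩ <;> simp only [coe_patMul, mul4, h1, h2, mul_zero, add_zero]
  · exact c.R.mul_mem x.2.1 h3
  · exact c.RN _ x.2.1 _ h4

theorem patKer_right (x : patSub c) (hx : x ∈ patKer c) (y : patSub c) :
    patMul c x y ∈ patKer c := by
  obtain ⟨h1, h2, h3, h4⟩ := hx
  refine ⟨?_, ?_, ?_, ?_⟩ <;> simp only [coe_patMul, mul4, h1, h2, zero_mul, zero_add]
  · exact c.R.mul_mem h3 y.2.2.1
  · exact c.NR _ h4 _ y.2.2.1

end mul4

section triv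
variable (Λ : Type) [Ring Λ] [Algebra k Λ]

/-- the multiplication of the trivial extension -/
def trivMul : (Λ × Module.Dual k Λ) →ₗ[k] (Λ × Module.Dual k Λ) →ₗ[k] (Λ × Module.Dual k Λ) :=
  LinearMap.mk₂ k
    (fun x y => (x.1 * y.1, y.2 ∘ₗ LinearMap.mulRight k x.1 + x.2 ∘ₗ LinearMap.mulLeft k y.1))
    (fun x x' y => Prod.ext (add_mul _ _ _) (LinearMap.ext fun z => by
      simp [mul_add]; abel))
    (fun a x y => Prod.ext (smul_mul_assoc _ _ _) (LinearMap.ext fun z => by simp))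
    (fun x y y' => Prod.ext (mul_add _ _ _) (LinearMap.ext fun z => by
      simp [add_mul]; abel))
    (fun a x y => Prod.ext (mul_smul_comm _ _ _) (LinearMap.ext fun z => by simp))

variable {Λ}

theorem trivMul_fst (x y : Λ × Module.Dual k Λ) : (trivMul Λ x y).1 = x.1 * y.1 := rfl

theorem trivMul_snd (x y : Λ × Module.Dual k Λ) (z : Λ) :
    (trivMul Λ x y).2 z = y.2 (z * x.1) + x.2 (y.1 * z) := rfl

theorem trivMul_assoc (x y z : Λ × Module.Dual k Λ) :
    trivMul Λ (trivMul Λ x y) z = trivMul Λ x (trivMul Λ y z) :=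
  Prod.ext (mul_assoc _ _ _) (LinearMap.ext fun w => by
    simp only [trivMul_fst, trivMul_snd, mul_assoc, add_assoc])

theorem one_trivMul (x : Λ × Module.Dual k Λ) : trivMul Λ (1, 0) x = x :=
  Prod.ext (one_mul _) (LinearMap.ext fun w => by simp [trivMul_snd])

theorem trivMul_one (x : Λ × Module.Dual k Λ) : trivMul Λ x (1, 0) = x :=
  Prod.ext (mul_one _) (LinearMap.ext fun w => by simp [trivMul_snd])

end triv

section nil
variable {A B : Type} [Ring A] [Algebra k A] [Ring B] [Algebra k B]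

theorem nil_mono {I J : Submodule k A} (h : I ≤ J) (hJ : IsNilpotent J) : IsNilpotent I := by
  obtain ⟨n, hn⟩ := hJ
  exact ⟨n, le_bot_iff.1 ((pow_le_pow_left' h n).trans hn.le)⟩

theorem map_pow_eq_zero (f : A →ₐ[k] B) {I : Submodule k A} {J : Submodule k B}
    (h : ∀ x ∈ I, f x ∈ J) {n : ℕ} (hn : J ^ n = 0) : ∀ x ∈ I ^ n, f x = 0 := by
  intro x hx
  have h1 : I.map f.toLinearMap ≤ J := by
    rintro _ ⟨y, hy, rfl⟩
    exact h y hy
  have h2 : f x ∈ (I ^ n).map f.toLinearMap := ⟨x, hx, rfl⟩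
  rw [Submodule.map_pow] at h2
  have h3 := pow_le_pow_left' h1 n h2
  rw [hn] at h3
  exact (Submodule.mem_bot k).1 h3

theorem nil_sup {I J : Submodule k A} (hI : IsNilpotent I) (hJ : IsNilpotent J)
    (hl : ⊤ * J ≤ J) (hr : J * ⊤ ≤ J) : IsNilpotent (I ⊔ J) := by
  obtain ⟨n, hn⟩ := hI
  obtain ⟨n', hn'⟩ := hJ
  have h : ∀ m, (I ⊔ J) ^ m ≤ I ^ m ⊔ J := by
    intro m
    induction m with
    | zero => simp
    | succ m ih =>
      rw [pow_succ, pow_succ]
      refine (mul_le_mul_left ih _).trans ?_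
      rw [Submodule.sup_mul, Submodule.mul_sup]
      refine sup_le (sup_le le_sup_left (le_sup_of_le_right ?_)) (le_sup_of_le_right ?_)
      · exact (mul_le_mul_left le_top _).trans hl
      · exact (mul_le_mul_right le_top _).trans hr
  have h2 := h n
  rw [hn, Submodule.zero_eq_bot, bot_sup_eq] at h2
  exact ⟨n * n', by
    rw [pow_mul]
    exact le_bot_iff.1 ((pow_le_pow_left' h2 n').trans hn'.le)⟩

/-- the span of the pure tensors -/
def tens (M : Submodule k A) (N : Submodule k B) : Submodule k (A ⊗[k] B) :=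
  Submodule.map₂ (TensorProduct.mk k A B) M N

theorem tmul_mem_tens {M : Submodule k A} {N : Submodule k B} {a : A} {b : B} (ha : a ∈ M)
    (hb : b ∈ N) : a ⊗ₜ[k] b ∈ tens M N := Submodule.apply_mem_map₂ _ ha hb

theorem tens_mul {M M' M'' : Submodule k A} {N N' N'' : Submodule k B} (hM : M * M' ≤ M'')
    (hN : N * N' ≤ N'') : tens M N * tens M' N' ≤ tens M'' N'' := by
  rw [Submodule.mul_le]
  intro x hx y hy
  have h1 : tens M N ≤ (tens M'' N'').comap (LinearMap.mulRight k y) := by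
    refine Submodule.map₂_le.2 fun a ha b hb => ?_
    have h2 : tens M' N' ≤ (tens M'' N'').comap (LinearMap.mulLeft k (a ⊗ₜ[k] b)) := by
      refine Submodule.map₂_le.2 fun a' ha' b' hb' => ?_
      change (a ⊗ₜ[k] b) * (a' ⊗ₜ[k] b') ∈ tens M'' N''
      rw [Algebra.TensorProduct.tmul_mul_tmul]
      exact tmul_mem_tens (hM (Submodule.mul_mem_mul ha ha')) (hN (Submodule.mul_mem_mul hb hb'))
    exact h2 hy
  exact h1 hx

theorem tens_top : tens (⊤ : Submodule k A) (⊤ : Submodule k B) = ⊤ := by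
  rw [eq_top_iff]
  rintro x -
  induction x using TensorProduct.induction_on with
  | zero => exact zero_mem _
  | tmul a b => exact tmul_mem_tens trivial trivial
  | add x y hx hy => exact add_mem hx hy

theorem nil_tens_left {M : Submodule k A} (hM : IsNilpotent M) :
    IsNilpotent (tens M (⊤ : Submodule k B)) := by
  obtain ⟨n, hn⟩ := hM
  have h : ∀ m, tens M (⊤ : Submodule k B) ^ m ≤ tens (M ^ m) ⊤ := by
    intro m
    induction m with
    | zero =>
      rw [pow_zero, pow_zero, Submodule.one_le, Algebra.TensorProduct.one_def]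
      exact tmul_mem_tens (Submodule.one_le.1 le_rfl) trivial
    | succ m ih =>
      rw [pow_succ, pow_succ]
      exact (mul_le_mul_left ih _).trans (tens_mul le_rfl le_top)
  have h2 := h n
  rw [hn, Submodule.zero_eq_bot, tens, tens, Submodule.map₂_bot_left] at h2
  exact ⟨n, le_bot_iff.1 h2⟩

theorem nil_tens_right {N : Submodule k B} (hN : IsNilpotent N) :
    IsNilpotent (tens (⊤ : Submodule k A) N) := by
  obtain ⟨n, hn⟩ := hN
  have h : ∀ m, tens (⊤ : Submodule k A) N ^ m ≤ tens ⊤ (N ^ m) := by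
    intro m
    induction m with
    | zero =>
      rw [pow_zero, pow_zero, Submodule.one_le, Algebra.TensorProduct.one_def]
      exact tmul_mem_tens trivial (Submodule.one_le.1 le_rfl)
    | succ m ih =>
      rw [pow_succ, pow_succ]
      exact (mul_le_mul_left ih _).trans (tens_mul le_top le_rfl)
  have h2 := h n
  rw [hn, Submodule.zero_eq_bot, tens, tens, Submodule.map₂_bot_right] at h2
  exact ⟨n, le_bot_iff.1 h2⟩

end nil

end Crest.Agent.R186.LamAux
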