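import Crest.Agent.R186.Setup
import Crest.Agent.R186.Defs
import Crest.Agent.R186.LamAux

/-!
The triangular algebra, the trivial extension, and split basic algebras.
-/

namespace Crest.Agent.R186

open Crest.AlgebraR LamAux
open scoped TensorProduct

variable {k : Type} [Field k]

/-- Construction: the admissible quadruples form a subalgebra `Λ'` of `Matrix (Fin 3) (Fin 3) S`
(`!![α, θ₁, θ₂; 0, β, 0; 0, 0, β]`), or define the ring structure `mul4` directly; `𝔎 = 0 × 0 × R × N` is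
a two-sided ideal (it consists of admissible quadruples since `R, N ≤ B ≤ P`); `Λ = Λ' ⧸ 𝔎`.
`φ` is the quotient map composed with a linear retraction onto the admissible quadruples, `sec` a
linear section. -/
theorem exists_lamData {S : Type} [Ring S] [Algebra k S] [FiniteDimensional k S] (c : Coef k S) :
    ∃ (Λ : Type) (_ : Ring Λ) (_ : Algebra k Λ), FiniteDimensional k Λ ∧
      Nonempty (LamData c Λ) := by
  obtain ⟨Λ, _, _, hΛ, ψ, h1, h2, h3, h4⟩ := exists_alg_quot (patSub c) (patMul c)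
    ⟨(1, 1, 0, 0), pat_diag c (one_mem _) (one_mem _)⟩ (patKer c)
    (fun x y z => Subtype.ext (mul4_assoc _ _ _)) (fun x => Subtype.ext (one_mul4 _))
    (fun x => Subtype.ext (mul4_one _)) (patKer_left c) (patKer_right c)
  obtain ⟨π, hπ⟩ := (patSub c).subtype.exists_leftInverse_of_injective (patSub c).ker_subtype
  obtain ⟨s, hs⟩ := ψ.exists_rightInverse_of_surjective (LinearMap.range_eq_top.2 h1)
  have hπ' : ∀ x (hx : c.Pat x), π x = ⟨x, hx⟩ := fun x hx =>
    LinearMap.congr_fun hπ ⟨x, hx⟩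
  refine ⟨Λ, inferInstance, inferInstance, hΛ, ⟨⟨ψ ∘ₗ π, (patSub c).subtype ∘ₗ s,
    fun l => (s l).2, fun l => ?_, fun x y hx hy => ?_, fun x hx => ?_, ?_⟩⟩⟩
  · change ψ (π (s l).1) = l
    rw [hπ' _ (s l).2]
    exact LinearMap.congr_fun hs l
  · change ψ (π x) * ψ (π y) = ψ (π (mul4 x y))
    rw [hπ' x hx, hπ' y hy, hπ' _ (pat_mul4 c hx hy), h3]
    rfl
  · change ψ (π x) = 0 ↔ _
    rw [hπ' x hx, h2]
    rfl
  · change ψ (π (1, 1, 0, 0)) = 1
    rw [hπ' _ (pat_diag c (one_mem _) (one_mem _)), h4]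

/-- The projection onto the diagonal, `l ↦ ((sec l).1, (sec l).2.1)`. -/
theorem LamData.exists_pr {S : Type} [Ring S] [Algebra k S] {c : Coef k S} {Λ : Type} [Ring Λ]
    [Algebra k Λ] (L : LamData c Λ) :
    ∃ pr : Λ →ₐ[k] c.R × c.R, (∀ x, c.Pat x → ((pr (L.φ x)).1 : S) = x.1 ∧
      ((pr (L.φ x)).2 : S) = x.2.1) ∧ (∀ x y, pr x = 0 → pr y = 0 → x * y = 0) ∧
      ∃ j : c.R × c.R →ₐ[k] Λ, ∀ r, pr (j r) = r := by
  have key : ∀ x, c.Pat x → (L.sec (L.φ x)).1 = x.1 ∧ (L.sec (L.φ x)).2.1 = x.2.1 := by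
    intro x hx
    have h := (L.ker _ (pat_sub c (L.pat_sec (L.φ x)) hx)).1 (by rw [map_sub, L.φ_sec, sub_self])
    exact ⟨sub_eq_zero.1 h.1, sub_eq_zero.1 h.2.1⟩
  have hmul : ∀ x y : Λ, x * y = L.φ (mul4 (L.sec x) (L.sec y)) := fun x y => by
    rw [← L.mul _ _ (L.pat_sec x) (L.pat_sec y), L.φ_sec, L.φ_sec]
  let pr₀ : Λ →ₗ[k] c.R × c.R :=
    { toFun := fun l => (⟨(L.sec l).1, (L.pat_sec l).1⟩, ⟨(L.sec l).2.1, (L.pat_sec l).2.1⟩)
      map_add' := fun x y => by ext <;> simp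
      map_smul' := fun a x => by ext <;> simp }
  have h1 : ∀ l, ((pr₀ l).1 : S) = (L.sec l).1 := fun _ => rfl
  have h2 : ∀ l, ((pr₀ l).2 : S) = (L.sec l).2.1 := fun _ => rfl
  let pr : Λ →ₐ[k] c.R × c.R := AlgHom.ofLinearMap pr₀
    (by
      have h := key _ (pat_diag c (one_mem _) (one_mem _))
      rw [L.one] at h
      exact Prod.ext (Subtype.ext h.1) (Subtype.ext h.2))
    (fun x y => by
      have h := key _ (pat_mul4 c (L.pat_sec x) (L.pat_sec y))
      rw [← hmul] at h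
      exact Prod.ext (Subtype.ext h.1) (Subtype.ext h.2))
  let j₀ : c.R × c.R →ₗ[k] Λ :=
    { toFun := fun r => L.φ (r.1, r.2, 0, 0)
      map_add' := fun x y => by rw [← map_add]; congr 1; simp
      map_smul' := fun a x => by rw [← map_smul]; congr 1; simp }
  let j : c.R × c.R →ₐ[k] Λ := AlgHom.ofLinearMap j₀ L.one fun x y => by
    change L.φ _ = L.φ _ * L.φ _
    rw [L.mul _ _ (pat_diag c x.1.2 x.2.2) (pat_diag c y.1.2 y.2.2)]
    congr 1
    simp [mul4]
  refine ⟨pr, key, fun x y hx hy => ?_, j, fun r => ?_⟩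
  · have a1 : (L.sec x).1 = 0 := congrArg (fun r : c.R × c.R => (r.1 : S)) hx
    have a2 : (L.sec y).1 = 0 := congrArg (fun r : c.R × c.R => (r.1 : S)) hy
    have a3 : (L.sec y).2.1 = 0 := congrArg (fun r : c.R × c.R => (r.2 : S)) hy
    rw [hmul, mul4, a1, a2, a3]
    simp only [mul_zero, zero_mul, add_zero]
    exact map_zero L.φ
  · have h := key _ (pat_diag c r.1.2 r.2.2)
    exact Prod.ext (Subtype.ext h.1) (Subtype.ext h.2)

/-- `Γ = TrivSqZeroExt Λ (Dual k Λ)` with `(a • f) y = f (y * a)`, `(f • b) y = f (b * y)` and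
`tr (a, f) = f 1`, so that `tr ((a, f) * (b, g)) = g a + f b`. -/
theorem exists_trivData (Λ : Type) [Ring Λ] [Algebra k Λ] [FiniteDimensional k Λ] :
    ∃ (Γ : Type) (_ : Ring Γ) (_ : Algebra k Γ), FiniteDimensional k Γ ∧
      Nonempty (TrivData k Λ Γ) := by
  obtain ⟨Γ, _, _, hΓ, ψ, h1, h2⟩ := exists_alg (Λ × Module.Dual k Λ) (trivMul Λ) (1, 0)
    trivMul_assoc one_trivMul trivMul_one
  let tr : Γ →ₗ[k] k := Module.Dual.eval k Λ 1 ∘ₗ LinearMap.snd k _ _ ∘ₗ ψ.symm.toLinearMap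
  have htr : ∀ x y, tr (ψ x * ψ y) = y.2 x.1 + x.2 y.1 := by
    intro x y
    change (ψ.symm (ψ x * ψ y)).2 1 = _
    rw [h1, ψ.symm_apply_apply, trivMul_snd, one_mul, mul_one]
  let t : TrF k Γ :=
    { tr := tr
      comm := fun x y => by
        obtain ⟨x, rfl⟩ := ψ.surjective x
        obtain ⟨y, rfl⟩ := ψ.surjective y
        rw [htr, htr, add_comm]
      rep := fun ω => by
        obtain ⟨a, ha⟩ := (Module.evalEquiv k Λ).surjective
          (ω ∘ₗ ψ.toLinearMap ∘ₗ LinearMap.inr k _ _)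
        refine ⟨ψ (a, ω ∘ₗ ψ.toLinearMap ∘ₗ LinearMap.inl k _ _), fun y => ?_⟩
        obtain ⟨y, rfl⟩ := ψ.surjective y
        have h : y.2 a = ω (ψ (0, y.2)) := LinearMap.congr_fun ha y.2
        rw [htr, h]
        change ω (ψ (0, y.2)) + ω (ψ (y.1, 0)) = _
        rw [← map_add, ← map_add]
        simp }
  let i : Λ →ₐ[k] Γ := AlgHom.ofLinearMap (ψ.toLinearMap ∘ₗ LinearMap.inl k _ _) h2 fun x y => by
    change ψ (x * y, 0) = ψ (x, 0) * ψ (y, 0)
    rw [h1]
    congr 1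
    exact Prod.ext rfl (LinearMap.ext fun z => by simp [trivMul_snd])
  let p : Γ →ₐ[k] Λ := AlgHom.ofLinearMap (LinearMap.fst k _ _ ∘ₗ ψ.symm.toLinearMap)
    (by
      change (ψ.symm 1).1 = 1
      rw [← h2, ψ.symm_apply_apply])
    fun x y => by
      obtain ⟨x, rfl⟩ := ψ.surjective x
      obtain ⟨y, rfl⟩ := ψ.surjective y
      change (ψ.symm (ψ x * ψ y)).1 = (ψ.symm (ψ x)).1 * (ψ.symm (ψ y)).1
      rw [h1, ψ.symm_apply_apply, ψ.symm_apply_apply, ψ.symm_apply_apply, trivMul_fst]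
  have hp : ∀ x, p (ψ x) = x.1 := fun x => by
    change (ψ.symm (ψ x)).1 = x.1
    rw [ψ.symm_apply_apply]
  refine ⟨Γ, inferInstance, inferInstance, hΓ, ⟨⟨t, i, p, fun l => hp (l, 0), fun x y hx hy => ?_,
    fun x hx => ?_⟩⟩⟩
  · obtain ⟨x, rfl⟩ := ψ.surjective x
    obtain ⟨y, rfl⟩ := ψ.surjective y
    rw [hp] at hx hy
    rw [h1, ← map_zero ψ]
    congr 1
    exact Prod.ext (by rw [trivMul_fst, hx, zero_mul]; rfl)
      (LinearMap.ext fun z => by simp [trivMul_snd, hx, hy])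
  · obtain ⟨x, rfl⟩ := ψ.surjective x
    refine ⟨x.1, ?_⟩
    change ψ (x.1, 0) = ψ x
    congr 1
    refine Prod.ext rfl (LinearMap.ext fun b => ?_)
    have h : tr (ψ x * ψ (b, 0)) = 0 := hx _ ⟨b, rfl⟩
    rw [htr] at h
    simpa using h.symm

/-- `x ↦ (y ↦ tr (x * y))` is a surjective, hence bijective, linear map to the dual. -/
theorem TrF.isSymmetricAlgebra {S : Type} [Ring S] [Algebra k S] [FiniteDimensional k S]
    (t : TrF k S) : IsSymmetricAlgebra k S := by
  let φ : S →ₗ[k] Module.Dual k S := (LinearMap.mul k S).compr₂ t.tr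
  have hs : Function.Surjective φ := fun ω => by
    obtain ⟨θ, hθ⟩ := t.rep ω
    exact ⟨θ, LinearMap.ext hθ⟩
  have hi : Function.Injective φ :=
    (LinearMap.injective_iff_surjective_of_finrank_eq_finrank
      Subspace.dual_finrank_eq.symm).2 hs
  refine ⟨LinearEquiv.ofBijective φ ⟨hi, hs⟩, fun a x b y => ?_⟩
  change t.tr (a * x * b * y) = t.tr (x * (b * y * a))
  rw [mul_assoc, mul_assoc, t.comm, mul_assoc]

/-- The trace form on the opposite of an endomorphism ring. -/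
theorem exists_trF_end (V : Type) [AddCommGroup V] [Module k V] [FiniteDimensional k V] :
    ∃ t : TrF k (Module.End k V)ᵐᵒᵖ, ∀ x, t.tr x = LinearMap.trace k V x.unop := by
  let tr : (Module.End k V)ᵐᵒᵖ →ₗ[k] k :=
    LinearMap.trace k V ∘ₗ (MulOpposite.opLinearEquiv k).symm.toLinearMap
  have htr : ∀ x, tr x = LinearMap.trace k V x.unop := fun _ => rfl
  let φ : (Module.End k V)ᵐᵒᵖ →ₗ[k] Module.Dual k (Module.End k V)ᵐᵒᵖ :=
    (LinearMap.mul k _).compr₂ tr
  have hi : Function.Injective φ := by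
    rw [injective_iff_map_eq_zero]
    intro x hx
    apply MulOpposite.unop_injective
    refine LinearMap.ext fun v => (Module.forall_dual_apply_eq_zero_iff k _).1 fun f => ?_
    have h : tr (x * MulOpposite.op (LinearMap.smulRight f v)) = 0 := LinearMap.congr_fun hx _
    have e : LinearMap.smulRight f v * x.unop = LinearMap.smulRight (f ∘ₗ x.unop) v := rfl
    rw [htr, MulOpposite.unop_mul, MulOpposite.unop_op, e, LinearMap.trace_smulRight] at h
    exact h
  have hs : Function.Surjective φ :=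
    (LinearMap.injective_iff_surjective_of_finrank_eq_finrank
      Subspace.dual_finrank_eq.symm).1 hi
  refine ⟨⟨tr, fun x y => ?_, fun ω => ?_⟩, htr⟩
  · rw [htr, htr, MulOpposite.unop_mul, MulOpposite.unop_mul, LinearMap.trace_mul_comm]
  · obtain ⟨θ, hθ⟩ := hs ω
    exact ⟨θ, LinearMap.congr_fun hθ⟩

/-- The kernel is contained in `J₁ ⊗ B + A ⊗ J₂`, a sum of two commuting nilpotent elements of the
semiring `Submodule k (A ⊗ B)`. -/
theorem IsSplit.tensor {A B : Type} [Ring A] [Algebra k A] [Ring B] [Algebra k B] {ι κ : Type}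
    [Finite ι] [Finite κ] (hA : IsSplit k A ι) (hB : IsSplit k B κ) :
    IsSplit k (A ⊗[k] B) (ι × κ) := by
  classical
  obtain ⟨ψA, hsA, hnA⟩ := hA
  obtain ⟨ψB, hsB, hnB⟩ := hB
  have := Fintype.ofFinite ι
  have := Fintype.ofFinite κ
  let ψ : A ⊗[k] B →ₐ[k] (ι × κ → k) := Algebra.TensorProduct.lift
    (AlgHom.pi fun p : ι × κ => (Pi.evalAlgHom k (fun _ => k) p.1).comp ψA)
    (AlgHom.pi fun p : ι × κ => (Pi.evalAlgHom k (fun _ => k) p.2).comp ψB)
    fun _ _ => Commute.all _ _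
  have hψ : ∀ a b p, ψ (a ⊗ₜ[k] b) p = ψA a p.1 * ψB b p.2 := fun _ _ _ => rfl
  choose a ha using fun i : ι => hsA (Pi.single i 1)
  choose b hb using fun j : κ => hsB (Pi.single j 1)
  let T : (ι × κ → k) →ₗ[k] A ⊗[k] B :=
    Fintype.linearCombination k fun p : ι × κ => a p.1 ⊗ₜ[k] b p.2
  have hT : ∀ w, T w = ∑ p : ι × κ, w p • (a p.1 ⊗ₜ[k] b p.2) := fun _ => rfl
  have ha' : ∀ x, ψA (x - ∑ i, ψA x i • a i) = 0 := fun x => by
    simp only [map_sub, map_sum, map_smul, ha]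
    rw [← pi_eq_sum_univ' (ψA x), sub_self]
  have hb' : ∀ y, ψB (y - ∑ j, ψB y j • b j) = 0 := fun y => by
    simp only [map_sub, map_sum, map_smul, hb]
    rw [← pi_eq_sum_univ' (ψB y), sub_self]
  have key : ∀ z, z - T (ψ z) ∈ tens (LinearMap.ker ψA.toLinearMap) ⊤ ⊔
      tens ⊤ (LinearMap.ker ψB.toLinearMap) := by
    intro z
    induction z using TensorProduct.induction_on with
    | zero => simp
    | tmul x y =>
      have e : T (ψ (x ⊗ₜ[k] y)) = (∑ i, ψA x i • a i) ⊗ₜ[k] (∑ j, ψB y j • b j) := by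
        rw [hT, Fintype.sum_prod_type, TensorProduct.sum_tmul]
        refine Finset.sum_congr rfl fun i _ => ?_
        rw [TensorProduct.tmul_sum]
        refine Finset.sum_congr rfl fun j _ => ?_
        rw [hψ, TensorProduct.smul_tmul_smul]
      have e2 : x ⊗ₜ[k] y - (∑ i, ψA x i • a i) ⊗ₜ[k] (∑ j, ψB y j • b j) =
          (x - ∑ i, ψA x i • a i) ⊗ₜ[k] y +
            (∑ i, ψA x i • a i) ⊗ₜ[k] (y - ∑ j, ψB y j • b j) := by
        rw [TensorProduct.sub_tmul, TensorProduct.tmul_sub]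
        abel
      rw [e, e2]
      exact Submodule.add_mem_sup (tmul_mem_tens (ha' x) trivial) (tmul_mem_tens trivial (hb' y))
    | add x y hx hy =>
      rw [map_add, map_add, add_sub_add_comm]
      exact add_mem hx hy
  refine ⟨ψ, fun w => ⟨T w, ?_⟩, nil_mono (fun z hz => ?_)
    (nil_sup (nil_tens_left hnA) (nil_tens_right hnB) ?_ ?_)⟩
  · funext q
    rw [hT, map_sum, Finset.sum_apply, Finset.sum_eq_single q]
    · simp [hψ, ha, hb]
    · intro p _ hp
      rw [map_smul, Pi.smul_apply, hψ, ha, hb]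
      by_cases h1 : q.1 = p.1
      · have h2 : q.2 ≠ p.2 := fun h2 => hp (Prod.ext h1 h2).symm
        simp [Pi.single_apply, h2]
      · simp [Pi.single_apply, h1]
    · simp
  · have h := key z
    have hz' : ψ z = 0 := hz
    rwa [hz', map_zero, sub_zero] at h
  · rw [← tens_top]
    refine tens_mul le_top (Submodule.mul_le.2 fun x _ y hy => ?_)
    have hy' : ψB y = 0 := hy
    change ψB (x * y) = 0
    rw [map_mul, hy', mul_zero]
  · rw [← tens_top]
    refine tens_mul le_top (Submodule.mul_le.2 fun x hx y _ => ?_)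
    have hx' : ψB x = 0 := hx
    change ψB (x * y) = 0
    rw [map_mul, hx', zero_mul]

theorem IsSplit.prod {A B : Type} [Ring A] [Algebra k A] [Ring B] [Algebra k B] {ι κ : Type}
    (hA : IsSplit k A ι) (hB : IsSplit k B κ) : IsSplit k (A × B) (ι ⊕ κ) := by
  obtain ⟨ψA, hsA, n, hn⟩ := hA
  obtain ⟨ψB, hsB, m, hm⟩ := hB
  let ψ : A × B →ₐ[k] (ι ⊕ κ → k) := AlgHom.pi fun s => Sum.elim
    (fun i => (Pi.evalAlgHom k (fun _ => k) i).comp (ψA.comp (AlgHom.fst k A B)))
    (fun j => (Pi.evalAlgHom k (fun _ => k) j).comp (ψB.comp (AlgHom.snd k A B))) s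
  refine ⟨ψ, fun w => ?_, n + m, ?_⟩
  · obtain ⟨a, ha⟩ := hsA fun i => w (Sum.inl i)
    obtain ⟨b, hb⟩ := hsB fun j => w (Sum.inr j)
    refine ⟨(a, b), funext fun s => ?_⟩
    rcases s with i | j
    · exact congrFun ha i
    · exact congrFun hb j
  · rw [Submodule.zero_eq_bot, eq_bot_iff]
    intro x hx
    refine (Submodule.mem_bot k).2 (Prod.ext ?_ ?_)
    · refine map_pow_eq_zero (AlgHom.fst k A B) (J := LinearMap.ker ψA.toLinearMap)
        (fun y hy => ?_) (by rw [pow_add, hn, zero_mul]) x hx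
      have hy' : ψ y = 0 := hy
      exact funext fun i => congrFun hy' (Sum.inl i)
    · refine map_pow_eq_zero (AlgHom.snd k A B) (J := LinearMap.ker ψB.toLinearMap)
        (fun y hy => ?_) (by rw [pow_add, hm, mul_zero]) x hx
      have hy' : ψ y = 0 := hy
      exact funext fun j => congrFun hy' (Sum.inr j)

theorem IsSplit.of_sqZero {A B : Type} [Ring A] [Algebra k A] [Ring B] [Algebra k B] {ι : Type}
    (p : A →ₐ[k] B) (hp : Function.Surjective p) (sq : ∀ x y, p x = 0 → p y = 0 → x * y = 0)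
    (hB : IsSplit k B ι) : IsSplit k A ι := by
  obtain ⟨ψ, hs, n, hn⟩ := hB
  refine ⟨ψ.comp p, hs.comp hp, n + n, ?_⟩
  have h := map_pow_eq_zero p (I := LinearMap.ker (ψ.comp p).toLinearMap)
    (J := LinearMap.ker ψ.toLinearMap) (fun y hy => hy) hn
  rw [pow_add, Submodule.zero_eq_bot, eq_bot_iff, Submodule.mul_le]
  exact fun x hx y hy => (Submodule.mem_bot k).2 (sq x y (h x hx) (h y hy))

theorem IsSplit.of_equiv {A B : Type} [Ring A] [Algebra k A] [Ring B] [Algebra k B] {ι κ : Type}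
    (e : A ≃ₐ[k] B) (f : ι ≃ κ) (hA : IsSplit k A ι) : IsSplit k B κ := by
  obtain ⟨ψ, hs, n, hn⟩ := hA
  let ψ' : B →ₐ[k] (κ → k) := AlgHom.pi fun j =>
    (Pi.evalAlgHom k (fun _ => k) (f.symm j)).comp (ψ.comp e.symm.toAlgHom)
  have hψ' : ∀ x j, ψ' x j = ψ (e.symm x) (f.symm j) := fun _ _ => rfl
  refine ⟨ψ', fun w => ?_, n, ?_⟩
  · obtain ⟨a, ha⟩ := hs fun i => w (f i)
    refine ⟨e a, funext fun j => ?_⟩
    rw [hψ', e.symm_apply_apply, ha]
    exact congrArg w (f.apply_symm_apply j)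
  · rw [Submodule.zero_eq_bot, eq_bot_iff]
    intro x hx
    have h := map_pow_eq_zero e.symm.toAlgHom (J := LinearMap.ker ψ.toLinearMap)
      (fun y hy => ?_) hn x hx
    · exact (Submodule.mem_bot k).2 ((map_eq_zero_iff _ e.symm.injective).1 h)
    · have hy' : ψ' y = 0 := hy
      funext i
      have := congrFun hy' (f i)
      rwa [hψ', f.symm_apply_apply] at this

theorem isSplit_dualNumber : IsSplit k (DualNumber k) Unit := by
  refine IsSplit.of_sqZero (TrivSqZeroExt.fstHom k k k) TrivSqZeroExt.fst_surjective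
    (fun x y hx hy => ?_) ⟨Pi.constAlgHom k Unit k, fun w => ⟨w (), rfl⟩, 1, ?_⟩
  · have hx' : x.fst = 0 := hx
    have hy' : y.fst = 0 := hy
    ext <;> simp [hx', hy']
  · rw [pow_one, Submodule.zero_eq_bot, eq_bot_iff]
    intro x hx
    have hx' : Pi.constAlgHom k Unit k x = 0 := hx
    exact congrFun hx' ()

/-- Nilpotent elements are killed by every algebra map to `ι → k`. -/
theorem IsSplit.four {A : Type} [Ring A] [Algebra k A] {ι : Type} (h : IsSplit k A ι)
    {x₁ x₂ x₃ x₄ : A} (h₁ : x₁ * x₁ = 0) (h₂ : x₂ * x₂ = 0) (h₃ : x₃ * x₃ = 0) (h₄ : x₄ * x₄ = 0)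
    (h0 : x₁ * x₂ * x₃ * x₄ ≠ 0) : IsSplit4 k A ι := by
  obtain ⟨ψ, hs, hn⟩ := h
  have key : ∀ x, x * x = 0 → ψ x = 0 := fun x hx => funext fun i => by
    have := congrFun (map_mul ψ x x) i
    rw [hx, map_zero, Pi.zero_apply, Pi.mul_apply] at this
    exact mul_self_eq_zero.1 this.symm
  exact ⟨ψ, hs, hn, x₁, x₂, x₃, x₄, key _ h₁, key _ h₂, key _ h₃, key _ h₄, h0⟩

end Crest.Agent.R186
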