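import Crest.Agent.R186.Base
import Crest.Agent.R186.Lam

/-!
The ten-dimensional algebra `C` (ring structure, coordinates, trace, radical).
-/

set_option linter.unusedSectionVars false

namespace Crest.Agent.R186

/-- The algebra `C` in coordinates. -/
@[ext] structure CA (k : Type) (q : k) where
  e : k
  x : k
  y : k
  z : k
  a : k
  A : k
  J : k
  j : k
  f : k
  n : k

namespace CA

variable {k : Type} [Field k] {q : k}

instance : Zero (CA k q) := ⟨⟨0, 0, 0, 0, 0, 0, 0, 0, 0, 0⟩⟩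
instance : One (CA k q) := ⟨⟨1, 0, 0, 0, 0, 0, 0, 0, 1, 0⟩⟩
instance : Add (CA k q) := ⟨fun u v => ⟨u.e + v.e, u.x + v.x, u.y + v.y, u.z + v.z, u.a + v.a,
  u.A + v.A, u.J + v.J, u.j + v.j, u.f + v.f, u.n + v.n⟩⟩
instance : Sub (CA k q) := ⟨fun u v => ⟨u.e - v.e, u.x - v.x, u.y - v.y, u.z - v.z, u.a - v.a,
  u.A - v.A, u.J - v.J, u.j - v.j, u.f - v.f, u.n - v.n⟩⟩
instance : Neg (CA k q) :=
  ⟨fun u => ⟨-u.e, -u.x, -u.y, -u.z, -u.a, -u.A, -u.J, -u.j, -u.f, -u.n⟩⟩
instance {R : Type} [SMul R k] : SMul R (CA k q) := ⟨fun c u => ⟨c • u.e, c • u.x, c • u.y, c • u.z,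
  c • u.a, c • u.A, c • u.J, c • u.j, c • u.f, c • u.n⟩⟩
instance : Mul (CA k q) := ⟨fun u v =>
  { e := u.e * v.e
    x := u.e * v.x + u.x * v.e + q * (u.a * v.J)
    y := u.e * v.y + u.y * v.e + u.a * v.J
    z := u.e * v.z + u.z * v.e + q * (u.x * v.y) + u.y * v.x + u.a * v.j + q * (u.A * v.J)
    a := u.e * v.a + u.a * v.f
    A := u.e * v.A + u.A * v.f + u.x * v.a + u.y * v.a + u.a * v.n
    J := u.f * v.J + u.J * v.e
    j := u.f * v.j + u.j * v.e + u.J * v.x + q ^ 2 * (u.J * v.y) + q * (u.n * v.J)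
    f := u.f * v.f
    n := u.f * v.n + u.n * v.f + (q + 1) * (u.J * v.a) }⟩

@[simp] theorem zero_e : (0 : CA k q).e = 0 := rfl
@[simp] theorem zero_x : (0 : CA k q).x = 0 := rfl
@[simp] theorem zero_y : (0 : CA k q).y = 0 := rfl
@[simp] theorem zero_z : (0 : CA k q).z = 0 := rfl
@[simp] theorem zero_a : (0 : CA k q).a = 0 := rfl
@[simp] theorem zero_A : (0 : CA k q).A = 0 := rfl
@[simp] theorem zero_J : (0 : CA k q).J = 0 := rfl
@[simp] theorem zero_j : (0 : CA k q).j = 0 := rfl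
@[simp] theorem zero_f : (0 : CA k q).f = 0 := rfl
@[simp] theorem zero_n : (0 : CA k q).n = 0 := rfl
@[simp] theorem one_e : (1 : CA k q).e = 1 := rfl
@[simp] theorem one_x : (1 : CA k q).x = 0 := rfl
@[simp] theorem one_y : (1 : CA k q).y = 0 := rfl
@[simp] theorem one_z : (1 : CA k q).z = 0 := rfl
@[simp] theorem one_a : (1 : CA k q).a = 0 := rfl
@[simp] theorem one_A : (1 : CA k q).A = 0 := rfl
@[simp] theorem one_J : (1 : CA k q).J = 0 := rfl
@[simp] theorem one_j : (1 : CA k q).j = 0 := rfl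
@[simp] theorem one_f : (1 : CA k q).f = 1 := rfl
@[simp] theorem one_n : (1 : CA k q).n = 0 := rfl
@[simp] theorem add_e (u v : CA k q) : (u + v).e = u.e + v.e := rfl
@[simp] theorem add_x (u v : CA k q) : (u + v).x = u.x + v.x := rfl
@[simp] theorem add_y (u v : CA k q) : (u + v).y = u.y + v.y := rfl
@[simp] theorem add_z (u v : CA k q) : (u + v).z = u.z + v.z := rfl
@[simp] theorem add_a (u v : CA k q) : (u + v).a = u.a + v.a := rfl
@[simp] theorem add_A (u v : CA k q) : (u + v).A = u.A + v.A := rfl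
@[simp] theorem add_J (u v : CA k q) : (u + v).J = u.J + v.J := rfl
@[simp] theorem add_j (u v : CA k q) : (u + v).j = u.j + v.j := rfl
@[simp] theorem add_f (u v : CA k q) : (u + v).f = u.f + v.f := rfl
@[simp] theorem add_n (u v : CA k q) : (u + v).n = u.n + v.n := rfl
@[simp] theorem sub_e (u v : CA k q) : (u - v).e = u.e - v.e := rfl
@[simp] theorem sub_x (u v : CA k q) : (u - v).x = u.x - v.x := rfl
@[simp] theorem sub_y (u v : CA k q) : (u - v).y = u.y - v.y := rfl
@[simp] theorem sub_z (u v : CA k q) : (u - v).z = u.z - v.z := rfl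
@[simp] theorem sub_a (u v : CA k q) : (u - v).a = u.a - v.a := rfl
@[simp] theorem sub_A (u v : CA k q) : (u - v).A = u.A - v.A := rfl
@[simp] theorem sub_J (u v : CA k q) : (u - v).J = u.J - v.J := rfl
@[simp] theorem sub_j (u v : CA k q) : (u - v).j = u.j - v.j := rfl
@[simp] theorem sub_f (u v : CA k q) : (u - v).f = u.f - v.f := rfl
@[simp] theorem sub_n (u v : CA k q) : (u - v).n = u.n - v.n := rfl
@[simp] theorem neg_e (u : CA k q) : (-u).e = -u.e := rfl
@[simp] theorem neg_x (u : CA k q) : (-u).x = -u.x := rfl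
@[simp] theorem neg_y (u : CA k q) : (-u).y = -u.y := rfl
@[simp] theorem neg_z (u : CA k q) : (-u).z = -u.z := rfl
@[simp] theorem neg_a (u : CA k q) : (-u).a = -u.a := rfl
@[simp] theorem neg_A (u : CA k q) : (-u).A = -u.A := rfl
@[simp] theorem neg_J (u : CA k q) : (-u).J = -u.J := rfl
@[simp] theorem neg_j (u : CA k q) : (-u).j = -u.j := rfl
@[simp] theorem neg_f (u : CA k q) : (-u).f = -u.f := rfl
@[simp] theorem neg_n (u : CA k q) : (-u).n = -u.n := rfl
@[simp] theorem smul_e {R : Type} [SMul R k] (c : R) (u : CA k q) : (c • u).e = c • u.e := rfl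
@[simp] theorem smul_x {R : Type} [SMul R k] (c : R) (u : CA k q) : (c • u).x = c • u.x := rfl
@[simp] theorem smul_y {R : Type} [SMul R k] (c : R) (u : CA k q) : (c • u).y = c • u.y := rfl
@[simp] theorem smul_z {R : Type} [SMul R k] (c : R) (u : CA k q) : (c • u).z = c • u.z := rfl
@[simp] theorem smul_a {R : Type} [SMul R k] (c : R) (u : CA k q) : (c • u).a = c • u.a := rfl
@[simp] theorem smul_A {R : Type} [SMul R k] (c : R) (u : CA k q) : (c • u).A = c • u.A := rfl
@[simp] theorem smul_J {R : Type} [SMul R k] (c : R) (u : CA k q) : (c • u).J = c • u.J := rfl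
@[simp] theorem smul_j {R : Type} [SMul R k] (c : R) (u : CA k q) : (c • u).j = c • u.j := rfl
@[simp] theorem smul_f {R : Type} [SMul R k] (c : R) (u : CA k q) : (c • u).f = c • u.f := rfl
@[simp] theorem smul_n {R : Type} [SMul R k] (c : R) (u : CA k q) : (c • u).n = c • u.n := rfl
@[simp] theorem mul_e (u v : CA k q) :
    (u * v).e = u.e * v.e := rfl
@[simp] theorem mul_x (u v : CA k q) :
    (u * v).x = u.e * v.x + u.x * v.e + q * (u.a * v.J) := rfl
@[simp] theorem mul_y (u v : CA k q) :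
    (u * v).y = u.e * v.y + u.y * v.e + u.a * v.J := rfl
@[simp] theorem mul_z (u v : CA k q) :
    (u * v).z = u.e * v.z + u.z * v.e + q * (u.x * v.y) + u.y * v.x + u.a * v.j + q * (u.A * v.J) := rfl
@[simp] theorem mul_a (u v : CA k q) :
    (u * v).a = u.e * v.a + u.a * v.f := rfl
@[simp] theorem mul_A (u v : CA k q) :
    (u * v).A = u.e * v.A + u.A * v.f + u.x * v.a + u.y * v.a + u.a * v.n := rfl
@[simp] theorem mul_J (u v : CA k q) :
    (u * v).J = u.f * v.J + u.J * v.e := rfl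
@[simp] theorem mul_j (u v : CA k q) :
    (u * v).j = u.f * v.j + u.j * v.e + u.J * v.x + q ^ 2 * (u.J * v.y) + q * (u.n * v.J) := rfl
@[simp] theorem mul_f (u v : CA k q) :
    (u * v).f = u.f * v.f := rfl
@[simp] theorem mul_n (u v : CA k q) :
    (u * v).n = u.f * v.n + u.n * v.f + (q + 1) * (u.J * v.a) := rfl

/-- The coordinates. -/
def toV (u : CA k q) : Fin 10 → k := ![u.e, u.x, u.y, u.z, u.a, u.A, u.J, u.j, u.f, u.n]

theorem toV_injective : Function.Injective (toV : CA k q → Fin 10 → k) := fun _ _ h =>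
  CA.ext (congrFun h 0) (congrFun h 1) (congrFun h 2) (congrFun h 3) (congrFun h 4) (congrFun h 5)
    (congrFun h 6) (congrFun h 7) (congrFun h 8) (congrFun h 9)

instance : AddCommGroup (CA k q) :=
  toV_injective.addCommGroup toV (by ext i; fin_cases i <;> rfl)
    (fun _ _ => by ext i; fin_cases i <;> rfl) (fun _ => by ext i; fin_cases i <;> rfl)
    (fun _ _ => by ext i; fin_cases i <;> rfl) (fun _ _ => by ext i; fin_cases i <;> rfl)
    (fun _ _ => by ext i; fin_cases i <;> rfl)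

instance : Module k (CA k q) where
  one_smul _ := by ext <;> simp
  mul_smul _ _ _ := by ext <;> simp [mul_assoc]
  smul_zero _ := by ext <;> simp
  smul_add _ _ _ := by ext <;> simp [mul_add]
  add_smul _ _ _ := by ext <;> simp [add_mul]
  zero_smul _ := by ext <;> simp

instance : Ring (CA k q) where
  __ := (inferInstance : AddCommGroup (CA k q))
  one_mul _ := by ext <;> simp
  mul_one _ := by ext <;> simp
  zero_mul _ := by ext <;> simp
  mul_zero _ := by ext <;> simp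
  left_distrib _ _ _ := by ext <;> simp only [mul_e, mul_x, mul_y, mul_z, mul_a, mul_A, mul_J, mul_j,
    mul_f, mul_n, add_e, add_x, add_y, add_z, add_a, add_A, add_J, add_j, add_f, add_n] <;> ring
  right_distrib _ _ _ := by ext <;> simp only [mul_e, mul_x, mul_y, mul_z, mul_a, mul_A, mul_J, mul_j,
    mul_f, mul_n, add_e, add_x, add_y, add_z, add_a, add_A, add_J, add_j, add_f, add_n] <;> ring
  mul_assoc _ _ _ := by ext <;> simp only [mul_e, mul_x, mul_y, mul_z, mul_a, mul_A, mul_J, mul_j,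
    mul_f, mul_n] <;> ring

instance : Algebra k (CA k q) :=
  Algebra.ofModule (fun _ _ _ => by ext <;> simp <;> ring) (fun _ _ _ => by ext <;> simp <;> ring)

/-- The coordinates as a linear equivalence. -/
def eqv : CA k q ≃ₗ[k] (Fin 10 → k) where
  toFun := toV
  map_add' _ _ := by ext i; fin_cases i <;> rfl
  map_smul' _ _ := by ext i; fin_cases i <;> rfl
  invFun v := ⟨v 0, v 1, v 2, v 3, v 4, v 5, v 6, v 7, v 8, v 9⟩
  left_inv _ := rfl
  right_inv _ := by ext i; fin_cases i <;> rfl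

instance : FiniteDimensional k (CA k q) := Module.Finite.equiv (eqv (k := k) (q := q)).symm

/-- The basis vector `e`. -/
def be : CA k q := ⟨1, 0, 0, 0, 0, 0, 0, 0, 0, 0⟩
/-- The basis vector `x`. -/
def bx : CA k q := ⟨0, 1, 0, 0, 0, 0, 0, 0, 0, 0⟩
/-- The basis vector `y`. -/
def by' : CA k q := ⟨0, 0, 1, 0, 0, 0, 0, 0, 0, 0⟩
/-- The basis vector `z`. -/
def bz : CA k q := ⟨0, 0, 0, 1, 0, 0, 0, 0, 0, 0⟩
/-- The basis vector `a`. -/
def ba : CA k q := ⟨0, 0, 0, 0, 1, 0, 0, 0, 0, 0⟩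
/-- The basis vector `A`. -/
def bA : CA k q := ⟨0, 0, 0, 0, 0, 1, 0, 0, 0, 0⟩
/-- The basis vector `J`. -/
def bJ : CA k q := ⟨0, 0, 0, 0, 0, 0, 1, 0, 0, 0⟩
/-- The basis vector `j`. -/
def bj : CA k q := ⟨0, 0, 0, 0, 0, 0, 0, 1, 0, 0⟩
/-- The basis vector `f`. -/
def bf : CA k q := ⟨0, 0, 0, 0, 0, 0, 0, 0, 1, 0⟩
/-- The basis vector `n`. -/
def bn : CA k q := ⟨0, 0, 0, 0, 0, 0, 0, 0, 0, 1⟩

@[simp] theorem be_e : (be : CA k q).e = 1 := rfl
@[simp] theorem be_x : (be : CA k q).x = 0 := rfl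
@[simp] theorem be_y : (be : CA k q).y = 0 := rfl
@[simp] theorem be_z : (be : CA k q).z = 0 := rfl
@[simp] theorem be_a : (be : CA k q).a = 0 := rfl
@[simp] theorem be_A : (be : CA k q).A = 0 := rfl
@[simp] theorem be_J : (be : CA k q).J = 0 := rfl
@[simp] theorem be_j : (be : CA k q).j = 0 := rfl
@[simp] theorem be_f : (be : CA k q).f = 0 := rfl
@[simp] theorem be_n : (be : CA k q).n = 0 := rfl
@[simp] theorem bx_e : (bx : CA k q).e = 0 := rfl
@[simp] theorem bx_x : (bx : CA k q).x = 1 := rfl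
@[simp] theorem bx_y : (bx : CA k q).y = 0 := rfl
@[simp] theorem bx_z : (bx : CA k q).z = 0 := rfl
@[simp] theorem bx_a : (bx : CA k q).a = 0 := rfl
@[simp] theorem bx_A : (bx : CA k q).A = 0 := rfl
@[simp] theorem bx_J : (bx : CA k q).J = 0 := rfl
@[simp] theorem bx_j : (bx : CA k q).j = 0 := rfl
@[simp] theorem bx_f : (bx : CA k q).f = 0 := rfl
@[simp] theorem bx_n : (bx : CA k q).n = 0 := rfl
@[simp] theorem by'_e : (by' : CA k q).e = 0 := rfl
@[simp] theorem by'_x : (by' : CA k q).x = 0 := rfl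
@[simp] theorem by'_y : (by' : CA k q).y = 1 := rfl
@[simp] theorem by'_z : (by' : CA k q).z = 0 := rfl
@[simp] theorem by'_a : (by' : CA k q).a = 0 := rfl
@[simp] theorem by'_A : (by' : CA k q).A = 0 := rfl
@[simp] theorem by'_J : (by' : CA k q).J = 0 := rfl
@[simp] theorem by'_j : (by' : CA k q).j = 0 := rfl
@[simp] theorem by'_f : (by' : CA k q).f = 0 := rfl
@[simp] theorem by'_n : (by' : CA k q).n = 0 := rfl
@[simp] theorem bz_e : (bz : CA k q).e = 0 := rfl
@[simp] theorem bz_x : (bz : CA k q).x = 0 := rfl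
@[simp] theorem bz_y : (bz : CA k q).y = 0 := rfl
@[simp] theorem bz_z : (bz : CA k q).z = 1 := rfl
@[simp] theorem bz_a : (bz : CA k q).a = 0 := rfl
@[simp] theorem bz_A : (bz : CA k q).A = 0 := rfl
@[simp] theorem bz_J : (bz : CA k q).J = 0 := rfl
@[simp] theorem bz_j : (bz : CA k q).j = 0 := rfl
@[simp] theorem bz_f : (bz : CA k q).f = 0 := rfl
@[simp] theorem bz_n : (bz : CA k q).n = 0 := rfl
@[simp] theorem ba_e : (ba : CA k q).e = 0 := rfl
@[simp] theorem ba_x : (ba : CA k q).x = 0 := rfl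
@[simp] theorem ba_y : (ba : CA k q).y = 0 := rfl
@[simp] theorem ba_z : (ba : CA k q).z = 0 := rfl
@[simp] theorem ba_a : (ba : CA k q).a = 1 := rfl
@[simp] theorem ba_A : (ba : CA k q).A = 0 := rfl
@[simp] theorem ba_J : (ba : CA k q).J = 0 := rfl
@[simp] theorem ba_j : (ba : CA k q).j = 0 := rfl
@[simp] theorem ba_f : (ba : CA k q).f = 0 := rfl
@[simp] theorem ba_n : (ba : CA k q).n = 0 := rfl
@[simp] theorem bA_e : (bA : CA k q).e = 0 := rfl
@[simp] theorem bA_x : (bA : CA k q).x = 0 := rfl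
@[simp] theorem bA_y : (bA : CA k q).y = 0 := rfl
@[simp] theorem bA_z : (bA : CA k q).z = 0 := rfl
@[simp] theorem bA_a : (bA : CA k q).a = 0 := rfl
@[simp] theorem bA_A : (bA : CA k q).A = 1 := rfl
@[simp] theorem bA_J : (bA : CA k q).J = 0 := rfl
@[simp] theorem bA_j : (bA : CA k q).j = 0 := rfl
@[simp] theorem bA_f : (bA : CA k q).f = 0 := rfl
@[simp] theorem bA_n : (bA : CA k q).n = 0 := rfl
@[simp] theorem bJ_e : (bJ : CA k q).e = 0 := rfl
@[simp] theorem bJ_x : (bJ : CA k q).x = 0 := rfl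
@[simp] theorem bJ_y : (bJ : CA k q).y = 0 := rfl
@[simp] theorem bJ_z : (bJ : CA k q).z = 0 := rfl
@[simp] theorem bJ_a : (bJ : CA k q).a = 0 := rfl
@[simp] theorem bJ_A : (bJ : CA k q).A = 0 := rfl
@[simp] theorem bJ_J : (bJ : CA k q).J = 1 := rfl
@[simp] theorem bJ_j : (bJ : CA k q).j = 0 := rfl
@[simp] theorem bJ_f : (bJ : CA k q).f = 0 := rfl
@[simp] theorem bJ_n : (bJ : CA k q).n = 0 := rfl
@[simp] theorem bj_e : (bj : CA k q).e = 0 := rfl
@[simp] theorem bj_x : (bj : CA k q).x = 0 := rfl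
@[simp] theorem bj_y : (bj : CA k q).y = 0 := rfl
@[simp] theorem bj_z : (bj : CA k q).z = 0 := rfl
@[simp] theorem bj_a : (bj : CA k q).a = 0 := rfl
@[simp] theorem bj_A : (bj : CA k q).A = 0 := rfl
@[simp] theorem bj_J : (bj : CA k q).J = 0 := rfl
@[simp] theorem bj_j : (bj : CA k q).j = 1 := rfl
@[simp] theorem bj_f : (bj : CA k q).f = 0 := rfl
@[simp] theorem bj_n : (bj : CA k q).n = 0 := rfl
@[simp] theorem bf_e : (bf : CA k q).e = 0 := rfl
@[simp] theorem bf_x : (bf : CA k q).x = 0 := rfl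
@[simp] theorem bf_y : (bf : CA k q).y = 0 := rfl
@[simp] theorem bf_z : (bf : CA k q).z = 0 := rfl
@[simp] theorem bf_a : (bf : CA k q).a = 0 := rfl
@[simp] theorem bf_A : (bf : CA k q).A = 0 := rfl
@[simp] theorem bf_J : (bf : CA k q).J = 0 := rfl
@[simp] theorem bf_j : (bf : CA k q).j = 0 := rfl
@[simp] theorem bf_f : (bf : CA k q).f = 1 := rfl
@[simp] theorem bf_n : (bf : CA k q).n = 0 := rfl
@[simp] theorem bn_e : (bn : CA k q).e = 0 := rfl
@[simp] theorem bn_x : (bn : CA k q).x = 0 := rfl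
@[simp] theorem bn_y : (bn : CA k q).y = 0 := rfl
@[simp] theorem bn_z : (bn : CA k q).z = 0 := rfl
@[simp] theorem bn_a : (bn : CA k q).a = 0 := rfl
@[simp] theorem bn_A : (bn : CA k q).A = 0 := rfl
@[simp] theorem bn_J : (bn : CA k q).J = 0 := rfl
@[simp] theorem bn_j : (bn : CA k q).j = 0 := rfl
@[simp] theorem bn_f : (bn : CA k q).f = 0 := rfl
@[simp] theorem bn_n : (bn : CA k q).n = 1 := rfl

theorem trace_eq (φ : Module.End k (CA k q)) :
    LinearMap.trace k _ φ = (φ be).e + (φ bx).x + (φ by').y + (φ bz).z + (φ ba).a + (φ bA).A +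
      (φ bJ).J + (φ bj).j + (φ bf).f + (φ bn).n := by
  rw [LinearMap.trace_eq_matrix_trace k (Module.Basis.ofEquivFun (eqv (k := k) (q := q))),
    Matrix.trace]
  simp only [Matrix.diag_apply, LinearMap.toMatrix_apply, Module.Basis.ofEquivFun_repr_apply,
    Module.Basis.coe_ofEquivFun, Fin.sum_univ_succ, Fin.sum_univ_zero, add_zero, add_assoc]
  rfl

/-- The coefficient of `f`. -/
def chi : CA k q →ₐ[k] k where
  toFun u := u.f
  map_one' := rfl
  map_mul' _ _ := rfl
  map_zero' := rfl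
  map_add' _ _ := rfl
  commutes' c := by simp [Algebra.algebraMap_eq_smul_one]

@[simp] theorem chi_apply (u : CA k q) : chi u = u.f := rfl

/-- The coefficients of `e` and `f`. -/
def psi : CA k q →ₐ[k] (Fin 2 → k) where
  toFun u := ![u.e, u.f]
  map_one' := by ext i; fin_cases i <;> rfl
  map_mul' _ _ := by ext i; fin_cases i <;> rfl
  map_zero' := by ext i; fin_cases i <;> rfl
  map_add' _ _ := by ext i; fin_cases i <;> rfl
  commutes' c := by ext i; fin_cases i <;> simp [Algebra.algebraMap_eq_smul_one]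

theorem isSplit : IsSplit k (CA k q) (Fin 2) := by
  refine ⟨psi, fun w => ⟨⟨w 0, 0, 0, 0, 0, 0, 0, 0, w 1, 0⟩, ?_⟩, 8, ?_⟩
  · ext i; fin_cases i <;> rfl
  · set K : Submodule k (CA k q) := LinearMap.ker (psi (k := k) (q := q)).toLinearMap
    have hK : ∀ u ∈ K, u.e = 0 ∧ u.f = 0 := fun u hu =>
      have h : psi u = 0 := hu
      ⟨congrFun h 0, congrFun h 1⟩
    have h2 : ∀ u ∈ K * K, u.e = 0 ∧ u.f = 0 ∧ u.a = 0 ∧ u.J = 0 := fun u hu => by
      refine Submodule.mul_induction_on hu (fun u hu v hv => ?_) fun u v hu hv => ?_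
      · simp [hK u hu, hK v hv]
      · simp [hu, hv]
    have h4 : ∀ u ∈ K * K * (K * K), u.e = 0 ∧ u.f = 0 ∧ u.a = 0 ∧ u.J = 0 ∧ u.x = 0 ∧ u.y = 0 :=
      fun u hu => by
      refine Submodule.mul_induction_on hu (fun u hu v hv => ?_) fun u v hu hv => ?_
      · simp [h2 u hu, h2 v hv]
      · simp [hu, hv]
    have e : K ^ 8 = K * K * (K * K) * (K * K * (K * K)) := by
      simp only [pow_succ, pow_zero, one_mul, mul_assoc]
    rw [e, Submodule.zero_eq_bot, eq_bot_iff, Submodule.mul_le]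
    intro u hu v hv
    refine (Submodule.mem_bot k).2 ?_
    ext <;> simp [h4 u hu, h4 v hv]

end CA

end Crest.Agent.R186
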