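import Crest.Agent.R186.CAlg

/-!
The resolution and the coresolution over the algebra `C`.
-/

set_option linter.unusedSectionVars false

namespace Crest.Agent.R186

open RCF

theorem diag_eq_of {k S : Type} [Field k] [Ring S] [Algebra k S] {f g e : ℕ → S} {a : ℕ} {s : S}
    (h : ∀ i, f i + g i = e i + if i = a then s else 0) :
    (diag f + diag g : RCF k ℕ S) = diag e + single a a s := by
  ext i j
  simp only [ent_add, ent_diag, ent_single]
  by_cases h1 : i = j
  · subst h1
    simp only [if_true, and_self, h]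
  · rw [if_neg h1, if_neg h1, if_neg h1, if_neg fun h2 => h1 (h2.1.trans h2.2.symm)]

namespace CA

variable {k : Type} [Field k] {q : k}

/-- `x + λ y`. -/
def U (l : k) : CA k q := ⟨0, 1, l, 0, 0, 0, 0, 0, 0, 0⟩

@[simp] theorem U_e (l : k) : (U l : CA k q).e = 0 := rfl
@[simp] theorem U_x (l : k) : (U l : CA k q).x = 1 := rfl
@[simp] theorem U_y (l : k) : (U l : CA k q).y = l := rfl
@[simp] theorem U_z (l : k) : (U l : CA k q).z = 0 := rfl
@[simp] theorem U_a (l : k) : (U l : CA k q).a = 0 := rfl
@[simp] theorem U_A (l : k) : (U l : CA k q).A = 0 := rfl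
@[simp] theorem U_J (l : k) : (U l : CA k q).J = 0 := rfl
@[simp] theorem U_j (l : k) : (U l : CA k q).j = 0 := rfl
@[simp] theorem U_f (l : k) : (U l : CA k q).f = 0 := rfl
@[simp] theorem U_n (l : k) : (U l : CA k q).n = 0 := rfl

/-- The idempotents `f, e, e, ...`. -/
def eps : ℕ → CA k q
  | 0 => bf
  | _ + 1 => be

/-- The entries of the resolution. -/
def sP : ℕ → CA k q
  | 0 => ba
  | i + 1 => U (q ^ i)

/-- The entries of the coresolution. -/
def sL : ℕ → CA k q
  | 0 => bJ
  | i + 1 => U (q⁻¹ ^ (i + 2))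

variable [CharP k 2]

theorem two (k : Type) [Field k] [CharP k 2] : (2 : k) = 0 := CharTwo.two_eq_zero

theorem U_mul_U (l : k) : (U (q * l) * U l : CA k q) = 0 := by
  ext <;> simp
  grind

/-- The datum over `C`. -/
noncomputable def dat (hq0 : q ≠ 0) : Dat k ℕ (CA k q) where
  dp i := -(i : ℤ)
  dl i := (i : ℤ) - 2
  Ep := diag eps
  El := diag eps
  δp := down sP
  δl := up sL
  ι := single 0 2 bj + single 1 1 by' + single 2 0 bA
  EpEp := by
    rw [diag_mul_diag]; congr 1; funext i; rcases i with _ | i <;> ext <;> simp [eps]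
  Epδ := by
    rw [diag_mul_down]; congr 1; funext i; rcases i with _ | i <;> ext <;> simp [eps, sP]
  δEp := by
    rw [down_mul_diag]; congr 1; funext i; rcases i with _ | i <;> ext <;> simp [eps, sP]
  δpδp := down_mul_down fun i => by
    rcases i with _ | i
    · ext <;> simp [sP]
      grind
    · simp only [sP]
      rw [pow_succ']
      exact U_mul_U _
  ElEl := by
    rw [diag_mul_diag]; congr 1; funext i; rcases i with _ | i <;> ext <;> simp [eps]
  Elδ := by
    rw [diag_mul_up]; congr 1; funext i; rcases i with _ | i <;> ext <;> simp [eps, sL]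
  δEl := by
    rw [up_mul_diag]; congr 1; funext i; rcases i with _ | i <;> ext <;> simp [eps, sL]
  δlδl := up_mul_up fun i => by
    rcases i with _ | i
    · ext <;> simp [sL]
      grind
    · simp only [sL]
      have : q⁻¹ ^ (i + 2) = q * q⁻¹ ^ (i + 1 + 2) := by
        rw [show i + 1 + 2 = (i + 2) + 1 by ring, pow_succ' _ (i + 2), mul_inv_cancel_left₀ hq0]
      rw [this]
      exact U_mul_U _
  Epι := by
    simp only [mul_add, diag_mul_single]
    congr 2 <;> [congr 1; congr 1; skip] <;> ext <;> simp [eps]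
  ιEl := by
    simp only [add_mul, single_mul_diag]
    congr 2 <;> [congr 1; congr 1; skip] <;> ext <;> simp [eps]
  δι := by
    simp only [mul_add, add_mul, down_mul_single, single_mul_up]
    have h1 : (sP 0 * bj : CA k q) = by' * sL 1 := by ext <;> simp [sP, sL]
    have h2 : (sP 1 * by' : CA k q) = bA * sL 0 := by ext <;> simp [sP, sL]
    have h3 : (sP 2 * bA : CA k q) = 0 := by ext <;> simp [sP]
    have h4 : (bj * sL 2 : CA k q) = 0 := by ext <;> simp [sL]
    rw [h1, h2, h3, h4, single_zero, single_zero, add_zero, zero_add (single _ _ _)]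
  hEp := homog_diag _ _
  hEl := homog_diag _ _
  hδp := homog_down (fun i => by push_cast; ring) _
  hδl := homog_up (fun i => by push_cast; ring) _
  hι := ((homog_single (by simp) _).add (homog_single (by simp) _)).add (homog_single (by simp) _)

theorem dat_bdd (hq0 : q ≠ 0) : (dat hq0).Bdd 2 where
  finp a := (Set.finite_singleton (-a).toNat).subset fun t ht => by
    simp only [dat, Set.mem_ofPred_eq, Set.mem_singleton_iff] at ht ⊢; omega
  finl a := (Set.finite_singleton (a + 2).toNat).subset fun t ht => by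
    simp only [dat, Set.mem_ofPred_eq, Set.mem_singleton_iff] at ht ⊢; omega
  dp_le t := by simp [dat]
  dl_ge t := by simp [dat]

theorem map_Ep {S : Type} [Ring S] [Algebra k S] (hq0 : q ≠ 0) (g : CA k q →ₐ[k] S) :
    ((dat hq0).map g).Ep = diag fun i => g (eps i) := map_diag _ _

theorem map_El {S : Type} [Ring S] [Algebra k S] (hq0 : q ≠ 0) (g : CA k q →ₐ[k] S) :
    ((dat hq0).map g).El = diag fun i => g (eps i) := map_diag _ _

theorem map_δp {S : Type} [Ring S] [Algebra k S] (hq0 : q ≠ 0) (g : CA k q →ₐ[k] S) :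
    ((dat hq0).map g).δp = down fun i => g (sP i) := map_down _ _

theorem map_δl {S : Type} [Ring S] [Algebra k S] (hq0 : q ≠ 0) (g : CA k q →ₐ[k] S) :
    ((dat hq0).map g).δl = up fun i => g (sL i) := map_up _ _

theorem map_ι {S : Type} [Ring S] [Algebra k S] (hq0 : q ≠ 0) (g : CA k q →ₐ[k] S) :
    ((dat hq0).map g).ι = single 0 2 (g bj) + single 1 1 (g by') + single 2 0 (g bA) := by
  simp only [Dat.map, dat, map_add, map_single]

theorem one_add_ne {q : k} (hq : ∀ n : ℕ, 0 < n → q ^ n ≠ 1) (n : ℕ) : 1 + q ^ (n + 1) ≠ 0 :=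
  fun h => hq (n + 1) n.succ_pos (by grind)

theorem one_add_inv_ne {q : k} (hq : ∀ n : ℕ, 0 < n → q ^ n ≠ 1) (n : ℕ) :
    1 + q⁻¹ ^ (n + 1) ≠ 0 := fun h => hq (n + 1) n.succ_pos (by
  have h1 : q⁻¹ ^ (n + 1) = 1 := by grind
  rwa [inv_pow, inv_eq_one] at h1)

end CA

end Crest.Agent.R186
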