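import Crest.Agent.R186.CDat

/-!
The homotopy inverse for rows.
-/

set_option linter.unusedSectionVars false

namespace Crest.Agent.R186

open RCF MulOpposite

namespace CA

variable {k : Type} [Field k] {q : k}

/-- Right multiplication. -/
def rho : CA k q →ₐ[k] (Module.End k (CA k q))ᵐᵒᵖ where
  toFun c := op (LinearMap.mulRight k c)
  map_one' := unop_injective (LinearMap.ext fun u => mul_one u)
  map_mul' c d := unop_injective (LinearMap.ext fun u => (mul_assoc u c d).symm)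
  map_zero' := unop_injective (LinearMap.ext fun u => mul_zero u)
  map_add' c d := unop_injective (LinearMap.ext fun u => mul_add u c d)
  commutes' c := unop_injective (LinearMap.ext fun u => by
    simp [Algebra.algebraMap_eq_smul_one])

@[simp] theorem rho_apply (c u : CA k q) : (rho c).unop u = u * c := rfl

theorem rext {θ θ' : (Module.End k (CA k q))ᵐᵒᵖ} (h : ∀ u, θ.unop u = θ'.unop u) : θ = θ' :=
  unop_injective (LinearMap.ext h)

/-- `[x ↦ e, z ↦ y, j ↦ c J]`. -/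
def rg (c : k) : (Module.End k (CA k q))ᵐᵒᵖ := op
  { toFun u := ⟨u.x, 0, u.z, 0, 0, 0, c * u.j, 0, 0, 0⟩
    map_add' _ _ := by ext <;> simp [mul_add]
    map_smul' _ _ := by ext <;> simp [mul_left_comm] }

@[simp] theorem rg_apply (c : k) (u : CA k q) :
    (rg c).unop u = ⟨u.x, 0, u.z, 0, 0, 0, c * u.j, 0, 0, 0⟩ := rfl

/-- `[a ↦ e, A ↦ y, n ↦ (q + 1)⁻¹ J]`. -/
def rp0 : (Module.End k (CA k q))ᵐᵒᵖ := op
  { toFun u := ⟨u.a, 0, u.A, 0, 0, 0, (q + 1)⁻¹ * u.n, 0, 0, 0⟩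
    map_add' _ _ := by ext <;> simp [mul_add]
    map_smul' _ _ := by ext <;> simp [mul_left_comm] }

@[simp] theorem rp0_apply (u : CA k q) :
    rp0.unop u = ⟨u.a, 0, u.A, 0, 0, 0, (q + 1)⁻¹ * u.n, 0, 0, 0⟩ := rfl

/-- `[x ↦ q⁻¹ a, z ↦ q⁻¹ A, J ↦ f, j ↦ q⁻¹ n]`. -/
def rl0 : (Module.End k (CA k q))ᵐᵒᵖ := op
  { toFun u := ⟨0, 0, 0, 0, q⁻¹ * u.x, q⁻¹ * u.z, 0, 0, u.J, q⁻¹ * u.j⟩
    map_add' _ _ := by ext <;> simp [mul_add]
    map_smul' _ _ := by ext <;> simp [mul_left_comm] }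

@[simp] theorem rl0_apply (u : CA k q) :
    rl0.unop u = ⟨0, 0, 0, 0, q⁻¹ * u.x, q⁻¹ * u.z, 0, 0, u.J, q⁻¹ * u.j⟩ := rfl

/-- `[j ↦ f]`. -/
def rr0 : (Module.End k (CA k q))ᵐᵒᵖ := op
  { toFun u := ⟨0, 0, 0, 0, 0, 0, 0, 0, u.j, 0⟩
    map_add' _ _ := by ext <;> simp
    map_smul' _ _ := by ext <;> simp }

@[simp] theorem rr0_apply (u : CA k q) : rr0.unop u = ⟨0, 0, 0, 0, 0, 0, 0, 0, u.j, 0⟩ := rfl

/-- `[f ↦ f]`. -/
def ru : (Module.End k (CA k q))ᵐᵒᵖ := op
  { toFun u := ⟨0, 0, 0, 0, 0, 0, 0, 0, u.f, 0⟩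
    map_add' _ _ := by ext <;> simp
    map_smul' _ _ := by ext <;> simp }

@[simp] theorem ru_apply (u : CA k q) : ru.unop u = ⟨0, 0, 0, 0, 0, 0, 0, 0, u.f, 0⟩ := rfl

/-- The homotopy on the resolution. -/
def rkp : ℕ → (Module.End k (CA k q))ᵐᵒᵖ
  | 0 => rp0
  | i + 1 => rg (1 + q ^ i * q ^ 2)⁻¹

/-- The homotopy on the coresolution. -/
def rkl : ℕ → (Module.End k (CA k q))ᵐᵒᵖ
  | 0 => rl0
  | i + 1 => rg (1 + q⁻¹ ^ (i + 2) * q ^ 2)⁻¹

theorem rho_j_rr0 : (rho bj * rr0 : (Module.End k (CA k q))ᵐᵒᵖ) = ru :=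
  rext fun u => by ext <;> simp

variable [CharP k 2]

theorem row_step {l c c' : k} (h : (1 + l * q ^ 2) * c = 1) (h' : (1 + q * l * q ^ 2) * c' = 1) :
    (rho (U l) * rg c + rg c' * rho (U (q * l)) : (Module.End k (CA k q))ᵐᵒᵖ) = rho be :=
  rext fun u => by ext <;> simp <;> grind

theorem row_step' {l c c' : k} (h : (1 + l * q ^ 2) * c = 1) (h' : (1 + q * l * q ^ 2) * c' = 1) :
    (rho (U l) * rg c + rg c' * rho (U (q * l)) : (Module.End k (CA k q))ᵐᵒᵖ) = rho be + 0 := by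
  rw [row_step h h', add_zero]

theorem row_hp (hq : ∀ n : ℕ, 0 < n → q ^ n ≠ 1) (i : ℕ) :
    (if i = 0 then 0 else rho (sP (i - 1)) * rkp (i - 1)) + rkp i * rho (sP i) =
      rho (eps i) + if i = 0 then (rho bj * rr0 : (Module.End k (CA k q))ᵐᵒᵖ) else 0 := by
  have h1 : q + 1 ≠ 0 := by simpa [add_comm] using one_add_ne hq 0
  have h2 : 1 + q ^ 2 ≠ 0 := one_add_ne hq 1
  rcases i with _ | _ | i
  · exact rext fun u => by ext <;> simp [eps, rkp, sP] <;> grind
  · exact rext fun u => by ext <;> simp [eps, rkp, sP] <;> grind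
  · rw [if_neg (by omega), if_neg (by omega)]
    simp only [Nat.add_sub_cancel, eps, rkp, sP]
    rw [pow_succ' q i]
    refine row_step' (mul_inv_cancel₀ ?_) (mul_inv_cancel₀ ?_)
    · have := one_add_ne hq (i + 1)
      rwa [show q ^ (i + 1 + 1) = q ^ i * q ^ 2 by ring] at this
    · have := one_add_ne hq (i + 2)
      rwa [show q ^ (i + 2 + 1) = q * q ^ i * q ^ 2 by ring] at this

theorem row_hl0 (hq0 : q ≠ 0) :
    (rho bJ * rl0 : (Module.End k (CA k q))ᵐᵒᵖ) = rho bf :=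
  rext fun u => by ext <;> simp <;> grind

theorem row_hl1 (hq0 : q ≠ 0) {l : k} (hl : l * q ^ 2 = 1) :
    (rho (U l) * rg 0 + rl0 * rho bJ : (Module.End k (CA k q))ᵐᵒᵖ) = rho be :=
  rext fun u => by ext <;> simp <;> grind

theorem row_hl2 {l c : k} (hl : q * l * q ^ 2 = 1) (h : (1 + l * q ^ 2) * c = 1) :
    (rho (U l) * rg c + rg 0 * rho (U (q * l)) : (Module.End k (CA k q))ᵐᵒᵖ) =
      rho be + rr0 * rho bj :=
  rext fun u => by ext <;> simp <;> grind

theorem row_hl (hq0 : q ≠ 0) (hq : ∀ n : ℕ, 0 < n → q ^ n ≠ 1) (i : ℕ) :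
    rho (sL i) * rkl i + (if i = 0 then 0 else rkl (i - 1) * rho (sL (i - 1))) =
      rho (eps i) + if i = 2 then (rr0 * rho bj : (Module.End k (CA k q))ᵐᵒᵖ) else 0 := by
  have h0 : q⁻¹ ^ (0 + 2) * q ^ 2 = 1 := by rw [zero_add, ← mul_pow, inv_mul_cancel₀ hq0, one_pow]
  have h0' : (1 + q⁻¹ ^ (0 + 2) * q ^ 2)⁻¹ = 0 := by rw [h0, CharTwo.add_self_eq_zero, inv_zero]
  have e : ∀ i, q⁻¹ ^ (i + 2) = q * q⁻¹ ^ (i + 1 + 2) := fun i => by
    rw [show i + 1 + 2 = (i + 2) + 1 by ring, pow_succ' _ (i + 2), mul_inv_cancel_left₀ hq0]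
  have hn : ∀ i, 1 + q⁻¹ ^ (i + 1 + 2) * q ^ 2 ≠ 0 := fun i => by
    have := one_add_inv_ne hq i
    rwa [show q⁻¹ ^ (i + 1) = q⁻¹ ^ (i + 1 + 2) * q ^ 2 by
      rw [pow_add _ (i + 1) 2, mul_assoc, ← mul_pow, inv_mul_cancel₀ hq0, one_pow, mul_one]] at this
  rcases i with _ | _ | _ | i
  · rw [if_pos rfl, if_neg (by omega), add_zero, add_zero]
    exact row_hl0 hq0
  · rw [if_neg (by omega), if_neg (by omega), add_zero]
    simp only [Nat.add_sub_cancel, eps, rkl, sL]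
    rw [h0']
    exact row_hl1 hq0 h0
  · rw [if_neg (by omega), if_pos rfl]
    simp only [Nat.add_sub_cancel, eps, rkl, sL]
    rw [h0', e 0]
    exact row_hl2 (by rw [← e 0, h0]) (mul_inv_cancel₀ (hn 0))
  · rw [if_neg (by omega), if_neg (by omega)]
    simp only [Nat.add_sub_cancel, eps, rkl, sL]
    rw [e (i + 1)]
    refine row_step' (mul_inv_cancel₀ (hn (i + 1))) (mul_inv_cancel₀ ?_)
    rw [← e (i + 1)]
    exact hn i

/-- The homotopy inverse for rows. -/
noncomputable def rowHE (hq0 : q ≠ 0) (hq : ∀ n : ℕ, 0 < n → q ^ n ≠ 1) :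
    ((dat hq0).map rho).HE where
  r := single 2 0 rr0
  κp := up rkp
  κl := down rkl
  Elr := by
    rw [map_El, diag_mul_single]; congr 1
    exact rext fun u => by ext <;> simp [eps]
  rEp := by
    rw [map_Ep, single_mul_diag]; congr 1
    exact rext fun u => by ext <;> simp [eps]
  δr := by
    rw [map_δl, map_δp, single_zero_mul_down, up_mul_single_succ]
    have : (rho (sL 1) * rr0 : (Module.End k (CA k q))ᵐᵒᵖ) = 0 :=
      rext fun u => by
        ext <;> simp [sL]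
        grind
    rw [this, single_zero]
  Epκ := by
    rw [map_Ep, diag_mul_up]; congr 1; funext i
    rcases i with _ | i <;> exact rext fun u => by ext <;> simp [eps, rkp]
  κEp := by
    rw [map_Ep, up_mul_diag]; congr 1; funext i
    rcases i with _ | i <;> exact rext fun u => by ext <;> simp [eps, rkp]
  Elκ := by
    rw [map_El, diag_mul_down]; congr 1; funext i
    rcases i with _ | i <;> exact rext fun u => by ext <;> simp [eps, rkl]
  κEl := by
    rw [map_El, down_mul_diag]; congr 1; funext i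
    rcases i with _ | i <;> exact rext fun u => by ext <;> simp [eps, rkl]
  hp := by
    rw [map_δp, map_Ep, map_ι, down_mul_up, up_mul_down, add_mul, add_mul, single_mul_single,
      single_mul_single_of_ne (by decide), single_mul_single_of_ne (by decide), add_zero, add_zero]
    exact diag_eq_of (row_hp hq)
  hl := by
    rw [map_δl, map_El, map_ι, down_mul_up, up_mul_down, mul_add, mul_add, single_mul_single,
      single_mul_single_of_ne (by decide), single_mul_single_of_ne (by decide), add_zero, add_zero]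
    exact diag_eq_of (row_hl hq0 hq)
  hr := homog_single (by simp [dat, Dat.map]) _
  hκp := homog_up (fun i => by simp only [dat, Dat.map]; push_cast; ring) _
  hκl := homog_down (fun i => by simp only [dat, Dat.map]; push_cast; ring) _

end CA

end Crest.Agent.R186
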