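import Crest.Agent.R186.ExtRes
import Crest.Prelude.Def_Tilting

/-!
Consequences of `GammaEx`.  Notation: `0 → Γ → I 0 → I 1 → ⋯` is the coresolution, `I j = Fin (r j) → W`
is finitely generated, projective and injective; `C 0 = Γ`, `C (n+1) = I n ⧸ ker (d n)`
(or `range (d n)`), so that `0 → C n → I n → C (n+1) → 0` is exact.
-/

namespace Crest.Agent.R186

open CategoryTheory Crest.AlgebraR

universe u v

namespace Conseq

section Abstract

open Abelian

universe w v₁ u₁

variable {𝒞 : Type u₁} [Category.{v₁} 𝒞] [Abelian 𝒞]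

/-- A chain of short exact sequences `0 → C n → I n → C (n+1) → 0`. -/
structure Chain (C I : ℕ → 𝒞) where
  f : ∀ n, C n ⟶ I n
  g : ∀ n, I n ⟶ C (n + 1)
  w : ∀ n, f n ≫ g n = 0
  se : ∀ n, (ShortComplex.mk (f n) (g n) (w n)).ShortExact

variable {C I : ℕ → 𝒞}

theorem Chain.pd_lt (c : Chain C I) (hI : ∀ n, Projective (I n)) (h0 : Projective (C 0)) (n : ℕ) :
    HasProjectiveDimensionLT (C n) (n + 1) := by
  induction n with
  | zero => exact projective_iff_hasProjectiveDimensionLT_one.1 h0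
  | succ n ih => exact ((c.se n).hasProjectiveDimensionLT_X₃_iff n (hI n)).2 ih

theorem Chain.not_pd_lt (c : Chain C I) (hI : ∀ n, Projective (I n)) (hJ : Injective (I 0))
    (h0 : ¬ Injective (C 0)) (n : ℕ) : ¬ HasProjectiveDimensionLT (C (n + 1)) (n + 1) := by
  induction n with
  | zero =>
    intro h
    have hp : Projective (ShortComplex.mk (c.f 0) (c.g 0) (c.w 0)).X₃ :=
      projective_iff_hasProjectiveDimensionLT_one.2 h
    have sp := (c.se 0).splittingOfProjective
    exact h0 (Retract.injective (Y := I 0) { i := c.f 0, r := sp.r, retract := sp.f_r })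
  | succ n ih =>
    intro h
    exact ih (((c.se (n + 1)).hasProjectiveDimensionLT_X₃_iff n (hI (n + 1))).1 h)

theorem Chain.id_shift (c : Chain C I) (hJ : ∀ n, Injective (I n)) (m : ℕ) :
    ∀ k, HasInjectiveDimensionLT (C k) (m + 1) ↔ HasInjectiveDimensionLT (C (k + m)) 1 := by
  induction m with
  | zero => intro k; rfl
  | succ m ih =>
    intro k
    rw [← ((c.se k).hasInjectiveDimensionLT_X₃_iff m (hJ k)), show k + (m + 1) = k + 1 + m by omega]
    exact ih (k + 1)

theorem Chain.not_id_lt (c : Chain C I) (hI : ∀ n, Projective (I n)) (hJ : ∀ n, Injective (I n))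
    (h0 : ¬ Injective (C 0)) (n : ℕ) : ¬ HasInjectiveDimensionLT (C 0) n := by
  intro h
  have h1 : HasInjectiveDimensionLT (C 0) (n + 1) :=
    hasInjectiveDimensionLT_of_ge _ n _ (Nat.le_succ n)
  rw [c.id_shift hJ, zero_add] at h1
  have hi : Injective (ShortComplex.mk (c.f n) (c.g n) (c.w n)).X₁ :=
    injective_iff_hasInjectiveDimensionLT_one.2 h1
  have sp := (c.se n).splittingOfInjective
  have := hI n
  have hp : Projective (C (n + 1)) :=
    Retract.projective (Y := I n) { i := sp.s, r := c.g n, retract := sp.s_g }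
  have h2 : HasProjectiveDimensionLT (C (n + 1)) 1 := inferInstance
  exact c.not_pd_lt hI (hJ 0) h0 n (hasProjectiveDimensionLT_of_ge _ 1 _ (by omega))

theorem Chain.id_lt (c : Chain C I) (hJ : ∀ n, Injective (I n)) (r : ℕ)
    (hr : Limits.IsZero (I r)) : HasInjectiveDimensionLT (C 0) (r + 1) := by
  rw [c.id_shift hJ, zero_add]
  have hm : Mono (c.f r) := (c.se r).mono_f
  have hz : Limits.IsZero (C r) := Limits.IsZero.of_mono (c.f r) hr
  have := hz.hasInjectiveDimensionLT_zero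
  exact hasInjectiveDimensionLT_of_ge _ 0 _ (Nat.zero_le 1)

theorem Chain.ext_eq_zero [HasExt.{w} 𝒞] (c : Chain C I) (hJ : ∀ n, Injective (I n)) (S : 𝒞)
    (hS : ∀ n (φ : S ⟶ I n), φ = 0) (i : ℕ) : ∀ n (e : Ext.{w} S (C n) i), e = 0 := by
  induction i with
  | zero =>
    intro n e
    obtain ⟨φ, rfl⟩ := (Ext.mk₀_bijective S (C n)).2 e
    have hm : Mono (c.f n) := (c.se n).mono_f
    have : φ = 0 := by
      rw [← cancel_mono (c.f n), Limits.zero_comp]
      exact hS n _
    rw [this, Ext.mk₀_zero]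
  | succ i ih =>
    intro n e
    have : Injective (ShortComplex.mk (c.f n) (c.g n) (c.w n)).X₂ := hJ n
    obtain ⟨x, hx⟩ := Ext.covariant_sequence_exact₁ S (c.se n) e (Ext.eq_zero_of_injective _) rfl
    rw [← hx, ih (n + 1) x, Ext.zero_comp]

end Abstract

section Modules

variable {R : Type u} [Ring R]

/-- The cosyzygies of a coresolution. -/
def cosyz (X : Type u) [AddCommGroup X] [Module R X] {I : ℕ → Type u} [∀ j, AddCommGroup (I j)]
    [∀ j, Module R (I j)] (d : ∀ j, I j →ₗ[R] I (j + 1)) : ℕ → ModuleCat.{u} R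
  | 0 => ModuleCat.of R X
  | n + 1 => ModuleCat.of R (LinearMap.ker (d (n + 1)))

theorem exists_chain {X : Type u} [AddCommGroup X] [Module R X] {I : ℕ → Type u}
    [∀ j, AddCommGroup (I j)] [∀ j, Module R (I j)] (ε : X →ₗ[R] I 0)
    (d : ∀ j, I j →ₗ[R] I (j + 1)) (hε : Function.Injective ε) (h0 : Function.Exact ε (d 0))
    (hd : ∀ j, Function.Exact (d j) (d (j + 1))) :
    Nonempty (Chain (cosyz X d) (fun j => ModuleCat.of R (I j))) := by
  let g : ∀ n, I n →ₗ[R] LinearMap.ker (d (n + 1)) := fun n =>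
    (d n).codRestrict _ (fun x => (hd n).apply_apply_eq_zero x)
  have hg : ∀ n, Function.Surjective (g n) := by
    rintro n ⟨y, hy⟩
    obtain ⟨x, rfl⟩ := (hd n y).1 hy
    exact ⟨x, rfl⟩
  have hg0 : ∀ n x, g n x = 0 ↔ d n x = 0 := fun n x => Subtype.ext_iff
  let f : ∀ n, cosyz X d n ⟶ ModuleCat.of R (I n) := fun n =>
    match n with
    | 0 => ModuleCat.ofHom ε
    | n + 1 => ModuleCat.ofHom (LinearMap.ker (d (n + 1))).subtype
  have hf : ∀ n, Function.Injective (f n) := fun n =>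
    match n with
    | 0 => hε
    | n + 1 => Subtype.val_injective
  have hfg : ∀ n, Function.Exact (f n) (g n) := fun n =>
    match n with
    | 0 => fun y => (hg0 0 y).trans (h0 y)
    | n + 1 => fun y => (hg0 (n + 1) y).trans
        ⟨fun h => ⟨⟨y, h⟩, rfl⟩, fun ⟨x, hx⟩ => hx ▸ x.2⟩
  refine ⟨⟨f, fun n => ModuleCat.ofHom (g n), fun n => ?_, fun n => ?_⟩⟩
  · ext x
    exact (hfg n).apply_apply_eq_zero x
  · exact ModuleCat.shortComplex_shortExact _ (hfg n) (hf n) (hg n)

theorem projective_pi {W : Type u} [AddCommGroup W] [Module R W] [Module.Projective R W] (n : ℕ) :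
    Module.Projective R (Fin n → W) :=
  Module.Projective.of_equiv' (DFinsupp.linearEquivFunOnFintype (R := R) (M := fun _ : Fin n => W))

theorem injective_of_inAdd {W X : Type u} [AddCommGroup W] [Module R W] [Module.Injective R W]
    [AddCommGroup X] [Module R X] (h : InAdd R W X) : Module.Injective R X := by
  obtain ⟨n, Y, _, _, ⟨e⟩⟩ := h
  refine ⟨fun A B _ _ _ _ f hf g => ?_⟩
  obtain ⟨l, hl⟩ := Module.Injective.out (Q := Fin n → W) f hf
    (e.toLinearMap ∘ₗ LinearMap.inl R X Y ∘ₗ g)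
  refine ⟨LinearMap.fst R X Y ∘ₗ e.symm.toLinearMap ∘ₗ l, fun x => ?_⟩
  simp [hl]

theorem inAdd_pi (W : Type u) [AddCommGroup W] [Module R W] (n : ℕ) : InAdd R W (Fin n → W) :=
  ⟨n, PUnit.{u + 1}, inferInstance, inferInstance, ⟨LinearEquiv.prodUnique⟩⟩

theorem exact_hom {W A B C : Type u} [AddCommGroup W] [Module R W] [Module.Injective R W]
    [AddCommGroup A] [Module R A] [AddCommGroup B] [Module R B] [AddCommGroup C] [Module R C]
    (f : A →ₗ[R] B) (g : B →ₗ[R] C) (h : Function.Exact f g) :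
    Function.Exact (fun φ : C →ₗ[R] W => φ ∘ₗ g) (fun φ : B →ₗ[R] W => φ ∘ₗ f) := by
  intro φ
  constructor
  · intro hφ
    have hk : LinearMap.ker g ≤ LinearMap.ker φ := by
      intro y hy
      obtain ⟨x, rfl⟩ := (h y).1 hy
      exact DFunLike.congr_fun hφ x
    obtain ⟨l, hl⟩ := Module.Injective.out (Q := W) ((LinearMap.ker g).liftQ g le_rfl)
      (by rw [← LinearMap.ker_eq_bot]; exact Submodule.ker_liftQ_eq_bot _ _ _ le_rfl)
      ((LinearMap.ker g).liftQ φ hk)
    exact ⟨l, LinearMap.ext fun y => hl (Submodule.Quotient.mk y)⟩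
  · rintro ⟨ψ, rfl⟩
    show (ψ ∘ₗ g) ∘ₗ f = 0
    rw [LinearMap.comp_assoc, h.linearMap_comp_eq_zero, LinearMap.comp_zero]

theorem not_id_lt {W : Type u} [AddCommGroup W] [Module R W] [Module.Projective R W]
    [Module.Injective R W] (hR : ¬ Module.Injective R R) {r : ℕ → ℕ}
    (ε : R →ₗ[R] (Fin (r 0) → W)) (d : ∀ j : ℕ, (Fin (r j) → W) →ₗ[R] (Fin (r (j + 1)) → W))
    (hε : Function.Injective ε) (h0 : Function.Exact ε (d 0))
    (hd : ∀ j, Function.Exact (d j) (d (j + 1))) (n : ℕ) :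
    ¬ HasInjectiveDimensionLT (ModuleCat.of R R) n := by
  obtain ⟨c⟩ := exists_chain (I := fun j => Fin (r j) → W) ε d hε h0 hd
  refine c.not_id_lt (fun j => ?_) (fun j => ?_) ?_ n
  · exact (IsProjective.iff_projective _).1 (projective_pi _)
  · exact Module.injective_object_of_injective_module _ _
  · exact fun h => hR ((Module.injective_iff_injective_object R R).2 h)

end Modules

end Conseq

open Conseq

/-- `Ext^i(S, Γ) = 0`: `Hom(S, I j) = 0`, so `Hom(S, C n) = 0` for all `n`; by the covariant long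
exact sequence and injectivity of `I n`, `Ext^{i+1}(S, C n)` is a quotient of `Ext^i(S, C (n+1))`;
induct on `i` for all `n`. -/
theorem s0282_of {K : Type u} [Field K] (h : GammaEx K) :
    ∃ (Γ : Type u) (_ : Ring Γ) (_ : Algebra K Γ), FiniteDimensional K Γ ∧
      ∃ S : ModuleCat.{u} Γ, IsSimpleModule Γ S ∧
        ∀ i : ℕ, Subsingleton (Abelian.Ext S (ModuleCat.of Γ Γ) i) := by
  obtain ⟨Γ, _, _, hfd, W, _, _, hfin, hproj, hinj, hΓ, ⟨r, ε, d, hε, h0, hd⟩, S, _, _, hS, hSW⟩ := h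
  obtain ⟨c⟩ := exists_chain (I := fun j => Fin (r j) → W) ε d hε h0 hd
  refine ⟨Γ, _, _, hfd, ModuleCat.of Γ S, hS, fun i => subsingleton_of_forall_eq 0 fun e => ?_⟩
  refine c.ext_eq_zero (fun j => Module.injective_object_of_injective_module _ _)
    (ModuleCat.of Γ S) (fun n φ => ?_) i 0 e
  ext x j
  exact DFunLike.congr_fun (hSW (LinearMap.proj j ∘ₗ φ.hom)) x

/-- `C n` has projective dimension exactly `n`: `≤ n` by induction on the short exact sequences;
`C 1` is not projective (else `Γ → I 0` splits and `Γ` is injective), and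
`HasProjectiveDimensionLT (C (n+2)) (n+2) ↔ HasProjectiveDimensionLT (C (n+1)) (n+1)`
(`ShortComplex.ShortExact.hasProjectiveDimensionLT_X₃_iff`). -/
theorem s0283_of {K : Type u} [Field K] (h : GammaEx K) :
    ∃ (Γ : Type u) (_ : Ring Γ) (_ : Algebra K Γ), FiniteDimensional K Γ ∧
      ∀ n : ℕ, 1 ≤ n → ∃ C : ModuleCat.{u} Γ, Module.Finite Γ C ∧
        projectiveDimension C = (n : WithBot ℕ∞) := by
  obtain ⟨Γ, _, _, hfd, W, _, _, hfin, hproj, hinj, hΓ, ⟨r, ε, d, hε, h0, hd⟩, -⟩ := h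
  obtain ⟨c⟩ := exists_chain (I := fun j => Fin (r j) → W) ε d hε h0 hd
  refine ⟨Γ, _, _, hfd, fun n hn => ?_⟩
  obtain ⟨n, rfl⟩ : ∃ m, n = m + 1 := ⟨n - 1, by omega⟩
  have hI : ∀ j, Projective (ModuleCat.of Γ (Fin (r j) → W)) := fun j =>
    (IsProjective.iff_projective _).1 (projective_pi _)
  refine ⟨cosyz Γ d (n + 1), ?_, le_antisymm ?_ ?_⟩
  · exact Module.Finite.of_surjective (c.g n).hom (c.se n).moduleCat_surjective_g
  · rw [projectiveDimension_le_iff]
    exact c.pd_lt hI ((IsProjective.iff_projective Γ).1 inferInstance) (n + 1)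
  · rw [projectiveDimension_ge_iff]
    exact c.not_pd_lt hI (Module.injective_object_of_injective_module _ _)
      (fun h => hΓ ((Module.injective_iff_injective_object Γ Γ).2 h)) n

/-- If `Γ` had finite injective dimension then some `C n` (`n ≥ 1`) would be injective (dimension
shifting), so `0 → C n → I n → C (n+1) → 0` splits, `C (n+1)` is projective, contradicting
projective dimension `n + 1`. -/
theorem s0284_of {K : Type u} [Field K] (h : GammaEx K) :
    ∃ (Γ : Type u) (_ : Ring Γ) (_ : Algebra K Γ), FiniteDimensional K Γ ∧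
      (∃ (I : ℕ → ModuleCat.{u} Γ) (ε : Γ →ₗ[Γ] I 0) (d : ∀ j : ℕ, I j →ₗ[Γ] I (j + 1)),
        Function.Injective ε ∧ Function.Exact ε (d 0) ∧ (∀ j, Function.Exact (d j) (d (j + 1))) ∧
        ∀ j, Module.Projective Γ (I j) ∧ Module.Injective Γ (I j)) ∧
      ∀ n : ℕ, ¬ HasInjectiveDimensionLT (ModuleCat.of Γ Γ) n := by
  obtain ⟨Γ, _, _, hfd, W, _, _, hfin, hproj, hinj, hΓ, ⟨r, ε, d, hε, h0, hd⟩, -⟩ := h
  refine ⟨Γ, _, _, hfd, ⟨fun j => ModuleCat.of Γ (Fin (r j) → W), ε, d, hε, h0, hd,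
    fun j => ⟨projective_pi _, ?_⟩⟩, not_id_lt hΓ ε d hε h0 hd⟩
  exact inferInstanceAs (Module.Injective Γ (Fin (r j) → W))

/-- `W` is self-orthogonal since projective, `Hom(-, W)` is exact since `W` is injective; a finite
add-`W` coresolution would be a finite injective resolution of `Γ`, contradicting the previous
argument. -/
theorem s0285_of {K : Type u} [Field K] (h : GammaEx K) :
    ∃ (Γ : Type u) (_ : Ring Γ) (_ : Algebra K Γ), FiniteDimensional K Γ ∧
      ∃ (W : Type u) (_ : AddCommGroup W) (_ : Module Γ W), Module.Finite Γ W ∧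
        Module.Projective Γ W ∧ Module.Injective Γ W ∧
        IsWakamatsuTilting Γ W ∧ ¬ IsTilting Γ W := by
  obtain ⟨Γ, _, _, hfd, W, _, _, hfin, hproj, hinj, hΓ, ⟨r, ε, d, hε, h0, hd⟩, -⟩ := h
  refine ⟨Γ, _, _, hfd, W, _, _, hfin, hproj, hinj, ⟨fun i hi => ?_, fun j => Fin (r j) → W,
    inferInstance, inferInstance, ε, d, ⟨fun j => inAdd_pi W _, hε, h0, hd⟩, fun φ => ?_,
    exact_hom _ _ h0, fun j => exact_hom _ _ (hd j)⟩, ?_⟩
  · obtain ⟨i, rfl⟩ : ∃ m, i = m + 1 := ⟨i - 1, by omega⟩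
    exact subsingleton_of_forall_eq 0 fun e => Abelian.Ext.eq_zero_of_projective e
  · obtain ⟨l, hl⟩ := Module.Injective.out (Q := W) ε hε φ
    exact ⟨l, LinearMap.ext hl⟩
  · rintro ⟨-, -, C, _, _, ε', d', m, ⟨hC, hε', h0', hd'⟩, hm⟩
    obtain ⟨c⟩ := exists_chain ε' d' hε' h0' hd'
    refine not_id_lt hΓ ε d hε h0 hd (m + 1 + 1) (c.id_lt (fun j => ?_) (m + 1) ?_)
    · exact (Module.injective_iff_injective_object _ _).1 (injective_of_inAdd (hC j))
    · have := hm (m + 1) (Nat.lt_succ_self m)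
      exact ModuleCat.isZero_of_subsingleton _

end Crest.Agent.R186
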