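import Crest.Agent.R186.MT
import Crest.Agent.R186.Lam
import Crest.Agent.R186.Blk

/-!
The complex over the triangular algebra.
-/

set_option linter.unusedSectionVars false

namespace Crest.Agent.R186

open RCF

variable {k T S : Type} [Field k] [CharP k 2] [Ring S] [Algebra k S] [DecidableEq T]

namespace Glue

/-! ### Spreading a matrix along two orthogonal idempotents -/

section Spread

variable {A : Type} [Ring A] [Algebra k A] (e : Bool → RCF k T A)

/-- The block matrix with the blocks `e b * x * e c`. -/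
noncomputable def Sp (x : RCF k T A) : RCF k (Bool × T) A :=
  blk true true (e true * x * e true) + blk true false (e true * x * e false) +
    blk false true (e false * x * e true) + blk false false (e false * x * e false)

theorem sub_Sp (b c : Bool) (x : RCF k T A) : sub b c (Sp e x) = e b * x * e c := by
  cases b <;> cases c <;> simp [Sp, sub_blk]

theorem Sp_add (x y : RCF k T A) : Sp e (x + y) = Sp e x + Sp e y :=
  ext_sub fun b c => by simp only [map_add, sub_Sp, mul_add, add_mul]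

theorem Sp_zero : Sp e 0 = 0 := ext_sub fun b c => by simp [sub_Sp]

variable {e}

theorem Sp_mul (hee : ∀ b, e b * e b = e b) (x y : RCF k T A) :
    Sp e x * Sp e y = Sp e (x * (e true + e false) * y) :=
  ext_sub fun b c => by
    rw [RCF.sub_mul, sub_Sp, sub_Sp, sub_Sp, sub_Sp, sub_Sp]
    have h1 := hee true
    have h2 := hee false
    linear_combination (norm := c2 k) e b * x * h1 * y * e c + e b * x * h2 * y * e c

theorem eq_zero_of_Sp {x : RCF k T A} (h : Sp e x = 0) :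
    (e true + e false) * x * (e true + e false) = 0 := by
  have key : ∀ b c, e b * x * e c = 0 := fun b c => by rw [← sub_Sp, h, map_zero]
  linear_combination (norm := c2 k) key true true + key true false + key false true +
    key false false

theorem sub_mul_Sp_one (hee : ∀ b, e b * e b = e b) (htf : e true * e false = 0)
    (hft : e false * e true = 0) (x : RCF k (Bool × T) A) (b c : Bool) :
    sub b c (x * Sp e 1) = sub b c x * e c := by
  rw [RCF.sub_mul, sub_Sp, sub_Sp]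
  cases c <;> simp [hee, htf, hft]

theorem sub_Sp_one_mul (hee : ∀ b, e b * e b = e b) (htf : e true * e false = 0)
    (hft : e false * e true = 0) (x : RCF k (Bool × T) A) (b c : Bool) :
    sub b c (Sp e 1 * x) = e b * sub b c x := by
  rw [RCF.sub_mul, sub_Sp, sub_Sp]
  cases b <;> simp [hee, htf, hft]

theorem row_Sp (hee : ∀ b, e b * e b = e b) (htf : e true * e false = 0)
    (hft : e false * e true = 0) {D : RCF k T A} (hED : (e true + e false) * D = D)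
    (hDE : D * (e true + e false) = D)
    (h : ∀ x : RCF k T A, IsFin x → x * (e true + e false) = x → x * D = 0 →
      ∃ y, IsFin y ∧ x = y * D)
    (x : RCF k (Bool × T) A) (fx : IsFin x) (h1 : x * Sp e 1 = x) (h2 : x * Sp e D = 0) :
    ∃ y, IsFin y ∧ y * Sp e 1 = y ∧ x = y * Sp e D := by
  have a1 : ∀ b c, sub b c x * e c = sub b c x := fun b c => by
    rw [← sub_mul_Sp_one hee htf hft, h1]
  have a2 : ∀ b c, (sub b true x + sub b false x) * D * e c = 0 := fun b c => by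
    have := congrArg (sub b c) h2
    rw [RCF.sub_mul, sub_Sp, sub_Sp, map_zero] at this
    linear_combination (norm := c2 k) this + a1 b true * D * e c + a1 b false * D * e c
  have a3 : ∀ b c, (sub b true x + sub b false x) * e c = sub b c x := fun b c => by
    cases c
    · linear_combination (norm := c2 k) a1 b false + a1 b true * e false + sub b true x * htf
    · linear_combination (norm := c2 k) a1 b true + a1 b false * e true + sub b false x * hft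
  choose y fy hy using fun b => h (sub b true x + sub b false x)
    ((fx.sub b true).add (fx.sub b false)) (by rw [mul_add, a3, a3])
    (by linear_combination (norm := c2 k) a2 b true + a2 b false +
      (sub b true x + sub b false x) * hDE)
  let z : RCF k (Bool × T) A := blk true true (y true * e true) + blk true false (y true * e false) +
    blk false true (y false * e true) + blk false false (y false * e false)
  have hz : ∀ b c, sub b c z = y b * e c := fun b c => by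
    cases b <;> cases c <;> simp [z, sub_blk]
  refine ⟨z, ?_, ext_sub fun b c => ?_, ext_sub fun b c => ?_⟩
  · exact (((((fy _).mul_right _).blk _ _).add (((fy _).mul_right _).blk _ _)).add
      (((fy _).mul_right _).blk _ _)).add (((fy _).mul_right _).blk _ _)
  · rw [sub_mul_Sp_one hee htf hft, hz, mul_assoc, hee]
  · rw [RCF.sub_mul, sub_Sp, sub_Sp, hz, hz, ← a3, hy b]
    have h3 := hee true
    have h4 := hee false
    linear_combination (norm := c2 k) y b * hED * e c + y b * h3 * D * e c + y b * h4 * D * e c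

theorem col_Sp (hee : ∀ b, e b * e b = e b) (htf : e true * e false = 0)
    (hft : e false * e true = 0) {D : RCF k T A} (hED : (e true + e false) * D = D)
    (hDE : D * (e true + e false) = D)
    (h : ∀ x : RCF k T A, IsFin x → (e true + e false) * x = x → D * x = 0 →
      ∃ y, IsFin y ∧ x = D * y)
    (x : RCF k (Bool × T) A) (fx : IsFin x) (h1 : Sp e 1 * x = x) (h2 : Sp e D * x = 0) :
    ∃ y, IsFin y ∧ Sp e 1 * y = y ∧ x = Sp e D * y := by
  have a1 : ∀ b c, e b * sub b c x = sub b c x := fun b c => by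
    rw [← sub_Sp_one_mul hee htf hft, h1]
  have a2 : ∀ b c, e b * D * (sub true c x + sub false c x) = 0 := fun b c => by
    have := congrArg (sub b c) h2
    rw [RCF.sub_mul, sub_Sp, sub_Sp, map_zero] at this
    linear_combination (norm := c2 k) this + e b * D * a1 true c + e b * D * a1 false c
  have a3 : ∀ b c, e b * (sub true c x + sub false c x) = sub b c x := fun b c => by
    cases b
    · linear_combination (norm := c2 k) a1 false c + e false * a1 true c + hft * sub true c x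
    · linear_combination (norm := c2 k) a1 true c + e true * a1 false c + htf * sub false c x
  choose y fy hy using fun c => h (sub true c x + sub false c x)
    ((fx.sub true c).add (fx.sub false c)) (by rw [add_mul, a3, a3])
    (by linear_combination (norm := c2 k) a2 true c + a2 false c +
      hED * (sub true c x + sub false c x))
  let z : RCF k (Bool × T) A := blk true true (e true * y true) + blk true false (e true * y false) +
    blk false true (e false * y true) + blk false false (e false * y false)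
  have hz : ∀ b c, sub b c z = e b * y c := fun b c => by
    cases b <;> cases c <;> simp [z, sub_blk]
  refine ⟨z, ?_, ext_sub fun b c => ?_, ext_sub fun b c => ?_⟩
  · exact (((((fy _).mul_left _).blk _ _).add (((fy _).mul_left _).blk _ _)).add
      (((fy _).mul_left _).blk _ _)).add (((fy _).mul_left _).blk _ _)
  · rw [sub_Sp_one_mul hee htf hft, hz, ← mul_assoc, hee]
  · rw [RCF.sub_mul, sub_Sp, sub_Sp, hz, hz, ← a3, hy c]
    have h3 := hee true
    have h4 := hee false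
    linear_combination (norm := c2 k) e b * hDE * y c + e b * D * h3 * y c + e b * D * h4 * y c

end Spread

/-! ### Matrices over the triangular algebra as quadruples of matrices -/

section Theta

variable {c : Coef k S} {Λ : Type} [Ring Λ] [Algebra k Λ] (L : LamData c Λ)

variable (k T S) in
/-- Quadruples of matrices. -/
abbrev M4 := RCF k T S × RCF k T S × RCF k T S × RCF k T S

/-- The entries of a quadruple of matrices. -/
def ent4 (x : M4 k T S) (i j : T) : S × S × S × S :=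
  (x.1.ent i j, x.2.1.ent i j, x.2.2.1.ent i j, x.2.2.2.ent i j)

/-- The matrix over `Λ` given by a quadruple. -/
noncomputable def Θ : M4 k T S →ₗ[k] RCF k T Λ where
  toFun x := mapL (L.φ ∘ₗ LinearMap.inl k _ _) x.1 +
    mapL (L.φ ∘ₗ LinearMap.inr k _ _ ∘ₗ LinearMap.inl k _ _) x.2.1 +
    mapL (L.φ ∘ₗ LinearMap.inr k _ _ ∘ₗ LinearMap.inr k _ _ ∘ₗ LinearMap.inl k _ _) x.2.2.1 +
    mapL (L.φ ∘ₗ LinearMap.inr k _ _ ∘ₗ LinearMap.inr k _ _ ∘ₗ LinearMap.inr k _ _) x.2.2.2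
  map_add' x y := by
    simp only [Prod.fst_add, Prod.snd_add, map_add]; abel
  map_smul' a x := by
    simp only [Prod.smul_fst, Prod.smul_snd, map_smul, smul_add, RingHom.id_apply]

theorem ent_Θ (x : M4 k T S) (i j : T) : (Θ L x).ent i j = L.φ (ent4 x i j) := by
  change L.φ (x.1.ent i j, 0) + L.φ (0, x.2.1.ent i j, 0) + L.φ (0, 0, x.2.2.1.ent i j, 0) +
    L.φ (0, 0, 0, x.2.2.2.ent i j) = _
  rw [← map_add, ← map_add, ← map_add]
  congr 1
  simp [ent4]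

theorem Θ_zero : Θ L ((0, 0, 0, 0) : M4 k T S) = 0 := map_zero (Θ L)

variable (c) in
/-- Admissible quadruples. -/
structure Adm (x : M4 k T S) : Prop where
  a : Ent c.R.toSubmodule x.1
  b : Ent c.R.toSubmodule x.2.1
  g : Ent c.P (x.2.2.1 + x.2.2.2)

theorem Adm.pat {x : M4 k T S} (h : Adm c x) (i j : T) : c.Pat (ent4 x i j) :=
  ⟨h.a i j, h.b i j, h.g i j⟩

theorem Adm.add {x y : M4 k T S} (hx : Adm c x) (hy : Adm c y) : Adm c (x + y) :=
  ⟨hx.a.add hy.a, hx.b.add hy.b, by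
    have : (x + y).2.2.1 + (x + y).2.2.2 = (x.2.2.1 + x.2.2.2) + (y.2.2.1 + y.2.2.2) := by
      simp only [Prod.fst_add, Prod.snd_add]; abel
    rw [this]; exact hx.g.add hy.g⟩

theorem Adm.mul {x y : M4 k T S} (hx : Adm c x) (hy : Adm c y) : Adm c (mul4 x y) :=
  ⟨hx.a.mul hy.a c.RR, hx.b.mul hy.b c.RR, by
    have : (mul4 x y).2.2.1 + (mul4 x y).2.2.2 =
        x.1 * (y.2.2.1 + y.2.2.2) + (x.2.2.1 + x.2.2.2) * y.2.1 := by
      simp only [mul4, mul_add, add_mul]; abel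
    rw [this]
    exact ((hx.a.mono c.R_le_B).mul hy.g c.BP).add (hx.g.mul (hy.b.mono c.R_le_B) c.PB)⟩

theorem adm_diag {a b : RCF k T S} (ha : Ent c.R.toSubmodule a) (hb : Ent c.R.toSubmodule b) :
    Adm c (a, b, 0, 0) := ⟨ha, hb, by simpa using ent_zero' _⟩

theorem Θ_mul {x y : M4 k T S} (hx : Adm c x) (hy : Adm c y) :
    Θ L x * Θ L y = Θ L (mul4 x y) := by
  ext i l
  obtain ⟨F, hF⟩ : ∃ F : Finset T, ∀ j, ent4 x i j ≠ 0 → j ∈ F := by
    refine ⟨(x.1.rowFin i).toFinset ∪ (x.2.1.rowFin i).toFinset ∪ (x.2.2.1.rowFin i).toFinset ∪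
      (x.2.2.2.rowFin i).toFinset, fun j hj => ?_⟩
    by_contra h
    simp only [Finset.mem_union, Set.Finite.mem_toFinset, Function.mem_support, not_or,
      not_not] at h
    exact hj (by simp [ent4, h.1.1.1, h.1.1.2, h.1.2, h.2])
  have h1 : ∀ j, x.1.ent i j ≠ 0 → j ∈ F := fun j h => hF j fun h0 =>
    h (congrArg (fun z : S × S × S × S => z.1) h0)
  have h2 : ∀ j, x.2.1.ent i j ≠ 0 → j ∈ F := fun j h => hF j fun h0 =>
    h (congrArg (fun z : S × S × S × S => z.2.1) h0)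
  have h3 : ∀ j, x.2.2.1.ent i j ≠ 0 → j ∈ F := fun j h => hF j fun h0 =>
    h (congrArg (fun z : S × S × S × S => z.2.2.1) h0)
  have h4 : ∀ j, x.2.2.2.ent i j ≠ 0 → j ∈ F := fun j h => hF j fun h0 =>
    h (congrArg (fun z : S × S × S × S => z.2.2.2) h0)
  rw [ent_mul_of_subset _ _ i l F fun j h _ => hF j fun h0 => h (by rw [ent_Θ, h0, map_zero]),
    ent_Θ]
  simp only [ent_Θ, L.mul _ _ (hx.pat _ _) (hy.pat _ _)]
  rw [← map_sum]
  congr 1
  simp only [ent4, mul4, ent_add]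
  rw [ent_mul_of_subset _ _ i l F fun j h _ => h1 j h,
    ent_mul_of_subset _ _ i l F fun j h _ => h2 j h,
    ent_mul_of_subset x.1 _ i l F fun j h _ => h1 j h,
    ent_mul_of_subset x.2.2.1 _ i l F fun j h _ => h3 j h,
    ent_mul_of_subset x.1 _ i l F fun j h _ => h1 j h,
    ent_mul_of_subset x.2.2.2 _ i l F fun j h _ => h4 j h]
  simp only [Prod.ext_iff, Prod.fst_sum, Prod.snd_sum, Finset.sum_add_distrib, and_self]

theorem Θ_eq_zero {x : M4 k T S} (hx : Adm c x) : Θ L x = 0 ↔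
    x.1 = 0 ∧ x.2.1 = 0 ∧ Ent c.R.toSubmodule x.2.2.1 ∧ Ent c.N x.2.2.2 := by
  constructor
  · intro h
    have key := fun i j => (L.ker _ (hx.pat i j)).1 (by rw [← ent_Θ, h]; rfl)
    exact ⟨RCF.ext fun i j => (key i j).1, RCF.ext fun i j => (key i j).2.1,
      fun i j => (key i j).2.2.1, fun i j => (key i j).2.2.2⟩
  · rintro ⟨h1, h2, h3, h4⟩
    ext i j
    rw [ent_Θ]
    exact (L.ker _ (hx.pat i j)).2 ⟨by simp [ent4, h1], by simp [ent4, h2], h3 i j, h4 i j⟩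

theorem Θ_eq_of {x y : M4 k T S} (hx : Adm c x) (hy : Adm c y) (h1 : x.1 = y.1)
    (h2 : x.2.1 = y.2.1) (h3 : Ent c.R.toSubmodule (x.2.2.1 + y.2.2.1))
    (h4 : Ent c.N (x.2.2.2 + y.2.2.2)) : Θ L x = Θ L y := by
  have h := (Θ_eq_zero L (hx.add hy)).2 ⟨by rw [Prod.fst_add, h1, add_self],
    by rw [Prod.snd_add, Prod.fst_add, h2, add_self], h3, h4⟩
  rw [map_add] at h
  linear_combination (norm := c2 k) h

/-- An admissible quadruple representing a matrix over `Λ`. -/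
noncomputable def sec4 (x : RCF k T Λ) : M4 k T S :=
  (mapL (LinearMap.fst k _ _ ∘ₗ L.sec) x,
    mapL (LinearMap.fst k _ _ ∘ₗ LinearMap.snd k _ _ ∘ₗ L.sec) x,
    mapL (LinearMap.fst k _ _ ∘ₗ LinearMap.snd k _ _ ∘ₗ LinearMap.snd k _ _ ∘ₗ L.sec) x,
    mapL (LinearMap.snd k _ _ ∘ₗ LinearMap.snd k _ _ ∘ₗ LinearMap.snd k _ _ ∘ₗ L.sec) x)

theorem Θ_sec4 (x : RCF k T Λ) : Θ L (sec4 L x) = x := by
  ext i j
  rw [ent_Θ]
  exact L.φ_sec _

theorem adm_sec4 (x : RCF k T Λ) : Adm c (sec4 L x) :=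
  ⟨fun i j => (L.pat_sec (x.ent i j)).1, fun i j => (L.pat_sec (x.ent i j)).2.1,
    fun i j => (L.pat_sec (x.ent i j)).2.2⟩

theorem isFin_Θ {x : M4 k T S} (h1 : IsFin x.1) (h2 : IsFin x.2.1) (h3 : IsFin x.2.2.1)
    (h4 : IsFin x.2.2.2) : IsFin (Θ L x) :=
  (((h1.mapL _).add (h2.mapL _)).add (h3.mapL _)).add (h4.mapL _)

theorem homog_Θ {dg dg' : T → ℤ} {n : ℤ} {x : M4 k T S} (h1 : Homog dg dg' n x.1)
    (h2 : Homog dg dg' n x.2.1) (h3 : Homog dg dg' n x.2.2.1) (h4 : Homog dg dg' n x.2.2.2) :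
    Homog dg dg' n (Θ L x) :=
  (((h1.mapL _).add (h2.mapL _)).add (h3.mapL _)).add (h4.mapL _)

end Theta

/-! ### The complex -/

section Main

variable (X : Setup k T S) {Λ : Type} [Ring Λ] [Algebra k Λ] (L : LamData X.toCoef Λ)

/-- The two idempotents. -/
noncomputable def ee : Bool → RCF k T Λ
  | true => Θ L (X.Q.E, 0, 0, 0)
  | false => Θ L (0, X.Q.E, 0, 0)

theorem adm_t : Adm X.toCoef (X.Q.E, 0, 0, 0) := adm_diag X.entE (ent_zero' _)

theorem adm_f : Adm X.toCoef (0, X.Q.E, 0, 0) := adm_diag (ent_zero' _) X.entE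

theorem adm_E : Adm X.toCoef (X.Q.E, X.Q.E, 0, 0) := adm_diag X.entE X.entE

theorem adm_d : Adm X.toCoef (X.Q.d, X.Q.d, X.s, X.s + X.κ) :=
  ⟨X.entd, X.entd, by
    have : X.s + (X.s + X.κ) = X.κ := by c2 k
    exact this.symm ▸ X.coκ.ent.mono X.B_le_P⟩

theorem ee_add : ee X L true + ee X L false = Θ L (X.Q.E, X.Q.E, 0, 0) := by
  rw [ee, ee, ← map_add]; congr 1; simp

theorem ee_ee (b : Bool) : ee X L b * ee X L b = ee X L b := by
  cases b
  · rw [ee, Θ_mul L (adm_f X) (adm_f X)]; simp [mul4, X.Q.EE]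
  · rw [ee, Θ_mul L (adm_t X) (adm_t X)]; simp [mul4, X.Q.EE]

theorem ee_tf : ee X L true * ee X L false = 0 := by
  rw [ee, ee, Θ_mul L (adm_t X) (adm_f X)]; simp [mul4, Θ_zero]

theorem ee_ft : ee X L false * ee X L true = 0 := by
  rw [ee, ee, Θ_mul L (adm_f X) (adm_t X)]; simp [mul4, Θ_zero]

variable {X}

theorem blk_tt {x : M4 k T S} (hx : Adm X.toCoef x) :
    ee X L true * Θ L x * ee X L true = Θ L (X.Q.E * x.1 * X.Q.E, 0, 0, 0) := by
  rw [ee, Θ_mul L (adm_t X) hx, Θ_mul L ((adm_t X).mul hx) (adm_t X)]; simp [mul4]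

theorem blk_tf {x : M4 k T S} (hx : Adm X.toCoef x) :
    ee X L true * Θ L x * ee X L false =
      Θ L (0, 0, X.Q.E * x.2.2.1 * X.Q.E, X.Q.E * x.2.2.2 * X.Q.E) := by
  rw [ee, ee, Θ_mul L (adm_t X) hx, Θ_mul L ((adm_t X).mul hx) (adm_f X)]; simp [mul4]

theorem blk_ft {x : M4 k T S} (hx : Adm X.toCoef x) :
    ee X L false * Θ L x * ee X L true = 0 := by
  rw [ee, ee, Θ_mul L (adm_f X) hx, Θ_mul L ((adm_f X).mul hx) (adm_t X)]; simp [mul4, Θ_zero]

theorem blk_ff {x : M4 k T S} (hx : Adm X.toCoef x) :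
    ee X L false * Θ L x * ee X L false = Θ L (0, X.Q.E * x.2.1 * X.Q.E, 0, 0) := by
  rw [ee, Θ_mul L (adm_f X) hx, Θ_mul L ((adm_f X).mul hx) (adm_f X)]; simp [mul4]

variable (X) in
/-- The grading. -/
def dgB : Bool × T → ℤ := fun p => if p.1 then X.Q.dg p.2 - 2 else X.Q.dg p.2

theorem homog_Sp {n : ℤ} {x : M4 k T S} (hx : Adm X.toCoef x) (h1 : Homog X.Q.dg X.Q.dg n x.1)
    (h2 : Homog X.Q.dg X.Q.dg n x.2.1) (h3 : Homog X.Q.dg X.Q.dg (n - 2) x.2.2.1)
    (h4 : Homog X.Q.dg X.Q.dg (n - 2) x.2.2.2) :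
    Homog (dgB X) (dgB X) n (Sp (ee X L) (Θ L x)) := by
  have hE : ∀ {m : ℤ} {y : RCF k T S}, Homog X.Q.dg X.Q.dg m y →
      Homog X.Q.dg X.Q.dg m (X.Q.E * y * X.Q.E) := fun h =>
    (X.Q.hE.mul' h (zero_add _)).mul' X.Q.hE (add_zero _)
  have z := fun m => homog_zero (k := k) (S := S) X.Q.dg X.Q.dg m
  rw [Sp, blk_tt L hx, blk_tf L hx, blk_ft L hx, blk_ff L hx, map_zero, add_zero]
  refine Homog.add (Homog.add (Homog.blk fun i j h => ?_) (Homog.blk fun i j h => ?_))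
    (Homog.blk fun i j h => ?_)
  · have := homog_Θ L (x := (X.Q.E * x.1 * X.Q.E, 0, 0, 0)) (hE h1) (z _) (z _) (z _) i j h
    simp only [dgB, if_true]; omega
  · have := homog_Θ L (x := (0, 0, X.Q.E * x.2.2.1 * X.Q.E, X.Q.E * x.2.2.2 * X.Q.E)) (z _) (z _)
      (hE h3) (hE h4) i j h
    simp only [dgB, if_true, Bool.false_eq_true, if_false]; omega
  · have := homog_Θ L (x := (0, X.Q.E * x.2.1 * X.Q.E, 0, 0)) (z _) (hE h2) (z _) (z _) i j h
    simp only [dgB, Bool.false_eq_true, if_false]; omega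

variable (X)

/-- The differential before spreading. -/
noncomputable def D₁ : RCF k T Λ := Θ L (X.Q.d, X.Q.d, X.s, X.s + X.κ)

theorem E_D₁ : (ee X L true + ee X L false) * D₁ X L = D₁ X L := by
  rw [ee_add, D₁, Θ_mul L (adm_E X) (adm_d X)]
  simp [mul4, X.Q.Ed, mul_add, X.cos.l, X.coκ.l]

theorem D₁_E : D₁ X L * (ee X L true + ee X L false) = D₁ X L := by
  rw [ee_add, D₁, Θ_mul L (adm_d X) (adm_E X)]
  simp [mul4, X.Q.dE, add_mul, X.cos.r, X.coκ.r]

theorem D₁_D₁ : D₁ X L * D₁ X L = 0 := by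
  have hs : X.Q.d * X.s + X.s * X.Q.d = X.Q.E := X.Ds
  have hκ : X.Q.d * X.κ + X.κ * X.Q.d = X.Q.E + X.σ := X.Dκ
  rw [D₁, Θ_mul L (adm_d X) (adm_d X), Θ_eq_zero L ((adm_d X).mul (adm_d X))]
  refine ⟨X.Q.dd, X.Q.dd, ?_, ?_⟩
  · change Ent _ (X.Q.d * X.s + X.s * X.Q.d)
    rw [hs]; exact X.entE
  · change Ent _ (X.Q.d * (X.s + X.κ) + (X.s + X.κ) * X.Q.d)
    have : X.Q.d * (X.s + X.κ) + (X.s + X.κ) * X.Q.d = X.σ := by
      linear_combination (norm := c2 k) hs + hκ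
    rw [this]; exact X.coσ.ent

theorem Sp_one : Sp (ee X L) 1 = Sp (ee X L) (Θ L (X.Q.E, X.Q.E, 0, 0)) :=
  ext_sub fun b c => by
    rw [sub_Sp, sub_Sp, ← ee_add]
    cases b <;> simp [mul_add, ee_ee, ee_tf, ee_ft]

theorem Sp_one_mul (x : RCF k T Λ) : Sp (ee X L) 1 * Sp (ee X L) x = Sp (ee X L) x :=
  ext_sub fun b c => by
    rw [sub_Sp_one_mul (ee_ee X L) (ee_tf X L) (ee_ft X L), sub_Sp, ← mul_assoc, ← mul_assoc, ee_ee]

theorem mul_Sp_one (x : RCF k T Λ) : Sp (ee X L) x * Sp (ee X L) 1 = Sp (ee X L) x :=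
  ext_sub fun b c => by
    rw [sub_mul_Sp_one (ee_ee X L) (ee_tf X L) (ee_ft X L), sub_Sp, mul_assoc, ee_ee]

/-- The glued complex. -/
noncomputable def QQ : Cx k (Bool × T) Λ where
  dg := dgB X
  fin a := by
    refine ((Set.finite_univ (α := Bool)).prod ((X.Q.fin (a + 2)).union (X.Q.fin a))).subset ?_
    rintro ⟨b, t⟩ h
    refine ⟨trivial, ?_⟩
    cases b
    · exact Or.inr (by simpa [dgB] using h)
    · refine Or.inl ?_
      simp only [dgB, Set.mem_ofPred_eq, if_true] at h ⊢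
      omega
  E := Sp (ee X L) 1
  d := Sp (ee X L) (D₁ X L)
  EE := Sp_one_mul X L _
  Ed := Sp_one_mul X L _
  dE := mul_Sp_one X L _
  dd := by rw [Sp_mul (ee_ee X L), D₁_E, D₁_D₁, Sp_zero]
  hE := by
    rw [Sp_one]
    exact homog_Sp L (adm_E X) X.Q.hE X.Q.hE (homog_zero _ _ _) (homog_zero _ _ _)
  hd := homog_Sp L (adm_d X) X.Q.hd X.Q.hd (X.cos.hom.cast (by norm_num))
    ((X.cos.hom.add X.coκ.hom).cast (by norm_num))

theorem row₁ (x : RCF k T Λ) (fx : IsFin x) (h1 : x * (ee X L true + ee X L false) = x)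
    (h2 : x * D₁ X L = 0) : ∃ y, IsFin y ∧ x = y * D₁ X L := by
  obtain ⟨q, hq⟩ : ∃ q, q = mul4 (sec4 L x) (X.Q.E, X.Q.E, 0, 0) := ⟨_, rfl⟩
  have aq : Adm X.toCoef q := hq ▸ (adm_sec4 L x).mul (adm_E X)
  have hx : Θ L q = x := by rw [hq, ← Θ_mul L (adm_sec4 L x) (adm_E X), Θ_sec4, ← ee_add, h1]
  have e1 : q.1 = (sec4 L x).1 * X.Q.E := by simp [hq, mul4]
  have e2 : q.2.1 = (sec4 L x).2.1 * X.Q.E := by simp [hq, mul4]
  have e3 : q.2.2.1 = (sec4 L x).2.2.1 * X.Q.E := by simp [hq, mul4]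
  have e4 : q.2.2.2 = (sec4 L x).2.2.2 * X.Q.E := by simp [hq, mul4]
  rw [← hx, D₁, Θ_mul L aq (adm_d X), Θ_eq_zero L (aq.mul (adm_d X))] at h2
  obtain ⟨α', β', γ₁', γ₂', f1, f2, f3, f4, a1, a2, a3, b1, b2, b3, b4⟩ := X.row4
    (α := q.1) (β := q.2.1) (γ₁ := q.2.2.1) (γ₂ := q.2.2.2)
    (e1 ▸ (fx.mapL _).mul_right _) (e2 ▸ (fx.mapL _).mul_right _) (e3 ▸ (fx.mapL _).mul_right _)
    (e4 ▸ (fx.mapL _).mul_right _) aq.a aq.b aq.g (by rw [e1, mul_assoc, X.Q.EE])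
    (by rw [e2, mul_assoc, X.Q.EE]) (by rw [e3, mul_assoc, X.Q.EE]) (by rw [e4, mul_assoc, X.Q.EE])
    h2.1 h2.2.1 h2.2.2.1 h2.2.2.2
  have aq' : Adm X.toCoef (α', β', γ₁', γ₂') := ⟨a1, a2, a3⟩
  refine ⟨Θ L (α', β', γ₁', γ₂'), isFin_Θ L f1 f2 f3 f4, ?_⟩
  rw [← hx, D₁, Θ_mul L aq' (adm_d X)]
  exact Θ_eq_of L aq (aq'.mul (adm_d X)) b1 b2 (by rw [add_assoc] at b3; exact b3)
    (by rw [add_assoc] at b4; exact b4)

theorem col₁ (x : RCF k T Λ) (fx : IsFin x) (h1 : (ee X L true + ee X L false) * x = x)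
    (h2 : D₁ X L * x = 0) : ∃ y, IsFin y ∧ x = D₁ X L * y := by
  obtain ⟨q, hq⟩ : ∃ q, q = mul4 (X.Q.E, X.Q.E, 0, 0) (sec4 L x) := ⟨_, rfl⟩
  have aq : Adm X.toCoef q := hq ▸ (adm_E X).mul (adm_sec4 L x)
  have hx : Θ L q = x := by rw [hq, ← Θ_mul L (adm_E X) (adm_sec4 L x), Θ_sec4, ← ee_add, h1]
  have e1 : q.1 = X.Q.E * (sec4 L x).1 := by simp [hq, mul4]
  have e2 : q.2.1 = X.Q.E * (sec4 L x).2.1 := by simp [hq, mul4]
  have e3 : q.2.2.1 = X.Q.E * (sec4 L x).2.2.1 := by simp [hq, mul4]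
  have e4 : q.2.2.2 = X.Q.E * (sec4 L x).2.2.2 := by simp [hq, mul4]
  rw [← hx, D₁, Θ_mul L (adm_d X) aq, Θ_eq_zero L ((adm_d X).mul aq)] at h2
  obtain ⟨α', β', γ₁', γ₂', f1, f2, f3, f4, a1, a2, a3, b1, b2, b3, b4⟩ := X.col4
    (α := q.1) (β := q.2.1) (γ₁ := q.2.2.1) (γ₂ := q.2.2.2)
    (e1 ▸ (fx.mapL _).mul_left _) (e2 ▸ (fx.mapL _).mul_left _) (e3 ▸ (fx.mapL _).mul_left _)
    (e4 ▸ (fx.mapL _).mul_left _) aq.a aq.b aq.g (by rw [e1, ← mul_assoc, X.Q.EE])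
    (by rw [e2, ← mul_assoc, X.Q.EE]) (by rw [e3, ← mul_assoc, X.Q.EE])
    (by rw [e4, ← mul_assoc, X.Q.EE]) h2.1 h2.2.1 h2.2.2.1 h2.2.2.2
  have aq' : Adm X.toCoef (α', β', γ₁', γ₂') := ⟨a1, a2, a3⟩
  refine ⟨Θ L (α', β', γ₁', γ₂'), isFin_Θ L f1 f2 f3 f4, ?_⟩
  rw [← hx, D₁, Θ_mul L (adm_d X) aq']
  exact Θ_eq_of L aq ((adm_d X).mul aq') b1 b2 (by rw [add_assoc] at b3; exact b3)
    (by rw [add_assoc] at b4; exact b4)

theorem rowEx_QQ : (QQ X L).RowEx ⊤ := fun x fx _ h1 h2 => by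
  obtain ⟨y, fy, h3, h4⟩ := row_Sp (ee_ee X L) (ee_tf X L) (ee_ft X L) (E_D₁ X L) (D₁_E X L)
    (row₁ X L) x fx h1 h2
  exact ⟨y, fy, ent_top _, h3, h4⟩

theorem colEx_QQ : (QQ X L).ColEx ⊤ := fun x fx _ h1 h2 => by
  obtain ⟨y, fy, h3, h4⟩ := col_Sp (ee_ee X L) (ee_tf X L) (ee_ft X L) (E_D₁ X L) (D₁_E X L)
    (col₁ X L) x fx h1 h2
  exact ⟨y, fy, ent_top _, h3, h4⟩

/-- The coboundary of a spread matrix. -/
theorem D_Sp {α β γ₁ γ₂ : RCF k T S} (hx : Adm X.toCoef (α, β, γ₁, γ₂)) :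
    (QQ X L).D (Sp (ee X L) (Θ L (α, β, γ₁, γ₂))) = Sp (ee X L) (Θ L (X.Q.D α, X.Q.D β,
      X.Q.D γ₁ + α * X.s + X.s * β, X.Q.D γ₂ + α * (X.s + X.κ) + (X.s + X.κ) * β)) := by
  change Sp (ee X L) (D₁ X L) * _ + _ * Sp (ee X L) (D₁ X L) = _
  rw [Sp_mul (ee_ee X L), Sp_mul (ee_ee X L), D₁_E, mul_assoc, E_D₁, ← Sp_add, D₁,
    Θ_mul L (adm_d X) hx, Θ_mul L hx (adm_d X), ← map_add]
  congr 2
  simp only [mul4, Cx.D, Prod.mk_add_mk, Prod.mk.injEq, true_and]
  constructor <;> abel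

theorem adm_D {α β γ₁ γ₂ : RCF k T S} (hx : Adm X.toCoef (α, β, γ₁, γ₂)) :
    Adm X.toCoef (X.Q.D α, X.Q.D β, X.Q.D γ₁ + α * X.s + X.s * β,
      X.Q.D γ₂ + α * (X.s + X.κ) + (X.s + X.κ) * β) := by
  have h := ((adm_d X).mul hx).add (hx.mul (adm_d X))
  convert h using 1
  simp only [mul4, Cx.D, Prod.mk_add_mk, Prod.mk.injEq, true_and]
  constructor <;> abel

theorem co_sandwich {N : Submodule k S} (hN : X.Q.Stab N) {m : ℤ} {y : RCF k T S} (h1 : Ent N y)
    (h2 : Homog X.Q.dg X.Q.dg m y) : X.Q.Co N m (X.Q.E * y * X.Q.E) :=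
  ⟨hN.Er _ (hN.El _ h1), (X.Q.hE.mul' h2 (zero_add _)).mul' X.Q.hE (add_zero _),
    by rw [← mul_assoc, ← mul_assoc, X.Q.EE], by rw [mul_assoc, X.Q.EE]⟩

theorem exists_of_co {n : ℤ} {φ : RCF k (Bool × T) Λ} (h : (QQ X L).Co ⊤ n φ) :
    ∃ α β γ₁ γ₂ : RCF k T S, X.Q.Co X.R.toSubmodule n α ∧ X.Q.Co X.R.toSubmodule n β ∧
      X.Q.Co ⊤ (n - 2) γ₁ ∧ X.Q.Co ⊤ (n - 2) γ₂ ∧ Ent X.P (γ₁ + γ₂) ∧
      φ = Sp (ee X L) (Θ L (α, β, γ₁, γ₂)) := by
  have hl : Sp (ee X L) 1 * φ = φ := h.l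
  have hr : φ * Sp (ee X L) 1 = φ := h.r
  have key : ∀ b c, sub b c φ = ee X L b * Θ L (sec4 L (sub b c φ)) * ee X L c := fun b c => by
    rw [Θ_sec4, ← sub_Sp_one_mul (ee_ee X L) (ee_tf X L) (ee_ft X L), hl,
      ← sub_mul_Sp_one (ee_ee X L) (ee_tf X L) (ee_ft X L), hr]
  have htt : Homog X.Q.dg X.Q.dg n (sub true true φ) := fun i j h0 => by
    have : dgB X (true, j) = dgB X (true, i) + n := h.hom _ _ h0
    simp only [dgB, if_true] at this; omega
  have htf : Homog X.Q.dg X.Q.dg (n - 2) (sub true false φ) := fun i j h0 => by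
    have : dgB X (false, j) = dgB X (true, i) + n := h.hom _ _ h0
    simp only [dgB, if_true, Bool.false_eq_true, if_false] at this; omega
  have hff : Homog X.Q.dg X.Q.dg n (sub false false φ) := fun i j h0 => by
    have : dgB X (false, j) = dgB X (false, i) + n := h.hom _ _ h0
    simp only [dgB, Bool.false_eq_true, if_false] at this; omega
  have c1 := co_sandwich X X.mt_stabR (adm_sec4 L (sub true true φ)).a (htt.mapL _)
  have c2' := co_sandwich X X.mt_stabR (adm_sec4 L (sub false false φ)).b (hff.mapL _)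
  have c3 := co_sandwich X X.Q.stab_top (y := (sec4 L (sub true false φ)).2.2.1) (ent_top _)
    (htf.mapL _)
  have c4 := co_sandwich X X.Q.stab_top (y := (sec4 L (sub true false φ)).2.2.2) (ent_top _)
    (htf.mapL _)
  have c5 : Ent X.P (X.Q.E * (sec4 L (sub true false φ)).2.2.1 * X.Q.E +
      X.Q.E * (sec4 L (sub true false φ)).2.2.2 * X.Q.E) := by
    rw [← add_mul, ← mul_add]
    exact X.mt_stabP.Er _ (X.mt_stabP.El _ (adm_sec4 L (sub true false φ)).g)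
  refine ⟨_, _, _, _, c1, c2', c3, c4, c5, ext_sub fun b c => ?_⟩
  have ax : Adm X.toCoef (_, _, _, _) := ⟨c1.ent, c2'.ent, c5⟩
  rw [sub_Sp]
  cases b <;> cases c
  · rw [blk_ff L ax, c2'.l, c2'.r, ← blk_ff L (adm_sec4 L _), ← key]
  · rw [blk_ft L ax, key, blk_ft L (adm_sec4 L _)]
  · rw [blk_tf L ax, c3.l, c3.r, c4.l, c4.r, ← blk_tf L (adm_sec4 L _), ← key]
  · rw [blk_tt L ax, c1.l, c1.r, ← blk_tt L (adm_sec4 L _), ← key]

theorem hz_QQ {n : ℤ} (h0 : n ≠ 0) (h1 : n ≠ -1) : (QQ X L).Hz ⊤ n := by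
  intro φ hφ hD
  obtain ⟨α, β, γ₁, γ₂, cα, cβ, c₁, c₂, eγ, rfl⟩ := exists_of_co X L hφ
  have ax : Adm X.toCoef (α, β, γ₁, γ₂) := ⟨cα.ent, cβ.ent, eγ⟩
  have tt : ∀ a ∈ (⊤ : Submodule k S), ∀ b ∈ (⊤ : Submodule k S), a * b ∈ (⊤ : Submodule k S) :=
    fun _ _ _ _ => trivial
  have cf : X.Q.Co ⊤ (-1) (X.s + X.κ) := X.cos.add X.coκ.top
  have co3 : ∀ {γ f : RCF k T S}, X.Q.Co ⊤ (n - 2) γ → X.Q.Co ⊤ (-1) f →
      X.Q.Co ⊤ (n - 1) (X.Q.D γ + α * f + f * β) := fun h₁ h₄ =>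
    (((h₁.D X.Q.stab_top).cast (by ring)).add (cα.top.mul h₄ tt (by ring))).add
      (h₄.mul cβ.top tt (by ring))
  rw [D_Sp X L ax] at hD
  have h2 := eq_zero_of_Sp hD
  rw [ee_add, Θ_mul L (adm_E X) (adm_D X ax), Θ_mul L ((adm_E X).mul (adm_D X ax)) (adm_E X),
    Θ_eq_zero L (((adm_E X).mul (adm_D X ax)).mul (adm_E X))] at h2
  simp only [mul4, mul_zero, zero_mul, add_zero, zero_add, (cα.D X.mt_stabR).l,
    (cα.D X.mt_stabR).r, (cβ.D X.mt_stabR).l, (cβ.D X.mt_stabR).r, (co3 c₁ X.cos).l,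
    (co3 c₁ X.cos).r, (co3 c₂ cf).l, (co3 c₂ cf).r] at h2
  obtain ⟨α', β', γ₁', γ₂', a1, a2, a3, a4, a5, b1, b2, b3, b4⟩ :=
    X.hz4 h0 h1 cα cβ c₁ c₂ eγ h2.1 h2.2.1 h2.2.2.1 h2.2.2.2
  have ax' : Adm X.toCoef (α', β', γ₁', γ₂') := ⟨a1.ent, a2.ent, a5⟩
  refine ⟨Sp (ee X L) (Θ L (α', β', γ₁', γ₂')), ⟨ent_top _, homog_Sp L ax' a1.hom a2.hom
    (a3.hom.cast (by ring)) (a4.hom.cast (by ring)), Sp_one_mul X L _, mul_Sp_one X L _⟩, ?_⟩
  rw [D_Sp X L ax']
  congr 1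
  exact (Θ_eq_of L ax (adm_D X ax') b1 b2 (by simpa only [add_assoc] using b3)
    (by simpa only [add_assoc] using b4)).symm

theorem no_ginv_QQ (g : RCF k (Bool × T) Λ) :
    (QQ X L).dAt (-1) * g * (QQ X L).dAt (-1) ≠ (QQ X L).dAt (-1) := by
  intro h
  obtain ⟨pr, hpr, -⟩ := L.exists_pr
  let g₂ : Λ →ₐ[k] S := X.R.val.comp ((AlgHom.snd k _ _).comp pr)
  have hg : ∀ x : M4 k T S, Adm X.toCoef x → RCF.map g₂ (Θ L x) = x.2.1 := fun x hx => by
    ext i j
    rw [ent_map, ent_Θ]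
    exact (hpr _ (hx.pat i j)).2
  have h1 : RCF.map g₂ (QQ X L).d = blk false false X.Q.d := by
    refine ext_sub fun b c => ?_
    change sub b c (RCF.map g₂ (Sp (ee X L) (D₁ X L))) = _
    rw [← map_sub_blk, sub_Sp, map_mul, map_mul, D₁, hg _ (adm_d X), sub_blk]
    cases b <;> cases c <;>
      simp [ee, hg _ (adm_t X), hg _ (adm_f X), X.Q.Ed, X.Q.dE]
  have h2 : RCF.map g₂ ((QQ X L).dAt (-1)) = blk false false (X.Q.dAt (-1)) := by
    rw [Cx.dAt, map_mul, h1, map_projS, projS_eq_blk, add_mul, blk_true_mul_false, zero_add,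
      blk_mul_blk_self]
    rfl
  have h3 := congrArg (fun z => sub false false (RCF.map g₂ z)) h
  simp only [map_mul, h2] at h3
  rw [sub_mul_blk, sub_blk_mul, sub_blk, if_pos ⟨rfl, rfl⟩] at h3
  exact X.no_ginv (-1) (g := sub false false (RCF.map g₂ g))
    (fun i j => X.RB (pr (g.ent (false, i) (false, j))).2.2) h3

end Main

end Glue

/-- Let `Θ α β γ₁ γ₂ : RCF k T Λ` have the entries `L.φ (α i j, β i j, γ₁ i j, γ₂ i j)` (a sum of four
`mapL`).  Call a quadruple of matrices admissible if `Ent R α`, `Ent R β`, `Ent P (γ₁ + γ₂)`.  Then: every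
matrix `x` over `Λ` is `Θ` of an admissible quadruple (the components are `mapL (prᵢ ∘ L.sec) x`, so they
inherit finiteness and homogeneity); `Θ x * Θ y = Θ (mul4 x y)` for admissible `x, y` (sum over a finite
set, `L.mul`); `Θ x = 0 ↔ α = 0 ∧ β = 0 ∧ Ent R γ₁ ∧ Ent N γ₂` for admissible `x` (`L.ker`).
Put `E₁ = Θ E 0 0 0`, `E₂ = Θ 0 E 0 0`, `D₁ = Θ d d s (s + κ)` and
`Q.dg (true, t) = dg t - 2`, `Q.dg (false, t) = dg t`, `Q.E = blk true true E₁ + blk false false E₂`,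
`Q.d = blk true true (Θ d 0 0 0) + blk true false (Θ 0 0 s (s + κ)) + blk false false (Θ 0 d 0 0)`;
`Q.d * Q.d = blk true false (Θ 0 0 E σ) = 0`.
Rows: if `x Q.E = x`, `x Q.d = 0`, put `x_b = sub b true x + sub b false x`; then
`sub b true x = x_b E₁`, `sub b false x = x_b E₂`, `x_b D₁ = 0`, `x_b = x_b * Θ E E 0 0`; `row4` gives `y_b`
with `y_b D₁ = x_b`; take `y = ∑ b, blk b true (y_b E₁) + blk b false (y_b E₂)`.  Columns: mirror image
with `col4`.  Cochains of degree `n`: the blocks are `Θ α 0 0 0`, `Θ 0 0 γ₁ γ₂`, `0`, `Θ 0 β 0 0` with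
`α, β` of degree `n` and `γᵢ` of degree `n - 2` (multiply by `E` on both sides); use `hz4`.
No generalised inverse: with `pr` from `LamData.exists_pr` let `g₂ : Λ →ₐ S`, `g₂ l = (pr l).2`; then
`map g₂ (Q.dAt (-1)) = blk false false (X.Q.dAt (-1))`, so `sub false false (map g₂ g)` contradicts
`no_ginv`. -/
theorem Setup.glue (X : Setup k T S) {Λ : Type} [Ring Λ] [Algebra k Λ] (L : LamData X.toCoef Λ) :
    ∃ Q : Cx k (Bool × T) Λ, Q.RowEx ⊤ ∧ Q.ColEx ⊤ ∧ (∀ n, n ≠ 0 → n ≠ -1 → Q.Hz ⊤ n) ∧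
      ∀ g, Q.dAt (-1) * g * Q.dAt (-1) ≠ Q.dAt (-1) :=
  ⟨Glue.QQ X L, Glue.rowEx_QQ X L, Glue.colEx_QQ X L, fun _ h0 h1 => Glue.hz_QQ X L h0 h1,
    Glue.no_ginv_QQ X L⟩

end Crest.Agent.R186
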