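import Crest.Agent.R186.Defs

/-!
Ext groups computed from an elementary projective resolution; free resolutions; injectivity over
symmetric algebras.
-/

namespace Crest.Agent.R186

open CategoryTheory Crest.AlgebraR

universe u v

section ExtAux

variable {R : Type u} [Ring R] {P M : Type u} [AddCommGroup P] [Module R P] [AddCommGroup M]
  [Module R M]

/-- `Ext^1(M, N) = 0` iff maps from the first syzygy extend to the projective cover. -/
theorem extRes_one [Module.Projective R P] (ε : P →ₗ[R] M) (hε : Function.Surjective ε)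
    (N : Type u) [AddCommGroup N] [Module R N] :
    Subsingleton (Abelian.Ext (ModuleCat.of R M) (ModuleCat.of R N) (0 + 1)) ↔
      ∀ g : LinearMap.ker ε →ₗ[R] N, ∃ f : P →ₗ[R] N, g = f ∘ₗ (LinearMap.ker ε).subtype := by
  have hS := LinearMap.shortExact_shortComplexKer hε
  constructor
  · intro h g
    obtain ⟨x₂, hx₂⟩ := Abelian.Ext.contravariant_sequence_exact₁ hS (ModuleCat.of R N)
      (Abelian.Ext.mk₀ (ModuleCat.ofHom g)) (n₁ := 0 + 1) rfl (Subsingleton.elim _ _)
    obtain ⟨f, rfl⟩ := (Abelian.Ext.mk₀_bijective _ _).2 x₂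
    rw [Abelian.Ext.mk₀_comp_mk₀] at hx₂
    have h2 := (Abelian.Ext.mk₀_bijective _ _).1 hx₂
    refine ⟨f.hom, ?_⟩
    have h3 := congrArg ModuleCat.Hom.hom h2
    simpa using h3.symm
  · intro h
    refine subsingleton_of_forall_eq 0 fun x => ?_
    obtain ⟨x₁, rfl⟩ := Abelian.Ext.contravariant_sequence_exact₃ hS (ModuleCat.of R N) x
      (Abelian.Ext.eq_zero_of_projective _) (n₀ := 0) rfl
    obtain ⟨g, rfl⟩ := (Abelian.Ext.mk₀_bijective _ _).2 x₁
    obtain ⟨f, hf⟩ := h g.hom
    have h2 : g = ε.shortComplexKer.f ≫ ModuleCat.ofHom f := by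
      ext1
      simpa using hf
    rw [h2, ← Abelian.Ext.mk₀_comp_mk₀]
    exact hS.extClass_comp_assoc _

/-- dimension shifting -/
theorem extRes_succ [Module.Projective R P] (ε : P →ₗ[R] M) (hε : Function.Surjective ε)
    (N : Type u) [AddCommGroup N] [Module R N] (n : ℕ) :
    Subsingleton (Abelian.Ext (ModuleCat.of R M) (ModuleCat.of R N) (n + 1 + 1)) ↔
      Subsingleton (Abelian.Ext (ModuleCat.of R (LinearMap.ker ε)) (ModuleCat.of R N) (n + 1)) := by
  have hS := LinearMap.shortExact_shortComplexKer hε
  constructor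
  · intro h
    refine subsingleton_of_forall_eq 0 fun x => ?_
    obtain ⟨x₂, rfl⟩ := Abelian.Ext.contravariant_sequence_exact₁ hS (ModuleCat.of R N)
      x (n₁ := n + 1 + 1) (add_comm _ _) (Subsingleton.elim _ _)
    rw [Abelian.Ext.eq_zero_of_projective x₂, Abelian.Ext.comp_zero]
  · intro h
    refine subsingleton_of_forall_eq 0 fun x => ?_
    obtain ⟨x₁, rfl⟩ := Abelian.Ext.contravariant_sequence_exact₃ hS (ModuleCat.of R N) x
      (Abelian.Ext.eq_zero_of_projective _) (n₀ := n + 1) (add_comm _ _)
    rw [Subsingleton.elim x₁ 0, Abelian.Ext.comp_zero]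

end ExtAux

section SymmAux

variable {k : Type v} {A : Type u} [Field k] [Ring A] [Algebra k A]

/-- the `A`-linear map `X → A` attached to a `k`-linear form on `X` -/
noncomputable def extResOfForm (φ : A ≃ₗ[k] Module.Dual k A)
    (hφ : ∀ a x b y : A, φ (a * x * b) y = φ x (b * y * a))
    {X : Type*} [AddCommGroup X] [Module A X] [Module k X] [IsScalarTower k A X]
    (ω : Module.Dual k X) : X →ₗ[A] A where
  toFun x := φ.symm (ω ∘ₗ (LinearMap.toSpanSingleton A X x).restrictScalars k)
  map_add' x y := by
    rw [← map_add]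
    congr 1
    ext a
    simp
  map_smul' c x := by
    apply φ.injective
    ext y
    have := hφ c (φ.symm (ω ∘ₗ (LinearMap.toSpanSingleton A X x).restrictScalars k)) 1 y
    rw [mul_one, one_mul] at this
    simp only [RingHom.id_apply, smul_eq_mul, this]
    simp [mul_smul]

theorem extResOfForm_apply (φ : A ≃ₗ[k] Module.Dual k A)
    (hφ : ∀ a x b y : A, φ (a * x * b) y = φ x (b * y * a))
    {X : Type*} [AddCommGroup X] [Module A X] [Module k X] [IsScalarTower k A X]
    (ω : Module.Dual k X) (x : X) (y : A) : φ (extResOfForm φ hφ ω x) y = ω (y • x) := by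
  simp [extResOfForm]

theorem extRes_tower (k : Type v) {A : Type u} [Field k] [Ring A] [Algebra k A] (X : Type*)
    [AddCommGroup X] [Module A X] :
    letI : Module k X := Module.compHom X (algebraMap k A)
    IsScalarTower k A X := by
  let _ : Module k X := Module.compHom X (algebraMap k A)
  refine ⟨fun c a x => ?_⟩
  change (c • a) • x = algebraMap k A c • a • x
  rw [Algebra.smul_def, mul_smul]

end SymmAux

/-- `Ext^{n+1}(M, N) = 0` iff the complex `Hom(P, N)` is exact in degree `n+1`.
Proof idea: induction on `n` (generalising the resolution).  Put `K = ker ε`; the short exact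
sequence `0 → K → P 0 → M → 0` and the contravariant long exact sequence
(`Abelian.Ext.contravariant_sequence_exact₁` etc., see also
`Mathlib/Algebra/Category/ModuleCat/Ext/DimensionShifting.lean`) give
`Ext^1(M,N) = coker (Hom(P 0, N) → Hom(K, N))` and `Ext^{n+2}(M,N) ≅ Ext^{n+1}(K,N)`;
`P (·+1)` with `d 0` corestricted to `K` is a resolution of `K`. -/
theorem ext_subsingleton_iff {R : Type u} [Ring R] (P : ℕ → Type u) [∀ n, AddCommGroup (P n)]
    [∀ n, Module R (P n)] [∀ n, Module.Projective R (P n)] (d : ∀ n, P (n + 1) →ₗ[R] P n)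
    {M : Type u} [AddCommGroup M] [Module R M] (ε : P 0 →ₗ[R] M) (hε : Function.Surjective ε)
    (h0 : Function.Exact (d 0) ε) (hd : ∀ n, Function.Exact (d (n + 1)) (d n))
    (N : Type u) [AddCommGroup N] [Module R N] (n : ℕ) :
    Subsingleton (Abelian.Ext (ModuleCat.of R M) (ModuleCat.of R N) (n + 1)) ↔
      ∀ g : P (n + 1) →ₗ[R] N, g ∘ₗ d (n + 1) = 0 → ∃ f : P n →ₗ[R] N, g = f ∘ₗ d n := by
  induction n generalizing P M with
  | zero =>
    rw [extRes_one ε hε N]
    let ε' : P 1 →ₗ[R] LinearMap.ker ε :=
      (d 0).codRestrict _ fun x => h0.apply_apply_eq_zero x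
    have hε' : Function.Surjective ε' := by
      rintro ⟨x, hx⟩
      obtain ⟨y, rfl⟩ := (h0 x).1 hx
      exact ⟨y, rfl⟩
    constructor
    · intro h g hg
      have hle : LinearMap.ker ε' ≤ LinearMap.ker g := by
        intro x hx
        have hx' : d 0 x = 0 := congrArg Subtype.val (LinearMap.mem_ker.1 hx)
        obtain ⟨y, rfl⟩ := (hd 0 x).1 hx'
        exact LinearMap.congr_fun hg y
      obtain ⟨f, hf⟩ := h (((LinearMap.ker ε').liftQ g hle) ∘ₗ
        (ε'.quotKerEquivOfSurjective hε').symm.toLinearMap)
      refine ⟨f, ?_⟩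
      ext x
      have h1 := LinearMap.congr_fun hf (ε' x)
      have h2 : (ε'.quotKerEquivOfSurjective hε').symm (ε' x) = Submodule.Quotient.mk x := by
        rw [LinearEquiv.symm_apply_eq]
        rfl
      simp only [LinearMap.comp_apply, LinearEquiv.coe_coe, h2, Submodule.liftQ_apply] at h1
      exact h1
    · intro h g
      obtain ⟨f, hf⟩ := h (g ∘ₗ ε') (by
        ext x
        have : ε' (d 1 x) = 0 := Subtype.ext ((hd 0).apply_apply_eq_zero x)
        simp [this])
      refine ⟨f, ?_⟩
      ext1 x
      obtain ⟨y, rfl⟩ := hε' x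
      exact LinearMap.congr_fun hf y
  | succ n ih =>
    rw [extRes_succ ε hε N n]
    let ε' : P 1 →ₗ[R] LinearMap.ker ε :=
      (d 0).codRestrict _ fun x => h0.apply_apply_eq_zero x
    have hε' : Function.Surjective ε' := by
      rintro ⟨x, hx⟩
      obtain ⟨y, rfl⟩ := (h0 x).1 hx
      exact ⟨y, rfl⟩
    have h0' : Function.Exact (d 1) ε' := by
      intro x
      rw [← hd 0 x]
      exact ⟨fun hx => congrArg Subtype.val hx, fun hx => Subtype.ext hx⟩
    exact ih (fun n => P (n + 1)) (fun n => d (n + 1)) ε' hε' h0' (fun n => hd (n + 1))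

/-- Finitely generated modules over a finite-dimensional algebra have resolutions by finitely
generated free modules (`A` is left Noetherian, e.g. `isNoetherian_of_tower k`). -/
theorem exists_free_resolution (k : Type v) {A : Type u} [Field k] [Ring A] [Algebra k A]
    [FiniteDimensional k A] (M : Type u) [AddCommGroup M] [Module A M] [Module.Finite A M] :
    ∃ (r : ℕ → ℕ) (d : ∀ n, (Fin (r (n + 1)) → A) →ₗ[A] (Fin (r n) → A))
      (ε : (Fin (r 0) → A) →ₗ[A] M), Function.Surjective ε ∧ Function.Exact (d 0) ε ∧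
      ∀ n, Function.Exact (d (n + 1)) (d n) := by
  have : IsNoetherianRing A := isNoetherian_of_tower k inferInstance
  have hstep : ∀ s : (Σ r : ℕ, Submodule A (Fin r → A)),
      ∃ (r' : ℕ) (D : (Fin r' → A) →ₗ[A] (Fin s.1 → A)), LinearMap.range D = s.2 := by
    intro s
    obtain ⟨r', D, hD⟩ := Module.Finite.exists_fin' A s.2
    refine ⟨r', s.2.subtype ∘ₗ D, ?_⟩
    rw [LinearMap.range_comp, LinearMap.range_eq_top.2 hD, Submodule.map_top,
      Submodule.range_subtype]
  choose r' D hD using hstep
  obtain ⟨r₀, ε, hε⟩ := Module.Finite.exists_fin' A M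
  let s : ℕ → (Σ r : ℕ, Submodule A (Fin r → A)) := fun n =>
    Nat.rec ⟨r₀, LinearMap.ker ε⟩ (fun _ t => ⟨r' t, LinearMap.ker (D t)⟩) n
  refine ⟨fun n => (s n).1, fun n => D (s n), ε, hε, ?_, fun n => ?_⟩
  · rw [LinearMap.exact_iff]
    exact (hD (s 0)).symm
  · rw [LinearMap.exact_iff]
    exact (hD (s (n + 1))).symm

/-- A finite-dimensional symmetric algebra is self-injective.
Proof idea: with `λ = φ 1`, `A`-linear maps `g : X → A` correspond to `k`-linear forms
`λ ∘ g` on `X` (`X` is a `k`-module through `algebraMap`); the inverse sends a form `ω` to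
`x ↦ φ.symm (a ↦ ω (a • x))`.  Linear forms extend along injections. -/
theorem injective_of_symm (k : Type v) {A : Type u} [Field k] [Ring A] [Algebra k A]
    [FiniteDimensional k A] (h : IsSymmetricAlgebra k A) : Module.Injective A A := by
  obtain ⟨φ, hφ⟩ := h
  refine ⟨fun X Y _ _ _ _ f hf g => ?_⟩
  let _ : Module k X := Module.compHom X (algebraMap k A)
  let _ : Module k Y := Module.compHom Y (algebraMap k A)
  have : IsScalarTower k A X := extRes_tower k X
  have : IsScalarTower k A Y := extRes_tower k Y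
  obtain ⟨ω, hω⟩ := LinearMap.dualMap_surjective_of_injective (f := f.restrictScalars k) hf
    (φ 1 ∘ₗ g.restrictScalars k)
  refine ⟨extResOfForm φ hφ ω, fun x => ?_⟩
  apply φ.injective
  ext y
  have h1 := LinearMap.congr_fun hω (y • x)
  have h2 := hφ (g x) 1 1 y
  simp only [mul_one, one_mul] at h2
  rw [extResOfForm_apply, h2, ← map_smul]
  simpa using h1

/-- Over a finite-dimensional symmetric algebra every finitely generated module embeds in a
finitely generated free module (take a basis `ω i` of the `k`-dual of `M` and the `A`-linear maps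
`M → A` attached to the `ω i` as in `injective_of_symm`). -/
theorem exists_embedding_of_symm (k : Type v) {A : Type u} [Field k] [Ring A] [Algebra k A]
    [FiniteDimensional k A] (h : IsSymmetricAlgebra k A) (M : Type u) [AddCommGroup M]
    [Module A M] [Module.Finite A M] :
    ∃ (r : ℕ) (f : M →ₗ[A] (Fin r → A)), Function.Injective f := by
  obtain ⟨φ, hφ⟩ := h
  let _ : Module k M := Module.compHom M (algebraMap k A)
  have : IsScalarTower k A M := extRes_tower k M
  have : Module.Finite k M := Module.Finite.trans A M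
  let b := Module.finBasis k M
  refine ⟨_, LinearMap.pi fun i => extResOfForm φ hφ (b.coord i), ?_⟩
  rw [injective_iff_map_eq_zero]
  intro x hx
  refine b.ext_elem fun i => ?_
  have h1 := extResOfForm_apply φ hφ (b.coord i) x 1
  have h2 : extResOfForm φ hφ (b.coord i) x = 0 := congrFun hx i
  rw [h2, one_smul] at h1
  simpa using h1.symm

end Crest.Agent.R186
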