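import Crest.Agent.R186.Cx0
import Crest.Agent.R186.ExtRes

/-!
From a matrix complex to modules.
-/

set_option linter.unusedSectionVars false

namespace Crest.Agent.R186

open RCF CategoryTheory Crest.AlgebraR

section Aux

variable {k T A : Type} [Field k] [Ring A] [Algebra k A] [DecidableEq T]

/-- A row of a matrix. -/
noncomputable def modRow (x : RCF k T A) (i : T) : T →₀ A :=
  Finsupp.ofSupportFinite (x.ent i) (x.rowFin i)

@[simp] theorem modRow_apply (x : RCF k T A) (i j : T) : modRow x i j = x.ent i j := rfl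

/-- The action of a matrix on row vectors. -/
noncomputable def modLin (x : RCF k T A) : (T →₀ A) →ₗ[A] (T →₀ A) :=
  Finsupp.linearCombination A (modRow x)

theorem modLin_single (x : RCF k T A) (i : T) : modLin x (Finsupp.single i 1) = modRow x i := by
  simp [modLin]

theorem modLin_ext {f g : (T →₀ A) →ₗ[A] (T →₀ A)}
    (h : ∀ i, f (Finsupp.single i 1) = g (Finsupp.single i 1)) : f = g :=
  Finsupp.lhom_ext' fun i => LinearMap.ext_ring (h i)

theorem modLin_injective : Function.Injective (modLin : RCF k T A → _) := by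
  intro x y h
  ext i j
  rw [← modRow_apply, ← modRow_apply, ← modLin_single, ← modLin_single, h]

theorem modLin_mul (x y : RCF k T A) (w : T →₀ A) :
    modLin (x * y) w = modLin y (modLin x w) := by
  refine LinearMap.congr_fun (modLin_ext (f := modLin (x * y)) (g := modLin y ∘ₗ modLin x)
    fun i => ?_) w
  rw [LinearMap.comp_apply, modLin_single, modLin_single]
  ext j
  rw [modRow_apply, ent_mul_of_subset x y i j (modRow x i).support
    (fun l h _ => Finsupp.mem_support_iff.2 h), modLin, Finsupp.linearCombination_apply,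
    Finsupp.sum, Finsupp.finsetSum_apply]
  rfl

theorem modLin_zero (w : T →₀ A) : modLin (0 : RCF k T A) w = 0 := by
  refine LinearMap.congr_fun (modLin_ext (f := modLin (0 : RCF k T A)) (g := 0) fun i => ?_) w
  rw [modLin_single]
  ext j
  simp

theorem modLin_eq {x y : RCF k T A} (h : ∀ w, modLin x w = modLin y w) : x = y :=
  modLin_injective (LinearMap.ext h)

theorem modFin_rows {x : RCF k T A} (hx : IsFin x) : {i | modRow x i ≠ 0}.Finite := by
  obtain ⟨F, hF⟩ := hx.exists_finset
  refine F.finite_toSet.subset fun i hi => ?_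
  by_contra h
  refine hi (Finsupp.ext fun j => ?_)
  by_contra h'
  exact h (hF i j h').1

/-- A linear map killing almost all basis vectors is given by a matrix. -/
theorem mod_exists_mat (f : (T →₀ A) →ₗ[A] (T →₀ A))
    (hf : {i | f (Finsupp.single i 1) ≠ 0}.Finite) :
    ∃ x : RCF k T A, IsFin x ∧ modLin x = f := by
  refine ⟨mk (fun i j => f (Finsupp.single i 1) j) (fun i => Finsupp.hasFiniteSupport _)
    (fun j => hf.subset fun i hi h => hi (by simp only [h, Finsupp.coe_zero, Pi.zero_apply])),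
    ?_, modLin_ext fun i => ?_⟩
  · refine (hf.biUnion fun i _ => (Set.finite_singleton i).prod
      (Finsupp.hasFiniteSupport (f (Finsupp.single i 1)))).subset fun p hp => ?_
    have hp' : f (Finsupp.single p.1 1) p.2 ≠ 0 := hp
    exact Set.mem_biUnion (x := p.1) (fun h => hp' (by rw [h]; rfl)) ⟨rfl, hp'⟩
  · rw [modLin_single]
    ext j
    rfl

variable (Q : Cx k T A)

/-- The projection onto the degree `a` part of the complex. -/
noncomputable def modPi (a : ℤ) : RCF k T A := proj Q.dg a * Q.E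

theorem modPi_eq (a : ℤ) : modPi Q a = Q.E * proj Q.dg a := Q.hE.proj_mul (add_zero a)

theorem isFin_modPi (a : ℤ) : IsFin (modPi Q a) := (Q.isFin_proj a).mul_right _

theorem proj_mul_modPi (a : ℤ) : proj Q.dg a * modPi Q a = modPi Q a := by
  rw [modPi, ← mul_assoc, proj_mul_proj]

theorem modPi_mul_proj (a : ℤ) : modPi Q a * proj Q.dg a = modPi Q a := by
  rw [modPi_eq, mul_assoc, proj_mul_proj]

theorem E_mul_modPi (a : ℤ) : Q.E * modPi Q a = modPi Q a := by
  rw [modPi_eq, ← mul_assoc, Q.EE]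

theorem modPi_mul_E (a : ℤ) : modPi Q a * Q.E = modPi Q a := by
  rw [modPi, mul_assoc, Q.EE]

theorem modPi_mul_modPi (a : ℤ) : modPi Q a * modPi Q a = modPi Q a := by
  nth_rewrite 1 [modPi]
  rw [mul_assoc, E_mul_modPi, proj_mul_modPi]

theorem modPi_mul_d' (a : ℤ) : modPi Q a * Q.d = Q.dAt a := by
  rw [modPi, mul_assoc, Q.Ed, Cx.dAt]

theorem modPi_mul_d {a b : ℤ} (h : a + 1 = b) : modPi Q a * Q.d = Q.d * modPi Q b := by
  rw [modPi_mul_d', Cx.dAt, modPi_eq, ← mul_assoc, Q.dE, Q.hd.proj_mul h]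

/-- The degree `a` part of the complex. -/
noncomputable def modP (a : ℤ) : Submodule A (T →₀ A) := LinearMap.range (modLin (modPi Q a))

variable {Q}

theorem mem_modP {a : ℤ} {w : T →₀ A} : w ∈ modP Q a ↔ modLin (modPi Q a) w = w := by
  refine ⟨?_, fun h => ⟨w, h⟩⟩
  rintro ⟨v, rfl⟩
  rw [← modLin_mul, modPi_mul_modPi]

theorem modP_d {a b : ℤ} (h : a + 1 = b) {w : T →₀ A} (hw : w ∈ modP Q a) :
    modLin Q.d w ∈ modP Q b := by
  rw [mem_modP] at hw ⊢
  rw [← modLin_mul, ← modPi_mul_d Q h, modLin_mul, hw]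

variable (Q)

/-- The retraction onto `modP`. -/
noncomputable def modR (a : ℤ) : (T →₀ A) →ₗ[A] modP Q a := (modLin (modPi Q a)).rangeRestrict

theorem coe_modR (a : ℤ) (w : T →₀ A) : (modR Q a w : T →₀ A) = modLin (modPi Q a) w := rfl

theorem modR_coe (a : ℤ) (w : modP Q a) : modR Q a w = w := Subtype.ext (mem_modP.1 w.2)

theorem modP_projective (a : ℤ) : Module.Projective A (modP Q a) :=
  Module.Projective.of_split (modP Q a).subtype (modR Q a) (LinearMap.ext (modR_coe Q a))

theorem modP_finite (a : ℤ) : Module.Finite A (modP Q a) := by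
  rw [Module.Finite.iff_fg, modP, modLin, Finsupp.range_linearCombination]
  refine Submodule.fg_span ((((modFin_rows (isFin_modPi Q a)).image
    (modRow (modPi Q a))).insert 0).subset ?_)
  rintro _ ⟨i, rfl⟩
  by_cases h : modRow (modPi Q a) i = 0
  · exact Or.inl h
  · exact Or.inr ⟨i, h, rfl⟩

/-- Maps out of `modP` are given by matrices. -/
theorem mod_exists_mat' (a : ℤ) (g : modP Q a →ₗ[A] (T →₀ A)) :
    ∃ x : RCF k T A, ∀ w, modLin x w = g (modR Q a w) := by
  obtain ⟨x, -, hx⟩ := mod_exists_mat (k := k) (g ∘ₗ modR Q a)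
    ((modFin_rows (isFin_modPi Q a)).subset fun i hi h => hi (by
      have : modR Q a (Finsupp.single i 1) = 0 :=
        Subtype.ext (by rw [coe_modR, modLin_single, h]; rfl)
      rw [LinearMap.comp_apply, this, map_zero]))
  exact ⟨x, fun w => LinearMap.congr_fun hx w⟩

/-- The differential between consecutive degrees. -/
noncomputable def modD {a b : ℤ} (h : a + 1 = b) : modP Q a →ₗ[A] modP Q b :=
  (modLin Q.d).restrict fun _ hw => modP_d h hw

theorem coe_modD {a b : ℤ} (h : a + 1 = b) (w : modP Q a) :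
    (modD Q h w : T →₀ A) = modLin Q.d w := rfl

theorem modLin_dd (w : T →₀ A) : modLin Q.d (modLin Q.d w) = 0 := by
  rw [← modLin_mul, Q.dd, modLin_zero]

theorem mod_exact [Nonempty T] (hr : Q.RowEx ⊤) {a b : ℤ} (h : a + 1 = b) (w : modP Q b) :
    modLin Q.d w = 0 ↔ w ∈ Set.range (modD Q h) := by
  constructor
  · intro hw
    obtain ⟨t⟩ := ‹Nonempty T›
    obtain ⟨x, hx, hx'⟩ := mod_exists_mat (k := k)
      ((Finsupp.lapply t : (T →₀ A) →ₗ[A] A).smulRight (w : T →₀ A))
      ((Set.finite_singleton t).subset fun i hi => by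
        by_contra h'
        exact hi (by simp [Finsupp.single_eq_of_ne (Ne.symm h')]))
    have hE : modLin Q.E (w : T →₀ A) = w := by
      conv_lhs => rw [← mem_modP.1 w.2, ← modLin_mul, modPi_mul_E]
      exact mem_modP.1 w.2
    obtain ⟨y, -, -, -, hy⟩ := hr x hx (ent_top _)
      (modLin_eq fun v => by rw [modLin_mul, hx']; simp [hE])
      (modLin_eq fun v => by rw [modLin_mul, hx', modLin_zero]; simp [hw])
    refine ⟨modR Q a (modLin y (Finsupp.single t 1)), Subtype.ext ?_⟩
    rw [coe_modD, coe_modR, ← modLin_mul, modPi_mul_d Q h, modLin_mul, ← modLin_mul y, ← hy, hx']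
    simpa using mem_modP.1 w.2
  · rintro ⟨v, rfl⟩
    exact modLin_dd Q _

theorem mod_ginv {P₁ P₀ M : Type} [AddCommGroup P₁] [AddCommGroup P₀] [AddCommGroup M]
    [Module A P₁] [Module A P₀] [Module A M] [Module.Projective A P₀] [Module.Projective A M]
    (d : P₁ →ₗ[A] P₀) (ε : P₀ →ₗ[A] M) (hε : Function.Surjective ε) (h0 : Function.Exact d ε) :
    ∃ y : P₀ →ₗ[A] P₁, ∀ w, d (y (d w)) = d w := by
  obtain ⟨σ, hσ⟩ := Module.projective_lifting_property ε LinearMap.id hε
  obtain ⟨y, hy⟩ := Module.projective_lifting_property d.rangeRestrict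
    (LinearMap.codRestrict (LinearMap.range d) (LinearMap.id - σ ∘ₗ ε) fun w =>
      (h0 _).1 (by
        have h1 : ε (σ (ε w)) = ε w := LinearMap.congr_fun hσ (ε w)
        simp [h1]))
    (LinearMap.surjective_rangeRestrict _)
  refine ⟨y, fun w => ?_⟩
  have h1 : d (y (d w)) = d w - σ (ε (d w)) :=
    congrArg Subtype.val (LinearMap.congr_fun hy (d w))
  rw [h1, h0.apply_apply_eq_zero, map_zero, sub_zero]

end Aux

/-- Let matrices act on row vectors `W = T →₀ A` from the right: `toLin x : W →ₗ[A] W`,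
`toLin x (single i 1) = ` the `i`-th row of `x`, `toLin (x * y) = toLin y ∘ toLin x`.
Put `π a = proj dg a * E` (finite idempotents), `P n = range (toLin (π (-n)))` (finitely generated, and
projective as a retract of the free module `W`), `d n` the restriction of `toLin d`, and
`M = range (toLin (dAt 0))` with `ε : P 0 → M` the restriction of `toLin d`.  Exactness comes from
`RowEx` applied to a matrix with one non-zero row (rows indexed by some `t₀ : T`; `T` is not empty
because of `hn`; multiply by `proj` to fix degrees).  An `A`-linear map `g : P (n+1) → M` is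
`toLin ζ` for the finite matrix `ζ` whose `i`-th row is `g (toLin (π (-n-1)) (single i 1))`; it is a
one-component cochain of degree `n + 2` with `d ζ = 0 = ζ d`; `KV (n+1)` gives `ζ = d χ d`, so `g`
factors through `d n` via `toLin (χ d)` (insert `π`'s); conclude by `ext_subsingleton_iff`.
If `M` were projective, `ε` would have a section `σ`; `1 - σ ε` maps `P 0` into `ker ε = range (d 0)`,
lifts (`P 0` projective) to `y : P 0 → P 1` with `d 0 ∘ y ∘ d 0 = d 0`, and the matrix `g` of `y`
satisfies `dAt (-1) * g * dAt (-1) = dAt (-1)`. -/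
theorem symEx_of_cx {k T A : Type} [Field k] [CharP k 2] [Ring A] [Algebra k A] [DecidableEq T]
    [FiniteDimensional k A] (hA : IsSymmetricAlgebra k A) (Q : Cx k T A) (hr : Q.RowEx ⊤)
    (hv : ∀ n : ℤ, 0 < n → Q.KV ⊤ n)
    (hn : ∀ g : RCF k T A, Q.dAt (-1) * g * Q.dAt (-1) ≠ Q.dAt (-1)) :
    ∃ (M : Type) (_ : AddCommGroup M) (_ : Module A M), SymEx k A M := by
  have hT : Nonempty T := by
    by_contra h
    exact hn 0 (RCF.ext fun i _ => absurd ⟨i⟩ h)
  have hs : ∀ n : ℕ, -((n + 1 : ℕ) : ℤ) + 1 = -(n : ℤ) := fun n => by push_cast; ring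
  have h01 : -((0 : ℕ) : ℤ) + 1 = 1 := by simp
  let P : ℕ → Type := fun n => modP Q (-(n : ℤ))
  have : ∀ n, Module.Projective A (P n) := fun n => modP_projective Q _
  let d : ∀ n, P (n + 1) →ₗ[A] P n := fun n => modD Q (hs n)
  let e : P 0 →ₗ[A] (T →₀ A) := modLin Q.d ∘ₗ (modP Q _).subtype
  let ε : P 0 →ₗ[A] LinearMap.range e := e.rangeRestrict
  have hε : Function.Surjective ε := LinearMap.surjective_rangeRestrict e
  have h0 : Function.Exact (d 0) ε := fun w => by
    rw [← mod_exact Q hr (hs 0) w, Subtype.ext_iff]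
    rfl
  have hd : ∀ n, Function.Exact (d (n + 1)) (d n) := fun n w => by
    rw [← mod_exact Q hr (hs (n + 1)) w, Subtype.ext_iff]
    rfl
  have hM : ∀ m : LinearMap.range e, modLin (modPi Q 1) m = m := by
    rintro ⟨_, w, rfl⟩
    exact mem_modP.1 (modP_d h01 w.2)
  have hM' : ∀ m : LinearMap.range e, modLin Q.d m = 0 := by
    rintro ⟨_, w, rfl⟩
    exact modLin_dd Q _
  have : Module.Finite A (P 0) := modP_finite Q _
  refine ⟨LinearMap.range e, inferInstance, inferInstance, inferInstance, hA,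
    Module.Finite.of_surjective ε hε, fun hproj => ?_, fun i hi => ?_⟩
  · obtain ⟨y, hy'⟩ := mod_ginv (P₁ := P (0 + 1)) (P₀ := P 0) (M := LinearMap.range e)
      (d 0) ε hε h0
    obtain ⟨g, hg⟩ := mod_exists_mat' Q (-((0 : ℕ) : ℤ)) ((modP Q _).subtype ∘ₗ y)
    have hdAt : ∀ v, modLin (Q.dAt (-1)) v = (d 0 (modR Q _ v)).1 := fun v => by
      rw [← modPi_mul_d', modLin_mul]
      rfl
    refine hn g (modLin_eq fun v => ?_)
    rw [modLin_mul, modLin_mul, hdAt v, hg, modR_coe, hdAt]
    change (d 0 (modR Q _ (y _).1)).1 = _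
    rw [modR_coe, hy']
  · obtain ⟨n, rfl⟩ := Nat.exists_eq_succ_of_ne_zero hi.ne'
    refine (ext_subsingleton_iff P d ε hε h0 hd _ n).2 fun g hg => ?_
    obtain ⟨ζ, hζ⟩ := mod_exists_mat' Q (-((n + 1 : ℕ) : ℤ)) ((LinearMap.range e).subtype ∘ₗ g)
    have hζ' : ∀ w, modLin ζ w = (g (modR Q _ w)).1 := hζ
    have h1 : modPi Q (-((n + 1 : ℕ) : ℤ)) * ζ = ζ := modLin_eq fun w => by
      rw [modLin_mul, hζ', hζ', ← coe_modR, modR_coe]
    have h2 : ζ * modPi Q 1 = ζ := modLin_eq fun w => by rw [modLin_mul, hζ', hM]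
    have h3 : proj Q.dg (-((n + 1 : ℕ) : ℤ)) * ζ = ζ := by
      rw [← h1, ← mul_assoc, proj_mul_modPi]
    have h4 : ζ * proj Q.dg 1 = ζ := by rw [← h2, mul_assoc, modPi_mul_proj]
    have h5 : Homog Q.dg Q.dg (((n + 1 : ℕ) : ℤ) + 1) ζ := by
      intro i j hij
      have hi : Q.dg i = -((n + 1 : ℕ) : ℤ) := by
        by_contra h
        rw [← h3, ent_projS_mul, if_neg (mt Set.mem_singleton_iff.1 h)] at hij
        exact hij rfl
      have hj : Q.dg j = 1 := by
        by_contra h
        rw [← h4, ent_mul_projS, if_neg (mt Set.mem_singleton_iff.1 h)] at hij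
        exact hij rfl
      rw [hi, hj]; ring
    obtain ⟨χ, -, -, hχ⟩ := hv ((n + 1 : ℕ) : ℤ) (by positivity) _ ζ
      ⟨ent_top _, h5, by rw [← h1, ← mul_assoc, E_mul_modPi],
        by rw [← h2, mul_assoc, modPi_mul_E]⟩ h3
      (modLin_eq fun w => by
        have : modR Q (-((n + 1 : ℕ) : ℤ)) (modLin Q.d w) = d (n + 1) (modR Q _ w) :=
          Subtype.ext (by
            rw [coe_modR, ← modLin_mul, ← modPi_mul_d Q (hs (n + 1)), modLin_mul]; rfl)
        rw [modLin_mul, hζ', this, modLin_zero]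
        exact congrArg Subtype.val (LinearMap.congr_fun hg _))
      (modLin_eq fun w => by rw [modLin_mul, hζ', hM', modLin_zero])
    refine ⟨ε ∘ₗ modR Q _ ∘ₗ modLin χ ∘ₗ (modP Q _).subtype,
      LinearMap.ext fun w => Subtype.ext ?_⟩
    change (g w).1 = modLin Q.d (modLin (modPi Q _) (modLin χ (modLin Q.d w.1)))
    rw [← modLin_mul (modPi Q _), modPi_mul_d Q h01, modLin_mul, ← modLin_mul Q.d χ,
      ← modLin_mul _ Q.d, ← hχ, hζ', modR_coe, hM]

end Crest.Agent.R186
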