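import Crest.Agent.R186.Asm3
import Crest.Agent.R186.BaseC
import Crest.Agent.R186.Glue
import Crest.Agent.R186.Mod

/-!
The core example.
-/

namespace Crest.Agent.R186

open RCF
open scoped TensorProduct

theorem coreEx (k : Type) [Field k] [CharP k 2] (q : k) (hq0 : q ≠ 0)
    (hq : ∀ n : ℕ, 0 < n → q ^ n ≠ 1) : CoreEx k := by
  obtain ⟨C, _, _, E, _, _, _, ⟨b⟩, hsplit, x, y, hx, hy, hxy⟩ := exists_baseC k q hq0 hq
  obtain ⟨b2⟩ := Base.exists_tensor b b
  obtain ⟨e⟩ := exists_epsData (k := k) hq0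
  obtain ⟨X, ⟨eq⟩⟩ := exists_setup (by norm_num) b2 e hq0 hq
  obtain ⟨Λ, _, _, _, ⟨L⟩⟩ := exists_lamData X.toCoef
  obtain ⟨Q, hr, hc, hz, hn⟩ := X.glue L
  obtain ⟨Γ, _, _, _, ⟨G⟩⟩ := exists_trivData (k := k) Λ
  have hi : Function.Injective G.i := Function.LeftInverse.injective G.pi
  have hE : Ent G.i.range.toSubmodule (Q.map G.i).E := fun _ _ => ⟨_, rfl⟩
  have hd : Ent G.i.range.toSubmodule (Q.map G.i).d := fun _ _ => ⟨_, rfl⟩
  have hpi : ∀ z : RCF k (Bool × Bool × (ℕ × ℕ) × ℕ) Λ, RCF.map G.p (RCF.map G.i z) = z := fun z => by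
    ext i j; exact G.pi _
  obtain ⟨M, _, _, hM⟩ := symEx_of_cx G.t.isSymmetricAlgebra (Q.map G.i)
    (Cx.rowEx_of_lagr G.t hE hd (hr.map hi) (hc.map hi) G.lagr)
    (fun n hn => Cx.kv_of_lagr G.t hE hd (hr.map hi) (hc.map hi) G.lagr
      ((hz n (by omega) (by omega)).map hi) ((hz _ (by omega) (by omega)).map hi))
    (fun g hg => hn (RCF.map G.p g) (by
      have := congrArg (RCF.map G.p) hg
      rwa [map_mul, map_mul, Cx.map_dAt, hpi] at this))
  obtain ⟨pr, -, hsq, j, hj⟩ := L.exists_pr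
  have hR := ((hsplit.tensor hsplit).tensor isSplit_dualNumber).of_equiv eq (Equiv.refl _)
  have hΛ := IsSplit.of_sqZero pr (fun r => ⟨j r, hj r⟩) hsq (hR.prod hR)
  have hΓ := (IsSplit.of_sqZero G.p (fun l => ⟨G.i l, G.pi l⟩) G.sq hΛ).of_equiv AlgEquiv.refl
    (Fintype.equivFinOfCardEq (n := 8) (by simp))
  let g : C ⊗[k] C →ₐ[k] Γ := G.i.comp (j.comp ((eq.toAlgHom.prod eq.toAlgHom).comp
    Algebra.TensorProduct.includeLeft))
  have hg : Function.Injective g := by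
    refine hi.comp ((Function.LeftInverse.injective hj).comp fun a a' h => ?_)
    exact Algebra.TensorProduct.includeLeft_injective (R := k) (S := k) (A := C ⊗[k] C)
      (B := DualNumber k) (algebraMap k _).injective (eq.injective (congrArg Prod.fst h))
  refine ⟨Γ, _, _, M, _, _, hM, hΓ.four (x₁ := g (x ⊗ₜ 1)) (x₂ := g (y ⊗ₜ 1)) (x₃ := g (1 ⊗ₜ x))
    (x₄ := g (1 ⊗ₜ y)) ?_ ?_ ?_ ?_ ?_⟩
  · rw [← map_mul]; simp [hx]
  · rw [← map_mul]; simp [hy]
  · rw [← map_mul]; simp [hx]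
  · rw [← map_mul]; simp [hy]
  · rw [← map_mul, ← map_mul, ← map_mul, map_ne_zero_iff _ hg]
    obtain ⟨f, hf⟩ := Module.Projective.exists_dual_eq_one k hxy
    intro h
    have := congrArg (LinearMap.mul' k k ∘ₗ TensorProduct.map f f) h
    simp [hf] at this

end Crest.Agent.R186
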