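import Crest.Agent.R186.RCF

/-!
Complexes given by one row- and column-finite matrix (characteristic two): definitions.

Convention: matrices act on row vectors from the right, so `x * y` is "first `x`, then `y`".
-/

set_option linter.unusedSectionVars false

namespace Crest.Agent.R186

open RCF

theorem eq_of_one_smul (k : Type) [Field k] {M : Type*} [AddCommGroup M] [Module k M] {a b : M}
    (h : (1 : k) • a = b) : a = b := by rwa [one_smul] at h

/-- `c2 k` proves identities in algebras over a field `k` of characteristic two; use it also as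
`linear_combination (norm := c2 k) a * h₁ + h₂ * b`. -/
macro "c2 " k:term : tactic => `(tactic| (
  refine eq_of_one_smul $k ?_
  try simp only [mul_add, add_mul, mul_sub, sub_mul, mul_assoc, smul_mul_assoc, mul_smul_comm,
    mul_zero, zero_mul, mul_one, one_mul]
  match_scalars <;> grind))

/-- A complex: an idempotent `E` (the object), a differential `d`, and a grading of the indices
with finite fibres. -/
structure Cx (k T S : Type) [Field k] [Ring S] [Algebra k S] [DecidableEq T] where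
  dg : T → ℤ
  fin : ∀ a, {t | dg t = a}.Finite
  E : RCF k T S
  d : RCF k T S
  EE : E * E = E
  Ed : E * d = d
  dE : d * E = d
  dd : d * d = 0
  hE : Homog dg dg 0 E
  hd : Homog dg dg 1 d

namespace Cx

variable {k T S S' : Type} [Field k] [Ring S] [Algebra k S] [Ring S'] [Algebra k S']
  [DecidableEq T] (Q : Cx k T S)

/-- The differential on cochains (characteristic two). -/
noncomputable def D (φ : RCF k T S) : RCF k T S := Q.d * φ + φ * Q.d

/-- Cochains of degree `n` with entries in `N`. -/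
structure Co (N : Submodule k S) (n : ℤ) (φ : RCF k T S) : Prop where
  ent : Ent N φ
  hom : Homog Q.dg Q.dg n φ
  l : Q.E * φ = φ
  r : φ * Q.E = φ

/-- `N` is stable under multiplication with `E` and `d` on both sides. -/
structure Stab (N : Submodule k S) : Prop where
  El : ∀ x : RCF k T S, Ent N x → Ent N (Q.E * x)
  Er : ∀ x : RCF k T S, Ent N x → Ent N (x * Q.E)
  dl : ∀ x : RCF k T S, Ent N x → Ent N (Q.d * x)
  dr : ∀ x : RCF k T S, Ent N x → Ent N (x * Q.d)

/-- Exactness for rows with entries in `N`. -/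
def RowEx (N : Submodule k S) : Prop :=
  ∀ x : RCF k T S, IsFin x → Ent N x → x * Q.E = x → x * Q.d = 0 →
    ∃ y : RCF k T S, IsFin y ∧ Ent N y ∧ y * Q.E = y ∧ x = y * Q.d

/-- Exactness for columns with entries in `N`. -/
def ColEx (N : Submodule k S) : Prop :=
  ∀ x : RCF k T S, IsFin x → Ent N x → Q.E * x = x → Q.d * x = 0 →
    ∃ y : RCF k T S, IsFin y ∧ Ent N y ∧ Q.E * y = y ∧ x = Q.d * y

/-- The `n`-th cohomology of the cochains with entries in `N` vanishes. -/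
def Hz (N : Submodule k S) (n : ℤ) : Prop :=
  ∀ φ, Q.Co N n φ → Q.D φ = 0 → ∃ ψ, Q.Co N (n - 1) ψ ∧ Q.D ψ = φ

/-- The zeroth cohomology of the cochains with entries in `N` is spanned by the identity. -/
def Hone (N : Submodule k S) : Prop :=
  ∀ φ, Q.Co N 0 φ → Q.D φ = 0 → ∃ (c : k) (ψ : RCF k T S), Q.Co N (-1) ψ ∧ φ = c • Q.E + Q.D ψ

/-- One-component form of the vanishing of the `n`-th cohomology. -/
def KV (N : Submodule k S) (n : ℤ) : Prop :=
  ∀ (a : ℤ) (ζ : RCF k T S), Q.Co N (n + 1) ζ → proj Q.dg a * ζ = ζ → Q.d * ζ = 0 → ζ * Q.d = 0 →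
    ∃ χ : RCF k T S, IsFin χ ∧ Ent N χ ∧ ζ = Q.d * χ * Q.d

/-- The component of the differential that starts in degree `a`. -/
noncomputable def dAt (a : ℤ) : RCF k T S := proj Q.dg a * Q.d

/-- Change of coefficients. -/
noncomputable def map (g : S →ₐ[k] S') : Cx k T S' where
  dg := Q.dg
  fin := Q.fin
  E := RCF.map g Q.E
  d := RCF.map g Q.d
  EE := by rw [← map_mul, Q.EE]
  Ed := by rw [← map_mul, Q.Ed]
  dE := by rw [← map_mul, Q.dE]
  dd := by rw [← map_mul, Q.dd, map_zero]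
  hE := Q.hE.map g
  hd := Q.hd.map g

@[simp] theorem map_dg (g : S →ₐ[k] S') : (Q.map g).dg = Q.dg := rfl
@[simp] theorem map_E (g : S →ₐ[k] S') : (Q.map g).E = RCF.map g Q.E := rfl
@[simp] theorem map_d (g : S →ₐ[k] S') : (Q.map g).d = RCF.map g Q.d := rfl

theorem map_D (g : S →ₐ[k] S') (φ : RCF k T S) :
    (Q.map g).D (RCF.map g φ) = RCF.map g (Q.D φ) := by simp [D]

theorem map_dAt (g : S →ₐ[k] S') (a : ℤ) : (Q.map g).dAt a = RCF.map g (Q.dAt a) := by
  simp [dAt, map_projS]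

theorem isFin_proj (a : ℤ) : IsFin (proj Q.dg a : RCF k T S) :=
  isFin_projS Q.fin (Set.finite_singleton a)

theorem isFin_dAt (a : ℤ) : IsFin (Q.dAt a) := (Q.isFin_proj a).mul_right _

theorem D_add (φ ψ : RCF k T S) : Q.D (φ + ψ) = Q.D φ + Q.D ψ := by
  simp only [D, mul_add, add_mul]; abel

theorem D_smul (c : k) (φ : RCF k T S) : Q.D (c • φ) = c • Q.D φ := by
  simp only [D, smul_add, smul_mul_assoc, mul_smul_comm]

@[simp] theorem D_zero : Q.D 0 = 0 := by simp [D]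

theorem stab_top : Q.Stab ⊤ := ⟨fun _ _ => ent_top _, fun _ _ => ent_top _, fun _ _ => ent_top _,
  fun _ _ => ent_top _⟩

/-- Sub-bimodules over a subalgebra containing the entries of `E` and `d` are stable. -/
theorem stab_of (R : Subalgebra k S) (hE : Ent R.toSubmodule Q.E) (hd : Ent R.toSubmodule Q.d)
    {N : Submodule k S} (hl : ∀ r ∈ R, ∀ x ∈ N, r * x ∈ N) (hr : ∀ x ∈ N, ∀ r ∈ R, x * r ∈ N) :
    Q.Stab N :=
  ⟨fun _ h => hE.mul h hl, fun _ h => h.mul hE hr, fun _ h => hd.mul h hl, fun _ h => h.mul hd hr⟩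

theorem stab_subalgebra (R : Subalgebra k S) (hE : Ent R.toSubmodule Q.E)
    (hd : Ent R.toSubmodule Q.d) : Q.Stab R.toSubmodule :=
  Q.stab_of R hE hd (fun _ h _ h' => R.mul_mem h h') fun _ h _ h' => R.mul_mem h h'

variable {Q}

theorem Co.zero (N : Submodule k S) (n : ℤ) : Q.Co N n 0 :=
  ⟨ent_zero' N, homog_zero _ _ _, mul_zero _, zero_mul _⟩

theorem Co.add {N : Submodule k S} {n : ℤ} {φ ψ : RCF k T S} (h : Q.Co N n φ) (h' : Q.Co N n ψ) :
    Q.Co N n (φ + ψ) :=
  ⟨h.ent.add h'.ent, h.hom.add h'.hom, by rw [mul_add, h.l, h'.l], by rw [add_mul, h.r, h'.r]⟩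

theorem Co.smul {N : Submodule k S} {n : ℤ} {φ : RCF k T S} (h : Q.Co N n φ) (c : k) :
    Q.Co N n (c • φ) :=
  ⟨h.ent.smul c, h.hom.smul c, by rw [mul_smul_comm, h.l], by rw [smul_mul_assoc, h.r]⟩

theorem Co.mono {N N' : Submodule k S} {n : ℤ} {φ : RCF k T S} (h : Q.Co N n φ) (hN : N ≤ N') :
    Q.Co N' n φ := ⟨h.ent.mono hN, h.hom, h.l, h.r⟩

theorem Co.top {N : Submodule k S} {n : ℤ} {φ : RCF k T S} (h : Q.Co N n φ) : Q.Co ⊤ n φ :=
  h.mono le_top

theorem Co.of_ent {N N' : Submodule k S} {n : ℤ} {φ : RCF k T S} (h : Q.Co N n φ)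
    (h' : Ent N' φ) : Q.Co N' n φ := ⟨h', h.hom, h.l, h.r⟩

theorem Co.cast {N : Submodule k S} {m n : ℤ} {φ : RCF k T S} (h : Q.Co N m φ) (e : m = n) :
    Q.Co N n φ := e ▸ h

theorem Co.mul {N N' N'' : Submodule k S} {m n r : ℤ} {φ ψ : RCF k T S} (h : Q.Co N m φ)
    (h' : Q.Co N' n ψ) (hN : ∀ a ∈ N, ∀ b ∈ N', a * b ∈ N'') (e : m + n = r) :
    Q.Co N'' r (φ * ψ) :=
  ⟨h.ent.mul h'.ent hN, h.hom.mul' h'.hom e, by rw [← mul_assoc, h.l], by rw [mul_assoc, h'.r]⟩

theorem Co.D {N : Submodule k S} {n : ℤ} {φ : RCF k T S} (hN : Q.Stab N) (h : Q.Co N n φ) :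
    Q.Co N (n + 1) (Q.D φ) :=
  ⟨(hN.dl _ h.ent).add (hN.dr _ h.ent), (Q.hd.mul' h.hom (add_comm _ _)).add (h.hom.mul Q.hd),
    by rw [Cx.D, mul_add, ← mul_assoc, ← mul_assoc, Q.Ed, h.l],
    by rw [Cx.D, add_mul, mul_assoc, mul_assoc, Q.dE, h.r]⟩

theorem co_E {N : Submodule k S} (h : Ent N Q.E) : Q.Co N 0 Q.E := ⟨h, Q.hE, Q.EE, Q.EE⟩

theorem co_d {N : Submodule k S} (h : Ent N Q.d) : Q.Co N 1 Q.d := ⟨h, Q.hd, Q.Ed, Q.dE⟩

theorem Co.projS_mul {N : Submodule k S} {n : ℤ} {φ : RCF k T S} (h : Q.Co N n φ) (A : Set ℤ) :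
    Q.Co N n (projS Q.dg A * φ) :=
  ⟨h.ent.projS_mul _ _, (homog_projS _ _).mul' h.hom (zero_add _),
    by rw [← mul_assoc, ← Q.hE.projS_mul (A := A) (A' := A) (by simp), mul_assoc, h.l],
    by rw [mul_assoc, h.r]⟩

theorem Co.map {n : ℤ} {φ : RCF k T S} (g : S →ₐ[k] S') (h : Q.Co ⊤ n φ) :
    (Q.map g).Co g.range.toSubmodule n (RCF.map g φ) :=
  ⟨fun i j => ⟨φ.ent i j, rfl⟩, h.hom.map g, by rw [map_E, ← map_mul, h.l],
    by rw [map_E, ← map_mul, h.r]⟩

theorem Co.exists_of_map {n : ℤ} {g : S →ₐ[k] S'} (hg : Function.Injective g) {ψ : RCF k T S'}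
    (h : (Q.map g).Co g.range.toSubmodule n ψ) : ∃ φ, Q.Co ⊤ n φ ∧ RCF.map g φ = ψ := by
  obtain ⟨φ, rfl⟩ := exists_mapL_of_ent (g := g.toLinearMap) hg h.ent
  refine ⟨φ, ⟨ent_top _, Homog.of_mapL (g := g.toLinearMap) hg h.hom, map_injective hg ?_,
    map_injective hg ?_⟩, rfl⟩
  · rw [map_mul]; exact h.l
  · rw [map_mul]; exact h.r

section Char2

variable [CharP k 2]

variable (Q) in
theorem D_D (φ : RCF k T S) : Q.D (Q.D φ) = 0 := by
  have := Q.dd
  simp only [D]
  linear_combination (norm := c2 k) this * φ + φ * this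

variable (Q) in
theorem D_mul (φ ψ : RCF k T S) : Q.D (φ * ψ) = Q.D φ * ψ + φ * Q.D ψ := by
  simp only [D]; c2 k

variable (Q) in
theorem D_E : Q.D Q.E = 0 := by rw [D, Q.dE, Q.Ed, add_self]

end Char2

/-! Transfer along injective algebra maps. -/

theorem RowEx.map {g : S →ₐ[k] S'} (hg : Function.Injective g) (h : Q.RowEx ⊤) :
    (Q.map g).RowEx g.range.toSubmodule := by
  intro x hx he h1 h2
  obtain ⟨x, rfl⟩ := exists_mapL_of_ent (g := g.toLinearMap) hg he
  obtain ⟨y, hy, -, h3, h4⟩ := h x (IsFin.of_mapL (g := g.toLinearMap) hg hx) (ent_top _)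
    (map_injective hg (by rw [map_mul]; exact h1))
    (map_injective hg (by rw [map_mul, map_zero]; exact h2))
  refine ⟨RCF.map g y, hy.map g, fun i j => ⟨_, rfl⟩, by rw [map_E, ← map_mul, h3], ?_⟩
  rw [map_d, ← map_mul, ← h4]; rfl

theorem ColEx.map {g : S →ₐ[k] S'} (hg : Function.Injective g) (h : Q.ColEx ⊤) :
    (Q.map g).ColEx g.range.toSubmodule := by
  intro x hx he h1 h2
  obtain ⟨x, rfl⟩ := exists_mapL_of_ent (g := g.toLinearMap) hg he
  obtain ⟨y, hy, -, h3, h4⟩ := h x (IsFin.of_mapL (g := g.toLinearMap) hg hx) (ent_top _)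
    (map_injective hg (by rw [map_mul]; exact h1))
    (map_injective hg (by rw [map_mul, map_zero]; exact h2))
  refine ⟨RCF.map g y, hy.map g, fun i j => ⟨_, rfl⟩, by rw [map_E, ← map_mul, h3], ?_⟩
  rw [map_d, ← map_mul, ← h4]; rfl

theorem Hz.map {g : S →ₐ[k] S'} (hg : Function.Injective g) {n : ℤ} (h : Q.Hz ⊤ n) :
    (Q.map g).Hz g.range.toSubmodule n := by
  intro φ hφ h1
  obtain ⟨φ, hφ', rfl⟩ := hφ.exists_of_map hg
  obtain ⟨ψ, hψ, rfl⟩ := h φ hφ' (map_injective hg (by rw [← map_D, h1, map_zero]))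
  exact ⟨_, hψ.map g, Q.map_D g ψ⟩

theorem Hone.map {g : S →ₐ[k] S'} (hg : Function.Injective g) (h : Q.Hone ⊤) :
    (Q.map g).Hone g.range.toSubmodule := by
  intro φ hφ h1
  obtain ⟨φ, hφ', rfl⟩ := hφ.exists_of_map hg
  obtain ⟨c, ψ, hψ, rfl⟩ := h φ hφ' (map_injective hg (by rw [← map_D, h1, map_zero]))
  exact ⟨c, _, hψ.map g, by rw [map_add, map_smul, map_D, map_E]⟩

end Cx

/-- A symmetric bilinear form `(x, y) ↦ tr (x * y)` representing all linear forms. -/
structure TrF (k S : Type) [Field k] [Ring S] [Algebra k S] where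
  tr : S →ₗ[k] k
  comm : ∀ x y, tr (x * y) = tr (y * x)
  rep : ∀ ω : S →ₗ[k] k, ∃ θ, ∀ y, tr (θ * y) = ω y

namespace TrF

variable {k T S : Type} [Field k] [Ring S] [Algebra k S] [DecidableEq T] (t : TrF k S)

/-- The orthogonal complement of a subalgebra. -/
def perp (B : Subalgebra k S) : Submodule k S where
  carrier := {x | ∀ b ∈ B, t.tr (x * b) = 0}
  add_mem' hx hy b hb := by rw [add_mul, map_add, hx b hb, hy b hb, add_zero]
  zero_mem' b _ := by simp
  smul_mem' c x hx b hb := by rw [smul_mul_assoc, map_smul, hx b hb, smul_zero]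

theorem mem_perp {B : Subalgebra k S} {x : S} : x ∈ t.perp B ↔ ∀ b ∈ B, t.tr (x * b) = 0 := Iff.rfl

theorem mul_mem_perp {B : Subalgebra k S} {r x : S} (hr : r ∈ B) (hx : x ∈ t.perp B) :
    r * x ∈ t.perp B := fun b hb => by
  rw [mul_assoc, t.comm, mul_assoc]; exact hx _ (B.mul_mem hb hr)

theorem mem_perp_mul {B : Subalgebra k S} {r x : S} (hx : x ∈ t.perp B) (hr : r ∈ B) :
    x * r ∈ t.perp B := fun b hb => by
  rw [mul_assoc]; exact hx _ (B.mul_mem hr hb)

theorem le_perp {B : Subalgebra k S} (h : ∀ b ∈ B, t.tr b = 0) : B.toSubmodule ≤ t.perp B :=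
  fun _ hx _ hb => h _ (B.mul_mem hx hb)

theorem stab_perp (Q : Cx k T S) {B : Subalgebra k S} (hE : Ent B.toSubmodule Q.E)
    (hd : Ent B.toSubmodule Q.d) : Q.Stab (t.perp B) :=
  Q.stab_of B hE hd (fun _ h _ h' => t.mul_mem_perp h h') fun _ h _ h' => t.mem_perp_mul h h'

/-- The trace of a (finite) matrix. -/
noncomputable def Tr (x : RCF k T S) : k := ∑ᶠ i, t.tr (x.ent i i)

theorem Tr_eq {x : RCF k T S} {F : Finset T} (h : ∀ i, x.ent i i ≠ 0 → i ∈ F) :
    t.Tr x = ∑ i ∈ F, t.tr (x.ent i i) :=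
  finsum_eq_sum_of_support_subset _ fun i hi => h i fun h0 => hi (by simp [h0])

@[simp] theorem Tr_zero : t.Tr (0 : RCF k T S) = 0 := by simp [Tr]

theorem Tr_add {x y : RCF k T S} (hx : IsFin x) (hy : IsFin y) : t.Tr (x + y) = t.Tr x + t.Tr y := by
  obtain ⟨F, hF⟩ := hx.exists_finset
  obtain ⟨G, hG⟩ := hy.exists_finset
  rw [t.Tr_eq (x := x) (F := F ∪ G) fun i h => Finset.mem_union_left _ (hF i i h).1,
    t.Tr_eq (x := y) (F := F ∪ G) fun i h => Finset.mem_union_right _ (hG i i h).1,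
    t.Tr_eq (x := x + y) (F := F ∪ G), ← Finset.sum_add_distrib]
  · simp
  · intro i h
    by_cases h1 : x.ent i i = 0
    · exact Finset.mem_union_right _ (hG i i fun h2 => h (by simp [h1, h2])).1
    · exact Finset.mem_union_left _ (hF i i h1).1

theorem Tr_smul (c : k) {x : RCF k T S} (hx : IsFin x) : t.Tr (c • x) = c * t.Tr x := by
  obtain ⟨F, hF⟩ := hx.exists_finset
  rw [t.Tr_eq (x := x) (F := F) fun i h => (hF i i h).1, t.Tr_eq (x := c • x) (F := F),
    Finset.mul_sum]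
  · simp
  · exact fun i h => (hF i i fun h1 => h (by simp [h1])).1

theorem Tr_mul_eq {x : RCF k T S} {F : Finset T} (hF : ∀ i j, x.ent i j ≠ 0 → i ∈ F ∧ j ∈ F)
    (y : RCF k T S) : t.Tr (x * y) = ∑ i ∈ F, ∑ j ∈ F, t.tr (x.ent i j * y.ent j i) := by
  rw [t.Tr_eq (F := F)]
  · refine Finset.sum_congr rfl fun i _ => ?_
    rw [ent_mul_of_subset _ _ _ _ F fun j h _ => (hF i j h).2, map_sum]
  · intro i h
    obtain ⟨j, h1, -⟩ := exists_of_ent_mul_ne_zero h
    exact (hF i j h1).1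

theorem Tr_comm {x : RCF k T S} (hx : IsFin x) (y : RCF k T S) : t.Tr (x * y) = t.Tr (y * x) := by
  obtain ⟨F, hF⟩ := hx.exists_finset
  rw [t.Tr_mul_eq hF, t.Tr_eq (x := y * x) (F := F), Finset.sum_comm]
  · refine Finset.sum_congr rfl fun j _ => ?_
    rw [ent_mul_of_subset _ _ _ _ F fun i _ h => (hF i j h).1, map_sum]
    exact Finset.sum_congr rfl fun i _ => t.comm _ _
  · intro i h
    obtain ⟨j, -, h1⟩ := exists_of_ent_mul_ne_zero h
    exact (hF j i h1).2

theorem Tr_single (a : T) (s : S) : t.Tr (single a a s : RCF k T S) = t.tr s := by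
  rw [t.Tr_eq (F := {a})]
  · simp [ent_single]
  · intro i h
    by_contra h'
    exact h (if_neg fun h1 => h' (by simp [h1.1]))

theorem Tr_eq_zero_of_ent {N : Submodule k S} (hN : ∀ x ∈ N, t.tr x = 0) {x : RCF k T S}
    (hx : Ent N x) : t.Tr x = 0 :=
  finsum_eq_zero_of_forall_eq_zero fun i => hN _ (hx i i)

theorem Tr_perp {B : Subalgebra k S} {x y : RCF k T S} (hx : Ent (t.perp B) x)
    (hy : Ent B.toSubmodule y) : t.Tr (x * y) = 0 :=
  t.Tr_eq_zero_of_ent (N := t.perp B) (fun z hz => by simpa using hz 1 B.one_mem)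
    (hx.mul hy fun _ h _ h' => t.mem_perp_mul h h')

theorem perp_of_Tr {B : Subalgebra k S} {x : RCF k T S}
    (h : ∀ y, IsFin y → Ent B.toSubmodule y → t.Tr (x * y) = 0) : Ent (t.perp B) x := by
  intro i j b hb
  have := h (single j i b) (isFin_single _ _ _) (ent_single_of _ _ hb)
  rw [t.Tr_eq (F := {i})] at this
  · simpa [ent_mul_single'] using this
  · intro l hl
    rw [ent_mul_single'] at hl
    by_contra h'
    exact hl (if_neg (by simpa using h'))

/-- The trace of `d g` is the same for all generalised inverses `g` of a finite `d`. -/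
theorem Tr_ginv {d g g' : RCF k T S} (hd : IsFin d) (h : d * g * d = d) (h' : d * g' * d = d) :
    t.Tr (d * g) = t.Tr (d * g') := by
  have e1 : t.Tr (d * g) = t.Tr (d * g' * (d * g)) := by
    conv_lhs => rw [← h']
    rw [mul_assoc]
  rw [e1, t.Tr_comm (hd.mul_right _), ← mul_assoc, h]

end TrF

end Crest.Agent.R186
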