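import Crest.Agent.R186.Cx0

/-!
A resolution `p`, a coresolution `L` and a comparison map `ι : p → L`; homotopy inverses over a larger
ring; tensor products; the mapping cone.  Definitions.
-/

set_option linter.unusedSectionVars false

namespace Crest.Agent.R186

open RCF

/-- Two complexes on the same index set and a chain map between them. -/
structure Dat (k T S : Type) [Field k] [Ring S] [Algebra k S] [DecidableEq T] where
  dp : T → ℤ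
  dl : T → ℤ
  Ep : RCF k T S
  El : RCF k T S
  δp : RCF k T S
  δl : RCF k T S
  ι : RCF k T S
  EpEp : Ep * Ep = Ep
  Epδ : Ep * δp = δp
  δEp : δp * Ep = δp
  δpδp : δp * δp = 0
  ElEl : El * El = El
  Elδ : El * δl = δl
  δEl : δl * El = δl
  δlδl : δl * δl = 0
  Epι : Ep * ι = ι
  ιEl : ι * El = ι
  δι : δp * ι = ι * δl
  hEp : Homog dp dp 0 Ep
  hEl : Homog dl dl 0 El
  hδp : Homog dp dp 1 δp
  hδl : Homog dl dl 1 δl
  hι : Homog dp dl 0 ι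

namespace Dat

variable {k T S S' : Type} [Field k] [Ring S] [Algebra k S] [Ring S'] [Algebra k S']
  [DecidableEq T]

/-- Change of coefficients. -/
noncomputable def map (D : Dat k T S) (g : S →ₐ[k] S') : Dat k T S' where
  dp := D.dp
  dl := D.dl
  Ep := RCF.map g D.Ep
  El := RCF.map g D.El
  δp := RCF.map g D.δp
  δl := RCF.map g D.δl
  ι := RCF.map g D.ι
  EpEp := by rw [← map_mul, D.EpEp]
  Epδ := by rw [← map_mul, D.Epδ]
  δEp := by rw [← map_mul, D.δEp]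
  δpδp := by rw [← map_mul, D.δpδp, map_zero]
  ElEl := by rw [← map_mul, D.ElEl]
  Elδ := by rw [← map_mul, D.Elδ]
  δEl := by rw [← map_mul, D.δEl]
  δlδl := by rw [← map_mul, D.δlδl, map_zero]
  Epι := by rw [← map_mul, D.Epι]
  ιEl := by rw [← map_mul, D.ιEl]
  δι := by rw [← map_mul, D.δι, map_mul]
  hEp := D.hEp.map g
  hEl := D.hEl.map g
  hδp := D.hδp.map g
  hδl := D.hδl.map g
  hι := D.hι.map g

/-- `ι` is a homotopy equivalence. -/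
structure HE (D : Dat k T S) where
  r : RCF k T S
  κp : RCF k T S
  κl : RCF k T S
  Elr : D.El * r = r
  rEp : r * D.Ep = r
  δr : D.δl * r = r * D.δp
  Epκ : D.Ep * κp = κp
  κEp : κp * D.Ep = κp
  Elκ : D.El * κl = κl
  κEl : κl * D.El = κl
  hp : D.δp * κp + κp * D.δp = D.Ep + D.ι * r
  hl : D.δl * κl + κl * D.δl = D.El + r * D.ι
  hr : Homog D.dl D.dp 0 r
  hκp : Homog D.dp D.dp (-1) κp
  hκl : Homog D.dl D.dl (-1) κl

/-- Change of coefficients. -/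
noncomputable def HE.map {D : Dat k T S} (H : D.HE) (g : S →ₐ[k] S') : (D.map g).HE where
  r := RCF.map g H.r
  κp := RCF.map g H.κp
  κl := RCF.map g H.κl
  Elr := by simpa only [map_mul, Dat.map] using congrArg (RCF.map g) H.Elr
  rEp := by simpa only [map_mul, Dat.map] using congrArg (RCF.map g) H.rEp
  δr := by simpa only [map_mul, Dat.map] using congrArg (RCF.map g) H.δr
  Epκ := by simpa only [map_mul, Dat.map] using congrArg (RCF.map g) H.Epκ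
  κEp := by simpa only [map_mul, Dat.map] using congrArg (RCF.map g) H.κEp
  Elκ := by simpa only [map_mul, Dat.map] using congrArg (RCF.map g) H.Elκ
  κEl := by simpa only [map_mul, Dat.map] using congrArg (RCF.map g) H.κEl
  hp := by simpa only [map_mul, map_add, Dat.map] using congrArg (RCF.map g) H.hp
  hl := by simpa only [map_mul, map_add, Dat.map] using congrArg (RCF.map g) H.hl
  hr := H.hr.map g
  hκp := H.hκp.map g
  hκl := H.hκl.map g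

theorem ext' {D D' : Dat k T S} (h1 : D.dp = D'.dp) (h2 : D.dl = D'.dl) (h3 : D.Ep = D'.Ep)
    (h4 : D.El = D'.El) (h5 : D.δp = D'.δp) (h6 : D.δl = D'.δl) (h7 : D.ι = D'.ι) : D = D' := by
  cases D; cases D'; simp_all

theorem map_map {S'' : Type} [Ring S''] [Algebra k S''] (D : Dat k T S) (g : S →ₐ[k] S')
    (g' : S' →ₐ[k] S'') : (D.map g).map g' = D.map (g'.comp g) :=
  ext' rfl rfl (RCF.map_map _ _ _) (RCF.map_map _ _ _) (RCF.map_map _ _ _) (RCF.map_map _ _ _)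
    (RCF.map_map _ _ _)

end Dat

section Kron

variable {k S S₁ S₂ T₁ T₂ : Type} [Field k] [Ring S] [Algebra k S] [Ring S₁] [Algebra k S₁]
  [Ring S₂] [Algebra k S₂] [DecidableEq T₁] [DecidableEq T₂]

/-- Two commuting algebra maps. -/
structure Comm (k S₁ S₂ S : Type) [Field k] [Ring S] [Algebra k S] [Ring S₁] [Algebra k S₁]
    [Ring S₂] [Algebra k S₂] where
  f₁ : S₁ →ₐ[k] S
  f₂ : S₂ →ₐ[k] S
  comm : ∀ a b, Commute (f₁ a) (f₂ b)

/-- The Kronecker product along two commuting algebra maps. -/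
noncomputable def Comm.kron (f : Comm k S₁ S₂ S) (x : RCF k T₁ S₁) (y : RCF k T₂ S₂) :
    RCF k (T₁ × T₂) S := extL T₂ (RCF.map f.f₁ x) * extR T₁ (RCF.map f.f₂ y)

namespace Comm

variable (f : Comm k S₁ S₂ S)

theorem ent_kron (x : RCF k T₁ S₁) (y : RCF k T₂ S₂) (i j : T₁ × T₂) :
    (f.kron x y).ent i j = f.f₁ (x.ent i.1 j.1) * f.f₂ (y.ent i.2 j.2) :=
  ent_extL_mul_extR _ _ _ _

theorem kron_mul (x x' : RCF k T₁ S₁) (y y' : RCF k T₂ S₂) :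
    f.kron x y * f.kron x' y' = f.kron (x * x') (y * y') := by
  have := extL_comm_extR (RCF.map f.f₁ x') (RCF.map f.f₂ y) fun _ _ _ _ => f.comm _ _
  simp only [kron, map_mul]
  rw [mul_assoc, ← mul_assoc (extR T₁ _), ← this]
  simp only [mul_assoc]

theorem add_kron (x x' : RCF k T₁ S₁) (y : RCF k T₂ S₂) :
    f.kron (x + x') y = f.kron x y + f.kron x' y := by simp only [kron, map_add, add_mul]

theorem kron_add (x : RCF k T₁ S₁) (y y' : RCF k T₂ S₂) :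
    f.kron x (y + y') = f.kron x y + f.kron x y' := by simp only [kron, map_add, mul_add]

@[simp] theorem zero_kron (y : RCF k T₂ S₂) : f.kron (0 : RCF k T₁ S₁) y = 0 := by simp [kron]

@[simp] theorem kron_zero (x : RCF k T₁ S₁) : f.kron x (0 : RCF k T₂ S₂) = 0 := by simp [kron]

theorem homog_kron {d₁ d₁' : T₁ → ℤ} {d₂ d₂' : T₂ → ℤ} {m n r : ℤ} {x : RCF k T₁ S₁}
    {y : RCF k T₂ S₂} (hx : Homog d₁ d₁' m x) (hy : Homog d₂ d₂' n y) (h : m + n = r) :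
    Homog (fun t : T₁ × T₂ => d₁ t.1 + d₂ t.2) (fun t => d₁' t.1 + d₂' t.2) r (f.kron x y) :=
  h ▸ (hx.map _).kron (hy.map _)

theorem kron_single (a b : T₁) (a' b' : T₂) (s : S₁) (t : S₂) :
    f.kron (single a b s) (single a' b' t) = single (a, a') (b, b') (f.f₁ s * f.f₂ t) := by
  rw [kron, map_single, map_single, extL_single_mul_extR_single]

theorem map_kron {S' S₁' S₂' : Type} [Ring S'] [Algebra k S'] [Ring S₁'] [Algebra k S₁']
    [Ring S₂'] [Algebra k S₂'] (g : Comm k S₁' S₂' S') (ρ : S →ₐ[k] S') (ρ₁ : S₁ →ₐ[k] S₁')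
    (ρ₂ : S₂ →ₐ[k] S₂') (h₁ : ∀ a, ρ (f.f₁ a) = g.f₁ (ρ₁ a)) (h₂ : ∀ a, ρ (f.f₂ a) = g.f₂ (ρ₂ a))
    (x : RCF k T₁ S₁) (y : RCF k T₂ S₂) :
    RCF.map ρ (f.kron x y) = g.kron (RCF.map ρ₁ x) (RCF.map ρ₂ y) := by
  ext i j
  simp only [ent_map, ent_kron, map_mul, h₁, h₂]

end Comm

variable [CharP k 2]

/-- The tensor product of two data. -/
noncomputable def Dat.tensor (f : Comm k S₁ S₂ S) (D₁ : Dat k T₁ S₁) (D₂ : Dat k T₂ S₂) :
    Dat k (T₁ × T₂) S where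
  dp t := D₁.dp t.1 + D₂.dp t.2
  dl t := D₁.dl t.1 + D₂.dl t.2
  Ep := f.kron D₁.Ep D₂.Ep
  El := f.kron D₁.El D₂.El
  δp := f.kron D₁.δp D₂.Ep + f.kron D₁.Ep D₂.δp
  δl := f.kron D₁.δl D₂.El + f.kron D₁.El D₂.δl
  ι := f.kron D₁.ι D₂.ι
  EpEp := by rw [f.kron_mul, D₁.EpEp, D₂.EpEp]
  Epδ := by simp only [mul_add, f.kron_mul, D₁.EpEp, D₂.EpEp, D₁.Epδ, D₂.Epδ]
  δEp := by simp only [add_mul, f.kron_mul, D₁.EpEp, D₂.EpEp, D₁.δEp, D₂.δEp]
  δpδp := by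
    simp only [add_mul, mul_add, f.kron_mul, D₁.δpδp, D₂.δpδp, D₁.δEp, D₂.δEp, D₁.Epδ, D₂.Epδ,
      f.zero_kron, f.kron_zero, zero_add, add_zero, add_self]
  ElEl := by rw [f.kron_mul, D₁.ElEl, D₂.ElEl]
  Elδ := by simp only [mul_add, f.kron_mul, D₁.ElEl, D₂.ElEl, D₁.Elδ, D₂.Elδ]
  δEl := by simp only [add_mul, f.kron_mul, D₁.ElEl, D₂.ElEl, D₁.δEl, D₂.δEl]
  δlδl := by
    simp only [add_mul, mul_add, f.kron_mul, D₁.δlδl, D₂.δlδl, D₁.δEl, D₂.δEl, D₁.Elδ, D₂.Elδ,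
      f.zero_kron, f.kron_zero, zero_add, add_zero, add_self]
  Epι := by rw [f.kron_mul, D₁.Epι, D₂.Epι]
  ιEl := by rw [f.kron_mul, D₁.ιEl, D₂.ιEl]
  δι := by
    simp only [add_mul, mul_add, f.kron_mul, D₁.δι, D₂.δι, D₁.Epι, D₂.Epι, D₁.ιEl, D₂.ιEl]
  hEp := f.homog_kron D₁.hEp D₂.hEp (by simp)
  hEl := f.homog_kron D₁.hEl D₂.hEl (by simp)
  hδp := (f.homog_kron D₁.hδp D₂.hEp (by simp)).add (f.homog_kron D₁.hEp D₂.hδp (by simp))
  hδl := (f.homog_kron D₁.hδl D₂.hEl (by simp)).add (f.homog_kron D₁.hEl D₂.hδl (by simp))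
  hι := f.homog_kron D₁.hι D₂.hι (by simp)

/-- The tensor product of homotopy equivalences. -/
noncomputable def Dat.HE.tensor (f : Comm k S₁ S₂ S) {D₁ : Dat k T₁ S₁} {D₂ : Dat k T₂ S₂}
    (H₁ : D₁.HE) (H₂ : D₂.HE) : (Dat.tensor f D₁ D₂).HE where
  r := f.kron H₁.r H₂.r
  κp := f.kron H₁.κp D₂.Ep + f.kron (D₁.ι * H₁.r) H₂.κp
  κl := f.kron H₁.κl D₂.El + f.kron (H₁.r * D₁.ι) H₂.κl
  Elr := by simp only [Dat.tensor, f.kron_mul, H₁.Elr, H₂.Elr]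
  rEp := by simp only [Dat.tensor, f.kron_mul, H₁.rEp, H₂.rEp]
  δr := by
    simp only [Dat.tensor, add_mul, mul_add, f.kron_mul, H₁.Elr, H₂.Elr, H₁.rEp, H₂.rEp, H₁.δr,
      H₂.δr]
  Epκ := by
    simp only [Dat.tensor, mul_add, f.kron_mul, H₁.Epκ, H₂.Epκ, D₂.EpEp, ← mul_assoc, D₁.Epι]
  κEp := by
    simp only [Dat.tensor, add_mul, f.kron_mul, H₁.κEp, H₂.κEp, D₂.EpEp, mul_assoc, H₁.rEp]
  Elκ := by
    simp only [Dat.tensor, mul_add, f.kron_mul, H₁.Elκ, H₂.Elκ, D₂.ElEl, ← mul_assoc, H₁.Elr]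
  κEl := by
    simp only [Dat.tensor, add_mul, f.kron_mul, H₁.κEl, H₂.κEl, D₂.ElEl, mul_assoc, D₁.ιEl]
  hp := by
    have e1 : D₁.δp * (D₁.ι * H₁.r) = D₁.ι * H₁.r * D₁.δp := by
      rw [← mul_assoc, D₁.δι, mul_assoc, H₁.δr, mul_assoc]
    have e2 : D₁.Ep * (D₁.ι * H₁.r) = D₁.ι * H₁.r := by rw [← mul_assoc, D₁.Epι]
    have e3 : D₁.ι * H₁.r * D₁.Ep = D₁.ι * H₁.r := by rw [mul_assoc, H₁.rEp]
    have h1 := congrArg (fun z => f.kron z D₂.Ep) H₁.hp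
    have h2 := congrArg (fun z => f.kron (D₁.ι * H₁.r) z) H₂.hp
    simp only [f.add_kron, f.kron_add] at h1 h2
    simp only [Dat.tensor, add_mul, mul_add, f.kron_mul, D₂.EpEp, D₂.Epδ, D₂.δEp, H₁.Epκ, H₁.κEp,
      H₂.Epκ, H₂.κEp, e1, e2, e3]
    generalize D₁.ι * H₁.r = w at *
    generalize f.kron (D₁.δp * H₁.κp) D₂.Ep = a1 at *
    generalize f.kron (H₁.κp * D₁.δp) D₂.Ep = a2 at *
    generalize f.kron w (D₂.δp * H₂.κp) = a3 at *
    generalize f.kron w (H₂.κp * D₂.δp) = a4 at *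
    generalize f.kron w (D₂.ι * H₂.r) = a5 at *
    generalize f.kron (w * D₁.δp) H₂.κp = a6 at *
    linear_combination (norm := c2 k) h1 + h2
  hl := by
    have e1 : D₁.δl * (H₁.r * D₁.ι) = H₁.r * D₁.ι * D₁.δl := by
      rw [← mul_assoc, H₁.δr, mul_assoc, D₁.δι, mul_assoc]
    have e2 : D₁.El * (H₁.r * D₁.ι) = H₁.r * D₁.ι := by rw [← mul_assoc, H₁.Elr]
    have e3 : H₁.r * D₁.ι * D₁.El = H₁.r * D₁.ι := by rw [mul_assoc, D₁.ιEl]
    have h1 := congrArg (fun z => f.kron z D₂.El) H₁.hl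
    have h2 := congrArg (fun z => f.kron (H₁.r * D₁.ι) z) H₂.hl
    simp only [f.add_kron, f.kron_add] at h1 h2
    simp only [Dat.tensor, add_mul, mul_add, f.kron_mul, D₂.ElEl, D₂.Elδ, D₂.δEl, H₁.Elκ, H₁.κEl,
      H₂.Elκ, H₂.κEl, e1, e2, e3]
    generalize H₁.r * D₁.ι = w at *
    generalize f.kron (D₁.δl * H₁.κl) D₂.El = a1 at *
    generalize f.kron (H₁.κl * D₁.δl) D₂.El = a2 at *
    generalize f.kron w (D₂.δl * H₂.κl) = a3 at *
    generalize f.kron w (H₂.κl * D₂.δl) = a4 at *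
    generalize f.kron w (H₂.r * D₂.ι) = a5 at *
    generalize f.kron (w * D₁.δl) H₂.κl = a6 at *
    linear_combination (norm := c2 k) h1 + h2
  hr := f.homog_kron H₁.hr H₂.hr (by simp)
  hκp := (f.homog_kron H₁.hκp D₂.hEp (by simp)).add
    (f.homog_kron (D₁.hι.mul H₁.hr) H₂.hκp (by simp))
  hκl := (f.homog_kron H₁.hκl D₂.hEl (by simp)).add
    (f.homog_kron (H₁.hr.mul D₁.hι) H₂.hκl (by simp))

theorem Dat.tensor_map {S' S₁' S₂' : Type} [Ring S'] [Algebra k S'] [Ring S₁'] [Algebra k S₁']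
    [Ring S₂'] [Algebra k S₂'] (f : Comm k S₁ S₂ S) (g : Comm k S₁' S₂' S') (ρ : S →ₐ[k] S')
    (ρ₁ : S₁ →ₐ[k] S₁') (ρ₂ : S₂ →ₐ[k] S₂') (h₁ : ∀ a, ρ (f.f₁ a) = g.f₁ (ρ₁ a))
    (h₂ : ∀ a, ρ (f.f₂ a) = g.f₂ (ρ₂ a)) (D₁ : Dat k T₁ S₁) (D₂ : Dat k T₂ S₂) :
    (Dat.tensor f D₁ D₂).map ρ = Dat.tensor g (D₁.map ρ₁) (D₂.map ρ₂) := by
  refine Dat.ext' rfl rfl ?_ ?_ ?_ ?_ ?_ <;>
    simp only [Dat.tensor, Dat.map, map_add, f.map_kron g ρ ρ₁ ρ₂ h₁ h₂]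

end Kron

end Crest.Agent.R186
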