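import Crest.Agent.R186.AL

/-!
Duality with respect to a trace form.
-/

set_option linter.unusedSectionVars false

namespace Crest.Agent.R186

open RCF

variable {k T S : Type} [Field k] [CharP k 2] [Ring S] [Algebra k S] [DecidableEq T]

namespace DualAux

variable (k T S) in
/-- Finite matrices with entries in `N`. -/
def finEnt (N : Submodule k S) : Submodule k (RCF k T S) where
  carrier := {x | IsFin x ∧ Ent N x}
  add_mem' hx hy := ⟨hx.1.add hy.1, hx.2.add hy.2⟩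
  zero_mem' := ⟨isFin_zero, ent_zero' N⟩
  smul_mem' c _ h := ⟨h.1.smul c, h.2.smul c⟩

/-- `y ↦ Tr (ζ * y)` for a finite `ζ`. -/
noncomputable def trL (t : TrF k S) {ζ : RCF k T S} (hζ : IsFin ζ) : RCF k T S →ₗ[k] k where
  toFun y := t.Tr (ζ * y)
  map_add' y z := by rw [mul_add, t.Tr_add (hζ.mul_right _) (hζ.mul_right _)]
  map_smul' c y := by rw [mul_smul_comm, t.Tr_smul c (hζ.mul_right _)]; rfl

theorem exists_projS (dg : T → ℤ) {x : RCF k T S} (hx : IsFin x) :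
    ∃ A : Set ℤ, A.Finite ∧ projS dg A * x = x ∧ x * projS dg A = x := by
  obtain ⟨F, hF⟩ := hx.exists_finset
  refine ⟨dg '' F, F.finite_toSet.image _, ?_, ?_⟩
  · ext i j
    rw [ent_projS_mul]
    split_ifs with h
    · rfl
    · by_contra h'
      exact h ⟨i, (hF i j (Ne.symm h')).1, rfl⟩
  · ext i j
    rw [ent_mul_projS]
    split_ifs with h
    · rfl
    · by_contra h'
      exact h ⟨j, (hF i j (Ne.symm h')).2, rfl⟩

theorem homog_cut (dg : T → ℤ) {a b n : ℤ} (h : a + n = b) (z : RCF k T S) :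
    Homog dg dg n (proj dg a * z * proj dg b) := by
  intro i j hij
  rw [ent_mul_projS, ent_projS_mul] at hij
  by_cases h1 : dg j ∈ ({b} : Set ℤ)
  · by_cases h2 : dg i ∈ ({a} : Set ℤ)
    · rw [Set.mem_singleton_iff] at h1 h2
      omega
    · simp [h2] at hij
  · simp [h1] at hij

theorem projS_E (Q : Cx k T S) (A : Set ℤ) : projS Q.dg A * Q.E = Q.E * projS Q.dg A :=
  Q.hE.projS_mul (by simp)

theorem co_cut {Q : Cx k T S} {N : Submodule k S} (hN : Q.Stab N) {a b n : ℤ} (h : a + n = b)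
    {z : RCF k T S} (hz : Ent N z) :
    Q.Co N n (proj Q.dg a * Q.E * z * (proj Q.dg b * Q.E)) := by
  have e : proj Q.dg a * Q.E * z * (proj Q.dg b * Q.E) =
      proj Q.dg a * (Q.E * z * Q.E) * proj Q.dg b := by
    rw [projS_E Q {b}]; simp only [mul_assoc]
  refine ⟨?_, ?_, ?_, ?_⟩
  · rw [e]
    exact ((hN.Er _ (hN.El _ hz)).projS_mul _ _).mul_projS _ _
  · rw [e]
    exact homog_cut _ h _
  · rw [projS_E Q {a}]
    simp only [← mul_assoc, Q.EE]
  · simp only [mul_assoc, Q.EE]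

end DualAux

open DualAux

namespace TrF

variable (t : TrF k S)

/-- Linear forms are represented on finite blocks.  Proof: let `F` support `u` and `v`; for
`i, j ∈ F` let `θ i j` represent `s ↦ ω (single j i s)`; put `χ = ∑ i j ∈ F, single i j (θ i j)` and
use `eq_sum_single`, `Tr_mul_eq` for `u * z * v`. -/
theorem exists_rep (ω : RCF k T S →ₗ[k] k) {u v : RCF k T S} (hu : IsFin u) (hv : IsFin v) :
    ∃ χ : RCF k T S, IsFin χ ∧ ∀ z, t.Tr (χ * (u * z * v)) = ω (u * z * v) := by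
  obtain ⟨F₁, hF₁⟩ := hu.exists_finset
  obtain ⟨F₂, hF₂⟩ := hv.exists_finset
  choose θ hθ using fun i j : T => t.rep (ω ∘ₗ singleL j i)
  let F := F₁ ∪ F₂
  have hent : ∀ i j, (∑ a ∈ F, ∑ b ∈ F, single a b (θ a b) : RCF k T S).ent i j =
      if i ∈ F ∧ j ∈ F then θ i j else 0 := by
    intro i j
    simp only [ent_sum, ent_single, ite_and]
    rw [Finset.sum_comm]
    simp only [Finset.sum_ite_eq, Finset.sum_ite_irrel, Finset.sum_const_zero]
  refine ⟨∑ a ∈ F, ∑ b ∈ F, single a b (θ a b),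
    isFin_sum fun a _ => isFin_sum fun b _ => isFin_single _ _ _, fun z => ?_⟩
  have hw : ∀ i j, (u * z * v).ent i j ≠ 0 → i ∈ F ∧ j ∈ F := by
    intro i j h
    obtain ⟨l, h1, h2⟩ := exists_of_ent_mul_ne_zero h
    obtain ⟨l', h3, -⟩ := exists_of_ent_mul_ne_zero h1
    exact ⟨Finset.mem_union_left _ (hF₁ _ _ h3).1, Finset.mem_union_right _ (hF₂ _ _ h2).2⟩
  rw [t.Tr_mul_eq (F := F)]
  · conv_rhs => rw [eq_sum_single hw, Finset.sum_comm]
    simp only [map_sum]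
    refine Finset.sum_congr rfl fun i hi => Finset.sum_congr rfl fun j hj => ?_
    rw [hent, if_pos ⟨hi, hj⟩, hθ]
    rfl
  · intro i j h
    by_contra h'
    exact h (by rw [hent, if_neg h'])

/-- Factorisation lemma.  Proof: on the submodule `V` of finite matrices with entries in `B` the form
`y ↦ Tr (ζ * y)` kills the kernel of `y ↦ l * y * r`, so it is `ω (l * y * r)` for a linear form `ω`
on all matrices (`LinearMap.range_dualMap_eq_dualAnnihilator_ker` or `LinearMap.exists_extend`).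
Then `Tr (ζ y) = Tr (ζ (e₂ y e₁)) = ω (e₂' (l y r) e₁') = Tr (χ₀ e₂' l y r e₁')
= Tr (r (e₁' χ₀ e₂') l y)`; conclude by `perp_of_Tr`. -/
theorem fac {B : Subalgebra k S} {ζ l r e₁ e₂ e₁' e₂' : RCF k T S} (hζ : IsFin ζ)
    (he₁ : Ent B.toSubmodule e₁) (he₂ : Ent B.toSubmodule e₂) (h₁ : e₁ * ζ = ζ) (h₂ : ζ * e₂ = ζ)
    (hf₁ : IsFin e₁') (hf₂ : IsFin e₂') (hl : l * e₂ = e₂' * l) (hr : e₁ * r = r * e₁')
    (h : ∀ y, IsFin y → Ent B.toSubmodule y → l * y * r = 0 → t.Tr (ζ * y) = 0) :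
    ∃ χ : RCF k T S, IsFin χ ∧ Ent (t.perp B) (ζ + r * (e₁' * χ * e₂') * l) := by
  let V := finEnt k T S B.toSubmodule
  let g : V →ₗ[k] RCF k T S := (LinearMap.mulRight k r ∘ₗ LinearMap.mulLeft k l) ∘ₗ V.subtype
  let f : Module.Dual k V := trL t hζ ∘ₗ V.subtype
  have hf : f ∈ (LinearMap.ker g).dualAnnihilator := by
    rw [Submodule.mem_dualAnnihilator]
    intro y hy
    exact h y.1 y.2.1 y.2.2 hy
  rw [← LinearMap.range_dualMap_eq_dualAnnihilator_ker] at hf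
  obtain ⟨ω, hω⟩ := hf
  have hω' : ∀ y, IsFin y → Ent B.toSubmodule y → ω (l * y * r) = t.Tr (ζ * y) :=
    fun y h1 h2 => LinearMap.congr_fun hω ⟨y, h1, h2⟩
  obtain ⟨χ, hχ, hrep⟩ := t.exists_rep ω hf₂ hf₁
  refine ⟨χ, hχ, t.perp_of_Tr fun y hy hyB => ?_⟩
  have hmul : ∀ a ∈ B.toSubmodule, ∀ b ∈ B.toSubmodule, a * b ∈ B.toSubmodule :=
    fun _ ha _ hb => B.mul_mem ha hb
  have e1 : t.Tr (ζ * y) = t.Tr (ζ * (e₂ * y * e₁)) := by
    conv_lhs => rw [← h₁, ← h₂, mul_assoc e₁, ← t.Tr_comm ((hζ.mul_right _).mul_right _)]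
    simp only [mul_assoc]
  have e2 : l * (e₂ * y * e₁) * r = e₂' * (l * y * r) * e₁' := by
    calc l * (e₂ * y * e₁) * r = l * e₂ * y * (e₁ * r) := by simp only [mul_assoc]
      _ = _ := by rw [hl, hr]; simp only [mul_assoc]
  have e3 : t.Tr (r * (e₁' * χ * e₂') * l * y) = t.Tr (χ * (e₂' * (l * y * r) * e₁')) := by
    have := t.Tr_comm (((hχ.mul_right e₂').mul_right l).mul_right y) (r * e₁')
    simp only [mul_assoc] at this ⊢
    exact this.symm
  rw [add_mul, t.Tr_add (hζ.mul_right _) (hy.mul_left _), e3, hrep, ← e2,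
    hω' _ ((hy.mul_left _).mul_right _) ((he₂.mul hyB hmul).mul he₁ hmul), ← e1]
  exact CharTwo.add_self_eq_zero _

end TrF

namespace Cx

variable {Q : Cx k T S} (t : TrF k S) {B : Subalgebra k S}

/-- Row exactness modulo `B^⊥` from column exactness over `B` (`fac` with `l = d`, `r = 1`,
`e₁ = e₁' = diag 1_F`, `e₂ = projS dg A`, `e₂' = projS dg {a | a + 1 ∈ A}`, `A` finite). -/
theorem row_mod_perp (hE : Ent B.toSubmodule Q.E) (hd : Ent B.toSubmodule Q.d)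
    (hc : Q.ColEx B.toSubmodule) {x : RCF k T S} (hx : IsFin x) (h1 : x * Q.E = x)
    (h2 : Ent (t.perp B) (x * Q.d)) :
    ∃ x' : RCF k T S, IsFin x' ∧ x' * Q.E = x' ∧ Ent (t.perp B) (x + x' * Q.d) := by
  obtain ⟨A, hA, hA1, hA2⟩ := exists_projS Q.dg hx
  have hN := Q.stab_subalgebra B hE hd
  have hA' : {a : ℤ | a + 1 ∈ A}.Finite :=
    hA.preimage (f := fun a : ℤ => a + 1) (add_left_injective 1).injOn
  obtain ⟨χ, hχ, h⟩ := t.fac (B := B) (ζ := x) (l := Q.d) (r := 1) (e₁ := projS Q.dg A)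
    (e₂ := projS Q.dg A) (e₁' := projS Q.dg A) (e₂' := projS Q.dg {a | a + 1 ∈ A}) hx
    (ent_projS_of B.one_mem _ _) (ent_projS_of B.one_mem _ _) hA1 hA2 (isFin_projS Q.fin hA)
    (isFin_projS Q.fin hA') (Q.hd.projS_mul fun a => Iff.rfl).symm (by rw [mul_one, one_mul])
    (fun y hy hyB h0 => by
      rw [mul_one] at h0
      obtain ⟨w, -, hw, -, e⟩ := hc (Q.E * y) (hy.mul_left _) (hN.El _ hyB)
        (by rw [← mul_assoc, Q.EE]) (by rw [← mul_assoc, Q.dE, h0])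
      rw [← h1, mul_assoc, e, ← mul_assoc]
      exact t.Tr_perp h2 hw)
  refine ⟨projS Q.dg A * χ * projS Q.dg {a | a + 1 ∈ A} * Q.E,
    ((hχ.mul_left _).mul_right _).mul_right _, by rw [mul_assoc _ Q.E, Q.EE], ?_⟩
  rwa [mul_assoc _ Q.E, Q.Ed, ← one_mul (projS Q.dg A * χ * _)]

theorem col_mod_perp (hE : Ent B.toSubmodule Q.E) (hd : Ent B.toSubmodule Q.d)
    (hr : Q.RowEx B.toSubmodule) {x : RCF k T S} (hx : IsFin x) (h1 : Q.E * x = x)
    (h2 : Ent (t.perp B) (Q.d * x)) :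
    ∃ x' : RCF k T S, IsFin x' ∧ Q.E * x' = x' ∧ Ent (t.perp B) (x + Q.d * x') := by
  obtain ⟨A, hA, hA1, hA2⟩ := exists_projS Q.dg hx
  have hN := Q.stab_subalgebra B hE hd
  have hA' : {a : ℤ | a - 1 ∈ A}.Finite :=
    hA.preimage (f := fun a : ℤ => a - 1) (sub_left_injective (b := 1)).injOn
  obtain ⟨χ, hχ, h⟩ := t.fac (B := B) (ζ := x) (l := 1) (r := Q.d) (e₁ := projS Q.dg A)
    (e₂ := projS Q.dg A) (e₁' := projS Q.dg {a | a - 1 ∈ A}) (e₂' := projS Q.dg A) hx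
    (ent_projS_of B.one_mem _ _) (ent_projS_of B.one_mem _ _) hA1 hA2 (isFin_projS Q.fin hA')
    (isFin_projS Q.fin hA) (by rw [mul_one, one_mul]) (Q.hd.projS_mul fun a => by simp)
    (fun y hy hyB h0 => by
      rw [one_mul] at h0
      obtain ⟨w, hw', hw, -, e⟩ := hr (y * Q.E) (hy.mul_right _) (hN.Er _ hyB)
        (by rw [mul_assoc, Q.EE]) (by rw [mul_assoc, Q.Ed, h0])
      rw [← h1, mul_assoc, ← t.Tr_comm (hx.mul_right _), mul_assoc, e, ← mul_assoc,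
        t.Tr_comm (hx.mul_right _), ← mul_assoc]
      exact t.Tr_perp h2 hw)
  refine ⟨Q.E * (projS Q.dg {a | a - 1 ∈ A} * χ * projS Q.dg A),
    ((hχ.mul_left _).mul_right _).mul_left _, by rw [← mul_assoc Q.E, Q.EE], ?_⟩
  rwa [← mul_assoc Q.d, Q.dE, ← mul_one (Q.d * _)]

/-- One-component duality: `fac` with `l = r = d`, `e₁ = proj a * E`, `e₂ = proj (a + m) * E`.
The hypothesis `h` only has to be known for one-component cochains. -/
theorem kdual (hE : Ent B.toSubmodule Q.E) (hd : Ent B.toSubmodule Q.d) {a m : ℤ}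
    {ζ : RCF k T S} (hζ : Q.Co ⊤ m ζ) (ha : proj Q.dg a * ζ = ζ)
    (h : ∀ y, Q.Co B.toSubmodule (-m) y → proj Q.dg (a + m) * y = y → Q.d * y * Q.d = 0 →
      t.Tr (ζ * y) = 0) :
    ∃ χ : RCF k T S, Q.Co ⊤ (m - 2) χ ∧ proj Q.dg (a + 1) * χ = χ ∧
      Ent (t.perp B) (ζ + Q.d * χ * Q.d) := by
  have hN := Q.stab_subalgebra B hE hd
  have hζf : IsFin ζ := ha ▸ (Q.isFin_proj a).mul_right ζ
  have hpE : ∀ b : ℤ, Ent B.toSubmodule (proj Q.dg b * Q.E) := fun b => hE.projS_mul _ _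
  have hfE : ∀ b : ℤ, IsFin (proj Q.dg b * Q.E) := fun b => (Q.isFin_proj b).mul_right _
  have h₁ : proj Q.dg a * Q.E * ζ = ζ := by rw [mul_assoc, hζ.l, ha]
  have h₂ : ζ * (proj Q.dg (a + m) * Q.E) = ζ := by
    rw [← mul_assoc, ← hζ.hom.proj_mul rfl, ha, hζ.r]
  have hsh : ∀ b c : ℤ, b + 1 = c → Q.d * (proj Q.dg c * Q.E) = proj Q.dg b * Q.E * Q.d :=
    fun b c e => by rw [← mul_assoc, ← Q.hd.proj_mul e, mul_assoc, mul_assoc, Q.dE, Q.Ed]
  obtain ⟨χ, -, hχ⟩ := t.fac (B := B) (ζ := ζ) (l := Q.d) (r := Q.d) (e₁ := proj Q.dg a * Q.E)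
    (e₂ := proj Q.dg (a + m) * Q.E) (e₁' := proj Q.dg (a + 1) * Q.E)
    (e₂' := proj Q.dg (a + m - 1) * Q.E) hζf (hpE _) (hpE _) h₁ h₂ (hfE _) (hfE _)
    (hsh _ _ (by ring)) (hsh _ _ rfl).symm
    (fun y hy hyB h0 => by
      have e1 : t.Tr (ζ * y) = t.Tr (ζ * (proj Q.dg (a + m) * Q.E * y * (proj Q.dg a * Q.E))) := by
        conv_lhs => rw [← h₁, ← h₂, mul_assoc (proj Q.dg a * Q.E),
          ← t.Tr_comm ((hζf.mul_right _).mul_right _)]
        simp only [mul_assoc]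
      rw [e1]
      refine h _ (co_cut hN (by ring) hyB) (by simp only [← mul_assoc, proj_mul_proj]) ?_
      calc Q.d * (proj Q.dg (a + m) * Q.E * y * (proj Q.dg a * Q.E)) * Q.d
          = Q.d * (proj Q.dg (a + m) * Q.E) * y * (proj Q.dg a * Q.E * Q.d) := by
            simp only [mul_assoc]
        _ = proj Q.dg (a + m - 1) * Q.E * (Q.d * y * Q.d) * (proj Q.dg (a + 1) * Q.E) := by
            rw [hsh (a + m - 1) _ (by ring), ← hsh a _ rfl]; simp only [mul_assoc]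
        _ = 0 := by rw [h0, mul_zero, zero_mul])
  exact ⟨_, co_cut Q.stab_top (by ring) (ent_top χ), by simp only [← mul_assoc, proj_mul_proj], hχ⟩

section Contractible

variable (hE : Ent B.toSubmodule Q.E) (hd : Ent B.toSubmodule Q.d)
  (hr : Q.RowEx B.toSubmodule) (hc : Q.ColEx B.toSubmodule)
  {s : RCF k T S} (hs : Q.Co ⊤ (-1) s) (hDs : Q.D s = Q.E)
include hE hd hr hc hs hDs

/-- `x = (x s) d`, and `x s = x' d + ρ` with `ρ ∈ B^⊥` by `row_mod_perp`. -/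
theorem rowEx_perp : Q.RowEx (t.perp B) := by
  intro x hx hxp h1 h2
  have e : x * s * Q.d = x := by
    have := hDs
    rw [D] at this
    calc x * s * Q.d = x * (Q.d * s + s * Q.d) := by
          rw [mul_add, ← mul_assoc, h2, zero_mul, zero_add, mul_assoc]
      _ = x := by rw [this, h1]
  obtain ⟨x', hx', h3, h4⟩ := row_mod_perp t hE hd hc (hx.mul_right s)
    (by rw [mul_assoc, hs.r]) (by rwa [e])
  refine ⟨_, (hx.mul_right s).add (hx'.mul_right _), h4, ?_, ?_⟩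
  · rw [add_mul, mul_assoc, hs.r, mul_assoc, Q.dE]
  · rw [add_mul, e, mul_assoc, Q.dd, mul_zero, add_zero]

theorem colEx_perp : Q.ColEx (t.perp B) := by
  intro x hx hxp h1 h2
  have e : Q.d * (s * x) = x := by
    have := hDs
    rw [D] at this
    calc Q.d * (s * x) = (Q.d * s + s * Q.d) * x := by
          rw [add_mul, mul_assoc s, h2, mul_zero, add_zero, mul_assoc]
      _ = x := by rw [this, h1]
  obtain ⟨x', hx', h3, h4⟩ := col_mod_perp t hE hd hr (hx.mul_left s)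
    (by rw [← mul_assoc, hs.l]) (by rwa [e])
  refine ⟨_, (hx.mul_left s).add (hx'.mul_left _), h4, ?_, ?_⟩
  · rw [mul_add, ← mul_assoc, hs.l, ← mul_assoc, Q.Ed]
  · rw [mul_add, e, ← mul_assoc, Q.dd, zero_mul, add_zero]

omit hr hc in
/-- The cochain `ζ = proj 0 * (s φ) * d` is orthogonal to all `d y' + y'' d`. -/
theorem dual_orth {m : ℤ} {φ : RCF k T S} (hφ : Q.Co (t.perp B) m φ) (h0 : Q.D φ = 0)
    {y' y'' : RCF k T S} (h2 : Ent B.toSubmodule y'') :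
    t.Tr (proj Q.dg 0 * (s * φ) * Q.d * (Q.d * y' + y'' * Q.d)) = 0 := by
  have hθ : Q.D (s * φ) = φ := by rw [D_mul, hDs, h0, mul_zero, add_zero, hφ.l]
  have hf : IsFin (proj Q.dg 0 * (s * φ) * Q.d) := ((Q.isFin_proj 0).mul_right _).mul_right _
  have e : Q.d * (proj Q.dg 0 * (s * φ) * Q.d) = proj Q.dg (-1) * (φ * Q.d) := by
    conv_rhs => rw [← hθ, D, add_mul, mul_assoc _ Q.d, Q.dd, mul_zero, add_zero]
    have := Q.hd.proj_mul (a := -1) (b := 0) (by norm_num)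
    simp only [← mul_assoc, this]
  rw [mul_add, ← mul_assoc, mul_assoc _ Q.d Q.d, Q.dd, mul_zero, zero_mul, zero_add, ← mul_assoc,
    t.Tr_comm (hf.mul_right _), ← mul_assoc, e]
  exact t.Tr_perp (((t.stab_perp Q hE hd).dr _ hφ.ent).projS_mul _ _) h2

/-- The common part of `hz_perp` and `hone_perp`. -/
theorem dual_split {m : ℤ} {φ : RCF k T S} (hφ : Q.Co (t.perp B) m φ) (h0 : Q.D φ = 0)
    (h : ∀ y, Q.Co B.toSubmodule (-m) y → proj Q.dg (0 + m) * y = y → Q.d * y * Q.d = 0 →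
      t.Tr (proj Q.dg 0 * (s * φ) * Q.d * y) = 0) :
    ∃ ψ, Q.Co (t.perp B) (m - 1) ψ ∧ Q.D ψ = φ := by
  have hP := t.stab_perp Q hE hd
  have htop : ∀ a ∈ (⊤ : Submodule k S), ∀ b ∈ (⊤ : Submodule k S), a * b ∈ (⊤ : Submodule k S) :=
    fun _ _ _ _ => trivial
  have hθ : Q.D (s * φ) = φ := by rw [D_mul, hDs, h0, mul_zero, add_zero, hφ.l]
  have hθc : Q.Co ⊤ (m - 1) (s * φ) := hs.mul hφ.top htop (by ring)
  have hζ : Q.Co ⊤ m (proj Q.dg 0 * (s * φ) * Q.d) :=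
    (hθc.projS_mul _).mul (co_d (ent_top _)) htop (by ring)
  obtain ⟨χ, hχ, hχ1, hρ⟩ := kdual t hE hd hζ (a := 0)
    (by simp only [← mul_assoc, proj_mul_proj]) h
  obtain ⟨θ, hθ1, hθ2, hθ3⟩ : ∃ θ, Q.Co ⊤ (m - 1) θ ∧ Q.D θ = φ ∧
      Ent (t.perp B) (proj Q.dg 0 * (θ * Q.d)) := by
    refine ⟨s * φ + Q.D χ, hθc.add ((hχ.D Q.stab_top).cast (by ring)),
      by rw [D_add, hθ, D_D, add_zero], ?_⟩
    have e : proj Q.dg 0 * ((s * φ + Q.D χ) * Q.d) =
        proj Q.dg 0 * (s * φ) * Q.d + Q.d * χ * Q.d := by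
      have e1 := Q.hd.proj_mul (a := 0) (b := 0 + 1) rfl
      rw [D, add_mul, add_mul, mul_assoc χ, Q.dd, mul_zero, add_zero, mul_add, ← mul_assoc,
        ← mul_assoc _ (Q.d * χ), ← mul_assoc _ Q.d χ, e1, mul_assoc Q.d _ χ, hχ1]
    rwa [e]
  have eP : (projS Q.dg (Set.Iic 0) : RCF k T S) = projS Q.dg (Set.Iio 0) + proj Q.dg 0 := by
    rw [← projS_union _ (by simp), Set.Iio_union_right]
  have e1 : Q.D (projS Q.dg (Set.Iic 0) * θ) =
      projS Q.dg (Set.Iio 0) * φ + proj Q.dg 0 * (θ * Q.d) := by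
    have e2 : projS Q.dg (Set.Iio 0) * Q.d = Q.d * projS Q.dg (Set.Iic 0) :=
      Q.hd.projS_mul fun a => by simp only [Set.mem_Iio, Set.mem_Iic]; omega
    rw [← hθ2, D, D, ← mul_assoc, ← e2, eP]
    simp only [mul_add, add_mul, mul_assoc, add_assoc]
  have hφ₁ : Q.Co (t.perp B) m (Q.D (projS Q.dg (Set.Iic 0) * θ)) :=
    (((hθ1.projS_mul _).D Q.stab_top).cast (by ring)).of_ent
      (by rw [e1]; exact (hφ.ent.projS_mul _ _).add hθ3)
  obtain ⟨ψ₁, hψ₁, e₁, -⟩ := exists_D_of_bddAbove hP (rowEx_perp t hE hd hr hc hs hDs) (M := 0) hφ₁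
    (Q.D_D _) fun a ha => by
      rw [e1, mul_add, ← mul_assoc, ← mul_assoc, projS_mul_projS, projS_mul_projS,
        Set.singleton_inter_eq_empty.2 (by simp only [Set.mem_Iio]; omega),
        Set.singleton_inter_eq_empty.2 (by simp only [Set.mem_singleton_iff]; omega), projS_empty,
        zero_mul, zero_mul, add_zero]
  obtain ⟨ψ₂, hψ₂, e₂, -⟩ := exists_D_of_bddBelow hP (colEx_perp t hE hd hr hc hs hDs) (M := 0)
    (hφ.add hφ₁) (by rw [D_add, h0, D_D, add_zero]) fun a ha => by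
      rw [e1, mul_add, mul_add, ← mul_assoc, ← mul_assoc, projS_mul_projS, projS_mul_projS,
        Set.singleton_inter_of_mem (show a ∈ Set.Iio 0 from ha),
        Set.singleton_inter_eq_empty.2 (by simp only [Set.mem_singleton_iff]; omega), projS_empty,
        zero_mul, add_zero, add_self]
  refine ⟨ψ₁ + ψ₂, hψ₁.add hψ₂, ?_⟩
  rw [D_add, e₁, e₂, add_left_comm, add_self, add_zero]

/-- Let `φ` be a cocycle with entries in `B^⊥`, `θ = s φ` (so `D θ = φ`), `ζ = proj 0 * θ * d`.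
Then `ζ d = 0` and `d ζ = proj (-1) * φ * d` has entries in `B^⊥`, so `ζ` is orthogonal to all
`d y' + y'' d`; by `kp_of_Hz` and `kdual`, `ζ + d χ d = ρ` has entries in `B^⊥`.  With
`θ' = θ + D χ` and `θ'' = projS (Iic 0) * θ'`, `D θ'' = projS (Iio 0) * φ + ρ` is a cocycle with
entries in `B^⊥` supported in degrees `≤ 0`, and `φ + D θ''` is one supported in degrees `≥ 0`;
apply `exists_D_of_bddAbove`, `exists_D_of_bddBelow` with `rowEx_perp`, `colEx_perp`. -/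
theorem hz_perp {m : ℤ} (hz : Q.Hz B.toSubmodule (-m)) : Q.Hz (t.perp B) m := by
  intro φ hφ h0
  refine dual_split t hE hd hr hc hs hDs hφ h0 fun y hy hb hyd => ?_
  obtain ⟨y', y'', -, -, -, h2, e⟩ := kp_of_Hz (Q.stab_subalgebra B hE hd) hr hc hz hy hb hyd
  rw [e]
  exact dual_orth t hE hd hs hDs hφ h0 h2

/-- As `hz_perp` after replacing `φ` by `φ + c • E` (`θ` by `θ + c • s`) with `c` chosen such that
`Tr ζ = 0`; use `kp_of_Hone`. -/
theorem hone_perp (trB : ∀ b ∈ B, t.tr b = 0) (hz : Q.Hone B.toSubmodule)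
    (hodd : t.Tr (proj Q.dg 0 * s * Q.d) ≠ 0) : Q.Hone (t.perp B) := by
  intro φ hφ h0
  have hf : ∀ z : RCF k T S, IsFin (proj Q.dg 0 * z * Q.d) := fun z =>
    ((Q.isFin_proj 0).mul_right _).mul_right _
  obtain ⟨c, hc0⟩ : ∃ c : k, t.Tr (proj Q.dg 0 * (s * (φ + c • Q.E)) * Q.d) = 0 := by
    refine ⟨-t.Tr (proj Q.dg 0 * (s * φ) * Q.d) / t.Tr (proj Q.dg 0 * s * Q.d), ?_⟩
    rw [mul_add, mul_smul_comm, hs.r, mul_add, add_mul, mul_smul_comm, smul_mul_assoc,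
      t.Tr_add (hf _) ((hf _).smul _), t.Tr_smul _ (hf _), div_mul_cancel₀ _ hodd, add_neg_cancel]
  have hφ' : Q.Co (t.perp B) 0 (φ + c • Q.E) :=
    hφ.add ((co_E (hE.mono (t.le_perp trB))).smul c)
  have h0' : Q.D (φ + c • Q.E) = 0 := by rw [D_add, D_smul, D_E, h0, smul_zero, add_zero]
  obtain ⟨ψ, hψ, e⟩ := dual_split t hE hd hr hc hs hDs hφ' h0' fun y hy hb hyd => by
    obtain ⟨c', y', y'', h1, h1', -, h2, e⟩ := kp_of_Hone (Q.stab_subalgebra B hE hd) hr hc hz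
      (hy.cast neg_zero) hb hyd
    have hζ : Homog Q.dg Q.dg 0 (proj Q.dg 0 * (s * (φ + c • Q.E)) * Q.d) :=
      ((homog_projS _ _).mul (hs.hom.mul hφ'.hom)).mul' Q.hd (by norm_num)
    have e1 : proj Q.dg 0 * (s * (φ + c • Q.E)) * Q.d * (proj Q.dg (0 + 0) * Q.E) =
        proj Q.dg 0 * (s * (φ + c • Q.E)) * Q.d := by
      rw [← mul_assoc, ← hζ.proj_mul (a := 0) rfl]
      simp only [← mul_assoc, proj_mul_proj]
      rw [mul_assoc _ Q.d, Q.dE]
    rw [e, add_assoc, mul_add, t.Tr_add ((hf _).mul_right _) ((hf _).mul_right _),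
      dual_orth t hE hd hs hDs hφ' h0' h2, add_zero, mul_smul_comm, e1, t.Tr_smul _ (hf _), hc0,
      mul_zero]
  refine ⟨c, ψ, hψ.cast (by norm_num), ?_⟩
  rw [e, add_left_comm, add_self, add_zero]

end Contractible

section Lagrangian

variable (hE : Ent B.toSubmodule Q.E) (hd : Ent B.toSubmodule Q.d)
  (hr : Q.RowEx B.toSubmodule) (hc : Q.ColEx B.toSubmodule) (hL : t.perp B ≤ B.toSubmodule)
include hE hd hr hc hL

theorem rowEx_of_lagr : Q.RowEx ⊤ := by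
  intro x hx _ h1 h2
  obtain ⟨x', hx', h3, h4⟩ := row_mod_perp t hE hd hc hx h1 (by rw [h2]; exact ent_zero' _)
  obtain ⟨y, hy, -, h5, e⟩ := hr _ (hx.add (hx'.mul_right _)) (h4.mono hL)
    (by rw [add_mul, h1, mul_assoc, Q.dE]) (by rw [add_mul, h2, mul_assoc, Q.dd, mul_zero, add_zero])
  refine ⟨x' + y, hx'.add hy, ent_top _, by rw [add_mul, h3, h5], ?_⟩
  rw [add_mul, ← e, add_left_comm, add_self, add_zero]

/-- `ζ` is orthogonal to all `d y' + y'' d`, so by `kp_of_Hz` (degree `-n-1`) and `kdual`,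
`α = ζ + d χ d` has entries in `B`; it is a one-component cochain killed by `d` on both sides, so
`kv_of_Hz` applies. -/
theorem kv_of_lagr {n : ℤ} (h1 : Q.Hz B.toSubmodule n) (h2 : Q.Hz B.toSubmodule (-(n + 1))) :
    Q.KV ⊤ n := by
  intro a ζ hζ ha hl hr'
  have hN := Q.stab_subalgebra B hE hd
  have hζf : IsFin ζ := ha ▸ (Q.isFin_proj a).mul_right ζ
  have htop : ∀ a ∈ (⊤ : Submodule k S), ∀ b ∈ (⊤ : Submodule k S), a * b ∈ (⊤ : Submodule k S) :=
    fun _ _ _ _ => trivial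
  obtain ⟨χ, hχ, hχ1, hρ⟩ := kdual t hE hd hζ ha fun y hy hb hyd => by
    obtain ⟨y', y'', -, -, -, -, e⟩ := kp_of_Hz hN hr hc h2 hy hb hyd
    rw [e, mul_add, ← mul_assoc, hr', zero_mul, zero_add, ← mul_assoc,
      t.Tr_comm (hζf.mul_right _), ← mul_assoc, hl, zero_mul, t.Tr_zero]
  have hα : Q.Co B.toSubmodule (n + 1) (ζ + Q.d * χ * Q.d) :=
    (hζ.add (((co_d (ent_top _)).mul hχ htop rfl).mul (co_d (ent_top _)) htop (by ring))).of_ent
      (hρ.mono hL)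
  obtain ⟨χ', hχ', -, e⟩ := kv_of_Hz hN hr hc h1 a _ hα
    (by rw [mul_add, ha, ← mul_assoc, ← mul_assoc, Q.hd.proj_mul rfl, mul_assoc Q.d, hχ1])
    (by rw [mul_add, hl, ← mul_assoc, ← mul_assoc, Q.dd, zero_mul, zero_mul, add_zero])
    (by rw [add_mul, hr', mul_assoc, Q.dd, mul_zero, add_zero])
  refine ⟨χ + χ', (hχ1 ▸ (Q.isFin_proj (a + 1)).mul_right χ).add hχ', ent_top _, ?_⟩
  rw [mul_add, add_mul, ← e, add_left_comm, add_self, add_zero]

end Lagrangian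

end Cx

end Crest.Agent.R186
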