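import Crest.Agent.R186.ExtRes

/-!
The endomorphism algebra of `A × M`.
-/

namespace Crest.Agent.R186

open CategoryTheory Crest.AlgebraR

universe u v

section Aux

variable {K A : Type u} [Field K] [Ring A] [Algebra K A]

/-- The trace form of a symmetric algebra is nondegenerate on both sides. -/
theorem gam_trace (h : IsSymmetricAlgebra K A) :
    ∃ l : A →ₗ[K] K, (∀ a, (∀ y, l (y * a) = 0) → a = 0) ∧ ∀ a, (∀ y, l (a * y) = 0) → a = 0 := by
  obtain ⟨φ, hφ⟩ := h
  refine ⟨φ 1, fun a ha => ?_, fun a ha => ?_⟩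
  · apply φ.injective
    ext y
    have := hφ a 1 1 y
    simp only [mul_one, one_mul] at this
    simp [this, ha]
  · apply φ.injective
    ext y
    have := hφ 1 1 a y
    simp only [mul_one, one_mul] at this
    simp [this, ha]

variable {G : Type u} [AddCommGroup G] [Module A G]

theorem gam_mul_smulRight (γ : Module.End A G) (θ : G →ₗ[A] A) (w : G) :
    γ * (θ.smulRight w : Module.End A G) = θ.smulRight (γ w) := by
  ext g
  simp

theorem gam_smulRight_mul (γ : Module.End A G) (θ : G →ₗ[A] A) (w : G) :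
    (θ.smulRight w : Module.End A G) * γ = (θ ∘ₗ γ).smulRight w := by
  ext g
  simp

/-- `w ↦ (g ↦ π g • w)` as a map of `End_A G`-modules. -/
def gamSec (π : G →ₗ[A] A) : G →ₗ[Module.End A G] Module.End A G where
  toFun w := π.smulRight w
  map_add' w w' := by
    ext g
    simp
  map_smul' γ w := by
    ext g
    simp

theorem gam_split (π : G →ₗ[A] A) (u : G) (hu : π u = 1) :
    (LinearMap.toSpanSingleton (Module.End A G) G u) ∘ₗ gamSec π = LinearMap.id := by
  ext w
  simp [gamSec, hu]

theorem gam_finite (π : G →ₗ[A] A) (u : G) (hu : π u = 1) :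
    Module.Finite (Module.End A G) G := by
  refine Module.Finite.of_surjective (LinearMap.toSpanSingleton (Module.End A G) G u) fun w => ?_
  exact ⟨gamSec π w, LinearMap.congr_fun (gam_split π u hu) w⟩

theorem gam_projective (π : G →ₗ[A] A) (u : G) (hu : π u = 1) :
    Module.Projective (Module.End A G) G :=
  Module.Projective.of_split _ _ (gam_split π u hu)

/-- Elements of `G` are separated by the maps `G → A`. -/
theorem gam_sep [FiniteDimensional K A] (h : IsSymmetricAlgebra K A) [Module.Finite A G] (w : G)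
    (hw : ∀ θ : G →ₗ[A] A, θ w = 0) : w = 0 := by
  obtain ⟨r, f, hf⟩ := exists_embedding_of_symm K h G
  apply hf
  ext i
  simpa using hw ((LinearMap.proj i) ∘ₗ f)

theorem gam_injective [FiniteDimensional K A] (h : IsSymmetricAlgebra K A) [Module.Finite A G]
    [Module K G] [IsScalarTower K A G] (π : G →ₗ[A] A) (u : G) (hu : π u = 1) :
    Module.Injective (Module.End A G) G := by
  have : FiniteDimensional K G := Module.Finite.trans A G
  obtain ⟨l, hl, hr⟩ := gam_trace h
  refine Module.Baer.injective fun I g => ?_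
  -- the form `γ ↦ l (π (g γ))` on `I`
  let ω : I →ₗ[K] K :=
    { toFun := fun γ => l (π (g γ))
      map_add' := fun γ γ' => by simp
      map_smul' := fun c γ => by
        have h1 : c • γ = (algebraMap K (Module.End A G) c) • γ := by
          rw [algebraMap_smul]
        have h2 : g (c • γ) = c • g γ := by
          rw [h1, map_smul]
          simp
        rw [h2, LinearMap.map_smul_of_tower, map_smul]
        rfl }
  obtain ⟨Ω, hΩ⟩ := LinearMap.exists_extend (p := I.restrictScalars K) ω
  let T : (G →ₗ[A] A) →ₗ[K] Module.Dual K G :=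
    { toFun := fun θ => l ∘ₗ θ.restrictScalars K
      map_add' := fun θ θ' => by
        ext x
        simp
      map_smul' := fun c θ => by
        ext x
        simp }
  have hT : Function.Injective T := by
    rw [injective_iff_map_eq_zero]
    intro θ hθ
    ext x
    refine hl _ fun y => ?_
    have := LinearMap.congr_fun hθ (y • x)
    simpa [T] using this
  let Ψ : (G →ₗ[A] A) →ₗ[K] K :=
    { toFun := fun θ => Ω (θ.smulRight u)
      map_add' := fun θ θ' => by
        rw [← map_add]
        congr 1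
        ext x
        simp [add_smul]
      map_smul' := fun c θ => by
        rw [RingHom.id_apply, ← map_smul]
        congr 1
        ext x
        simp }
  obtain ⟨Ψ', hΨ'⟩ := LinearMap.dualMap_surjective_of_injective hT Ψ
  obtain ⟨w, hw⟩ := (Module.evalEquiv K G).surjective Ψ'
  have key : ∀ θ : G →ₗ[A] A, l (θ w) = Ω (θ.smulRight u) := by
    intro θ
    have := LinearMap.congr_fun hΨ' θ
    rw [← hw] at this
    simpa [T, Ψ] using this
  refine ⟨LinearMap.toSpanSingleton _ G w, fun γ hγ => ?_⟩
  have key2 : ∀ θ : G →ₗ[A] A, l (θ (γ w - g ⟨γ, hγ⟩)) = 0 := by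
    intro θ
    have h1 : l (θ (γ w)) = Ω ((θ.smulRight u : Module.End A G) * γ) := by
      rw [gam_smulRight_mul, ← key]
      rfl
    have h2 := LinearMap.congr_fun hΩ
      (⟨(θ.smulRight u : Module.End A G) * γ, I.mul_mem_left _ hγ⟩ : I.restrictScalars K)
    have h3 : g ⟨(θ.smulRight u : Module.End A G) * γ, I.mul_mem_left _ hγ⟩ =
        (θ.smulRight u : Module.End A G) • g ⟨γ, hγ⟩ := by
      rw [← map_smul]
      rfl
    have h4 : Ω ((θ.smulRight u : Module.End A G) * γ) = l (θ (g ⟨γ, hγ⟩)) := by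
      refine h2.trans ?_
      change l (π (g ⟨(θ.smulRight u : Module.End A G) * γ, I.mul_mem_left _ hγ⟩)) = _
      rw [h3]
      simp [hu]
    rw [map_sub, map_sub, h1, h4, sub_self]
  have : γ w - g ⟨γ, hγ⟩ = 0 := by
    refine gam_sep h _ fun θ => hr _ fun y => ?_
    simpa using key2 ((LinearMap.toSpanSingleton A A y) ∘ₗ θ)
  simpa [sub_eq_zero] using this

/-- The left ideal of the endomorphisms that lift along `ε`. -/
def gamJ {F : Type u} [AddCommGroup F] [Module A F] [Module.Projective A F] (ε : F →ₗ[A] G)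
    (hε : Function.Surjective ε) : Ideal (Module.End A G) where
  carrier := {γ | ∃ s : G →ₗ[A] F, ε ∘ₗ s = γ}
  zero_mem' := ⟨0, by simp⟩
  add_mem' := by
    rintro _ _ ⟨s, rfl⟩ ⟨t, rfl⟩
    exact ⟨s + t, by simp [LinearMap.comp_add]⟩
  smul_mem' := by
    rintro γ _ ⟨s, rfl⟩
    obtain ⟨t, ht⟩ := Module.projective_lifting_property ε (γ ∘ₗ ε) hε
    refine ⟨t ∘ₗ s, ?_⟩
    rw [← LinearMap.comp_assoc, ht]
    rfl

theorem gamJ_rank_one {F : Type u} [AddCommGroup F] [Module A F] [Module.Projective A F]
    (ε : F →ₗ[A] G) (hε : Function.Surjective ε) (θ : G →ₗ[A] A) (w : G) :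
    (θ.smulRight w : Module.End A G) ∈ gamJ ε hε := by
  obtain ⟨x, rfl⟩ := hε w
  refine ⟨θ.smulRight x, ?_⟩
  ext g
  simp

theorem gamJ_ne_top {F : Type u} [AddCommGroup F] [Module A F] [Module.Projective A F]
    (ε : F →ₗ[A] G) (hε : Function.Surjective ε) (hG : ¬ Module.Projective A G) :
    (1 : Module.End A G) ∉ gamJ ε hε := by
  rintro ⟨s, hs⟩
  exact hG (Module.Projective.of_split s ε hs)

/-- `Hom_A(Fin r → A, G) ≅ Fin r → G` as `End_A G`-modules. -/
noncomputable def gamC (A G : Type u) [Ring A] [AddCommGroup G] [Module A G] (r : ℕ) :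
    (Fin r → G) ≃ₗ[Module.End A G] ((Fin r → A) →ₗ[A] G) :=
  (Pi.basisFun A (Fin r)).constr (Module.End A G)

/-- `γ ↦ γ ∘ ε`. -/
def gamE {F : Type u} [AddCommGroup F] [Module A F] (ε : F →ₗ[A] G) :
    Module.End A G →ₗ[Module.End A G] (F →ₗ[A] G) where
  toFun γ := γ ∘ₗ ε
  map_add' _ _ := rfl
  map_smul' _ _ := rfl

theorem gamE_injective {F : Type u} [AddCommGroup F] [Module A F] (ε : F →ₗ[A] G)
    (hε : Function.Surjective ε) : Function.Injective (gamE ε) := by
  intro γ γ' h
  ext g
  obtain ⟨x, rfl⟩ := hε g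
  exact LinearMap.congr_fun h x

theorem gam_not_injective (π : G →ₗ[A] A) (u : G) (hu : π u = 1) {r : ℕ}
    (ε : (Fin r → A) →ₗ[A] G) (hε : Function.Surjective ε) (hG : ¬ Module.Projective A G) :
    ¬ Module.Injective (Module.End A G) (Module.End A G) := by
  intro hinj
  let e := (gamC A G r).symm.toLinearMap ∘ₗ gamE ε
  have he : Function.Injective e := (gamC A G r).symm.injective.comp (gamE_injective ε hε)
  obtain ⟨ρ, hρ⟩ := hinj.out e he LinearMap.id
  apply gamJ_ne_top ε hε hG
  have h1 : ∀ (i : Fin r) (w : G), ρ (Pi.single i w) ∈ gamJ ε hε := by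
    intro i w
    have : (Pi.single i w : Fin r → G) =
        (π.smulRight w : Module.End A G) • (Pi.single i u : Fin r → G) := by
      rw [← Pi.single_smul]
      simp [hu]
    rw [this, map_smul, smul_eq_mul, gam_smulRight_mul]
    exact gamJ_rank_one ε hε _ _
  have h2 : (1 : Module.End A G) = ρ (e 1) := (hρ 1).symm
  rw [h2, ← Finset.univ_sum_single (e 1), map_sum]
  exact Ideal.sum_mem _ fun i _ => h1 i _

theorem gam_simple [FiniteDimensional K A] (h : IsSymmetricAlgebra K A) [Module.Finite A G]
    (π : G →ₗ[A] A) (u : G) (hu : π u = 1) {r : ℕ}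
    (ε : (Fin r → A) →ₗ[A] G) (hε : Function.Surjective ε) (hG : ¬ Module.Projective A G) :
    ∃ (S : Type u) (_ : AddCommGroup S) (_ : Module (Module.End A G) S),
      IsSimpleModule (Module.End A G) S ∧ ∀ f : S →ₗ[Module.End A G] G, f = 0 := by
  obtain ⟨m, hm, hJ⟩ := Ideal.exists_le_maximal (gamJ ε hε)
    ((Ideal.ne_top_iff_one _).2 (gamJ_ne_top ε hε hG))
  refine ⟨Module.End A G ⧸ m, inferInstance, inferInstance,
    isSimpleModule_iff_isCoatom.2 hm.out, fun f => ?_⟩
  have hf : ∀ γ : Module.End A G, f (Submodule.Quotient.mk γ) =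
      γ (f (Submodule.Quotient.mk 1)) := by
    intro γ
    have : (Submodule.Quotient.mk γ : Module.End A G ⧸ m) = γ • Submodule.Quotient.mk 1 := by
      rw [← Submodule.Quotient.mk_smul, smul_eq_mul, mul_one]
    rw [this, map_smul]
    rfl
  have hw : f (Submodule.Quotient.mk 1) = 0 := by
    refine gam_sep h _ fun θ => ?_
    have h1 := hf (θ.smulRight u)
    rw [(Submodule.Quotient.mk_eq_zero _).2 (hJ (gamJ_rank_one ε hε θ u)), map_zero] at h1
    have h2 := congrArg π h1
    simpa [hu] using h2.symm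
  refine LinearMap.ext fun x => ?_
  obtain ⟨γ, rfl⟩ := Submodule.Quotient.mk_surjective _ x
  rw [hf, hw]
  simp

theorem gam_coresolution [FiniteDimensional K A] [Module.Finite A G]
    (hext : ∀ n : ℕ, Subsingleton (Abelian.Ext (ModuleCat.of A G) (ModuleCat.of A G) (n + 1))) :
    ∃ (r : ℕ → ℕ) (ε : Module.End A G →ₗ[Module.End A G] (Fin (r 0) → G))
      (d : ∀ j : ℕ, (Fin (r j) → G) →ₗ[Module.End A G] (Fin (r (j + 1)) → G)),
      Function.Injective ε ∧ Function.Exact ε (d 0) ∧ ∀ j, Function.Exact (d j) (d (j + 1)) := by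
  obtain ⟨r, d, ε, hε, h0, hd⟩ := exists_free_resolution K (A := A) G
  refine ⟨r, (gamC A G (r 0)).symm.toLinearMap ∘ₗ gamE ε,
    fun j => (gamC A G (r (j + 1))).symm.toLinearMap ∘ₗ
      LinearMap.lcomp (Module.End A G) G (d j) ∘ₗ (gamC A G (r j)).toLinearMap,
    (gamC A G (r 0)).symm.injective.comp (gamE_injective ε hε), fun w => ?_, fun j w => ?_⟩
  · obtain ⟨f, rfl⟩ := (gamC A G (r 0)).symm.surjective w
    simp only [LinearMap.coe_comp, LinearEquiv.coe_coe, Function.comp_apply,
      LinearEquiv.apply_symm_apply, EmbeddingLike.map_eq_zero_iff, Set.mem_range,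
      EmbeddingLike.apply_eq_iff_eq]
    constructor
    · intro hf
      have hker : LinearMap.ker ε ≤ LinearMap.ker f := by
        intro x hx
        obtain ⟨y, rfl⟩ := (h0 x).1 hx
        exact LinearMap.congr_fun hf y
      refine ⟨(LinearMap.ker ε).liftQ f hker ∘ₗ (ε.quotKerEquivOfSurjective hε).symm.toLinearMap,
        LinearMap.ext fun x => ?_⟩
      simp [gamE]
    · rintro ⟨γ, rfl⟩
      refine LinearMap.ext fun y => ?_
      change γ (ε (d 0 y)) = 0
      rw [h0.apply_apply_eq_zero, map_zero]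
  · obtain ⟨f, rfl⟩ := (gamC A G (r (j + 1))).symm.surjective w
    simp only [LinearMap.coe_comp, LinearEquiv.coe_coe, Function.comp_apply,
      LinearEquiv.apply_symm_apply, EmbeddingLike.map_eq_zero_iff, Set.mem_range,
      EmbeddingLike.apply_eq_iff_eq]
    constructor
    · intro hf
      obtain ⟨f', hf'⟩ := (ext_subsingleton_iff (fun n => Fin (r n) → A) d ε hε h0 hd G j).1
        (hext j) f hf
      exact ⟨(gamC A G (r j)).symm f', by rw [LinearEquiv.apply_symm_apply]; exact hf'.symm⟩
    · rintro ⟨y, rfl⟩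
      refine LinearMap.ext fun x => ?_
      change gamC A G (r j) y (d j (d (j + 1) x)) = 0
      rw [(hd j).apply_apply_eq_zero, map_zero]

theorem gam_ext_prod {M : Type u} [AddCommGroup M] [Module A M] (hA : Module.Injective A A)
    (n : ℕ) (hM : Subsingleton (Abelian.Ext (ModuleCat.of A M) (ModuleCat.of A M) (n + 1))) :
    Subsingleton (Abelian.Ext (ModuleCat.of A (A × M)) (ModuleCat.of A (A × M)) (n + 1)) := by
  have hinj : Injective (ModuleCat.of A A) := Module.injective_object_of_injective_module A A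
  have htot : ModuleCat.ofHom (LinearMap.fst A A M) ≫ ModuleCat.ofHom (LinearMap.inl A A M) +
      ModuleCat.ofHom (LinearMap.snd A A M) ≫ ModuleCat.ofHom (LinearMap.inr A A M) =
      𝟙 (ModuleCat.of A (A × M)) := by
    ext x <;> simp
  have h1 : ∀ x : Abelian.Ext (ModuleCat.of A (A × M)) (ModuleCat.of A M) (n + 1), x = 0 := by
    intro x
    rw [← Abelian.Ext.mk₀_id_comp x, ← htot, Abelian.Ext.mk₀_add, Abelian.Ext.add_comp,
      ← Abelian.Ext.mk₀_comp_mk₀_assoc, ← Abelian.Ext.mk₀_comp_mk₀_assoc,
      Abelian.Ext.eq_zero_of_projective ((Abelian.Ext.mk₀ _).comp x _),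
      Subsingleton.elim ((Abelian.Ext.mk₀ (ModuleCat.ofHom (LinearMap.inr A A M))).comp x _) 0]
    simp
  refine subsingleton_of_forall_eq 0 fun x => ?_
  rw [← Abelian.Ext.comp_mk₀_id x, ← htot, Abelian.Ext.mk₀_add, Abelian.Ext.comp_add,
    ← Abelian.Ext.mk₀_comp_mk₀, ← Abelian.Ext.mk₀_comp_mk₀,
    ← Abelian.Ext.comp_assoc_of_second_deg_zero, ← Abelian.Ext.comp_assoc_of_second_deg_zero,
    Abelian.Ext.eq_zero_of_injective (x.comp _ _), h1 (x.comp _ _)]
  simp

end Aux

/-- Proof idea.  Give `M` the `K`-structure `Module.compHom M (algebraMap K A)`; `G = A × M`,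
`Γ = Module.End A G`, `W = G` with the tautological action (`Module.End.applyModule`).
* `W ≅ Hom_A(A, G) ≅ Γ e` (`e` the projection onto `A`): finitely generated and projective over `Γ`
  (a retract of `Γ`: `w ↦ (g ↦ g.1 • w)` and `γ ↦ γ (1, 0)`).
* `W` is injective: for a `Γ`-module `X`, `Γ`-linear maps `f : X → W` correspond to `K`-linear forms
  on `e X`: with `λ = φ 1` put `ω_f x = λ ((f x).1)` for `x ∈ e X`; conversely `G ≅ D(Hom_A(G, A))`
  (`g ↦ (θ ↦ λ (θ g))` is bijective since `θ ↦ λ ∘ θ` is a bijection `Hom_A(G,A) → D G`), and a form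
  `ω` on `X` gives `x ↦` the element of `G` representing `θ ↦ ω ((inl ∘ θ) • x)`.  Forms extend along
  injections.
* Coresolution: take a free resolution `(r, d, ε)` of `G` and apply `Hom_A(-, G)`;
  `Hom_A(Fin r → A, G) ≅ Fin r → W` as `Γ`-modules; exactness from `Ext^i(G, G) = 0`, which follows
  from `ext_subsingleton_iff` (use a resolution of `M` and add `A` in degree `0`, or check the
  elementary condition: maps into `A` extend because `A` is injective, maps into `M` because of
  `h.ext`).
* `Γ` is not injective: otherwise `ε : Γ → Fin r → W` splits, i.e. `Hom(ε_G, G)` has a `Γ`-linear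
  retraction `ρ`; `ρ` is determined by `A`-linear maps: a `Γ`-linear map `W → Γ` is
  `w ↦ (g ↦ θ g • w)` for some `θ : G →ₗ[A] A` (evaluate at `(1,0)`); so `id_G` factors through
  `Fin r → A`, `G` and then `M` are projective.
* `S`: the two-sided ideal `I` of maps factoring through a finite power of `A` is proper (else `M` is
  projective); take a maximal left ideal `𝔪 ⊇ I`, `S = Γ ⧸ 𝔪`.  If `f : S → W`, `w = f 1` is killed by
  `I`, so by all `inl ∘ θ`, so `θ w = 0` for all `θ : G → A`, so `w = 0`
  (`exists_embedding_of_symm`). -/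
theorem gammaEx_of_symEx {K A M : Type u} [Field K] [Ring A] [Algebra K A]
    [AddCommGroup M] [Module A M] (h : SymEx K A M) : GammaEx K := by
  have := h.fd
  have := h.fin
  let : Module K M := Module.compHom M (algebraMap K A)
  have : IsScalarTower K A M := IsScalarTower.of_algebraMap_smul fun _ _ => rfl
  have : FiniteDimensional K (A × M) := Module.Finite.trans A _
  have hG : ¬ Module.Projective A (A × M) := fun hp =>
    h.nproj (Module.Projective.of_split (LinearMap.inr A A M) (LinearMap.snd A A M) (by ext; simp))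
  obtain ⟨r, -, ε, hε, -⟩ := exists_free_resolution K (A := A) (A × M)
  have hu : LinearMap.fst A A M (1, 0) = 1 := rfl
  refine ⟨Module.End A (A × M), inferInstance, inferInstance, ?_, A × M, inferInstance,
    inferInstance, gam_finite _ _ hu, gam_projective _ _ hu, gam_injective h.symm _ _ hu,
    gam_not_injective _ _ hu ε hε hG,
    gam_coresolution (K := K) fun n =>
      gam_ext_prod (injective_of_symm K h.symm) n (h.ext _ n.succ_pos),
    gam_simple h.symm _ _ hu ε hε hG⟩
  exact Module.Finite.of_injective (LinearMap.restrictScalarsₗ K A (A × M) (A × M) K)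
    (LinearMap.restrictScalars_injective K)

end Crest.Agent.R186
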