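import Crest.Agent.R186.ExtRes
import Crest.Prelude.Def_GorProjVanishing

/-!
A symmetric example gives the data of statement S0281.
-/

namespace Crest.Agent.R186

open CategoryTheory Crest.AlgebraR

universe u v

/-- A doubly infinite chain for a relation that is left and right total. -/
theorem gp_exists_chain {X : Type*} (Rel : X → X → Prop) (h₁ : ∀ x, ∃ y, Rel y x)
    (h₂ : ∀ x, ∃ y, Rel x y) (x₀ : X) :
    ∃ Z : ℤ → X, Z 0 = x₀ ∧ ∀ n, Rel (Z (n + 1)) (Z n) := by
  choose f hf using h₁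
  choose g hg using h₂
  refine ⟨fun n => match n with
    | Int.ofNat m => f^[m] x₀
    | Int.negSucc m => g^[m + 1] x₀, rfl, ?_⟩
  intro n
  match n with
  | Int.ofNat m =>
    show Rel (f^[m + 1] x₀) (f^[m] x₀)
    rw [Function.iterate_succ_apply']
    exact hf _
  | Int.negSucc 0 => exact hg _
  | Int.negSucc (m + 1) =>
    show Rel (g^[m + 1] x₀) (g^[m + 1 + 1] x₀)
    rw [Function.iterate_succ_apply' g (m + 1)]
    exact hg _

/-- Bundled finitely generated modules. -/
structure GpFG (A : Type u) [Ring A] : Type (u + 1) where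
  carrier : Type u
  [acg : AddCommGroup carrier]
  [mod : Module A carrier]
  [fin : Module.Finite A carrier]

attribute [instance] GpFG.acg GpFG.mod GpFG.fin

/-- `Y` is a syzygy of `X`. -/
def GpRel (A : Type u) [Ring A] (Y X : GpFG A) : Prop :=
  ∃ (r : ℕ) (i : Y.carrier →ₗ[A] (Fin r → A)) (p : (Fin r → A) →ₗ[A] X.carrier),
    Function.Injective i ∧ Function.Surjective p ∧ Function.Exact i p

theorem gp_isGorensteinProjective (k : Type v) {A : Type u} [Field k] [Ring A] [Algebra k A]
    [FiniteDimensional k A] (h : IsSymmetricAlgebra k A) (M : Type u) [AddCommGroup M]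
    [Module A M] [Module.Finite A M] : IsGorensteinProjective A M := by
  have : IsNoetherianRing A := isNoetherian_of_tower k (inferInstance : IsNoetherian k A)
  have hinj : Module.Injective A A := injective_of_symm k h
  have h₁ : ∀ X : GpFG A, ∃ Y, GpRel A Y X := by
    intro X
    obtain ⟨r, p, hp⟩ := Module.Finite.exists_fin' A X.carrier
    exact ⟨⟨LinearMap.ker p⟩, r, (LinearMap.ker p).subtype, p, Submodule.injective_subtype _, hp,
      LinearMap.exact_subtype_ker_map p⟩
  have h₂ : ∀ X : GpFG A, ∃ Y, GpRel A X Y := by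
    intro X
    obtain ⟨r, i, hi⟩ := exists_embedding_of_symm k h X.carrier
    exact ⟨⟨(Fin r → A) ⧸ LinearMap.range i⟩, r, i, (LinearMap.range i).mkQ, hi,
      Submodule.mkQ_surjective _, LinearMap.exact_map_mkQ_range i⟩
  obtain ⟨Z, hZ0, hZ⟩ := gp_exists_chain (GpRel A) h₁ h₂ ⟨M⟩
  choose r i p hi hp hex using hZ
  have hM : Nonempty (M ≃ₗ[A] (Z 0).carrier) := by
    rw [hZ0]
    exact ⟨LinearEquiv.refl _ _⟩
  have hker : ∀ n : ℤ, LinearMap.ker (i n ∘ₗ p (n + 1)) = LinearMap.ker (p (n + 1)) := fun n =>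
    LinearMap.ker_comp_of_ker_eq_bot _ (LinearMap.ker_eq_bot.2 (hi n))
  have hrange : ∀ n : ℤ, LinearMap.range (i n ∘ₗ p (n + 1)) = LinearMap.ker (p n) := fun n => by
    rw [LinearMap.range_comp_of_range_eq_top _ (LinearMap.range_eq_top.2 (hp (n + 1))),
      LinearMap.exact_iff.1 (hex n)]
  refine ⟨fun n => Fin (r n) → A, fun _ => inferInstance, fun _ => inferInstance,
    fun n => i n ∘ₗ p (n + 1), fun n => ⟨inferInstance, inferInstance⟩, fun n => ?_, fun n => ?_, ?_⟩
  · rw [LinearMap.exact_iff, hker, hrange]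
  · intro g
    constructor
    · intro hg
      have hle : LinearMap.ker (p (n + 1)) ≤ LinearMap.ker g := by
        rw [← hrange]
        rintro _ ⟨x, rfl⟩
        exact DFunLike.congr_fun hg x
      obtain ⟨g', hg'⟩ : ∃ g' : (Z (n + 1)).carrier →ₗ[A] A, g' ∘ₗ p (n + 1) = g := by
        refine ⟨(LinearMap.ker (p (n + 1))).liftQ g hle ∘ₗ
          ((p (n + 1)).quotKerEquivOfSurjective (hp (n + 1))).symm.toLinearMap, ?_⟩
        refine LinearMap.ext fun x => ?_
        simp
      obtain ⟨f, hf⟩ := hinj.out (i n) (hi n) g'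
      refine ⟨f, ?_⟩
      show f ∘ₗ (i n ∘ₗ p (n + 1)) = g
      rw [← hg']
      refine LinearMap.ext fun x => ?_
      simp [hf]
    · rintro ⟨f, rfl⟩
      show (f ∘ₗ (i n ∘ₗ p (n + 1))) ∘ₗ (i (n + 1) ∘ₗ p (n + 1 + 1)) = 0
      refine LinearMap.ext fun x => ?_
      have : p (n + 1) (i (n + 1) (p (n + 1 + 1) x)) = 0 := (hex (n + 1)).apply_apply_eq_zero _
      simp [this]
  · obtain ⟨e⟩ := hM
    exact ⟨e ≪≫ₗ ((p 0).quotKerEquivOfSurjective (hp 0)).symm ≪≫ₗ
      Submodule.quotEquivOfEq _ _ (hrange 0).symm⟩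

theorem gp_jacobson_eq {k : Type v} {A : Type u} [Field k] [Ring A] [Algebra k A] {ι : Type}
    [Finite ι] (ψ : A →ₐ[k] (ι → k)) (hψ : Function.Surjective ψ)
    (hn : IsNilpotent (LinearMap.ker ψ.toLinearMap)) : Ring.jacobson A = RingHom.ker ψ := by
  apply le_antisymm
  · intro x hx
    have : RingHomSurjective (ψ : A →+* (ι → k)) := ⟨hψ⟩
    have h1 := Ring.map_jacobson_le (ψ : A →+* (ι → k)) (Submodule.mem_map_of_mem hx)
    rw [IsSemisimpleRing.jacobson_eq_bot] at h1
    exact h1
  · intro x hx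
    rw [← Ideal.jacobson_bot, Ideal.mem_jacobson_iff]
    intro y
    obtain ⟨N, hN⟩ := hn
    have hyx : y * x ∈ LinearMap.ker ψ.toLinearMap := by
      have : ψ x = 0 := hx
      simp [this]
    have hnil : IsNilpotent (y * x) := by
      refine ⟨N, ?_⟩
      have := Submodule.pow_mem_pow _ hyx N
      rw [hN] at this
      exact this
    obtain ⟨u, hu⟩ := hnil.isUnit_add_one
    refine ⟨↑u⁻¹, ?_⟩
    rw [Ideal.mem_bot, mul_assoc, ← mul_add_one, ← hu, Units.inv_mul, sub_self]

/-- Proof idea.  `Ring.jacobson A = ker ψ` (a nil two-sided ideal lies in the radical; the radical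
maps into the radical of the semisimple ring `Fin 8 → k`, which is zero), so
`A ⧸ jacobson ≃ₐ Fin 8 → k` (`Ideal.quotientKerAlgEquivOfSurjective`, `Ideal.quotientEquivAlgOfEq`),
and `x₁ x₂ x₃ x₄ ∈ jacobson ^ 4`.  Gorenstein projective: splice a free resolution
(`exists_free_resolution`) with a free coresolution (iterate `exists_embedding_of_symm` on
cokernels); `Hom(-, A)` is exact since `A` is injective (`injective_of_symm`), which also gives
`Ext^i(M, A) = 0`. -/
theorem gorProj_of_symEx {k : Type v} {A M : Type u} [Field k] [Ring A] [Algebra k A]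
    [AddCommGroup M] [Module A M] (h : SymEx k A M) (hs : IsSplit4 k A (Fin 8)) :
    GorProjVanishingData k A M := by
  have := h.fd
  have := h.fin
  obtain ⟨ψ, hψ, hn, x₁, x₂, x₃, x₄, h₁, h₂, h₃, h₄, hx⟩ := hs
  have hJ := gp_jacobson_eq ψ hψ hn
  refine ⟨h.fd, ⟨(Ideal.quotientEquivAlgOfEq k hJ).trans
    (Ideal.quotientKerAlgEquivOfSurjective hψ)⟩, ?_, h.fin, h.nproj,
    gp_isGorensteinProjective k h.symm M, h.ext, ?_⟩
  · intro h0
    apply hx
    have m : ∀ x, ψ x = 0 → x ∈ Ring.jacobson A := fun x hx => by rw [hJ]; exact hx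
    have : x₁ * x₂ * x₃ * x₄ ∈ Ring.jacobson A ^ 4 := by
      rw [Submodule.pow_succ, Submodule.pow_succ, Submodule.pow_succ, Submodule.pow_one]
      exact Submodule.mul_mem_mul (Submodule.mul_mem_mul
        (Submodule.mul_mem_mul (m _ h₁) (m _ h₂)) (m _ h₃)) (m _ h₄)
    rw [h0] at this
    exact this
  · intro i hi
    obtain ⟨n, rfl⟩ : ∃ n, i = n + 1 := ⟨i - 1, by omega⟩
    have : Module.Injective A A := injective_of_symm k h.symm
    have : Injective (ModuleCat.of A A) := Module.injective_object_of_injective_module A A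
    exact Abelian.Ext.subsingleton_of_injective _ _ _

end Crest.Agent.R186
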