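import Crest.Agent.R186.Dual
import Crest.Agent.R186.Setup

/-!
The main computation.  A quadruple `(α, β, γ₁, γ₂)` of matrices stands for a matrix over the
triangular algebra; the differential is the quadruple `(d, d, s, s + κ)`.
Useful facts: `Stab` for `R`, `B`, `N`, `P` (`Cx.stab_of`, `TrF.stab_perp`); row and column exactness
for `N = R σ₀` follow from those for `R` by multiplying with `σ'` and `σ`
(`d σ = σ d`, `d σ' = σ' d`); for `P = B^⊥` they are `Cx.rowEx_perp`, `Cx.colEx_perp`.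
-/

set_option linter.unusedSectionVars false

namespace Crest.Agent.R186

open RCF

variable {k T S : Type} [Field k] [CharP k 2] [Ring S] [Algebra k S] [DecidableEq T]

namespace Setup

variable (X : Setup k T S)

theorem mt_entEB : Ent X.B.toSubmodule X.Q.E := X.entE.mono X.R_le_B

theorem mt_entdB : Ent X.B.toSubmodule X.Q.d := X.entd.mono X.R_le_B

theorem mt_R_le_P : X.R.toSubmodule ≤ X.P := X.R_le_B.trans X.B_le_P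

theorem mt_N_le_P : X.N ≤ X.P := X.N_le_B.trans X.B_le_P

theorem mt_RB : ∀ a ∈ X.R.toSubmodule, ∀ b ∈ X.B.toSubmodule, a * b ∈ X.B.toSubmodule :=
  fun a h b h' => X.BB a (X.R_le_B h) b h'

theorem mt_BR : ∀ a ∈ X.B.toSubmodule, ∀ b ∈ X.R.toSubmodule, a * b ∈ X.B.toSubmodule :=
  fun a h b h' => X.BB a h b (X.R_le_B h')

theorem mt_stabR : X.Q.Stab X.R.toSubmodule := X.Q.stab_subalgebra X.R X.entE X.entd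

theorem mt_stabN : X.Q.Stab X.N :=
  X.Q.stab_of X.R X.entE X.entd (fun _ h _ h' => X.RN _ h _ h') fun _ h _ h' => X.NR _ h _ h'

theorem mt_stabP : X.Q.Stab X.P := X.t.stab_perp X.Q X.mt_entEB X.mt_entdB

theorem mt_rowN : X.Q.RowEx X.N := by
  intro x fx ex rx hx
  have h1 : X.Q.d * X.σ' + X.σ' * X.Q.d = 0 := X.Dσ'
  have h2 : X.Q.d * X.σ + X.σ * X.Q.d = 0 := X.Dσ
  have h3 := X.σ'_σ
  obtain ⟨y, fy, ey, -, hy⟩ := X.rowR (x * X.σ') (fx.mul_right _) (ex.mul X.coσ'.ent X.NN')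
    (by rw [mul_assoc, X.coσ'.r])
    (by linear_combination (norm := c2 k) x * h1 + hx * X.σ')
  refine ⟨y * X.σ, fy.mul_right _, ey.mul X.coσ.ent X.RN, by rw [mul_assoc, X.coσ.r], ?_⟩
  linear_combination (norm := c2 k) rx + x * h3 + hy * X.σ + y * h2

theorem mt_colN : X.Q.ColEx X.N := by
  intro x fx ex rx hx
  have h1 : X.Q.d * X.σ' + X.σ' * X.Q.d = 0 := X.Dσ'
  have h2 : X.Q.d * X.σ + X.σ * X.Q.d = 0 := X.Dσ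
  have h3 := X.σ_σ'
  obtain ⟨y, fy, ey, -, hy⟩ := X.colR (X.σ' * x) (fx.mul_left _) (X.coσ'.ent.mul ex X.N'N)
    (by rw [← mul_assoc, X.coσ'.l])
    (by linear_combination (norm := c2 k) h1 * x + X.σ' * hx)
  refine ⟨X.σ * y, fy.mul_left _, X.coσ.ent.mul ey X.NR, by rw [← mul_assoc, X.coσ.l], ?_⟩
  linear_combination (norm := c2 k) rx + h3 * x + X.σ * hy + h2 * y

theorem mt_rowP : X.Q.RowEx X.P :=
  Cx.rowEx_perp X.t X.mt_entEB X.mt_entdB X.rowB X.colB X.cos X.Ds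

theorem mt_colP : X.Q.ColEx X.P :=
  Cx.colEx_perp X.t X.mt_entEB X.mt_entdB X.rowB X.colB X.cos X.Ds

theorem mt_ginv : X.Q.dAt 0 * X.s * X.Q.dAt 0 = X.Q.dAt 0 := by
  have h1 : X.Q.d * X.s + X.s * X.Q.d = X.Q.E := X.Ds
  have h2 : proj X.Q.dg 0 * (X.Q.d * X.s) = X.Q.d * X.s * proj X.Q.dg 0 :=
    (X.Q.hd.mul' X.cos.hom (r := 0) (by norm_num)).proj_mul (add_zero _)
  have h3 : (proj X.Q.dg 0 * proj X.Q.dg 0 : RCF k T S) = proj X.Q.dg 0 := proj_mul_proj _ _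
  have h4 := X.Q.dd
  have h5 := X.Q.dE
  simp only [Cx.dAt]
  generalize (proj X.Q.dg 0 : RCF k T S) = p at *
  linear_combination (norm := c2 k) p * h2 * X.Q.d + h3 * X.Q.d * X.s * X.Q.d +
    p * X.Q.d * h1 + p * h4 * X.s + p * h5

theorem mt_odd : X.t.Tr (X.Q.dAt 0 * X.s) = 1 := X.odd 0 X.s X.mt_ginv

theorem mt_hodd : X.t.Tr (proj X.Q.dg 0 * X.s * X.Q.d) ≠ 0 := by
  have h1 : X.Q.d * X.s + X.s * X.Q.d = X.Q.E := X.Ds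
  have h2 : proj X.Q.dg 0 * X.s * X.Q.d = proj X.Q.dg 0 * X.Q.E + X.Q.dAt 0 * X.s := by
    simp only [Cx.dAt]
    linear_combination (norm := c2 k) proj X.Q.dg 0 * h1
  rw [h2, X.t.Tr_add ((X.Q.isFin_proj 0).mul_right _) ((X.Q.isFin_dAt 0).mul_right _), X.mt_odd,
    X.t.Tr_eq_zero_of_ent (N := X.B.toSubmodule) X.trB (X.mt_entEB.projS_mul _ _), zero_add]
  exact one_ne_zero

/-- The identity is not a coboundary over `P`. -/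
theorem mt_c_eq_zero {c : k} {ψ : RCF k T S} (hψ : X.Q.Co X.P (-1) ψ)
    (h : X.Q.D ψ = c • X.Q.E) : c = 0 := by
  have h2 : proj X.Q.dg 0 * (X.Q.d * ψ) = X.Q.d * ψ * proj X.Q.dg 0 :=
    (X.Q.hd.mul' hψ.hom (r := 0) (by norm_num)).proj_mul (add_zero _)
  have h3 : (proj X.Q.dg 0 * proj X.Q.dg 0 : RCF k T S) = proj X.Q.dg 0 := proj_mul_proj _ _
  have h4 := X.Q.dd
  have h5 := X.Q.Ed
  have h6 : proj X.Q.dg (-1) * X.Q.d = X.Q.d * proj X.Q.dg 0 := X.Q.hd.proj_mul (by norm_num)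
  have h7 : proj X.Q.dg 0 * X.Q.E = X.Q.E * proj X.Q.dg 0 := X.Q.hE.proj_mul (add_zero _)
  have h8 : X.Q.d * ψ + ψ * X.Q.d = c • X.Q.E := h
  have h9 : c • (X.Q.dAt 0 * X.s) = X.Q.dAt 0 * (ψ * X.Q.dAt 0 * X.s) := by
    simp only [Cx.dAt]
    generalize (proj X.Q.dg 0 : RCF k T S) = p at *
    generalize (proj X.Q.dg (-1) : RCF k T S) = q at *
    linear_combination (norm := c2 k) c • (p * h5 * X.s) + c • (h7 * X.Q.d * X.s) +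
      h8 * p * X.Q.d * X.s + ψ * h6 * X.Q.d * X.s + ψ * q * h4 * X.s + h2 * X.Q.d * X.s +
      p * h2 * X.Q.d * X.s + h3 * X.Q.d * ψ * X.Q.d * X.s
  have h10 := congrArg X.t.Tr h9
  rw [X.t.Tr_smul c ((X.Q.isFin_dAt 0).mul_right _), X.mt_odd, mul_one,
    X.t.Tr_comm (X.Q.isFin_dAt 0), mul_assoc, mul_assoc, ← mul_assoc (X.Q.dAt 0), X.mt_ginv] at h10
  exact h10.trans (X.t.Tr_perp hψ.ent (X.mt_entdB.projS_mul _ _))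

/-- Proof: `α = α' d`, `β = β' d` by `rowR`.  Put
`δ₁ = γ₁ + α' * s`, `δ₂ = γ₂ + α' * (s + κ)`; since `s d = E + d s`,
`δ₁ d = γ₁ d + α' + α s` has entries in `R`, and is killed by `d`, so it is `a d` with `a` over `R`;
likewise `δ₂ d = b d` with `b` over `N` (`(s + κ) d = σ + d (s + κ)`).  Now `(δ₁ + a) d = 0`,
`(δ₂ + b) d = 0`, the sum `δ₁ + a + δ₂ + b` is over `P`, hence `= ρ d` with `ρ` over `P`; take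
`γ₂' = (δ₂ + b) s`, `γ₁' = γ₂' + ρ`. -/
theorem row4 {α β γ₁ γ₂ : RCF k T S} (fα : IsFin α) (fβ : IsFin β) (f₁ : IsFin γ₁) (f₂ : IsFin γ₂)
    (eα : Ent X.R.toSubmodule α) (eβ : Ent X.R.toSubmodule β) (eγ : Ent X.P (γ₁ + γ₂))
    (rα : α * X.Q.E = α) (rβ : β * X.Q.E = β) (r₁ : γ₁ * X.Q.E = γ₁) (r₂ : γ₂ * X.Q.E = γ₂)
    (hα : α * X.Q.d = 0) (hβ : β * X.Q.d = 0)
    (h₁ : Ent X.R.toSubmodule (α * X.s + γ₁ * X.Q.d))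
    (h₂ : Ent X.N (α * (X.s + X.κ) + γ₂ * X.Q.d)) :
    ∃ α' β' γ₁' γ₂' : RCF k T S, IsFin α' ∧ IsFin β' ∧ IsFin γ₁' ∧ IsFin γ₂' ∧
      Ent X.R.toSubmodule α' ∧ Ent X.R.toSubmodule β' ∧ Ent X.P (γ₁' + γ₂') ∧
      α = α' * X.Q.d ∧ β = β' * X.Q.d ∧
      Ent X.R.toSubmodule (γ₁ + α' * X.s + γ₁' * X.Q.d) ∧
      Ent X.N (γ₂ + α' * (X.s + X.κ) + γ₂' * X.Q.d) := by
  have hs : X.Q.d * X.s + X.s * X.Q.d = X.Q.E := X.Ds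
  have hκ : X.Q.d * X.κ + X.κ * X.Q.d = X.Q.E + X.σ := X.Dκ
  have hdd := X.Q.dd
  have hdE := X.Q.dE
  have hsE := X.cos.r
  have hκE := X.coκ.r
  obtain ⟨α', fα', eα', rα', hα'⟩ := X.rowR α fα eα rα hα
  obtain ⟨β', fβ', eβ', -, hβ'⟩ := X.rowR β fβ eβ rβ hβ
  set δ₁ := γ₁ + α' * X.s with hδ₁
  set δ₂ := γ₂ + α' * (X.s + X.κ) with hδ₂
  have fδ₁ : IsFin δ₁ := f₁.add (fα'.mul_right _)
  have fδ₂ : IsFin δ₂ := f₂.add (fα'.mul_right _)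
  have e₁ : δ₁ * X.Q.d = (α * X.s + γ₁ * X.Q.d) + α' := by
    rw [hδ₁]
    linear_combination (norm := c2 k) α' * hs + rα' + hα' * X.s
  have e₂ : δ₂ * X.Q.d = (α * (X.s + X.κ) + γ₂ * X.Q.d) + α' * X.σ := by
    rw [hδ₂]
    linear_combination (norm := c2 k) α' * hs + α' * hκ + hα' * (X.s + X.κ)
  obtain ⟨a, fa, ea, ra, ha⟩ := X.rowR (δ₁ * X.Q.d) (fδ₁.mul_right _) (e₁ ▸ h₁.add eα')
    (by rw [mul_assoc, hdE]) (by rw [mul_assoc, hdd, mul_zero])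
  obtain ⟨b, fb, eb, rb, hb⟩ := X.mt_rowN (δ₂ * X.Q.d) (fδ₂.mul_right _)
    (e₂ ▸ h₂.add (eα'.mul X.coσ.ent X.RN))
    (by rw [mul_assoc, hdE]) (by rw [mul_assoc, hdd, mul_zero])
  have r₁' : δ₁ * X.Q.E = δ₁ := by
    rw [hδ₁]; linear_combination (norm := c2 k) r₁ + α' * hsE
  have r₂' : δ₂ * X.Q.E = δ₂ := by
    rw [hδ₂]; linear_combination (norm := c2 k) r₂ + α' * hsE + α' * hκE
  have e₃ : δ₁ + a + (δ₂ + b) = (γ₁ + γ₂) + α' * X.κ + a + b := by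
    rw [hδ₁, hδ₂]; c2 k
  obtain ⟨ρ, fρ, eρ, -, hρ⟩ := X.mt_rowP (δ₁ + a + (δ₂ + b)) ((fδ₁.add fa).add (fδ₂.add fb))
    (e₃ ▸ ((eγ.add ((eα'.mul X.coκ.ent X.mt_RB).mono X.B_le_P)).add (ea.mono X.mt_R_le_P)).add
      (eb.mono X.mt_N_le_P))
    (by linear_combination (norm := c2 k) r₁' + ra + r₂' + rb)
    (by linear_combination (norm := c2 k) ha + hb)
  have e₄ : (δ₂ + b) * X.s * X.Q.d = δ₂ + b := by
    linear_combination (norm := c2 k) (δ₂ + b) * hs + hb * X.s + r₂' + rb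
  refine ⟨α', β', (δ₂ + b) * X.s + ρ, (δ₂ + b) * X.s, fα', fβ',
    ((fδ₂.add fb).mul_right _).add fρ, (fδ₂.add fb).mul_right _, eα', eβ', ?_, hα', hβ', ?_, ?_⟩
  · have : (δ₂ + b) * X.s + ρ + (δ₂ + b) * X.s = ρ := by c2 k
    rw [this]; exact eρ
  · have : δ₁ + ((δ₂ + b) * X.s + ρ) * X.Q.d = a := by
      linear_combination (norm := c2 k) e₄ + hρ
    rw [this]; exact ea
  · have : δ₂ + (δ₂ + b) * X.s * X.Q.d = b := by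
      linear_combination (norm := c2 k) e₄
    rw [this]; exact eb

/-- Mirror image of `row4`. -/
theorem col4 {α β γ₁ γ₂ : RCF k T S} (fα : IsFin α) (fβ : IsFin β) (f₁ : IsFin γ₁) (f₂ : IsFin γ₂)
    (eα : Ent X.R.toSubmodule α) (eβ : Ent X.R.toSubmodule β) (eγ : Ent X.P (γ₁ + γ₂))
    (lα : X.Q.E * α = α) (lβ : X.Q.E * β = β) (l₁ : X.Q.E * γ₁ = γ₁) (l₂ : X.Q.E * γ₂ = γ₂)
    (hα : X.Q.d * α = 0) (hβ : X.Q.d * β = 0)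
    (h₁ : Ent X.R.toSubmodule (X.Q.d * γ₁ + X.s * β))
    (h₂ : Ent X.N (X.Q.d * γ₂ + (X.s + X.κ) * β)) :
    ∃ α' β' γ₁' γ₂' : RCF k T S, IsFin α' ∧ IsFin β' ∧ IsFin γ₁' ∧ IsFin γ₂' ∧
      Ent X.R.toSubmodule α' ∧ Ent X.R.toSubmodule β' ∧ Ent X.P (γ₁' + γ₂') ∧
      α = X.Q.d * α' ∧ β = X.Q.d * β' ∧
      Ent X.R.toSubmodule (γ₁ + X.Q.d * γ₁' + X.s * β') ∧
      Ent X.N (γ₂ + X.Q.d * γ₂' + (X.s + X.κ) * β') := by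
  have hs : X.Q.d * X.s + X.s * X.Q.d = X.Q.E := X.Ds
  have hκ : X.Q.d * X.κ + X.κ * X.Q.d = X.Q.E + X.σ := X.Dκ
  have hdd := X.Q.dd
  have hEd := X.Q.Ed
  have hsE := X.cos.l
  have hκE := X.coκ.l
  obtain ⟨α', fα', eα', -, hα'⟩ := X.colR α fα eα lα hα
  obtain ⟨β', fβ', eβ', rβ', hβ'⟩ := X.colR β fβ eβ lβ hβ
  obtain ⟨δ₁, hδ₁⟩ : ∃ δ₁, δ₁ = γ₁ + X.s * β' := ⟨_, rfl⟩
  obtain ⟨δ₂, hδ₂⟩ : ∃ δ₂, δ₂ = γ₂ + (X.s + X.κ) * β' := ⟨_, rfl⟩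
  have fδ₁ : IsFin δ₁ := hδ₁ ▸ f₁.add (fβ'.mul_left _)
  have fδ₂ : IsFin δ₂ := hδ₂ ▸ f₂.add (fβ'.mul_left _)
  have e₁ : X.Q.d * δ₁ = (X.Q.d * γ₁ + X.s * β) + β' := by
    rw [hδ₁]
    linear_combination (norm := c2 k) hs * β' + rβ' + X.s * hβ'
  have e₂ : X.Q.d * δ₂ = (X.Q.d * γ₂ + (X.s + X.κ) * β) + X.σ * β' := by
    rw [hδ₂]
    linear_combination (norm := c2 k) hs * β' + hκ * β' + (X.s + X.κ) * hβ'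
  obtain ⟨a, fa, ea, ra, ha⟩ := X.colR (X.Q.d * δ₁) (fδ₁.mul_left _) (e₁ ▸ h₁.add eβ')
    (by rw [← mul_assoc, hEd]) (by rw [← mul_assoc, hdd, zero_mul])
  obtain ⟨b, fb, eb, rb, hb⟩ := X.mt_colN (X.Q.d * δ₂) (fδ₂.mul_left _)
    (e₂ ▸ h₂.add (X.coσ.ent.mul eβ' X.NR))
    (by rw [← mul_assoc, hEd]) (by rw [← mul_assoc, hdd, zero_mul])
  have r₁' : X.Q.E * δ₁ = δ₁ := by
    rw [hδ₁]; linear_combination (norm := c2 k) l₁ + hsE * β'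
  have r₂' : X.Q.E * δ₂ = δ₂ := by
    rw [hδ₂]; linear_combination (norm := c2 k) l₂ + hsE * β' + hκE * β'
  have e₃ : δ₁ + a + (δ₂ + b) = (γ₁ + γ₂) + X.κ * β' + a + b := by
    rw [hδ₁, hδ₂]; c2 k
  obtain ⟨ρ, fρ, eρ, -, hρ⟩ := X.mt_colP (δ₁ + a + (δ₂ + b)) ((fδ₁.add fa).add (fδ₂.add fb))
    (e₃ ▸ ((eγ.add ((X.coκ.ent.mul eβ' X.mt_BR).mono X.B_le_P)).add (ea.mono X.mt_R_le_P)).add
      (eb.mono X.mt_N_le_P))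
    (by linear_combination (norm := c2 k) r₁' + ra + r₂' + rb)
    (by linear_combination (norm := c2 k) ha + hb)
  have e₄ : X.Q.d * (X.s * (δ₂ + b)) = δ₂ + b := by
    linear_combination (norm := c2 k) hs * (δ₂ + b) + X.s * hb + r₂' + rb
  refine ⟨α', β', X.s * (δ₂ + b) + ρ, X.s * (δ₂ + b), fα', fβ',
    ((fδ₂.add fb).mul_left _).add fρ, (fδ₂.add fb).mul_left _, eα', eβ', ?_, hα', hβ', ?_, ?_⟩
  · have : X.s * (δ₂ + b) + ρ + X.s * (δ₂ + b) = ρ := by c2 k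
    rw [this]; exact eρ
  · have : γ₁ + X.Q.d * (X.s * (δ₂ + b) + ρ) + X.s * β' = a := by
      linear_combination (norm := c2 k) e₄ + hρ + hδ₁
    rw [this]; exact ea
  · have : γ₂ + X.Q.d * (X.s * (δ₂ + b)) + (X.s + X.κ) * β' = b := by
      linear_combination (norm := c2 k) e₄ + hδ₂
    rw [this]; exact eb

/-- The main computation.  Write `f₁ = s`, `f₂ = s + κ`, so `D f₁ = E`, `D f₂ = σ`.
Step 1.  `a = D γ₁ + α f₁ + f₁ β`, `b = D γ₂ + α f₂ + f₂ β`: `D a = α + β`,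
`D (b σ') = α + σ β σ'`.  So `β + σ β σ' = D (a + b σ')`, `β = D β₀` by `inj`, `α = D α₀` with
`α₀ = β₀ + a`.  Replace `γᵢ` by `δᵢ = γᵢ + α₀ fᵢ + fᵢ β₀`; then `a₁ = D δ₁` is over `R`, `b₁ = D δ₂` over
`N`, `δ₁ + δ₂` over `P`.
Step 2.  By `surj`, `a₁ + b₁ σ' = c E + β₁ + σ β₁ σ' + D ρ`.  For `n = 1` one shows `c = 0` with the
functional `τ φ = Tr (φ * dAt 0 * s)` on degree zero cochains: `τ E = 1` (`odd`, since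
`dAt 0 * s * dAt 0 = dAt 0`), `τ (D ρ) = 0` for `ρ` of degree `-1` over `P ⊇ B`
(`D ρ * dAt 0 = dAt 0 * ρ * dAt 0`, cyclicity, `Tr_perp`), `a₁ + b₁ = D (δ₁ + δ₂)`,
`b₁ σ' + b₁ = D (b₁ σ' κ)`, `σ β₁ σ' + β₁ = D (κ β₁ σ' + β₁ σ' κ)`.
Put `α₁ = a₁ + β₁`; `εᵢ = δᵢ + α₁ fᵢ + fᵢ β₁` satisfy `D ε₁ = 0`, `D ε₂ = D (ρ σ)`; replace `ε₂` by
`ε₂ + ρ σ`.
Step 3.  `ε₁ + ε₂` is a cocycle over `P` of degree `n - 2`, so it is `D ρ' + c' E` with `ρ'` over `P`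
(`hz_perp`, for `n = 2` `hone_perp`); put `γ₂' = s ε₂`, `γ₁' = γ₂' + ρ'`, `α' = α₀ + α₁`,
`β' = β₀ + β₁`. -/
theorem hz4 {n : ℤ} (h0 : n ≠ 0) (h1 : n ≠ -1) {α β γ₁ γ₂ : RCF k T S}
    (cα : X.Q.Co X.R.toSubmodule n α) (cβ : X.Q.Co X.R.toSubmodule n β)
    (c₁ : X.Q.Co ⊤ (n - 2) γ₁) (c₂ : X.Q.Co ⊤ (n - 2) γ₂) (eγ : Ent X.P (γ₁ + γ₂))
    (hα : X.Q.D α = 0) (hβ : X.Q.D β = 0)
    (h₁ : Ent X.R.toSubmodule (X.Q.D γ₁ + α * X.s + X.s * β))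
    (h₂ : Ent X.N (X.Q.D γ₂ + α * (X.s + X.κ) + (X.s + X.κ) * β)) :
    ∃ α' β' γ₁' γ₂' : RCF k T S, X.Q.Co X.R.toSubmodule (n - 1) α' ∧
      X.Q.Co X.R.toSubmodule (n - 1) β' ∧ X.Q.Co ⊤ (n - 3) γ₁' ∧ X.Q.Co ⊤ (n - 3) γ₂' ∧
      Ent X.P (γ₁' + γ₂') ∧ α = X.Q.D α' ∧ β = X.Q.D β' ∧
      Ent X.R.toSubmodule (γ₁ + X.Q.D γ₁' + α' * X.s + X.s * β') ∧
      Ent X.N (γ₂ + X.Q.D γ₂' + α' * (X.s + X.κ) + (X.s + X.κ) * β') := by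
  have tt : ∀ a ∈ (⊤ : Submodule k S), ∀ b ∈ (⊤ : Submodule k S), a * b ∈ (⊤ : Submodule k S) :=
    fun _ _ _ _ => trivial
  have cs := X.cos
  have cf : X.Q.Co ⊤ (-1) (X.s + X.κ) := X.cos.add X.coκ.top
  have Ds := X.Ds
  have Dκ := X.Dκ
  have Dσ := X.Dσ
  have Dσ' := X.Dσ'
  have σσ' := X.σ_σ'
  have σ'σ := X.σ'_σ
  have Df : X.Q.D (X.s + X.κ) = X.σ := by
    rw [X.Q.D_add, Ds, Dκ]; c2 k
  -- the cochains `γ + α f + f β` and their coboundaries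
  have co3 : ∀ {m : ℤ} {γ α β f : RCF k T S}, X.Q.Co ⊤ (m - 1) γ →
      X.Q.Co X.R.toSubmodule m α → X.Q.Co X.R.toSubmodule m β → X.Q.Co ⊤ (-1) f →
      X.Q.Co ⊤ (m - 1) (γ + α * f + f * β) := fun h₁ h₂ h₃ h₄ =>
    (h₁.add (h₂.top.mul h₄ tt (by ring))).add (h₄.mul h₃.top tt (by ring))
  -- Step 1
  obtain ⟨a, ha⟩ : ∃ a, a = X.Q.D γ₁ + α * X.s + X.s * β := ⟨_, rfl⟩
  obtain ⟨b, hb⟩ : ∃ b, b = X.Q.D γ₂ + α * (X.s + X.κ) + (X.s + X.κ) * β := ⟨_, rfl⟩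
  have ca : X.Q.Co X.R.toSubmodule (n - 1) a :=
    ha ▸ (co3 ((c₁.D X.Q.stab_top).cast (by ring)) cα cβ cs).of_ent h₁
  have cb : X.Q.Co X.N (n - 1) b :=
    hb ▸ (co3 ((c₂.D X.Q.stab_top).cast (by ring)) cα cβ cf).of_ent h₂
  have Da : X.Q.D a = α + β := by
    rw [ha, X.Q.D_add, X.Q.D_add, X.Q.D_D, X.Q.D_mul, X.Q.D_mul, hα, hβ, Ds, cα.r, cβ.l]; c2 k
  have Db : X.Q.D b = α * X.σ + X.σ * β := by
    rw [hb, X.Q.D_add, X.Q.D_add, X.Q.D_D, X.Q.D_mul, X.Q.D_mul, hα, hβ, Df]; c2 k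
  have cbσ : X.Q.Co X.R.toSubmodule (n - 1) (b * X.σ') := cb.mul X.coσ' X.NN' (add_zero _)
  obtain ⟨β₀, cβ₀, Dβ₀⟩ := X.inj n h0 β (a + b * X.σ') cβ hβ (ca.add cbσ) (by
    rw [X.Q.D_add, X.Q.D_mul, Da, Db, Dσ']
    have := cα.r
    linear_combination (norm := c2 k) α * σσ' + this)
  obtain ⟨α₀, hα₀⟩ : ∃ α₀, α₀ = β₀ + a := ⟨_, rfl⟩
  have cα₀ : X.Q.Co X.R.toSubmodule (n - 1) α₀ := hα₀ ▸ cβ₀.add ca
  have Dα₀ : X.Q.D α₀ = α := by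
    rw [hα₀, X.Q.D_add, Dβ₀, Da]; c2 k
  obtain ⟨δ₁, hδ₁⟩ : ∃ δ₁, δ₁ = γ₁ + α₀ * X.s + X.s * β₀ := ⟨_, rfl⟩
  obtain ⟨δ₂, hδ₂⟩ : ∃ δ₂, δ₂ = γ₂ + α₀ * (X.s + X.κ) + (X.s + X.κ) * β₀ := ⟨_, rfl⟩
  have cδ₁ : X.Q.Co ⊤ (n - 1 - 1) δ₁ := hδ₁ ▸ co3 (c₁.cast (by ring)) cα₀ cβ₀ cs
  have cδ₂ : X.Q.Co ⊤ (n - 1 - 1) δ₂ := hδ₂ ▸ co3 (c₂.cast (by ring)) cα₀ cβ₀ cf
  have Dδ₁ : X.Q.D δ₁ = 0 := by
    rw [hδ₁, X.Q.D_add, X.Q.D_add, X.Q.D_mul, X.Q.D_mul, Dα₀, Dβ₀, Ds, cα₀.r, cβ₀.l]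
    linear_combination (norm := c2 k) ha + hα₀
  obtain ⟨b₁, hb₁⟩ : ∃ b₁, b₁ = b + α₀ * X.σ + X.σ * β₀ := ⟨_, rfl⟩
  have Dδ₂ : X.Q.D δ₂ = b₁ := by
    rw [hδ₂, X.Q.D_add, X.Q.D_add, X.Q.D_mul, X.Q.D_mul, Dα₀, Dβ₀, Df]
    linear_combination (norm := c2 k) hb + hb₁
  have cb₁ : X.Q.Co X.N (n - 1) b₁ :=
    hb₁ ▸ (cb.add (cα₀.mul X.coσ X.RN (add_zero _))).add (X.coσ.mul cβ₀ X.NR (zero_add _))
  have Db₁ : X.Q.D b₁ = 0 := by rw [← Dδ₂, X.Q.D_D]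
  have eδ : Ent X.P (δ₁ + δ₂) := by
    have : δ₁ + δ₂ = γ₁ + γ₂ + α₀ * X.κ + X.κ * β₀ := by rw [hδ₁, hδ₂]; c2 k
    rw [this]
    exact (eγ.add ((cα₀.ent.mul X.coκ.ent X.mt_RB).mono X.B_le_P)).add
      ((X.coκ.ent.mul cβ₀.ent X.mt_BR).mono X.B_le_P)
  -- Step 2
  have cb₁σ : X.Q.Co X.R.toSubmodule (n - 1) (b₁ * X.σ') := cb₁.mul X.coσ' X.NN' (add_zero _)
  obtain ⟨c, β₁, ρ, cβ₁, Dβ₁, cρ, hξ, hc⟩ := X.surj (n - 1) (b₁ * X.σ') cb₁σ (by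
    rw [X.Q.D_mul, Db₁, Dσ']; simp)
  have hc0 : c = 0 := by
    by_cases hn : n - 1 = 0
    · have cβσ : X.Q.Co X.B.toSubmodule (n - 1) (β₁ * X.σ') :=
        (cβ₁.mul X.coσ' X.RN' (add_zero _)).mono X.N'_le_B
      refine X.mt_c_eq_zero (ψ := δ₁ + δ₂ + b₁ * X.σ' * X.κ + X.κ * (β₁ * X.σ') +
        β₁ * X.σ' * X.κ + ρ) ?_ ?_
      · refine Cx.Co.add (Cx.Co.add (Cx.Co.add (Cx.Co.add ?_ ?_) ?_) ?_) ?_
        · exact ((cδ₁.add cδ₂).of_ent eδ).cast (by omega)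
        · exact (cb₁σ.mul X.coκ X.mt_RB (by omega)).mono X.B_le_P
        · exact (X.coκ.mul cβσ X.BB (by omega)).mono X.B_le_P
        · exact (cβσ.mul X.coκ X.BB (by omega)).mono X.B_le_P
        · exact (cρ.mono X.mt_R_le_P).cast (by omega)
      · simp only [X.Q.D_add, X.Q.D_mul, Dδ₁, Dδ₂, Db₁, Dσ', Dκ, Dβ₁]
        have e1 := X.coσ'.r
        have e2 := cb₁.r
        have e3 := cβ₁.r
        have e4 := cβ₁.l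
        linear_combination (norm := c2 k) hξ + b₁ * e1 + b₁ * σ'σ + e2 + e4 * X.σ' + β₁ * e1 +
          β₁ * σ'σ + e3
    · exact hc hn
  rw [hc0, zero_smul, zero_add] at hξ
  obtain ⟨ε₁, hε₁⟩ : ∃ ε₁, ε₁ = δ₁ + β₁ * X.s + X.s * β₁ := ⟨_, rfl⟩
  obtain ⟨ε₂, hε₂⟩ : ∃ ε₂, ε₂ = δ₂ + β₁ * (X.s + X.κ) + (X.s + X.κ) * β₁ + ρ * X.σ := ⟨_, rfl⟩
  have cρσ : X.Q.Co X.N (n - 1 - 1) (ρ * X.σ) := cρ.mul X.coσ X.RN (add_zero _)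
  have cε₁ : X.Q.Co ⊤ (n - 1 - 1) ε₁ := hε₁ ▸ co3 cδ₁ cβ₁ cβ₁ cs
  have cε₂ : X.Q.Co ⊤ (n - 1 - 1) ε₂ := hε₂ ▸ (co3 cδ₂ cβ₁ cβ₁ cf).add cρσ.top
  have Dε₁ : X.Q.D ε₁ = 0 := by
    rw [hε₁, X.Q.D_add, X.Q.D_add, X.Q.D_mul, X.Q.D_mul, Dδ₁, Dβ₁, Ds, cβ₁.r, cβ₁.l]; c2 k
  have Dε₂ : X.Q.D ε₂ = 0 := by
    rw [hε₂, X.Q.D_add, X.Q.D_add, X.Q.D_add, X.Q.D_mul, X.Q.D_mul, X.Q.D_mul, Dδ₂, Dβ₁, Df, Dσ]
    have e2 := cb₁.r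
    have e3 := cβ₁.r
    linear_combination (norm := c2 k) hξ * X.σ + b₁ * σ'σ + e2 + X.σ * β₁ * σ'σ + X.σ * e3
  -- Step 3
  have cε : X.Q.Co X.P (n - 1 - 1) (ε₁ + ε₂) := by
    refine (cε₁.add cε₂).of_ent ?_
    have : ε₁ + ε₂ = δ₁ + δ₂ + β₁ * X.κ + X.κ * β₁ + ρ * X.σ := by rw [hε₁, hε₂]; c2 k
    rw [this]
    exact ((eδ.add ((cβ₁.ent.mul X.coκ.ent X.mt_RB).mono X.B_le_P)).add
      ((X.coκ.ent.mul cβ₁.ent X.mt_BR).mono X.B_le_P)).add (cρσ.ent.mono X.mt_N_le_P)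
  have Dε : X.Q.D (ε₁ + ε₂) = 0 := by rw [X.Q.D_add, Dε₁, Dε₂, add_zero]
  obtain ⟨c', ρ', cρ', hρ'⟩ : ∃ (c' : k) (ρ' : RCF k T S), X.Q.Co X.P (n - 3) ρ' ∧
      ε₁ + ε₂ = c' • X.Q.E + X.Q.D ρ' := by
    by_cases hn : n = 2
    · obtain ⟨c', ρ', h₃, h₄⟩ := Cx.hone_perp X.t X.mt_entEB X.mt_entdB X.rowB X.colB X.cos X.Ds
        X.trB X.honeB X.mt_hodd (ε₁ + ε₂) (cε.cast (by omega)) Dε
      exact ⟨c', ρ', h₃.cast (by omega), h₄⟩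
    · obtain ⟨ρ', h₃, h₄⟩ := Cx.hz_perp X.t X.mt_entEB X.mt_entdB X.rowB X.colB X.cos X.Ds
        (m := n - 1 - 1) (X.hzB _ (by omega) (by omega)) (ε₁ + ε₂) cε Dε
      exact ⟨0, ρ', h₃.cast (by omega), by rw [zero_smul, zero_add, h₄]⟩
  have cγ₂ : X.Q.Co ⊤ (n - 3) (X.s * ε₂) := cs.mul cε₂ tt (by ring)
  have Dγ₂ : X.Q.D (X.s * ε₂) = ε₂ := by
    rw [X.Q.D_mul, Ds, Dε₂, cε₂.l]; simp
  refine ⟨α₀ + β₁, β₀ + β₁, X.s * ε₂ + ρ', X.s * ε₂, cα₀.add cβ₁, cβ₀.add cβ₁,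
    cγ₂.add cρ'.top, cγ₂, ?_, ?_, ?_, ?_, ?_⟩
  · have : X.s * ε₂ + ρ' + X.s * ε₂ = ρ' := by c2 k
    rw [this]; exact cρ'.ent
  · rw [X.Q.D_add, Dα₀, Dβ₁, add_zero]
  · rw [X.Q.D_add, Dβ₀, Dβ₁, add_zero]
  · have : γ₁ + X.Q.D (X.s * ε₂ + ρ') + (α₀ + β₁) * X.s + X.s * (β₀ + β₁) = c' • X.Q.E := by
      rw [X.Q.D_add, Dγ₂]
      linear_combination (norm := c2 k) hρ' + hε₁ + hδ₁
    rw [this]; exact X.entE.smul c'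
  · have : γ₂ + X.Q.D (X.s * ε₂) + (α₀ + β₁) * (X.s + X.κ) + (X.s + X.κ) * (β₀ + β₁) =
        ρ * X.σ := by
      rw [Dγ₂]
      linear_combination (norm := c2 k) hε₂ + hδ₂
    rw [this]; exact cρσ.ent

/-- No generalised inverse over `B` (`Tr` of a matrix over `B` vanishes, `odd`). -/
theorem no_ginv (a : ℤ) {g : RCF k T S} (hg : Ent X.B.toSubmodule g) :
    X.Q.dAt a * g * X.Q.dAt a ≠ X.Q.dAt a := by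
  intro h
  have h1 := X.odd a g h
  rw [Cx.dAt, X.t.Tr_eq_zero_of_ent (N := X.B.toSubmodule) X.trB
    (((X.entd.mono X.R_le_B).projS_mul _ _).mul hg X.BB)] at h1
  exact zero_ne_one h1

end Setup

end Crest.Agent.R186
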