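import Mathlib

/-!
Row- and column-finite matrices over an algebra.
-/

set_option linter.unusedSectionVars false

namespace Crest.Agent.R186

open Function

/-- Row- and column-finite matrices, as a submodule of all matrices. -/
def rcfSub (k T S : Type) [Field k] [Ring S] [Algebra k S] : Submodule k (T → T → S) where
  carrier := {x | (∀ i, (support (x i)).Finite) ∧ ∀ j, (support fun i => x i j).Finite}
  add_mem' := by
    rintro x y ⟨hx, hx'⟩ ⟨hy, hy'⟩
    exact ⟨fun i => ((hx i).union (hy i)).subset (support_add (x i) (y i)),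
      fun j => ((hx' j).union (hy' j)).subset (support_add (fun i => x i j) fun i => y i j)⟩
  zero_mem' := ⟨fun i => by simp, fun j => by simp⟩
  smul_mem' := by
    rintro c x ⟨hx, hx'⟩
    refine ⟨fun i => (hx i).subset fun j hj h => hj ?_, fun j => (hx' j).subset fun i hi h => hi ?_⟩
    · simp [h]
    · simp only [Pi.smul_apply]; rw [show x i j = 0 from h, smul_zero]

/-- Row- and column-finite matrices indexed by `T` with entries in `S`. -/
def RCF (k T S : Type) [Field k] [Ring S] [Algebra k S] : Type := rcfSub k T S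

namespace RCF

variable {k T S S' : Type} [Field k] [Ring S] [Algebra k S] [Ring S'] [Algebra k S']

instance : AddCommGroup (RCF k T S) := inferInstanceAs (AddCommGroup (rcfSub k T S))
instance : Module k (RCF k T S) := inferInstanceAs (Module k (rcfSub k T S))

/-- The entries. -/
def ent (x : RCF k T S) : T → T → S := (show rcfSub k T S from x).1

/-- Constructor. -/
def mk (f : T → T → S) (h : ∀ i, (support (f i)).Finite) (h' : ∀ j, (support fun i => f i j).Finite) :
    RCF k T S := (⟨f, h, h'⟩ : rcfSub k T S)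

@[simp] theorem ent_mk (f : T → T → S) (h h') : (mk f h h' : RCF k T S).ent = f := rfl

theorem rowFin (x : RCF k T S) (i : T) : (support (x.ent i)).Finite :=
  (show rcfSub k T S from x).2.1 i

theorem colFin (x : RCF k T S) (j : T) : (support fun i => x.ent i j).Finite :=
  (show rcfSub k T S from x).2.2 j

@[ext] theorem ext {x y : RCF k T S} (h : ∀ i j, x.ent i j = y.ent i j) : x = y :=
  Subtype.ext (funext fun i => funext fun j => h i j)

@[simp] theorem ent_add (x y : RCF k T S) (i j : T) : (x + y).ent i j = x.ent i j + y.ent i j := rfl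
@[simp] theorem ent_sub (x y : RCF k T S) (i j : T) : (x - y).ent i j = x.ent i j - y.ent i j := rfl
@[simp] theorem ent_neg (x : RCF k T S) (i j : T) : (-x).ent i j = -x.ent i j := rfl
@[simp] theorem ent_zero (i j : T) : (0 : RCF k T S).ent i j = 0 := rfl
@[simp] theorem ent_smul (c : k) (x : RCF k T S) (i j : T) : (c • x).ent i j = c • x.ent i j := rfl

/-- An entry as a linear map. -/
def entL (i j : T) : RCF k T S →ₗ[k] S where
  toFun x := x.ent i j
  map_add' _ _ := rfl
  map_smul' _ _ := rfl

@[simp] theorem entL_apply (i j : T) (x : RCF k T S) : entL i j x = x.ent i j := rfl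

theorem ent_sum {ι : Type*} (F : Finset ι) (x : ι → RCF k T S) (i j : T) :
    (∑ a ∈ F, x a).ent i j = ∑ a ∈ F, (x a).ent i j := map_sum (entL i j) x F

theorem mul_supp (x y : RCF k T S) (i l : T) :
    (support fun j => x.ent i j * y.ent j l).Finite :=
  (x.rowFin i).subset fun j hj h => hj (by simp [h])

noncomputable instance : Mul (RCF k T S) where
  mul x y := mk (fun i l => ∑ᶠ j, x.ent i j * y.ent j l)
    (fun i => by
      refine ((x.rowFin i).biUnion fun j _ => y.rowFin j).subset fun l hl => ?_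
      by_contra hc
      refine hl (finsum_eq_zero_of_forall_eq_zero fun j => ?_)
      by_contra h
      exact hc (Set.mem_biUnion (show j ∈ support (x.ent i) from left_ne_zero_of_mul h)
        (show l ∈ support (y.ent j) from right_ne_zero_of_mul h)))
    (fun l => by
      refine ((y.colFin l).biUnion fun j _ => x.colFin j).subset fun i hi => ?_
      by_contra hc
      refine hi (finsum_eq_zero_of_forall_eq_zero fun j => ?_)
      by_contra h
      exact hc (Set.mem_biUnion (show j ∈ support (fun j => y.ent j l) from right_ne_zero_of_mul h)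
        (show i ∈ support (fun i => x.ent i j) from left_ne_zero_of_mul h)))

theorem ent_mul (x y : RCF k T S) (i l : T) :
    (x * y).ent i l = ∑ᶠ j, x.ent i j * y.ent j l := rfl

theorem ent_mul_of_subset (x y : RCF k T S) (i l : T) (F : Finset T)
    (h : ∀ j, x.ent i j ≠ 0 → y.ent j l ≠ 0 → j ∈ F) :
    (x * y).ent i l = ∑ j ∈ F, x.ent i j * y.ent j l :=
  finsum_eq_sum_of_support_subset _ fun j hj =>
    h j (left_ne_zero_of_mul hj) (right_ne_zero_of_mul hj)

theorem ent_mul_row (x y : RCF k T S) (i l : T) :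
    (x * y).ent i l = ∑ j ∈ (x.rowFin i).toFinset, x.ent i j * y.ent j l :=
  ent_mul_of_subset x y i l _ fun _ h _ => by simpa using h

theorem ent_mul_col (x y : RCF k T S) (i l : T) :
    (x * y).ent i l = ∑ j ∈ (y.colFin l).toFinset, x.ent i j * y.ent j l :=
  ent_mul_of_subset x y i l _ fun _ _ h => by simpa using h

theorem ent_mul_single (x y : RCF k T S) (i l j₀ : T)
    (h : ∀ j, x.ent i j ≠ 0 → y.ent j l ≠ 0 → j = j₀) :
    (x * y).ent i l = x.ent i j₀ * y.ent j₀ l := by
  rw [ent_mul_of_subset x y i l {j₀} fun j h1 h2 => by simpa using h j h1 h2]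
  simp

theorem exists_of_ent_mul_ne_zero {x y : RCF k T S} {i l : T} (h : (x * y).ent i l ≠ 0) :
    ∃ j, x.ent i j ≠ 0 ∧ y.ent j l ≠ 0 := by
  by_contra hc
  refine h (finsum_eq_zero_of_forall_eq_zero fun j => ?_)
  by_contra h'
  exact hc ⟨j, left_ne_zero_of_mul h', right_ne_zero_of_mul h'⟩

variable [DecidableEq T]

/-- Diagonal matrices. -/
def diag (f : T → S) : RCF k T S :=
  mk (fun i j => if i = j then f i else 0)
    (fun i => (Set.finite_singleton i).subset fun j hj => by
      by_contra h
      exact hj (if_neg fun h' => h (by simp [h'])))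
    (fun j => (Set.finite_singleton j).subset fun i hi => by
      by_contra h
      exact hi (if_neg fun h' => h (by simp [h'])))

theorem ent_diag (f : T → S) (i j : T) :
    (diag f : RCF k T S).ent i j = if i = j then f i else 0 := rfl

@[simp] theorem ent_diag_mul (f : T → S) (x : RCF k T S) (i j : T) :
    (diag f * x).ent i j = f i * x.ent i j := by
  rw [ent_mul_single _ _ _ _ i]
  · simp [ent_diag]
  · intro l h _
    by_contra h'
    exact h (by rw [ent_diag, if_neg (Ne.symm h')])

@[simp] theorem ent_mul_diag (f : T → S) (x : RCF k T S) (i j : T) :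
    (x * diag f).ent i j = x.ent i j * f j := by
  rw [ent_mul_single _ _ _ _ j]
  · simp [ent_diag]
  · intro l _ h
    by_contra h'
    exact h (by rw [ent_diag, if_neg h'])

noncomputable instance : Ring (RCF k T S) where
  __ := (inferInstance : AddCommGroup (RCF k T S))
  one := diag fun _ => 1
  one_mul x := by ext i j; exact (ent_diag_mul _ x i j).trans (one_mul _)
  mul_one x := by ext i j; exact (ent_mul_diag _ x i j).trans (mul_one _)
  zero_mul x := by ext i j; simp [ent_mul]
  mul_zero x := by ext i j; simp [ent_mul]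
  left_distrib x y z := by
    ext i j
    simp only [ent_add, ent_mul_row x, mul_add, Finset.sum_add_distrib]
  right_distrib x y z := by
    ext i j
    simp only [ent_add, ent_mul_col _ z, add_mul, Finset.sum_add_distrib]
  mul_assoc x y z := by
    ext i j
    rw [ent_mul_col, ent_mul_row x (y * z)]
    simp only [ent_mul_row x, ent_mul_col _ z, Finset.sum_mul, Finset.mul_sum, mul_assoc]
    exact Finset.sum_comm

theorem one_eq_diag : (1 : RCF k T S) = diag fun _ => 1 := rfl

theorem ent_one (i j : T) : (1 : RCF k T S).ent i j = if i = j then 1 else 0 := rfl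

noncomputable instance : Algebra k (RCF k T S) :=
  Algebra.ofModule
    (fun c x y => by ext i j; simp only [ent_smul, ent_mul_col _ y, smul_mul_assoc, Finset.smul_sum])
    (fun c x y => by ext i j; simp only [ent_smul, ent_mul_row x, mul_smul_comm, Finset.smul_sum])

theorem diag_mul_diag (f g : T → S) :
    (diag f * diag g : RCF k T S) = diag fun i => f i * g i := by
  ext i j
  rw [ent_diag_mul, ent_diag, ent_diag]
  split_ifs <;> simp

theorem diag_add (f g : T → S) : (diag f + diag g : RCF k T S) = diag fun i => f i + g i := by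
  ext i j
  simp only [ent_add, ent_diag]
  split_ifs <;> simp

@[simp] theorem diag_zero : (diag fun _ => 0 : RCF k T S) = 0 := by
  ext i j; simp [ent_diag]

/-- The matrix with one entry. -/
def single (a b : T) (s : S) : RCF k T S :=
  mk (fun i j => if i = a ∧ j = b then s else 0)
    (fun i => (Set.finite_singleton b).subset fun j hj => by
      by_contra h
      exact hj (if_neg fun h' => h h'.2))
    (fun j => (Set.finite_singleton a).subset fun i hi => by
      by_contra h
      exact hi (if_neg fun h' => h h'.1))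

theorem ent_single (a b : T) (s : S) (i j : T) :
    (single a b s : RCF k T S).ent i j = if i = a ∧ j = b then s else 0 := rfl

theorem ent_single_mul (a b : T) (s : S) (x : RCF k T S) (i j : T) :
    (single a b s * x).ent i j = if i = a then s * x.ent b j else 0 := by
  rw [ent_mul_single _ _ _ _ b]
  · simp only [ent_single, and_true]; split_ifs <;> simp
  · intro l h _
    by_contra h'
    exact h (by rw [ent_single, if_neg fun h => h' h.2])

theorem ent_mul_single' (a b : T) (s : S) (x : RCF k T S) (i j : T) :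
    (x * single a b s).ent i j = if j = b then x.ent i a * s else 0 := by
  rw [ent_mul_single _ _ _ _ a]
  · simp only [ent_single, true_and]; split_ifs <;> simp
  · intro l _ h
    by_contra h'
    exact h (by rw [ent_single, if_neg fun h => h' h.1])

theorem single_mul_single (a b c : T) (s t : S) :
    (single a b s * single b c t : RCF k T S) = single a c (s * t) := by
  ext i j
  simp only [ent_single_mul, ent_single, true_and]
  by_cases h1 : i = a <;> by_cases h2 : j = c <;> simp [h1, h2]

theorem single_mul_single_of_ne {a b b' c : T} (h : b ≠ b') (s t : S) :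
    (single a b s * single b' c t : RCF k T S) = 0 := by
  ext i j
  simp [ent_single_mul, ent_single, h]

@[simp] theorem single_zero (a b : T) : (single a b 0 : RCF k T S) = 0 := by
  ext i j; simp [ent_single]

/-- `single a b` as a linear map. -/
def singleL (a b : T) : S →ₗ[k] RCF k T S where
  toFun := single a b
  map_add' s t := by ext i j; simp only [ent_single, ent_add]; split_ifs <;> simp
  map_smul' c s := by ext i j; simp only [ent_single, ent_smul]; split_ifs <;> simp

@[simp] theorem singleL_apply (a b : T) (s : S) : (singleL a b s : RCF k T S) = single a b s := rfl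

/-- Scalar matrices. -/
noncomputable def scal : S →ₐ[k] RCF k T S where
  toFun s := diag fun _ => s
  map_one' := rfl
  map_mul' s t := (diag_mul_diag _ _).symm
  map_zero' := diag_zero
  map_add' s t := (diag_add _ _).symm
  commutes' c := by
    ext i j
    simp only [Algebra.algebraMap_eq_smul_one, ent_smul, ent_one, ent_diag]
    split_ifs <;> simp

theorem scal_apply (s : S) : (scal s : RCF k T S) = diag fun _ => s := rfl

/-- Apply a linear map to all entries. -/
def mapL (g : S →ₗ[k] S') : RCF k T S →ₗ[k] RCF k T S' where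
  toFun x := mk (fun i j => g (x.ent i j))
    (fun i => (x.rowFin i).subset fun j hj h => hj (by simp [h]))
    (fun j => (x.colFin j).subset fun i hi h => hi (by simp only [h, map_zero]))
  map_add' x y := by ext i j; simp
  map_smul' c x := by ext i j; simp

@[simp] theorem ent_mapL (g : S →ₗ[k] S') (x : RCF k T S) (i j : T) :
    (mapL g x).ent i j = g (x.ent i j) := rfl

theorem mapL_mul {S₁ S₂ S₃ : Type} [Ring S₁] [Algebra k S₁] [Ring S₂] [Algebra k S₂]
    [Ring S₃] [Algebra k S₃] (g₁ : S₁ →ₗ[k] S') (g₂ : S₂ →ₗ[k] S') (g₃ : S₃ →ₗ[k] S')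
    (f₁ : S₁ →ₗ[k] S₃) (f₂ : S₂ →ₗ[k] S₃) (x : RCF k T S₁) (y : RCF k T S₂)
    (h : ∀ i j l, g₁ (x.ent i j) * g₂ (y.ent j l) = g₃ (f₁ (x.ent i j) * f₂ (y.ent j l))) :
    mapL g₁ x * mapL g₂ y = mapL g₃ (mapL f₁ x * mapL f₂ y) := by
  ext i l
  rw [ent_mapL, ent_mul_of_subset _ _ i l (x.rowFin i).toFinset,
    ent_mul_of_subset _ _ i l (x.rowFin i).toFinset, map_sum]
  · exact Finset.sum_congr rfl fun j _ => h i j l
  · intro j hj _
    by_contra h'
    exact hj (by simp_all)
  · intro j hj _
    by_contra h'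
    exact hj (by simp_all)

@[simp] theorem mapL_id (x : RCF k T S) : mapL LinearMap.id x = x := by ext i j; rfl

theorem mapL_diag (g : S →ₗ[k] S') (f : T → S) :
    mapL g (diag f : RCF k T S) = diag fun i => g (f i) := by
  ext i j; simp only [ent_mapL, ent_diag]; split_ifs <;> simp

theorem mapL_single (g : S →ₗ[k] S') (a b : T) (s : S) :
    mapL g (single a b s : RCF k T S) = single a b (g s) := by
  ext i j; simp only [ent_mapL, ent_single]; split_ifs <;> simp

/-- Apply an algebra map to all entries. -/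
noncomputable def map (g : S →ₐ[k] S') : RCF k T S →ₐ[k] RCF k T S' :=
  AlgHom.ofLinearMap (mapL g.toLinearMap) (by rw [one_eq_diag, mapL_diag]; simp [one_eq_diag])
    fun x y => by
      have := mapL_mul g.toLinearMap g.toLinearMap g.toLinearMap LinearMap.id LinearMap.id x y
        (by simp)
      simpa using this.symm

@[simp] theorem ent_map (g : S →ₐ[k] S') (x : RCF k T S) (i j : T) :
    (map g x).ent i j = g (x.ent i j) := rfl

theorem map_eq_mapL (g : S →ₐ[k] S') (x : RCF k T S) : map g x = mapL g.toLinearMap x := rfl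

theorem map_diag (g : S →ₐ[k] S') (f : T → S) :
    map g (diag f : RCF k T S) = diag fun i => g (f i) := mapL_diag _ _

theorem map_single (g : S →ₐ[k] S') (a b : T) (s : S) :
    map g (single a b s : RCF k T S) = single a b (g s) := mapL_single _ _ _ _

theorem map_map {S'' : Type} [Ring S''] [Algebra k S''] (g : S →ₐ[k] S') (g' : S' →ₐ[k] S'')
    (x : RCF k T S) : map g' (map g x) = map (g'.comp g) x := by ext i j; rfl

theorem map_injective {g : S →ₐ[k] S'} (hg : Injective g) :
    Injective (map g : RCF k T S → RCF k T S') := fun _ _ h =>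
  ext fun i j => hg (congrArg (fun z => ent z i j) h)

/-- `ev (θ * ρ y) = ev θ * y` passes to matrices. -/
theorem mapL_mul_map (ev : S' →ₗ[k] S) (ρ : S →ₐ[k] S') (h : ∀ θ y, ev (θ * ρ y) = ev θ * y)
    (x : RCF k T S') (y : RCF k T S) : mapL ev (x * map ρ y) = mapL ev x * y := by
  have := mapL_mul ev LinearMap.id ev LinearMap.id ρ.toLinearMap x y (by simp [h])
  simpa [map_eq_mapL] using this.symm

/-- `ev (ρ y * θ) = y * ev θ` passes to matrices. -/
theorem mapL_map_mul (ev : S' →ₗ[k] S) (ρ : S →ₐ[k] S') (h : ∀ θ y, ev (ρ y * θ) = y * ev θ)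
    (x : RCF k T S') (y : RCF k T S) : mapL ev (map ρ y * x) = y * mapL ev x := by
  have := mapL_mul LinearMap.id ev ev ρ.toLinearMap LinearMap.id y x (by simp [h])
  simpa [map_eq_mapL] using this.symm

section Kron

variable {T₁ T₂ : Type} [DecidableEq T₁] [DecidableEq T₂]

variable (T₂) in
/-- `x ⊗ 1` as a linear map. -/
def extLL : RCF k T₁ S →ₗ[k] RCF k (T₁ × T₂) S where
  toFun x := mk (fun i j => if i.2 = j.2 then x.ent i.1 j.1 else 0)
    (fun i => ((x.rowFin i.1).prod (Set.finite_singleton i.2)).subset fun j hj => by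
      by_cases h : i.2 = j.2
      · exact ⟨by simpa [h] using hj, h.symm⟩
      · exact absurd (if_neg h) hj)
    (fun j => ((x.colFin j.1).prod (Set.finite_singleton j.2)).subset fun i hi => by
      by_cases h : i.2 = j.2
      · exact ⟨by simpa [h] using hi, h⟩
      · exact absurd (if_neg h) hi)
  map_add' x y := by ext i j; simp only [ent_mk, ent_add]; split_ifs <;> simp
  map_smul' c x := by ext i j; simp only [ent_mk, ent_smul]; split_ifs <;> simp

theorem ent_extLL (x : RCF k T₁ S) (i j : T₁ × T₂) :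
    (extLL T₂ x).ent i j = if i.2 = j.2 then x.ent i.1 j.1 else 0 := rfl

theorem ent_extLL_mul (x : RCF k T₁ S) (y : RCF k (T₁ × T₂) S) (i l : T₁ × T₂) :
    (extLL T₂ x * y).ent i l = ∑ j ∈ (x.rowFin i.1).toFinset, x.ent i.1 j * y.ent (j, i.2) l := by
  rw [ent_mul_of_subset _ _ _ _ ((x.rowFin i.1).toFinset.map ⟨fun j => (j, i.2), fun a b h => by
    simpa using h⟩)]
  · simp [ent_extLL]
  · rintro ⟨j, j'⟩ h _
    rw [ent_extLL] at h
    by_cases h' : i.2 = j'
    · subst h'; simpa using h
    · exact absurd (if_neg h') h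

variable (T₂) in
/-- `x ⊗ 1`. -/
noncomputable def extL : RCF k T₁ S →ₐ[k] RCF k (T₁ × T₂) S :=
  AlgHom.ofLinearMap (extLL T₂)
    (by ext ⟨i, i'⟩ ⟨j, j'⟩; by_cases h : i = j <;> by_cases h' : i' = j' <;>
          simp [ent_extLL, ent_one, h, h'])
    fun x y => by
      ext i l
      rw [ent_extLL_mul, ent_extLL, ent_mul_row]
      split_ifs with h <;> simp [ent_extLL, h]

theorem ent_extL (x : RCF k T₁ S) (i j : T₁ × T₂) :
    (extL T₂ x).ent i j = if i.2 = j.2 then x.ent i.1 j.1 else 0 := rfl

variable (T₁) in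
/-- `1 ⊗ x` as a linear map. -/
def extRL : RCF k T₂ S →ₗ[k] RCF k (T₁ × T₂) S where
  toFun x := mk (fun i j => if i.1 = j.1 then x.ent i.2 j.2 else 0)
    (fun i => ((Set.finite_singleton i.1).prod (x.rowFin i.2)).subset fun j hj => by
      by_cases h : i.1 = j.1
      · exact ⟨h.symm, by simpa [h] using hj⟩
      · exact absurd (if_neg h) hj)
    (fun j => ((Set.finite_singleton j.1).prod (x.colFin j.2)).subset fun i hi => by
      by_cases h : i.1 = j.1
      · exact ⟨h, by simpa [h] using hi⟩
      · exact absurd (if_neg h) hi)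
  map_add' x y := by ext i j; simp only [ent_mk, ent_add]; split_ifs <;> simp
  map_smul' c x := by ext i j; simp only [ent_mk, ent_smul]; split_ifs <;> simp

theorem ent_extRL (x : RCF k T₂ S) (i j : T₁ × T₂) :
    (extRL T₁ x).ent i j = if i.1 = j.1 then x.ent i.2 j.2 else 0 := rfl

theorem ent_extRL_mul (x : RCF k T₂ S) (y : RCF k (T₁ × T₂) S) (i l : T₁ × T₂) :
    (extRL T₁ x * y).ent i l = ∑ j ∈ (x.rowFin i.2).toFinset, x.ent i.2 j * y.ent (i.1, j) l := by
  rw [ent_mul_of_subset _ _ _ _ ((x.rowFin i.2).toFinset.map ⟨fun j => (i.1, j), fun a b h => by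
    simpa using h⟩)]
  · simp [ent_extRL]
  · rintro ⟨j, j'⟩ h _
    rw [ent_extRL] at h
    by_cases h' : i.1 = j
    · subst h'; simpa using h
    · exact absurd (if_neg h') h

variable (T₁) in
/-- `1 ⊗ x`. -/
noncomputable def extR : RCF k T₂ S →ₐ[k] RCF k (T₁ × T₂) S :=
  AlgHom.ofLinearMap (extRL T₁)
    (by ext ⟨i, i'⟩ ⟨j, j'⟩; by_cases h : i = j <;> by_cases h' : i' = j' <;>
          simp [ent_extRL, ent_one, h, h'])
    fun x y => by
      ext i l
      rw [ent_extRL_mul, ent_extRL, ent_mul_row]
      split_ifs with h <;> simp [ent_extRL, h]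

theorem ent_extR (x : RCF k T₂ S) (i j : T₁ × T₂) :
    (extR T₁ x).ent i j = if i.1 = j.1 then x.ent i.2 j.2 else 0 := rfl

theorem ent_extL_mul_extR (x : RCF k T₁ S) (y : RCF k T₂ S) (i j : T₁ × T₂) :
    (extL T₂ x * extR T₁ y).ent i j = x.ent i.1 j.1 * y.ent i.2 j.2 := by
  rw [ent_mul_single _ _ _ _ (j.1, i.2)]
  · simp [ent_extL, ent_extR]
  · rintro ⟨l, l'⟩ h1 h2
    rw [ent_extL] at h1
    rw [ent_extR] at h2
    by_cases h : i.2 = l' <;> by_cases h' : l = j.1 <;> simp_all

theorem ent_extR_mul_extL (x : RCF k T₁ S) (y : RCF k T₂ S) (i j : T₁ × T₂) :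
    (extR T₁ y * extL T₂ x).ent i j = y.ent i.2 j.2 * x.ent i.1 j.1 := by
  rw [ent_mul_single _ _ _ _ (i.1, j.2)]
  · simp [ent_extL, ent_extR]
  · rintro ⟨l, l'⟩ h1 h2
    rw [ent_extR] at h1
    rw [ent_extL] at h2
    by_cases h : i.1 = l <;> by_cases h' : l' = j.2 <;> simp_all

theorem extL_comm_extR (x : RCF k T₁ S) (y : RCF k T₂ S)
    (h : ∀ i j i' j', Commute (x.ent i j) (y.ent i' j')) :
    extL T₂ x * extR T₁ y = extR T₁ y * extL T₂ x := by
  ext i j
  rw [ent_extL_mul_extR, ent_extR_mul_extL, (h _ _ _ _).eq]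

theorem map_extL (g : S →ₐ[k] S') (x : RCF k T₁ S) :
    map g (extL T₂ x) = extL T₂ (map g x) := by
  ext i j; simp only [ent_map, ent_extL]; split_ifs <;> simp

theorem map_extR (g : S →ₐ[k] S') (x : RCF k T₂ S) :
    map g (extR T₁ x) = extR T₁ (map g x) := by
  ext i j; simp only [ent_map, ent_extR]; split_ifs <;> simp

theorem extL_single_mul_extR_single (a b : T₁) (a' b' : T₂) (s t : S) :
    extL T₂ (single a b s : RCF k T₁ S) * extR T₁ (single a' b' t) =
      single (a, a') (b, b') (s * t) := by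
  ext ⟨i, i'⟩ ⟨j, j'⟩
  simp only [ent_extL_mul_extR, ent_single, Prod.mk.injEq]
  by_cases h1 : i = a ∧ j = b <;> by_cases h2 : i' = a' ∧ j' = b' <;> (simp [h1, h2]; try tauto)

end Kron

/-! ### Finite matrices, entries in a submodule, homogeneity -/

/-- Only finitely many non-zero entries. -/
def IsFin (x : RCF k T S) : Prop := {p : T × T | x.ent p.1 p.2 ≠ 0}.Finite

/-- All entries lie in `N`. -/
def Ent (N : Submodule k S) (x : RCF k T S) : Prop := ∀ i j, x.ent i j ∈ N

/-- Homogeneous of degree `n` for the degree functions `dg` (rows) and `dg'` (columns). -/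
def Homog (dg dg' : T → ℤ) (n : ℤ) (x : RCF k T S) : Prop :=
  ∀ i j, x.ent i j ≠ 0 → dg' j = dg i + n

theorem isFin_zero : IsFin (0 : RCF k T S) := by simp [IsFin]

theorem IsFin.add {x y : RCF k T S} (hx : IsFin x) (hy : IsFin y) : IsFin (x + y) :=
  (hx.union hy).subset fun p hp => by
    by_contra h
    simp only [Set.mem_union, Set.mem_ofPred_eq, not_or, not_not] at h
    exact hp (by simp [h.1, h.2])

theorem IsFin.smul {x : RCF k T S} (hx : IsFin x) (c : k) : IsFin (c • x) :=
  hx.subset fun p hp h => hp (by simp [show x.ent p.1 p.2 = 0 from h])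

theorem IsFin.mul_right {x : RCF k T S} (hx : IsFin x) (y : RCF k T S) : IsFin (x * y) := by
  refine (hx.biUnion fun p _ => (Set.finite_singleton p.1).prod (y.rowFin p.2)).subset
    fun p hp => ?_
  obtain ⟨j, h1, h2⟩ := exists_of_ent_mul_ne_zero hp
  exact Set.mem_biUnion (show (p.1, j) ∈ _ from h1) ⟨rfl, h2⟩

theorem IsFin.mul_left {x : RCF k T S} (hx : IsFin x) (y : RCF k T S) : IsFin (y * x) := by
  refine (hx.biUnion fun p _ => (y.colFin p.1).prod (Set.finite_singleton p.2)).subset
    fun p hp => ?_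
  obtain ⟨j, h1, h2⟩ := exists_of_ent_mul_ne_zero hp
  exact Set.mem_biUnion (show (j, p.2) ∈ _ from h2) ⟨h1, rfl⟩

theorem IsFin.mapL {x : RCF k T S} (hx : IsFin x) (g : S →ₗ[k] S') : IsFin (mapL g x) :=
  hx.subset fun p hp h => hp (by simp [show x.ent p.1 p.2 = 0 from h])

theorem IsFin.map {x : RCF k T S} (hx : IsFin x) (g : S →ₐ[k] S') : IsFin (map g x) :=
  hx.mapL _

theorem isFin_single (a b : T) (s : S) : IsFin (single a b s : RCF k T S) :=
  (Set.finite_singleton (a, b)).subset fun p hp => by
    by_contra h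
    exact hp (if_neg fun h' => h (Prod.ext h'.1 h'.2))

theorem isFin_diag {f : T → S} (hf : (support f).Finite) : IsFin (diag f : RCF k T S) :=
  (hf.prod hf).subset fun p hp => by
    simp only [Set.mem_ofPred_eq, ent_diag] at hp
    by_cases h : p.1 = p.2
    · rw [if_pos h] at hp
      exact ⟨hp, h ▸ hp⟩
    · exact absurd (if_neg h) hp

theorem isFin_sum {ι : Type*} {F : Finset ι} {x : ι → RCF k T S} (h : ∀ a ∈ F, IsFin (x a)) :
    IsFin (∑ a ∈ F, x a) :=
  Finset.sum_induction _ IsFin (fun _ _ => IsFin.add) isFin_zero h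

/-- A finite matrix is supported on `F × F` for a finite set `F`. -/
theorem IsFin.exists_finset {x : RCF k T S} (hx : IsFin x) :
    ∃ F : Finset T, ∀ i j, x.ent i j ≠ 0 → i ∈ F ∧ j ∈ F :=
  ⟨hx.toFinset.image Prod.fst ∪ hx.toFinset.image Prod.snd, fun i j h =>
    ⟨Finset.mem_union_left _ (Finset.mem_image.2 ⟨(i, j), by simpa using h, rfl⟩),
      Finset.mem_union_right _ (Finset.mem_image.2 ⟨(i, j), by simpa using h, rfl⟩)⟩⟩

theorem eq_sum_single {x : RCF k T S} {F : Finset T} (h : ∀ i j, x.ent i j ≠ 0 → i ∈ F ∧ j ∈ F) :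
    x = ∑ i ∈ F, ∑ j ∈ F, single i j (x.ent i j) := by
  ext a b
  simp only [ent_sum, ent_single, ite_and, eq_comm (a := a), eq_comm (a := b)]
  rw [Finset.sum_comm]
  simp only [Finset.sum_ite_eq', Finset.sum_ite_irrel, Finset.sum_const_zero]
  by_cases h0 : x.ent a b = 0
  · split_ifs <;> simp [h0]
  · simp [h a b h0]

variable (k T S) in
/-- The submodule of finite matrices. -/
def finSub : Submodule k (RCF k T S) where
  carrier := {x | IsFin x}
  add_mem' := IsFin.add
  zero_mem' := isFin_zero
  smul_mem' c _ h := IsFin.smul h c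

theorem ent_top (x : RCF k T S) : Ent ⊤ x := fun _ _ => trivial

theorem ent_zero' (N : Submodule k S) : Ent N (0 : RCF k T S) := fun _ _ => N.zero_mem

theorem Ent.add {N : Submodule k S} {x y : RCF k T S} (hx : Ent N x) (hy : Ent N y) :
    Ent N (x + y) := fun i j => N.add_mem (hx i j) (hy i j)

theorem Ent.smul {N : Submodule k S} {x : RCF k T S} (hx : Ent N x) (c : k) : Ent N (c • x) :=
  fun i j => N.smul_mem c (hx i j)

theorem Ent.mono {N N' : Submodule k S} {x : RCF k T S} (hx : Ent N x) (h : N ≤ N') : Ent N' x :=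
  fun i j => h (hx i j)

theorem Ent.mul {N N' N'' : Submodule k S} {x y : RCF k T S} (hx : Ent N x) (hy : Ent N' y)
    (h : ∀ a ∈ N, ∀ b ∈ N', a * b ∈ N'') : Ent N'' (x * y) := fun i l => by
  rw [ent_mul_row]
  exact N''.sum_mem fun j _ => h _ (hx i j) _ (hy j l)

theorem ent_sum' {N : Submodule k S} {ι : Type*} {F : Finset ι} {x : ι → RCF k T S}
    (h : ∀ a ∈ F, Ent N (x a)) : Ent N (∑ a ∈ F, x a) :=
  Finset.sum_induction _ (Ent N) (fun _ _ => Ent.add) (ent_zero' N) h

theorem ent_diag_of {N : Submodule k S} {f : T → S} (h : ∀ i, f i ∈ N) :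
    Ent N (diag f : RCF k T S) := fun i j => by
  rw [ent_diag]; split_ifs
  · exact h i
  · exact N.zero_mem

theorem ent_single_of {N : Submodule k S} (a b : T) {s : S} (h : s ∈ N) :
    Ent N (single a b s : RCF k T S) := fun i j => by
  rw [ent_single]; split_ifs
  · exact h
  · exact N.zero_mem

/-- A matrix with entries in the range of an injective linear map comes from a matrix. -/
theorem exists_mapL_of_ent {g : S →ₗ[k] S'} (hg : Injective g) {x : RCF k T S'}
    (hx : Ent (LinearMap.range g) x) : ∃ y : RCF k T S, mapL g y = x := by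
  obtain ⟨r, hr⟩ := g.exists_leftInverse_of_injective (LinearMap.ker_eq_bot.2 hg)
  refine ⟨mapL r x, ext fun i j => ?_⟩
  obtain ⟨s, hs⟩ := hx i j
  rw [ent_mapL, ent_mapL, ← hs]
  exact congrArg g (LinearMap.congr_fun hr s)

theorem IsFin.of_mapL {g : S →ₗ[k] S'} (hg : Injective g) {x : RCF k T S}
    (hx : IsFin (RCF.mapL g x)) : IsFin x :=
  hx.subset fun _ hp h => hp (hg (h.trans (map_zero g).symm))

theorem homog_zero (dg dg' : T → ℤ) (n : ℤ) : Homog dg dg' n (0 : RCF k T S) :=
  fun _ _ h => absurd rfl h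

theorem Homog.add {dg dg' : T → ℤ} {n : ℤ} {x y : RCF k T S} (hx : Homog dg dg' n x)
    (hy : Homog dg dg' n y) : Homog dg dg' n (x + y) := fun i j h => by
  by_cases h1 : x.ent i j = 0
  · exact hy i j fun h2 => h (by simp [h1, h2])
  · exact hx i j h1

theorem Homog.smul {dg dg' : T → ℤ} {n : ℤ} {x : RCF k T S} (hx : Homog dg dg' n x) (c : k) :
    Homog dg dg' n (c • x) := fun i j h => hx i j fun h1 => h (by simp [h1])

theorem Homog.mul {dg dg' dg'' : T → ℤ} {m n : ℤ} {x y : RCF k T S} (hx : Homog dg dg' m x)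
    (hy : Homog dg' dg'' n y) : Homog dg dg'' (m + n) (x * y) := fun i l h => by
  obtain ⟨j, h1, h2⟩ := exists_of_ent_mul_ne_zero h
  rw [hy j l h2, hx i j h1, add_assoc]

theorem Homog.mul' {dg dg' dg'' : T → ℤ} {m n r : ℤ} {x y : RCF k T S} (hx : Homog dg dg' m x)
    (hy : Homog dg' dg'' n y) (h : m + n = r) : Homog dg dg'' r (x * y) := h ▸ hx.mul hy

theorem Homog.cast {dg dg' : T → ℤ} {m n : ℤ} {x : RCF k T S} (hx : Homog dg dg' m x)
    (h : m = n) : Homog dg dg' n x := h ▸ hx

theorem Homog.mapL {dg dg' : T → ℤ} {n : ℤ} {x : RCF k T S} (hx : Homog dg dg' n x)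
    (g : S →ₗ[k] S') : Homog dg dg' n (mapL g x) :=
  fun i j h => hx i j fun h1 => h (by simp [h1])

theorem Homog.map {dg dg' : T → ℤ} {n : ℤ} {x : RCF k T S} (hx : Homog dg dg' n x)
    (g : S →ₐ[k] S') : Homog dg dg' n (map g x) := hx.mapL _

theorem Homog.of_mapL {dg dg' : T → ℤ} {n : ℤ} {x : RCF k T S} {g : S →ₗ[k] S'}
    (hg : Injective g) (hx : Homog dg dg' n (RCF.mapL g x)) : Homog dg dg' n x :=
  fun i j h => hx i j fun h1 => h (hg (h1.trans (map_zero g).symm))

theorem homog_diag (dg : T → ℤ) (f : T → S) : Homog dg dg 0 (diag f : RCF k T S) :=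
  fun i j h => by
    by_cases h' : i = j
    · simp [h']
    · exact absurd (if_neg h') h

theorem homog_single {dg dg' : T → ℤ} {n : ℤ} {a b : T} (h : dg' b = dg a + n) (s : S) :
    Homog dg dg' n (single a b s : RCF k T S) := fun i j h' => by
  by_cases h1 : i = a ∧ j = b
  · rw [h1.1, h1.2, h]
  · exact absurd (if_neg h1) h'

theorem Homog.kron {T₁ T₂ : Type} [DecidableEq T₁] [DecidableEq T₂] {d₁ d₁' : T₁ → ℤ}
    {d₂ d₂' : T₂ → ℤ} {m n : ℤ} {x : RCF k T₁ S} {y : RCF k T₂ S} (hx : Homog d₁ d₁' m x)
    (hy : Homog d₂ d₂' n y) :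
    Homog (fun t : T₁ × T₂ => d₁ t.1 + d₂ t.2) (fun t => d₁' t.1 + d₂' t.2) (m + n)
      (extL T₂ x * extR T₁ y) := fun i j h => by
  rw [ent_extL_mul_extR] at h
  have h1 := hx _ _ (left_ne_zero_of_mul h)
  have h2 := hy _ _ (right_ne_zero_of_mul h)
  simp only [h1, h2]; ring

open Classical in
/-- The projection onto the indices whose degree lies in `A`. -/
noncomputable def projS (dg : T → ℤ) (A : Set ℤ) : RCF k T S :=
  diag fun t => if dg t ∈ A then 1 else 0

open Classical in
theorem ent_projS_mul (dg : T → ℤ) (A : Set ℤ) (x : RCF k T S) (i j : T) :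
    (projS dg A * x).ent i j = if dg i ∈ A then x.ent i j else 0 := by
  rw [projS, ent_diag_mul]; split_ifs <;> simp

open Classical in
theorem ent_mul_projS (dg : T → ℤ) (A : Set ℤ) (x : RCF k T S) (i j : T) :
    (x * projS dg A).ent i j = if dg j ∈ A then x.ent i j else 0 := by
  rw [projS, ent_mul_diag]; split_ifs <;> simp

theorem projS_mul_projS (dg : T → ℤ) (A A' : Set ℤ) :
    (projS dg A * projS dg A' : RCF k T S) = projS dg (A ∩ A') := by
  rw [projS, projS, diag_mul_diag, projS]
  congr 1; funext t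
  by_cases h : dg t ∈ A <;> by_cases h' : dg t ∈ A' <;> simp [h, h']

theorem projS_univ (dg : T → ℤ) : (projS dg Set.univ : RCF k T S) = 1 := by
  simp [projS, one_eq_diag]

theorem projS_empty (dg : T → ℤ) : (projS dg ∅ : RCF k T S) = 0 := by
  simp [projS]

theorem projS_union (dg : T → ℤ) {A A' : Set ℤ} (h : Disjoint A A') :
    (projS dg (A ∪ A') : RCF k T S) = projS dg A + projS dg A' := by
  rw [projS, projS, projS, diag_add]
  congr 1; funext t
  have : dg t ∈ A → dg t ∉ A' := fun h1 => Set.disjoint_left.1 h h1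
  by_cases h : dg t ∈ A <;> by_cases h' : dg t ∈ A' <;> simp_all

theorem homog_projS (dg : T → ℤ) (A : Set ℤ) : Homog dg dg 0 (projS dg A : RCF k T S) :=
  homog_diag _ _

theorem ent_projS_of {N : Submodule k S} (h : (1 : S) ∈ N) (dg : T → ℤ) (A : Set ℤ) :
    Ent N (projS dg A : RCF k T S) := ent_diag_of fun i => by
  split_ifs
  · exact h
  · exact N.zero_mem

theorem Ent.projS_mul {N : Submodule k S} {x : RCF k T S} (hx : Ent N x) (dg : T → ℤ)
    (A : Set ℤ) : Ent N (projS dg A * x) := fun i j => by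
  rw [ent_projS_mul]; split_ifs
  · exact hx i j
  · exact N.zero_mem

theorem Ent.mul_projS {N : Submodule k S} {x : RCF k T S} (hx : Ent N x) (dg : T → ℤ)
    (A : Set ℤ) : Ent N (x * projS dg A) := fun i j => by
  rw [ent_mul_projS]; split_ifs
  · exact hx i j
  · exact N.zero_mem

theorem isFin_projS {dg : T → ℤ} (hdg : ∀ a, {t | dg t = a}.Finite) {A : Set ℤ} (hA : A.Finite) :
    IsFin (projS dg A : RCF k T S) :=
  isFin_diag ((hA.biUnion fun a _ => hdg a).subset fun t ht => by
    by_contra h
    exact ht (if_neg fun h' => h (Set.mem_biUnion h' rfl)))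

/-- Homogeneous matrices commute with the degree projections up to a shift. -/
theorem Homog.projS_mul {dg dg' : T → ℤ} {n : ℤ} {x : RCF k T S} (hx : Homog dg dg' n x)
    {A A' : Set ℤ} (h : ∀ a, a ∈ A ↔ a + n ∈ A') : projS dg A * x = x * projS dg' A' := by
  ext i j
  rw [ent_projS_mul, ent_mul_projS]
  by_cases h0 : x.ent i j = 0
  · simp [h0]
  · rw [hx i j h0]
    by_cases h1 : dg i ∈ A
    · rw [if_pos h1, if_pos ((h _).1 h1)]
    · rw [if_neg h1, if_neg fun h2 => h1 ((h _).2 h2)]

theorem map_projS (g : S →ₐ[k] S') (dg : T → ℤ) (A : Set ℤ) :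
    map g (projS dg A : RCF k T S) = projS dg A := by
  rw [projS, map_diag, projS]
  congr 1; funext t; split_ifs <;> simp

/-- The projection onto one degree. -/
noncomputable abbrev proj (dg : T → ℤ) (a : ℤ) : RCF k T S := projS dg {a}

theorem Homog.proj_mul {dg dg' : T → ℤ} {n : ℤ} {x : RCF k T S} (hx : Homog dg dg' n x)
    {a b : ℤ} (h : a + n = b) : proj dg a * x = x * proj dg' b :=
  hx.projS_mul fun c => by simp only [Set.mem_singleton_iff]; omega

theorem proj_mul_proj (dg : T → ℤ) (a : ℤ) : (proj dg a * proj dg a : RCF k T S) = proj dg a := by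
  rw [projS_mul_projS, Set.inter_self]

theorem ext_proj (dg : T → ℤ) {x y : RCF k T S} (h : ∀ a, proj dg a * x = proj dg a * y) :
    x = y := by
  ext i j
  have := congrArg (fun z => ent z i j) (h (dg i))
  simpa [ent_projS_mul] using this

/-- Assembling a homogeneous matrix from its components. -/
theorem exists_assemble {dg dg' : T → ℤ} (hdg : ∀ a, {t | dg t = a}.Finite)
    {n : ℤ} (φ : ℤ → RCF k T S)
    (h : ∀ a, Homog dg dg' n (φ a)) :
    ∃ x : RCF k T S, Homog dg dg' n x ∧ ∀ a, proj dg a * x = proj dg a * φ a := by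
  refine ⟨mk (fun i j => (φ (dg i)).ent i j) (fun i => (φ (dg i)).rowFin i)
    (fun j => (hdg (dg' j - n)).subset fun i hi => ?_), fun i j hij => h _ i j hij, fun a => ?_⟩
  · have := h _ i j hi
    simp only [Set.mem_ofPred_eq]; omega
  · ext i j
    simp only [ent_projS_mul, Set.mem_singleton_iff, ent_mk]
    split_ifs with h1
    · rw [h1]
    · rfl

section Char2

variable [CharP k 2]

theorem add_self (x : RCF k T S) : x + x = 0 := by
  rw [← two_smul k x, CharTwo.two_eq_zero, zero_smul]

end Char2

end RCF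

end Crest.Agent.R186
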