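import Crest.Agent.R186.Base

/-!
Tensor products of base data; the dual numbers.
-/

set_option linter.unusedSectionVars false

namespace Crest.Agent.R186

open RCF
open scoped TensorProduct

variable {k : Type} [Field k] [CharP k 2]

/-- What is used about the dual numbers `M` and the matrix ring `M₂`. -/
structure EpsData (k M M₂ : Type) [Field k] [CharP k 2] [Ring M] [Algebra k M] [Ring M₂]
    [Algebra k M₂] (H : k) where
  ε : M
  εε : ε * ε = 0
  span : ∀ m : M, ∃ a b : k, m = a • (1 : M) + b • ε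
  col : (epsDat k ε εε).ColHE
  ρ : M →ₐ[k] M₂
  ev : M₂ →ₗ[k] M
  ev_one : ev 1 = 1
  ev_mul : ∀ θ y, ev (θ * ρ y) = ev θ * y
  δ : M₂
  εδ : ρ ε * δ + δ * ρ ε = 1
  rk : ∀ m, ∃ c : k, ρ ε * m * ρ ε = c • ρ ε
  σ : M₂
  σ' : M₂
  σσ : σ * σ' = 1
  σσ' : σ' * σ = 1
  σε : σ * ρ ε = ρ ε
  εσ : ρ ε * σ = H • ρ ε
  t : TrF k M₂
  trεδ : t.tr (ρ ε * δ) = 1

theorem tens_e01 : (!![0, 1; 0, 0] * !![0, 1; 0, 0] : Matrix (Fin 2) (Fin 2) k) = 0 := by
  ext i j
  fin_cases i <;> fin_cases j <;> simp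

theorem tens_e10 : (!![0, 0; 1, 0] * !![0, 0; 1, 0] : Matrix (Fin 2) (Fin 2) k) = 0 := by
  ext i j
  fin_cases i <;> fin_cases j <;> simp

/-- The algebra map from the dual numbers given by a matrix of square zero. -/
noncomputable def tensLift (e : Matrix (Fin 2) (Fin 2) k) (h : e * e = 0) :
    DualNumber k →ₐ[k] Matrix (Fin 2) (Fin 2) k :=
  DualNumber.lift ⟨(Algebra.ofId k _, e), h, fun a => (Algebra.commutes a e).symm⟩

theorem tensLift_apply (e : Matrix (Fin 2) (Fin 2) k) (h : e * e = 0) (m : DualNumber k) :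
    tensLift e h m = m.fst • (1 : Matrix (Fin 2) (Fin 2) k) + m.snd • e := by
  rw [tensLift, DualNumber.lift_apply_apply]
  simp [Algebra.ofId_apply, Algebra.algebraMap_eq_smul_one]

/-- `θ ↦ θ 0 0 + θ i j ε`. -/
noncomputable def tensEv (i j : Fin 2) : Matrix (Fin 2) (Fin 2) k →ₗ[k] DualNumber k where
  toFun θ := θ 0 0 • (1 : DualNumber k) + θ i j • DualNumber.eps
  map_add' x y := by simp only [Matrix.add_apply, add_smul]; abel
  map_smul' c x := by simp only [Matrix.smul_apply, smul_eq_mul, mul_smul, RingHom.id_apply, smul_add]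

theorem tensEv_apply (i j : Fin 2) (θ : Matrix (Fin 2) (Fin 2) k) :
    tensEv i j θ = θ 0 0 • (1 : DualNumber k) + θ i j • DualNumber.eps := rfl

variable (k) in
/-- The trace form on two-by-two matrices. -/
noncomputable def tensTr : TrF k (Matrix (Fin 2) (Fin 2) k) where
  tr := Matrix.traceLinearMap (Fin 2) k k
  comm x y := Matrix.trace_mul_comm x y
  rep ω := ⟨Matrix.of fun i j => ω (Matrix.single j i 1), fun y => by
    have hy : y = y 0 0 • Matrix.single 0 0 1 + y 0 1 • Matrix.single 0 1 1 +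
        y 1 0 • Matrix.single 1 0 1 + y 1 1 • Matrix.single 1 1 1 := by
      ext i j
      fin_cases i <;> fin_cases j <;> simp
    conv_rhs => rw [hy]
    simp only [map_add, map_smul, smul_eq_mul]
    simp [Matrix.trace, Matrix.mul_apply, Fin.sum_univ_two]
    ring⟩

/-- `ρ (a + b ε) = !![a, b; 0, a]` (`DualNumber.lift`), `ev θ = θ 0 0 + θ 0 1 ε`, `δ = !![0, 0; 1, 0]`,
`σ = !![1, 0; 0, H]`, `t.tr = Matrix.trace`.  For `col` take `lam (a + b ε) = !![a, 0; b, a]`,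
`ev θ = θ 0 0 + θ 1 0 ε`, and `epsDat_map`, `epsHE` with `δ = !![0, 1; 0, 0]`. -/
theorem exists_epsData {H : k} (hH : H ≠ 0) :
    Nonempty (EpsData k (DualNumber k) (Matrix (Fin 2) (Fin 2) k) H) := by
  have hρ : ∀ m : DualNumber k, tensLift (k := k) !![0, 1; 0, 0] tens_e01 m =
      !![m.fst, m.snd; 0, m.fst] := fun m => by
    rw [tensLift_apply]
    ext i j
    fin_cases i <;> fin_cases j <;> simp
  have hl : ∀ m : DualNumber k, tensLift (k := k) !![0, 0; 1, 0] tens_e10 m =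
      !![m.fst, 0; m.snd, m.fst] := fun m => by
    rw [tensLift_apply]
    ext i j
    fin_cases i <;> fin_cases j <;> simp
  have hρε : tensLift (k := k) !![0, 1; 0, 0] tens_e01 DualNumber.eps = !![0, 1; 0, 0] := by
    rw [hρ]; simp
  have hlε : tensLift (k := k) !![0, 0; 1, 0] tens_e10 DualNumber.eps = !![0, 0; 1, 0] := by
    rw [hl]; simp
  refine ⟨{
    ε := DualNumber.eps
    εε := DualNumber.eps_mul_eps
    span := fun m => ⟨m.fst, m.snd, by ext <;> simp⟩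
    col := ⟨Matrix (Fin 2) (Fin 2) k, inferInstance, inferInstance,
      tensLift (k := k) !![0, 0; 1, 0] tens_e10, tensEv 1 0, ?_, fun θ y => ?_, ?_⟩
    ρ := tensLift (k := k) !![0, 1; 0, 0] tens_e01
    ev := tensEv 0 1
    ev_one := ?_
    ev_mul := fun θ y => ?_
    δ := !![0, 0; 1, 0]
    εδ := ?_
    rk := fun m => ⟨m 1 0, ?_⟩
    σ := !![1, 0; 0, H]
    σ' := !![1, 0; 0, H⁻¹]
    σσ := ?_
    σσ' := ?_
    σε := ?_
    εσ := ?_
    t := tensTr k
    trεδ := ?_ }⟩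
  · ext <;> simp [tensEv_apply]
  · rw [hl]
    ext
    · simp [tensEv_apply, Matrix.vecMul, dotProduct, Fin.sum_univ_two]
    · simp [tensEv_apply, Matrix.vecMul, dotProduct, Fin.sum_univ_two]
      ring
  · rw [epsDat_map]
    refine ⟨epsHE (δ := !![0, 1; 0, 0]) _ ?_⟩
    rw [hlε]
    ext i j
    fin_cases i <;> fin_cases j <;> simp
  · ext <;> simp [tensEv_apply]
  · rw [hρ]
    ext
    · simp [tensEv_apply, Matrix.mul_apply, Fin.sum_univ_two]
    · simp [tensEv_apply, Matrix.mul_apply, Fin.sum_univ_two]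
  · rw [hρε]
    ext i j
    fin_cases i <;> fin_cases j <;> simp
  · rw [hρε]
    ext i j
    fin_cases i <;> fin_cases j <;>
      simp [Matrix.mul_apply, Matrix.vecMul, dotProduct, Fin.sum_univ_two]
  · ext i j
    fin_cases i <;> fin_cases j <;> simp [hH]
  · ext i j
    fin_cases i <;> fin_cases j <;> simp [hH]
  · rw [hρε]
    ext i j
    fin_cases i <;> fin_cases j <;> simp
  · rw [hρε]
    ext i j
    fin_cases i <;> fin_cases j <;> simp
  · rw [hρε]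
    simp [tensTr, Matrix.trace, Fin.sum_univ_two]

section

variable {S S₁ S₂ T₁ T₂ : Type} [Ring S] [Algebra k S] [Ring S₁] [Algebra k S₁] [Ring S₂]
  [Algebra k S₂] [DecidableEq T₁] [DecidableEq T₂]

theorem Dat.Bdd.tensor (f : Comm k S₁ S₂ S) {D₁ : Dat k T₁ S₁} {D₂ : Dat k T₂ S₂} {m₁ m₂ : ℤ}
    (h₁ : D₁.Bdd m₁) (h₂ : D₂.Bdd m₂) : (Dat.tensor f D₁ D₂).Bdd (m₁ + m₂) := by
  refine ⟨fun a => ?_, fun a => ?_, fun t => ?_, fun t => ?_⟩
  · refine ((Set.finite_Icc a 0).biUnion fun b _ => (h₁.finp b).prod (h₂.finp (a - b))).subset ?_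
    rintro ⟨s, t⟩ h
    have h' : D₁.dp s + D₂.dp t = a := h
    have e1 := h₁.dp_le s
    have e2 := h₂.dp_le t
    refine Set.mem_biUnion (x := D₁.dp s) ⟨by omega, e1⟩ ⟨rfl, ?_⟩
    change D₂.dp t = a - D₁.dp s
    omega
  · refine ((Set.finite_Icc (-m₁) (a + m₂)).biUnion fun b _ =>
      (h₁.finl b).prod (h₂.finl (a - b))).subset ?_
    rintro ⟨s, t⟩ h
    have h' : D₁.dl s + D₂.dl t = a := h
    have e1 := h₁.dl_ge s
    have e2 := h₂.dl_ge t
    refine Set.mem_biUnion (x := D₁.dl s) ⟨e1, by omega⟩ ⟨rfl, ?_⟩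
    change D₂.dl t = a - D₁.dl s
    omega
  · have e1 := h₁.dp_le t.1
    have e2 := h₂.dp_le t.2
    change D₁.dp t.1 + D₂.dp t.2 ≤ 0
    omega
  · have e1 := h₁.dl_ge t.1
    have e2 := h₂.dl_ge t.2
    change -(m₁ + m₂) ≤ D₁.dl t.1 + D₂.dl t.2
    omega

/-- `lam = Algebra.TensorProduct.map lam₁ lam₂`, `ev = TensorProduct.map ev₁ ev₂`,
`Dat.tensor_map`, `Dat.HE.tensor`. -/
theorem Dat.ColHE.tensor {D₁ : Dat k T₁ S₁} {D₂ : Dat k T₂ S₂} (h₁ : D₁.ColHE) (h₂ : D₂.ColHE) :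
    (Dat.tensor (tcomm k S₁ S₂) D₁ D₂).ColHE := by
  obtain ⟨S₁', _, _, lam₁, ev₁, e₁, hm₁, ⟨H₁⟩⟩ := h₁
  obtain ⟨S₂', _, _, lam₂, ev₂, e₂, hm₂, ⟨H₂⟩⟩ := h₂
  refine ⟨S₁' ⊗[k] S₂', inferInstance, inferInstance, Algebra.TensorProduct.map lam₁ lam₂,
    TensorProduct.map ev₁ ev₂, ?_, fun θ y => ?_, ?_⟩
  · rw [Algebra.TensorProduct.one_def, TensorProduct.map_tmul, e₁, e₂,
      Algebra.TensorProduct.one_def]
  · induction y using TensorProduct.induction_on with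
    | zero => simp
    | add x y hx hy => simp only [map_add, add_mul, hx, hy]
    | tmul a b =>
      induction θ using TensorProduct.induction_on with
      | zero => simp
      | add x y hx hy => simp only [map_add, mul_add, hx, hy]
      | tmul c d =>
        simp only [Algebra.TensorProduct.map_tmul, Algebra.TensorProduct.tmul_mul_tmul,
          TensorProduct.map_tmul, hm₁, hm₂]
  · rw [Dat.tensor_map (tcomm k S₁ S₂) (tcomm k S₁' S₂') _ lam₁ lam₂ (fun a => by simp [tcomm])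
      (fun a => by simp [tcomm])]
    exact ⟨Dat.HE.tensor _ H₁ H₂⟩

/-- Take `lam` and `ev` the identity. -/
theorem epsDat_colHE {ε δ : S} (h : ε * ε = 0) (h' : ε * δ + δ * ε = 1) :
    (epsDat k ε h).ColHE := by
  refine ⟨S, inferInstance, inferInstance, AlgHom.id k S, LinearMap.id, rfl, fun _ _ => rfl, ?_⟩
  rw [epsDat_map]
  exact ⟨epsHE (δ := δ) _ h'⟩

/-- The maps `θ ↦ tr (θ * ·)` are surjective onto the duals; use `TensorProduct.map_surjective` and
`TensorProduct.dualDistribEquiv`. -/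
theorem TrF.exists_tensor [FiniteDimensional k S₁] [FiniteDimensional k S₂] (t₁ : TrF k S₁)
    (t₂ : TrF k S₂) : ∃ t : TrF k (S₁ ⊗[k] S₂), ∀ a b, t.tr (a ⊗ₜ b) = t₁.tr a * t₂.tr b := by
  let tr : S₁ ⊗[k] S₂ →ₗ[k] k := TensorProduct.dualDistrib k S₁ S₂ (t₁.tr ⊗ₜ t₂.tr)
  have htr : ∀ a b, tr (a ⊗ₜ b) = t₁.tr a * t₂.tr b := fun a b => by simp [tr]
  refine ⟨⟨tr, fun x y => ?_, fun ω => ?_⟩, htr⟩
  · induction x using TensorProduct.induction_on with
    | zero => simp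
    | add x x' hx hx' => simp only [map_add, add_mul, mul_add, hx, hx']
    | tmul a b =>
      induction y using TensorProduct.induction_on with
      | zero => simp
      | add y y' hy hy' => simp only [map_add, add_mul, mul_add, hy, hy']
      | tmul c d =>
        rw [Algebra.TensorProduct.tmul_mul_tmul, Algebra.TensorProduct.tmul_mul_tmul, htr, htr,
          t₁.comm, t₂.comm]
  · obtain ⟨z, rfl⟩ := (TensorProduct.dualDistribEquiv k S₁ S₂).surjective ω
    induction z using TensorProduct.induction_on with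
    | zero => exact ⟨0, fun y => by simp⟩
    | add z z' hz hz' =>
      obtain ⟨θ, h⟩ := hz
      obtain ⟨θ', h'⟩ := hz'
      exact ⟨θ + θ', fun y => by rw [add_mul, map_add, map_add, h, h', LinearMap.add_apply]⟩
    | tmul f g =>
      obtain ⟨θ₁, h₁⟩ := t₁.rep f
      obtain ⟨θ₂, h₂⟩ := t₂.rep g
      refine ⟨θ₁ ⊗ₜ θ₂, fun y => ?_⟩
      induction y using TensorProduct.induction_on with
      | zero => simp
      | add y y' hy hy' => rw [mul_add, map_add, map_add, hy, hy']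
      | tmul c d =>
        rw [Algebra.TensorProduct.tmul_mul_tmul, htr, h₁, h₂]
        simp

end

/-- All data are tensored: `D = Dat.tensor (tcomm ..) D₁ D₂`, `χ = Algebra.TensorProduct.lift χ₁ χ₂ _`
(or `productMap`), `ρ = Algebra.TensorProduct.map ρ₁ ρ₂`, `ev = TensorProduct.map ev₁ ev₂`,
`u = u₁ ⊗ u₂`; `H` is `Dat.HE.tensor` transported along `Dat.tensor_map` (to keep track of `H.r`
prove `∃ H : (D.map ρ).HE, H.r = kron H₁.r H₂.r` after rewriting).  For the `χ`-fields use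
`Comm.map_kron` with the `Comm k k k k` given by two identity maps, or compute entries with
`Comm.ent_kron`. -/
theorem Base.exists_tensor {T₁ T₂ A₁ A₂ E₁ E₂ : Type} [DecidableEq T₁] [DecidableEq T₂] [Ring A₁]
    [Algebra k A₁] [Ring A₂] [Algebra k A₂] [Ring E₁] [Algebra k E₁] [Ring E₂] [Algebra k E₂]
    [FiniteDimensional k E₁] [FiniteDimensional k E₂] {m₁ m₂ : ℤ} (b₁ : Base k T₁ A₁ E₁ m₁)
    (b₂ : Base k T₂ A₂ E₂ m₂) :
    Nonempty (Base k (T₁ × T₂) (A₁ ⊗[k] A₂) (E₁ ⊗[k] E₂) (m₁ + m₂)) := by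
  obtain ⟨t, ht⟩ := TrF.exists_tensor b₁.t b₂.t
  let χ : A₁ ⊗[k] A₂ →ₐ[k] k := Algebra.TensorProduct.lift b₁.χ b₂.χ fun _ _ => Commute.all _ _
  have hχ : ∀ a b, χ (a ⊗ₜ b) = b₁.χ a * b₂.χ b := fun a b => by simp [χ]
  let g : Comm k k k k := ⟨AlgHom.id k k, AlgHom.id k k, fun _ _ => Commute.all _ _⟩
  have hk : ∀ (x : RCF k T₁ A₁) (y : RCF k T₂ A₂), RCF.map χ ((tcomm k A₁ A₂).kron x y) =
      g.kron (RCF.map b₁.χ x) (RCF.map b₂.χ y) :=
    (tcomm k A₁ A₂).map_kron g χ b₁.χ b₂.χ (fun a => by simp [tcomm, hχ, g])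
      (fun a => by simp [tcomm, hχ, g])
  have hs : g.kron (single b₁.t0 b₁.t0 1 : RCF k T₁ k) (single b₂.t0 b₂.t0 1 : RCF k T₂ k) =
      single (b₁.t0, b₂.t0) (b₁.t0, b₂.t0) 1 := by
    rw [g.kron_single]; simp
  let ρ : A₁ ⊗[k] A₂ →ₐ[k] E₁ ⊗[k] E₂ := Algebra.TensorProduct.map b₁.ρ b₂.ρ
  have hρ₁ : ∀ a, ρ ((tcomm k A₁ A₂).f₁ a) = (tcomm k E₁ E₂).f₁ (b₁.ρ a) := fun a => by
    simp [tcomm, ρ]
  have hρ₂ : ∀ a, ρ ((tcomm k A₁ A₂).f₂ a) = (tcomm k E₁ E₂).f₂ (b₂.ρ a) := fun a => by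
    simp [tcomm, ρ]
  have hρ : ∀ a b, ρ (a ⊗ₜ b) = b₁.ρ a ⊗ₜ b₂.ρ b := fun a b => by simp [ρ]
  obtain ⟨H, hH⟩ : ∃ H : ((Dat.tensor (tcomm k A₁ A₂) b₁.D b₂.D).map ρ).HE,
      H.r = (tcomm k E₁ E₂).kron b₁.H.r b₂.H.r := by
    rw [Dat.tensor_map (tcomm k A₁ A₂) (tcomm k E₁ E₂) ρ b₁.ρ b₂.ρ hρ₁ hρ₂]
    exact ⟨Dat.HE.tensor _ b₁.H b₂.H, rfl⟩
  refine ⟨{
    D := Dat.tensor (tcomm k A₁ A₂) b₁.D b₂.D
    bdd := Dat.Bdd.tensor _ b₁.bdd b₂.bdd
    col := Dat.ColHE.tensor b₁.col b₂.col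
    t0 := (b₁.t0, b₂.t0)
    dp0 := ?_
    dl0 := ?_
    χ := χ
    χEp := ?_
    χEl := ?_
    χδp := ?_
    χδl := ?_
    ρ := ρ
    ev := TensorProduct.map b₁.ev b₂.ev
    ev_one := ?_
    ev_mul := fun θ y => ?_
    H := H
    u := b₁.u ⊗ₜ b₂.u
    ιr := ?_
    ρu := fun a => ?_
    t := t
    tru := ?_
    trρ := fun a => ?_ }⟩
  · change b₁.D.dp b₁.t0 + b₂.D.dp b₂.t0 = 0
    rw [b₁.dp0, b₂.dp0, add_zero]
  · change b₁.D.dl b₁.t0 + b₂.D.dl b₂.t0 = -(m₁ + m₂)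
    rw [b₁.dl0, b₂.dl0, neg_add]
  · simp only [Dat.tensor, hk, b₁.χEp, b₂.χEp, hs]
  · simp only [Dat.tensor, hk, b₁.χEl, b₂.χEl, hs]
  · simp only [Dat.tensor, map_add, hk, b₁.χδp, b₂.χδp, g.zero_kron, g.kron_zero, add_zero]
  · simp only [Dat.tensor, map_add, hk, b₁.χδl, b₂.χδl, g.zero_kron, g.kron_zero, add_zero]
  · rw [Algebra.TensorProduct.one_def, TensorProduct.map_tmul, b₁.ev_one, b₂.ev_one,
      Algebra.TensorProduct.one_def]
  · induction y using TensorProduct.induction_on with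
    | zero => simp
    | add x y hx hy => simp only [map_add, mul_add, hx, hy]
    | tmul a b =>
      induction θ using TensorProduct.induction_on with
      | zero => simp
      | add x y hx hy => simp only [map_add, add_mul, hx, hy]
      | tmul c d =>
        simp only [hρ, Algebra.TensorProduct.tmul_mul_tmul, TensorProduct.map_tmul, b₁.ev_mul,
          b₂.ev_mul]
  · rw [hH]
    change RCF.map ρ ((tcomm k A₁ A₂).kron b₁.D.ι b₂.D.ι) * _ = _
    rw [(tcomm k A₁ A₂).map_kron (tcomm k E₁ E₂) ρ b₁.ρ b₂.ρ hρ₁ hρ₂, Comm.kron_mul, b₁.ιr, b₂.ιr,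
      Comm.kron_single]
    simp [tcomm]
  · induction a using TensorProduct.induction_on with
    | zero => simp
    | add x y hx hy => simp only [map_add, add_mul, add_smul, hx, hy]
    | tmul a b =>
      rw [hρ, hχ, Algebra.TensorProduct.tmul_mul_tmul, b₁.ρu, b₂.ρu, TensorProduct.smul_tmul_smul]
  · rw [ht, b₁.tru, b₂.tru, mul_one]
  · induction a using TensorProduct.induction_on with
    | zero => simp
    | add x y hx hy => rw [map_add, map_add, hx, hy, add_zero]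
    | tmul a b => rw [hρ, ht, b₁.trρ, zero_mul]

end Crest.Agent.R186
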