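import Crest.Agent.R186.Core
import Crest.Agent.R186.BaseChange
import Crest.Agent.R186.GorProj
import Crest.Agent.R186.Gamma
import Crest.Agent.R186.Conseq

/-!
Assembly over the rational function field in three variables over the field with two elements.
-/

namespace Crest.Agent.R186

open CategoryTheory Crest.AlgebraR
open scoped TensorProduct

universe u

/-- The base field. -/
abbrev k0 : Type := FractionRing (MvPolynomial (Fin 3) (ZMod 2))

theorem coreEx_k0 : CoreEx k0 := by
  have hinj := IsFractionRing.injective (MvPolynomial (Fin 3) (ZMod 2)) k0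
  haveI : CharP k0 2 := charP_of_injective_algebraMap hinj 2
  refine coreEx k0 (algebraMap (MvPolynomial (Fin 3) (ZMod 2)) k0 (MvPolynomial.X 0)) ?_ ?_
  · rw [ne_eq, map_eq_zero_iff _ hinj]
    exact MvPolynomial.X_ne_zero 0
  · intro n hn h
    rw [← map_pow, ← map_one (algebraMap (MvPolynomial (Fin 3) (ZMod 2)) k0)] at h
    have h2 := congrArg (MvPolynomial.eval fun _ => (0 : ZMod 2)) (hinj h)
    simp [hn.ne'] at h2

theorem gammaEx (K : Type u) [Field K] [Algebra k0 K] : GammaEx K := by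
  obtain ⟨A, _, _, M, _, _, h, -⟩ := coreEx_k0
  letI : Module k0 M := Module.compHom M (algebraMap k0 A)
  haveI : IsScalarTower k0 A M := ⟨fun c a m => by
    change (c • a) • m = algebraMap k0 A c • a • m
    rw [Algebra.smul_def, mul_smul]⟩
  obtain ⟨_, -, h'⟩ := symEx_baseChange h K
  exact gammaEx_of_symEx h'

theorem s0280 :
    ∃ (A : Type) (_ : Ring A) (_ : Algebra k0 A), FiniteDimensional k0 A ∧
      IsSymmetricAlgebra k0 A ∧
      ∃ M : ModuleCat.{0} A, Module.Finite A M ∧ ¬ Module.Projective A M ∧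
        ∀ i : ℕ, 0 < i → Subsingleton (CategoryTheory.Abelian.Ext M M i) := by
  obtain ⟨A, _, _, M, _, _, h, -⟩ := coreEx_k0
  exact ⟨A, _, _, h.fd, h.symm, ModuleCat.of A M, h.fin, h.nproj, h.ext⟩

theorem s0281 :
    ∃ (Λ : Type) (_ : Ring Λ) (_ : Algebra k0 Λ) (Z : Type) (_ : AddCommGroup Z)
      (_ : Module Λ Z) (_ : Module k0 Z) (_ : IsScalarTower k0 Λ Z),
      GorProjVanishingData k0 Λ Z ∧
      ∀ (E : Type u) [Field E] [Algebra k0 E],
        ∃ (_ : Module (E ⊗[k0] Λ) (E ⊗[k0] Z)),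
          (∀ (a b : E) (r : Λ) (z : Z),
            (a ⊗ₜ[k0] r) • (b ⊗ₜ[k0] z) = (a * b) ⊗ₜ[k0] (r • z)) ∧
          GorProjVanishingData E (E ⊗[k0] Λ) (E ⊗[k0] Z) := by
  obtain ⟨A, _, _, M, _, _, h, hs⟩ := coreEx_k0
  letI : Module k0 M := Module.compHom M (algebraMap k0 A)
  haveI : IsScalarTower k0 A M := ⟨fun c a m => by
    change (c • a) • m = algebraMap k0 A c • a • m
    rw [Algebra.smul_def, mul_smul]⟩
  refine ⟨A, _, _, M, _, _, _, inferInstance, gorProj_of_symEx h hs, fun E _ _ => ?_⟩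
  obtain ⟨_, h1, h'⟩ := symEx_baseChange h E
  exact ⟨_, h1, gorProj_of_symEx h' (isSplit4_baseChange hs E)⟩

end Crest.Agent.R186
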